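import Crest.Agent.R59.Comb
import Crest.Prelude.Def_ChromaticQSym

/-!
# R59/Coef: monomial coefficients
-/

set_option autoImplicit false
set_option linter.unusedSectionVars false
set_option linter.unusedVariables false

namespace Crest.Agent.R59

noncomputable section

open Crest.CombinatoricsR.UnitInterval

open Finset in
/-- proper colourings of `T` with colours `< N` and class sizes `α` -/
def coef_A {ι : Type} [Fintype ι] [DecidableEq ι] (E : ι → ι → Prop) [DecidableRel E] {N : ℕ}
    (α : Fin N → ℕ) (T : Finset ι) : Finset (ι → ℕ) :=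
  (Fintype.piFinset fun a => if a ∈ T then range N else {0}).filter fun f =>
    (∀ a ∈ T, ∀ b ∈ T, E a b → f a ≠ f b) ∧ ∀ c : Fin N, (T.filter fun a => f a = c).card = α c

theorem coef_mem {ι : Type} [Fintype ι] [DecidableEq ι] {E : ι → ι → Prop} [DecidableRel E] {N : ℕ}
    {α : Fin N → ℕ} {T : Finset ι} {f : ι → ℕ} : f ∈ coef_A E α T ↔
      ((∀ a ∈ T, f a < N) ∧ ∀ a ∉ T, f a = 0) ∧ (∀ a ∈ T, ∀ b ∈ T, E a b → f a ≠ f b) ∧
        ∀ c : Fin N, (T.filter fun a => f a = c).card = α c := by
  rw [coef_A, Finset.mem_filter, Fintype.mem_piFinset]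
  refine and_congr_left' ⟨fun h => ⟨fun a ha => ?_, fun a ha => ?_⟩, fun h a => ?_⟩
  · simpa [ha] using h a
  · simpa [ha] using h a
  · split_ifs with ha
    · exact Finset.mem_range.2 (h.1 a ha)
    · exact Finset.mem_singleton.2 (h.2 a ha)

open Finset in
theorem coef_col {ι : Type} [Fintype ι] [DecidableEq ι] (E : ι → ι → Prop) [DecidableRel E] (N : ℕ)
    (α : Fin N → ℕ) (T : Finset ι) :
    ∑ f ∈ coef_A E α T, (Polynomial.X : Polynomial ℤ) ^
      ((T ×ˢ T).filter fun p => E p.1 p.2 ∧ f p.1 < f p.2).card = Col E (List.ofFn α) T := by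
  induction N generalizing T with
  | zero =>
    rw [List.ofFn_zero, Col]
    split_ifs with hT
    · subst hT
      have : coef_A E α ∅ = {0} := by
        ext f
        simp [coef_mem, funext_iff]
      simp [this]
    · obtain ⟨a, ha⟩ := nonempty_iff_ne_empty.2 hT
      exact sum_eq_zero fun f hf => absurd ((coef_mem.1 hf).1.1 a ha) (Nat.not_lt_zero _)
  | succ N ih =>
    rw [List.ofFn_succ, Col]
    refine (sum_fiberwise_of_maps_to (g := fun f => T.filter fun a => f a = 0)
      (fun f hf => ?_) _).symm.trans (sum_congr rfl fun S hS => ?_)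
    · obtain ⟨-, h2, h3⟩ := coef_mem.1 hf
      refine (@mem_filter _ _ (_) _ _).2 ⟨mem_powersetCard.2 ⟨filter_subset _ _, h3 0⟩, fun a ha b hb hE => ?_⟩
      exact h2 a (mem_filter.1 ha).1 b (mem_filter.1 hb).1 hE
        ((mem_filter.1 ha).2.trans (mem_filter.1 hb).2.symm)
    obtain ⟨hS1, hS3⟩ := (@mem_filter _ _ (_) _ _).1 hS
    obtain ⟨hS1, hS2⟩ := mem_powersetCard.1 hS1
    rw [← ih, mul_sum]
    have hmem : ∀ {f : ι → ℕ}, (T.filter fun a => f a = 0) = S → ∀ a, a ∈ S ↔ a ∈ T ∧ f a = 0 :=
      fun h a => by rw [← h, mem_filter]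
    have hz : ∀ g : ι → ℕ, (T.filter fun a => (if a ∈ T \ S then g a + 1 else 0) = 0) = S := by
      intro g
      ext a
      have := @hS1 a
      by_cases h1 : a ∈ S <;> by_cases h2 : a ∈ T <;> simp_all
    refine sum_nbij' (fun f a => f a - 1) (fun g a => if a ∈ T \ S then g a + 1 else 0)
      (fun f hf => ?_) (fun g hg => ?_) (fun f hf => ?_) (fun g hg => ?_) fun f hf => ?_
    · obtain ⟨hf, hf'⟩ := mem_filter.1 hf
      obtain ⟨⟨h0, h1⟩, h2, h3⟩ := coef_mem.1 hf
      have h4 : ∀ a, a ∈ T \ S ↔ a ∈ T ∧ f a ≠ 0 := fun a => by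
        rw [mem_sdiff, hmem hf']
        tauto
      refine coef_mem.2 ⟨⟨fun a ha => ?_, fun a ha => ?_⟩, fun a ha b hb hE => ?_, fun c => ?_⟩
      · have := h0 a ((h4 a).1 ha).1
        have := ((h4 a).1 ha).2
        omega
      · rw [h4, not_and_or, not_not] at ha
        rw [ha.elim (h1 a) id]
      · have := h2 a ((h4 a).1 ha).1 b ((h4 b).1 hb).1 hE
        have := ((h4 a).1 ha).2
        have := ((h4 b).1 hb).2
        omega
      · rw [← h3 c.succ]
        congr 1
        ext a
        simp only [mem_filter, h4, Fin.val_succ, and_assoc]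
        exact and_congr_right' (by omega)
    · obtain ⟨⟨h0, h1⟩, h2, h3⟩ := coef_mem.1 hg
      refine mem_filter.2 ⟨coef_mem.2 ⟨⟨fun a ha => ?_, fun a ha => ?_⟩, fun a ha b hb hE => ?_,
        fun c => ?_⟩, hz g⟩
      · split_ifs with h4
        · exact Nat.succ_lt_succ (h0 a h4)
        · exact Nat.succ_pos _
      · rw [if_neg fun h => ha (mem_sdiff.1 h).1]
      · split_ifs with h4 h5 h5
        · exact fun h => h2 a h4 b h5 hE (Nat.succ_injective h)
        · exact Nat.succ_ne_zero _
        · exact (Nat.succ_ne_zero _).symm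
        · refine absurd hE (hS3 a ?_ b ?_)
          · exact by_contra fun h => h4 (mem_sdiff.2 ⟨ha, h⟩)
          · exact by_contra fun h => h5 (mem_sdiff.2 ⟨hb, h⟩)
      · refine Fin.cases ?_ (fun c => ?_) c
        · rw [Fin.val_zero, hz, hS2]
        · rw [← h3 c]
          congr 1
          ext a
          by_cases h1 : a ∈ S <;> by_cases h2 : a ∈ T <;> simp [h1, h2]
    · obtain ⟨hf, hf'⟩ := mem_filter.1 hf
      obtain ⟨⟨h0, h1⟩, h2, h3⟩ := coef_mem.1 hf
      funext a
      have h4 := hmem hf' a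
      have h5 := h1 a
      split_ifs with h6
      · rw [mem_sdiff] at h6
        exact Nat.succ_pred_eq_of_ne_zero fun h => h6.2 (h4.2 ⟨h6.1, h⟩)
      · rw [mem_sdiff] at h6
        by_cases h7 : a ∈ T
        · exact (h4.1 (by_contra fun h => h6 ⟨h7, h⟩)).2.symm
        · exact (h5 h7).symm
    · obtain ⟨⟨h0, h1⟩, h2, h3⟩ := coef_mem.1 hg
      funext a
      simp only
      split_ifs with h4
      · rfl
      · exact (h1 a h4).symm
    · obtain ⟨hf, hf'⟩ := mem_filter.1 hf
      rw [← pow_add, ← card_filter_add_card_filter_not fun p : ι × ι => p.1 ∈ S, upE]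
      congr 3
      · ext p
        simp only [mem_filter, mem_product, mem_sdiff, hmem hf']
        by_cases h1 : p.1 ∈ T <;> by_cases h2 : p.2 ∈ T <;> by_cases h3 : E p.1 p.2 <;>
          simp [h1, h2, h3]
        omega
      · ext p
        simp only [mem_filter, mem_product, mem_sdiff, hmem hf']
        by_cases h1 : p.1 ∈ T <;> by_cases h2 : p.2 ∈ T <;> by_cases h3 : E p.1 p.2 <;>
          simp [h1, h2, h3]
        omega

/-- Induction on `N` for all subsets `T` of the vertices (colourings of `T`): split off the class of the smallest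
colour. -/
theorem coeff_chromatic {n : ℕ} (h : Fin n → ℕ) (N : ℕ) (α : Fin N →₀ ℕ) :
    MvPolynomial.coeff α (chromaticQSym h N) = Col (EH h) (List.ofFn α) Finset.univ := by
  have h1 : ∀ f : Fin n → Fin N, (∏ a, MvPolynomial.X (f a) : MvPolynomial (Fin N) (Polynomial ℤ)) =
      MvPolynomial.monomial (∑ a, Finsupp.single (f a) 1) 1 := fun f =>
    (MvPolynomial.monomial_sum_one _ _).symm
  rw [← coef_col, chromaticQSym, MvPolynomial.coeff_sum]
  simp only [MvPolynomial.coeff_C_mul, h1, MvPolynomial.coeff_monomial, mul_ite, mul_one, mul_zero]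
  rw [← Finset.sum_filter, Finset.filter_filter]
  have h2 : ∀ f : Fin n → Fin N, (fun a => (f a : ℕ)) ∈ coef_A (EH h) α Finset.univ ↔
      (∀ a b : Fin n, IsEdge h a b → f a ≠ f b) ∧ ∑ a, Finsupp.single (f a) 1 = α := fun f => by
    rw [coef_mem]
    simp only [Finset.mem_univ, Fin.is_lt, forall_const, not_true, false_imp_iff, true_and, ne_eq,
      Fin.val_inj, implies_true]
    refine and_congr ⟨fun H a b hE => hE.elim (H a b) fun hE e => H b a hE e.symm,
      fun H a b hE => H a b (Or.inl hE)⟩ ?_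
    rw [Finsupp.ext_iff]
    refine forall_congr' fun c => ?_
    simp only [Finsupp.finsetSum_apply, Finsupp.single_apply, Finset.card_filter]
  refine Finset.sum_nbij (fun f a => (f a : ℕ)) (fun f hf => (h2 f).2 (Finset.mem_filter.1 hf).2)
    (fun f _ g _ e => funext fun a => Fin.ext (congrFun e a)) (fun g hg => ?_) fun f _ => ?_
  · exact ⟨fun a => ⟨g a, (coef_mem.1 hg).1.1 a (Finset.mem_univ _)⟩,
      Finset.mem_filter.2 ⟨Finset.mem_univ _, (h2 _).1 hg⟩, rfl⟩
  · rw [ascents, Finset.univ_product_univ]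
    congr 2
    ext p
    simp only [Finset.mem_filter, Finset.mem_univ, true_and, Fin.val_fin_lt, ← and_assoc]
    exact and_congr_left' ⟨fun H => H.2.elim id fun H' => absurd H.1 (lt_asymm H'.1),
      fun H => ⟨H.1, Or.inl H⟩⟩

theorem coef_map_esymm {σ R S : Type} [Fintype σ] [CommRing R] [CommRing S] [Algebra R S]
    (φ : MvPolynomial σ R →ₐ[R] S) (r : ℕ) :
    φ (MvPolynomial.esymm σ R r) = (Finset.univ.val.map fun i => φ (MvPolynomial.X i)).esymm r := by
  rw [← MvPolynomial.aeval_esymm_eq_multiset_esymm σ R]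
  exact DFunLike.congr_fun (MvPolynomial.aeval_unique φ) _

theorem coef_esymm_succ {R : Type} [CommRing R] (N r : ℕ) :
    MvPolynomial.finSuccEquiv R N (MvPolynomial.esymm (Fin (N + 1)) R r) =
      Polynomial.X * Polynomial.C (if r = 0 then 0 else MvPolynomial.esymm (Fin N) R (r - 1)) +
        Polynomial.C (MvPolynomial.esymm (Fin N) R r) := by
  cases r with
  | zero => simp
  | succ r =>
    have h1 := coef_map_esymm (MvPolynomial.finSuccEquiv R N).toAlgHom (r + 1)
    have h2 := coef_map_esymm (Polynomial.CAlgHom (R := R) (A := MvPolynomial (Fin N) R))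
    simp only [Polynomial.CAlgHom_apply] at h2
    rw [if_neg (Nat.succ_ne_zero r), Nat.add_sub_cancel, h2, h2]
    refine h1.trans ?_
    rw [Fin.univ_succ, Finset.cons_val, Multiset.map_cons, Finset.map_val, Multiset.map_map]
    simp only [Multiset.esymm, Multiset.powersetCard_cons, Multiset.map_add, Multiset.sum_add,
      Multiset.map_map, Function.comp_def, Multiset.prod_cons, Multiset.sum_map_mul_left,
      AlgEquiv.coe_toAlgHom, MvPolynomial.finSuccEquiv_X_zero,
      Function.Embedding.coeFn_mk, MvPolynomial.finSuccEquiv_X_succ]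
    rw [add_comm]

/-- Both sides count `0/1` matrices with row sums `ν` and column sums `α`. -/
theorem coeff_prod_esymm {κ : Type} [Fintype κ] [DecidableEq κ] (N : ℕ) (α : Fin N →₀ ℕ) (ν : κ → ℕ) :
    MvPolynomial.coeff α (∏ j, MvPolynomial.esymm (Fin N) (Polynomial ℤ) (ν j)) =
      (MM (List.ofFn α) ν : Polynomial ℤ) := by
  induction N generalizing ν with
  | zero =>
    rw [List.ofFn_zero, MM, Subsingleton.elim α 0]
    split_ifs with hν
    · simp [hν]
    · obtain ⟨j, hj⟩ := Function.ne_iff.1 hν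
      rw [Finset.prod_eq_zero (Finset.mem_univ j)]
      · simp
      · rw [MvPolynomial.esymm, Finset.powersetCard_eq_empty.2 (Nat.pos_of_ne_zero hj),
          Finset.sum_empty]
  | succ N ih =>
    have e : List.ofFn (fun i : Fin N => α i.succ) = List.ofFn α.tail := rfl
    rw [List.ofFn_succ, MM, e, Nat.cast_sum]
    simp only [← ih]
    conv_lhs => rw [← Finsupp.cons_tail α, ← MvPolynomial.finSuccEquiv_coeff_coeff, map_prod]
    simp only [coef_esymm_succ]
    rw [Finset.prod_add, ← MvPolynomial.coeff_sum]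
    congr 1
    simp only [Finset.prod_mul_distrib, Finset.prod_const, ← map_prod, mul_assoc, ← map_mul]
    simp only [Polynomial.finsetSum_coeff, Polynomial.X_pow_mul_C, Polynomial.coeff_C_mul_X_pow]
    rw [← Finset.sum_filter]
    symm
    refine Finset.sum_subset_zero_on_sdiff (fun S hS => ?_) (fun S hS => ?_) fun S hS => ?_
    · simp [(Finset.mem_powersetCard.1 hS).2]
    · obtain ⟨h1, h2⟩ := Finset.mem_sdiff.1 hS
      rw [Finset.mem_powersetCard, not_and'] at h2
      obtain ⟨j, hj, hj'⟩ := Finset.not_subset.1 (h2 (Finset.mem_filter.1 h1).2.symm)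
      have h3 : ν j = 0 := by simpa using hj'
      rw [Finset.prod_eq_zero hj (by rw [if_pos h3]), zero_mul]
    · rw [← Finset.prod_sdiff (Finset.subset_univ S), mul_comm]
      congr 1
      · refine Finset.prod_congr rfl fun j hj => ?_
        rw [if_pos hj, if_neg (Finset.mem_filter.1 ((Finset.mem_powersetCard.1 hS).1 hj)).2]
      · exact Finset.prod_congr rfl fun j hj => by rw [if_neg (Finset.mem_sdiff.1 hj).2]


end

end Crest.Agent.R59
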