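import Mathlib

/-!
# R59/Comb: recursive counting functions
-/

set_option autoImplicit false
set_option linter.unusedSectionVars false
set_option linter.unusedVariables false

namespace Crest.Agent.R59

noncomputable section

/-- Number of ways of writing `ν` as a sum of indicator functions of sets of sizes `α₁, α₂, …`
(the coefficient of `Y^ν` in `e_{α₁} e_{α₂} ⋯`). -/
def MM {κ : Type} [Fintype κ] [DecidableEq κ] : List ℕ → (κ → ℕ) → ℕ
  | [], ν => if ν = 0 then 1 else 0
  | k :: α, ν => ∑ S ∈ ((Finset.univ.filter fun j => ν j ≠ 0).powersetCard k),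
      MM α fun j => if j ∈ S then ν j - 1 else ν j

/-- Number of edges `a < b` (given by the relation `E`) from `S` to `T`. -/
def upE {ι : Type} (E : ι → ι → Prop) [DecidableRel E] (S T : Finset ι) : ℕ :=
  ((S ×ˢ T).filter fun x => E x.1 x.2).card

/-- Colourings of `T` with stable colour classes of sizes `α₁, α₂, …`, weighted by ascents. -/
def Col {ι : Type} [DecidableEq ι] (E : ι → ι → Prop) [DecidableRel E] :
    List ℕ → Finset ι → Polynomial ℤ
  | [], T => if T = ∅ then 1 else 0
  | k :: α, T => ∑ S ∈ (T.powersetCard k).filter (fun S => ∀ a ∈ S, ∀ b ∈ S, ¬E a b),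
      Polynomial.X ^ upE E S (T \ S) * Col E α (T \ S)

/-- The up-edge relation of a Hessenberg function. -/
def EH {n : ℕ} (h : Fin n → ℕ) (a b : Fin n) : Prop := a < b ∧ b.val + 1 ≤ h a

instance {n : ℕ} (h : Fin n → ℕ) : DecidableRel (EH h) := fun a b => by
  unfold EH; infer_instance

theorem comb_upE_equiv {ι ι' : Type} (e : ι ≃ ι') {E : ι → ι → Prop}
    {E' : ι' → ι' → Prop} [DecidableRel E] [DecidableRel E'] (h : ∀ a b, E' (e a) (e b) ↔ E a b)
    (S T : Finset ι) : upE E' (S.map e.toEmbedding) (T.map e.toEmbedding) = upE E S T := by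
  symm
  refine Finset.card_equiv (e.prodCongr e) fun x => ?_
  simp [h]

theorem Col_equiv {ι ι' : Type} [DecidableEq ι] [DecidableEq ι'] (e : ι ≃ ι') {E : ι → ι → Prop}
    {E' : ι' → ι' → Prop} [DecidableRel E] [DecidableRel E'] (h : ∀ a b, E' (e a) (e b) ↔ E a b)
    (α : List ℕ) (T : Finset ι) : Col E' α (T.map e.toEmbedding) = Col E α T := by
  induction α generalizing T with
  | nil => simp [Col]
  | cons k α ih =>
    simp only [Col]
    symm
    refine Finset.sum_equiv e.finsetCongr (fun S => ?_) fun S _ => ?_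
    · simp only [Finset.mem_filter, Finset.mem_powersetCard, Equiv.finsetCongr_apply,
        Finset.map_subset_map, Finset.card_map, Finset.forall_mem_map, Equiv.coe_toEmbedding, h]
    · rw [Equiv.finsetCongr_apply, ← Finset.map_sdiff, ih, comb_upE_equiv e h]

theorem Col_eq_zero {ι : Type} [DecidableEq ι] (E : ι → ι → Prop) [DecidableRel E] {α : List ℕ}
    {T : Finset ι} (h : α.sum ≠ T.card) : Col E α T = 0 := by
  induction α generalizing T with
  | nil =>
    have : T ≠ ∅ := fun e => h (by simp [e])
    simp [Col, this]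
  | cons k α ih =>
    simp only [Col]
    refine Finset.sum_eq_zero fun S hS => ?_
    obtain ⟨h1, h2⟩ := Finset.mem_powersetCard.1 (Finset.mem_filter.1 hS).1
    have h3 := Finset.card_sdiff_add_card_eq_card h1
    rw [List.sum_cons] at h
    rw [ih (by omega), mul_zero]

theorem comb_sum_sub {κ : Type} [Fintype κ] [DecidableEq κ] {ν : κ → ℕ} {S : Finset κ} {k : ℕ}
    (hS : S ∈ (Finset.univ.filter fun j => ν j ≠ 0).powersetCard k) :
    (∑ j, if j ∈ S then ν j - 1 else ν j) + k = ∑ j, ν j := by
  obtain ⟨h1, h2⟩ := Finset.mem_powersetCard.1 hS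
  have h3 : k = ∑ j, if j ∈ S then 1 else 0 := by simp [h2]
  rw [h3, ← Finset.sum_add_distrib]
  refine Finset.sum_congr rfl fun j _ => ?_
  split_ifs with hj
  · have := (Finset.mem_filter.1 (h1 hj)).2
    omega
  · rfl

theorem MM_eq_zero {κ : Type} [Fintype κ] [DecidableEq κ] {α : List ℕ} {ν : κ → ℕ}
    (h : α.sum ≠ ∑ j, ν j) : MM α ν = 0 := by
  induction α generalizing ν with
  | nil =>
    have : ν ≠ 0 := fun e => h (by simp [e])
    simp [MM, this]
  | cons k α ih =>
    simp only [MM]
    refine Finset.sum_eq_zero fun S hS => ih ?_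
    have := comb_sum_sub hS
    rw [List.sum_cons] at h
    omega

theorem MM_replicate_pos {κ : Type} [Fintype κ] [DecidableEq κ] {n : ℕ} {ν : κ → ℕ}
    (h : ∑ j, ν j = n) : 0 < MM (List.replicate n 1) ν := by
  induction n generalizing ν with
  | zero =>
    have : ν = 0 := funext fun j => Finset.sum_eq_zero_iff.1 h j (Finset.mem_univ _)
    simp [MM, this]
  | succ n ih =>
    simp only [List.replicate_succ, MM]
    obtain ⟨j, -, hj⟩ := Finset.exists_ne_zero_of_sum_ne_zero (h.trans_ne (Nat.succ_ne_zero n))
    refine Finset.sum_pos (fun S hS => ih ?_) ⟨{j}, by simp [Finset.mem_powersetCard, hj]⟩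
    have := comb_sum_sub hS
    omega

/-- The alternating sum over compositions, by recursion on the first part. -/
def altc {A : Type} [CommRing A] : (n : ℕ) → (List ℕ → A) → A
  | 0, F => F []
  | n + 1, F => ∑ k : Fin (n + 1), (-1) ^ (k : ℕ) * altc (n - k) fun α => F ((k + 1) :: α)
decreasing_by omega

theorem altc_congr {A : Type} [CommRing A] (n : ℕ) {F G : List ℕ → A}
    (h : ∀ α, α.sum = n → F α = G α) : altc n F = altc n G := by
  induction n using Nat.strong_induction_on generalizing F G with
  | _ n ih =>
    cases n with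
    | zero => rw [altc, altc]; exact h [] rfl
    | succ n =>
      rw [altc, altc]
      refine Finset.sum_congr rfl fun k _ => ?_
      rw [ih (n - k) (by omega) fun α hα => h _ ?_]
      have := k.2
      rw [List.sum_cons]
      omega

theorem altc_sum {A ι : Type} [CommRing A] (n : ℕ) (t : Finset ι) (F : ι → List ℕ → A) (c : ι → A) :
    altc n (fun α => ∑ i ∈ t, c i * F i α) = ∑ i ∈ t, c i * altc n (F i) := by
  induction n using Nat.strong_induction_on generalizing F with
  | _ n ih =>
    cases n with
    | zero => simp only [altc]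
    | succ n =>
      simp only [altc]
      simp only [Finset.mul_sum]
      rw [Finset.sum_comm]
      refine Finset.sum_congr rfl fun k _ => ?_
      rw [ih (n - k) (by omega) fun i α => F i ((k + 1) :: α), Finset.mul_sum]
      exact Finset.sum_congr rfl fun i _ => by ring

theorem comb_alt {A : Type} [CommRing A] (s N : ℕ) :
    ∑ k ∈ Finset.range N, (-1 : A) ^ k * ((s + 1).choose (k + 1) : ℕ) =
      1 - (-1) ^ N * (s.choose N : ℕ) := by
  induction N with
  | zero => simp
  | succ N ih =>
    rw [Finset.sum_range_succ, ih, Nat.choose_succ_succ']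
    push_cast
    ring

/-- `∑_{∅ ≠ S ⊆ supp ν} (-1)^{|S|-1} = 1`. -/
theorem altc_MM {A κ : Type} [CommRing A] [Fintype κ] [DecidableEq κ] (n : ℕ) (ν : κ → ℕ)
    (h : ∑ j, ν j = n) : altc n (fun α => (MM α ν : A)) = 1 := by
  induction n using Nat.strong_induction_on generalizing ν with
  | _ n ih =>
    cases n with
    | zero =>
      have : ν = 0 := funext fun j => Finset.sum_eq_zero_iff.1 h j (Finset.mem_univ _)
      simp [altc, MM, this]
    | succ n =>
      rw [altc]
      have h1 : ∀ k : Fin (n + 1), altc (n - k) (fun α => (MM ((k + 1) :: α) ν : A)) =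
          ((Finset.univ.filter fun j => ν j ≠ 0).card.choose (k + 1) : ℕ) := fun k => by
        have := altc_sum (A := A) (n - k)
          ((Finset.univ.filter fun j => ν j ≠ 0).powersetCard (k + 1))
          (fun S α => (MM α fun j => if j ∈ S then ν j - 1 else ν j : A)) fun _ => 1
        simp only [one_mul] at this
        simp only [MM, Nat.cast_sum]
        rw [this, Finset.sum_congr rfl fun S hS => ih (n - k) (by omega) _ (by
          have := comb_sum_sub hS
          omega)]
        simp
      simp only [h1]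
      obtain ⟨j, -, hj⟩ := Finset.exists_ne_zero_of_sum_ne_zero (h.trans_ne (Nat.succ_ne_zero n))
      have h2 : 0 < (Finset.univ.filter fun j => ν j ≠ 0).card :=
        Finset.card_pos.2 ⟨j, by simp [hj]⟩
      have h3 : (Finset.univ.filter fun j => ν j ≠ 0).card ≤ n + 1 := by
        rw [← h, Finset.card_filter]
        exact Finset.sum_le_sum fun j _ => by split_ifs <;> omega
      obtain ⟨s, hs⟩ := Nat.exists_eq_succ_of_ne_zero h2.ne'
      rw [hs, Fin.sum_univ_eq_sum_range (fun k => (-1 : A) ^ k * ((s + 1).choose (k + 1) : ℕ)),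
        comb_alt, Nat.choose_eq_zero_of_lt (by omega)]
      simp

end

end Crest.Agent.R59
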