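import Crest.Agent.R59.Comb
import Crest.Prelude.Def_ChromaticQSym

/-!
# R59/Count: the sum of the `e`-coefficients

A *free ascent* of a word is a pair of consecutive letters `a < b` that are not adjacent.  An ordered partition
into stable sets, each sorted increasingly, is a word together with a set of cuts containing all positions that are
not free ascents (a list with only free ascents is a stable set, by monotonicity of `h`).
-/

set_option autoImplicit false
set_option linter.unusedSectionVars false
set_option linter.unusedVariables false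

namespace Crest.Agent.R59

noncomputable section

open Crest.CombinatoricsR.UnitInterval

/-- Number of pairs of positions `i < j` with an up-edge from `w i` to `w j`. -/
def ascW {ι : Type} (E : ι → ι → Prop) [DecidableRel E] : List ι → ℕ
  | [] => 0
  | a :: w => w.countP (fun b => decide (E a b)) + ascW E w

open Classical in
/-- Generating function of the arrangements of `T` without free ascents. -/
def GW {n : ℕ} (h : Fin n → ℕ) (T : Finset (Fin n)) : Polynomial ℤ :=
  ∑ w ∈ T.toList.permutations.toFinset.filter (fun w => w.IsChain fun a b => a < b → EH h a b),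
    Polynomial.X ^ ascW (EH h) w

theorem count_mem {ι : Type} [DecidableEq ι] {T : Finset ι} {w : List ι} :
    w ∈ T.toList.permutations.toFinset ↔ w.Nodup ∧ w.toFinset = T := by
  rw [List.mem_toFinset, List.mem_permutations]
  constructor
  · intro h
    exact ⟨h.nodup_iff.2 T.nodup_toList, (List.toFinset_eq_of_perm _ _ h).trans T.toList_toFinset⟩
  · rintro ⟨h1, rfl⟩
    exact (List.toFinset_toList h1).symm

theorem count_ascW_append {ι : Type} (E : ι → ι → Prop) [DecidableRel E] (l l' : List ι) :
    ascW E (l ++ l') =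
      ascW E l + (l.map fun a => l'.countP fun b => decide (E a b)).sum + ascW E l' := by
  induction l with
  | nil => simp [ascW]
  | cons a l ih =>
    simp only [List.cons_append, ascW, ih, List.countP_append, List.map_cons, List.sum_cons]
    omega

theorem count_ascW_zero {ι : Type} (E : ι → ι → Prop) [DecidableRel E] {l : List ι}
    (h : ∀ a ∈ l, ∀ b ∈ l, ¬E a b) : ascW E l = 0 := by
  induction l with
  | nil => rfl
  | cons a l ih =>
    rw [ascW, ih fun x hx y hy => h x (List.mem_cons_of_mem _ hx) y (List.mem_cons_of_mem _ hy),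
      List.countP_eq_zero.2 fun b hb => by
        simpa using h a List.mem_cons_self b (List.mem_cons_of_mem _ hb)]

theorem count_upE {ι : Type} [DecidableEq ι] (E : ι → ι → Prop) [DecidableRel E] {l l' : List ι}
    (h : l.Nodup) (h' : l'.Nodup) : upE E l.toFinset l'.toFinset =
      (l.map fun a => l'.countP fun b => decide (E a b)).sum := by
  rw [upE, Finset.card_filter, Finset.sum_product, ← List.sum_toFinset _ h]
  refine Finset.sum_congr rfl fun a _ => ?_
  rw [← Finset.card_filter, List.countP_eq_length_filter,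
    ← List.toFinset_card_of_nodup (h'.filter _)]
  congr 1
  ext b
  simp

open Classical in
theorem count_alt {ι A : Type} [CommRing A] {F G : ι → ι → Prop} (hFG : ∀ a b, G a b ↔ ¬F a b)
    (a : ι) (w : List ι) :
    ∑ k ∈ Finset.range (w.length + 1), (-1 : A) ^ k *
      (if ((a :: w).take (k + 1)).IsChain F ∧ ((a :: w).drop (k + 1)).IsChain G then 1 else 0) =
      if (a :: w).IsChain G then 1 else 0 := by
  induction w generalizing a with
  | nil => simp
  | cons b w ih =>
    have h1 := ih b
    rw [List.length_cons, Finset.sum_range_succ']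
    simp only [List.take_succ_cons, List.drop_succ_cons, List.isChain_cons_cons, List.take_zero,
      List.drop_zero, List.isChain_singleton, true_and, pow_zero, one_mul, hFG a b] at h1 ⊢
    by_cases hab : F a b
    · simp only [hab, true_and, not_true, false_and, if_false, pow_succ, mul_neg, mul_one, neg_mul,
        Finset.sum_neg_distrib, h1]
      ring
    · simp [hab]

theorem count_chain {n : ℕ} (h : Fin n → ℕ) {l : List (Fin n)} :
    l.IsChain (fun a b => a < b ∧ ¬EH h a b) ↔
      l.Pairwise (· < ·) ∧ ∀ a ∈ l, ∀ b ∈ l, ¬EH h a b := by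
  have : IsTrans (Fin n) (fun a b => a < b ∧ ¬EH h a b) := ⟨fun a b c h1 h2 => by
    refine ⟨h1.1.trans h2.1, fun h3 => h1.2 ⟨h1.1, ?_⟩⟩
    have := h3.2
    have := Fin.lt_def.1 h2.1
    omega⟩
  rw [List.isChain_iff_pairwise]
  constructor
  · intro hp
    refine ⟨hp.imp fun h => h.1, fun a ha b hb hE => ?_⟩
    have h1 : l.Pairwise fun a b => ¬EH h a b ∧ ¬EH h b a :=
      hp.imp fun h => ⟨h.2, fun h' => h.1.not_gt h'.1⟩
    have : Std.Symm fun a b : Fin n => ¬EH h a b ∧ ¬EH h b a := ⟨fun _ _ h => h.symm⟩
    exact (h1.forall ha hb hE.1.ne).1 hE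
  · rintro ⟨h1, h2⟩
    exact h1.imp_of_mem fun ha hb hab => ⟨hab, h2 _ ha _ hb⟩

open Classical in
theorem count_cut {n : ℕ} (h : Fin n → ℕ) (T : Finset (Fin n)) {k : ℕ} (hk : k ≤ T.card) :
    ∑ S ∈ (T.powersetCard k).filter (fun S => ∀ a ∈ S, ∀ b ∈ S, ¬EH h a b),
        Polynomial.X ^ upE (EH h) S (T \ S) * GW h (T \ S) =
      ∑ w ∈ T.toList.permutations.toFinset.filter (fun w =>
        (w.take k).IsChain (fun a b => a < b ∧ ¬EH h a b) ∧
          (w.drop k).IsChain fun a b => a < b → EH h a b), Polynomial.X ^ ascW (EH h) w := by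
  simp only [GW, Finset.mul_sum]
  rw [Finset.sum_sigma']
  have key : ∀ x ∈ ((T.powersetCard k).filter (fun S => ∀ a ∈ S, ∀ b ∈ S, ¬EH h a b)).sigma
      fun S => (T \ S).toList.permutations.toFinset.filter
        (fun w => w.IsChain fun a b => a < b → EH h a b),
      (x.1.sort ++ x.2).take k = x.1.sort ∧ (x.1.sort ++ x.2).drop k = x.2 := fun x hx => by
    have h1 : x.1.sort.length = k := by
      rw [Finset.length_sort]
      exact (Finset.mem_powersetCard.1 (Finset.mem_filter.1 (Finset.mem_sigma.1 hx).1).1).2
    exact ⟨List.take_left' h1, List.drop_left' h1⟩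
  refine Finset.sum_bij' (fun x _ => x.1.sort ++ x.2)
    (fun w _ => ⟨(w.take k).toFinset, w.drop k⟩) (fun x hx => ?_) (fun w hw => ?_)
    (fun x hx => ?_) (fun w hw => ?_) fun x hx => ?_
  · obtain ⟨e1, e2⟩ := key x hx
    simp only [Finset.mem_sigma, Finset.mem_filter, Finset.mem_powersetCard, count_mem] at hx
    obtain ⟨⟨⟨a1, a2⟩, a3⟩, ⟨a4, a5⟩, a6⟩ := hx
    rw [Finset.mem_filter, count_mem, e1, e2, count_chain]
    refine ⟨⟨List.nodup_append.2 ⟨x.1.sort_nodup _, a4, fun a ha b hb hab => ?_⟩, ?_⟩,
      ⟨x.1.sortedLT_sort.pairwise, by simpa using a3⟩, a6⟩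
    · have := List.mem_toFinset.2 hb
      rw [a5, ← hab] at this
      exact (Finset.mem_sdiff.1 this).2 (by simpa using ha)
    · rw [List.toFinset_append, a5, Finset.sort_toFinset, Finset.union_sdiff_of_subset a1]
  · rw [Finset.mem_filter, count_mem, count_chain] at hw
    obtain ⟨⟨a1, rfl⟩, ⟨a2, a3⟩, a4⟩ := hw
    simp only [Finset.mem_sigma, Finset.mem_filter, Finset.mem_powersetCard, count_mem]
    rw [List.toFinset_card_of_nodup a1] at hk
    refine ⟨⟨⟨fun a ha => List.mem_toFinset.2 (List.mem_of_mem_take (List.mem_toFinset.1 ha)),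
      ?_⟩, by simpa using a3⟩, ⟨a1.sublist (List.drop_sublist _ _), ?_⟩, a4⟩
    · rw [List.toFinset_card_of_nodup (a1.sublist (List.take_sublist _ _)), List.length_take,
        min_eq_left hk]
    · have h1 := a1
      rw [← List.take_append_drop k w, List.nodup_append] at h1
      ext a
      simp only [Finset.mem_sdiff, List.mem_toFinset]
      refine ⟨fun ha => ⟨List.mem_of_mem_drop ha, fun hb => h1.2.2 a hb a ha rfl⟩, fun ha => ?_⟩
      have h2 := ha.1
      rw [← List.take_append_drop k w, List.mem_append] at h2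
      exact h2.resolve_left ha.2
  · obtain ⟨e1, e2⟩ := key x hx
    simp only [e1, e2, Finset.sort_toFinset]
  · rw [Finset.mem_filter, count_mem, count_chain] at hw
    obtain ⟨⟨a1, -⟩, ⟨a2, -⟩, -⟩ := hw
    have : (w.take k).toFinset.sort = w.take k :=
      (List.toFinset_sort (· ≤ ·) (a1.sublist (List.take_sublist _ _))).2 (a2.imp le_of_lt)
    simp only [this, List.take_append_drop]
  · simp only [Finset.mem_sigma, Finset.mem_filter, Finset.mem_powersetCard, count_mem] at hx
    obtain ⟨⟨-, a3⟩, ⟨a4, a5⟩, -⟩ := hx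
    have h0 : ascW (EH h) x.1.sort = 0 := count_ascW_zero _ (by simpa using a3)
    rw [count_ascW_append, h0, zero_add,
      ← count_upE _ (x.1.sort_nodup _) a4, Finset.sort_toFinset, a5, pow_add]

/-- For a word `w` of `T`, the `k ≥ 1` such that the first `k` letters form only free ascents and the rest has none:
`k = 1` only if `w` has no free ascent; `k = j, j + 1` if the free ascents are exactly the first `j ≥ 1` positions;
none otherwise. -/
theorem GW_rec {n : ℕ} {h : Fin n → ℕ} (hh : IsHessenberg h) {T : Finset (Fin n)} (hT : T.Nonempty) :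
    GW h T = ∑ k ∈ Finset.range T.card, (-1) ^ k *
      ∑ S ∈ (T.powersetCard (k + 1)).filter (fun S => ∀ a ∈ S, ∀ b ∈ S, ¬EH h a b),
        Polynomial.X ^ upE (EH h) S (T \ S) * GW h (T \ S) := by
  classical
  rw [Finset.sum_congr rfl fun k hk => by rw [count_cut h T (Finset.mem_range.1 hk)]]
  simp only [GW, Finset.sum_filter, Finset.mul_sum]
  rw [Finset.sum_comm]
  refine Finset.sum_congr rfl fun w hw => ?_
  obtain ⟨a1, rfl⟩ := count_mem.1 hw
  rw [List.toFinset_card_of_nodup a1]
  cases w with
  | nil => simp at hT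
  | cons a w =>
    have := count_alt (A := Polynomial ℤ) (F := fun a b => a < b ∧ ¬EH h a b)
      (G := fun a b => a < b → EH h a b) (fun a b => by tauto) a w
    have h2 := congrArg (· * Polynomial.X ^ ascW (EH h) (a :: w)) this
    simp only [Finset.sum_mul, mul_assoc, ite_mul, one_mul, zero_mul] at h2
    rw [List.length_cons]
    convert h2.symm

theorem altc_Col_eq_GW {n : ℕ} {h : Fin n → ℕ} (hh : IsHessenberg h) (T : Finset (Fin n)) :
    altc T.card (fun α => Col (EH h) α T) = GW h T := by
  induction hc : T.card using Nat.strong_induction_on generalizing T with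
  | _ m ih =>
    cases m with
    | zero =>
      obtain rfl := Finset.card_eq_zero.1 hc
      simp [altc, Col, GW, ascW, Finset.filter_singleton]
    | succ m =>
      rw [altc, GW_rec hh (Finset.card_pos.1 (by omega)), hc, Finset.sum_range]
      refine Finset.sum_congr rfl fun k _ => ?_
      simp only [Col]
      rw [altc_sum (m - k) _ (fun S α => Col (EH h) α (T \ S))]
      refine congrArg _ (Finset.sum_congr (Finset.filter_congr_decidable _ _ _) fun S hS => ?_)
      obtain ⟨h1, h2⟩ := Finset.mem_powersetCard.1 (Finset.mem_filter.1 hS).1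
      have h3 := Finset.card_sdiff_add_card_eq_card h1
      rw [ih (m - k) (by omega) (T \ S) (by omega)]

theorem count_ascW_ofFn {ι : Type} (E : ι → ι → Prop) [DecidableRel E] {m : ℕ} (f : Fin m → ι) :
    ascW E (List.ofFn f) = ∑ i, ∑ j, if i < j ∧ E (f i) (f j) then 1 else 0 := by
  induction m with
  | zero => simp [ascW]
  | succ m ih =>
    rw [List.ofFn_succ, ascW, ih]
    simp only [Fin.sum_univ_succ, false_and, if_false, zero_add, Fin.succ_pos,
      true_and, Fin.not_lt_zero, Fin.succ_lt_succ_iff]
    congr 1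
    rw [← List.sum_ofFn, List.ofFn_eq_map, List.ofFn_eq_map, List.countP_map]
    induction List.finRange m with
    | nil => rfl
    | cons a l ih' =>
      rw [List.countP_cons, List.map_cons, List.sum_cons, ih', add_comm]
      simp

/-- The reversed word of `σ`. -/
theorem GW_univ {n : ℕ} (h : Fin n → ℕ) :
    GW h Finset.univ = ∑ σ ∈ descentSet h, Polynomial.X ^ ginv h σ := by
  classical
  have hE : ∀ a b, a < b → (IsEdge h a b ↔ EH h a b) := fun a b hab =>
    ⟨fun h' => h'.resolve_right fun h'' => hab.not_gt h''.1, Or.inl⟩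
  have hc : ∀ σ : Equiv.Perm (Fin n), σ ∈ descentSet h ↔
      (List.ofFn fun i => σ (Fin.rev i)).IsChain fun a b => a < b → EH h a b := fun σ => by
    simp only [descentSet, Finset.mem_filter, Finset.mem_univ, true_and, List.isChain_iff_getElem,
      List.getElem_ofFn, List.length_ofFn]
    constructor
    · intro H i hi hlt
      exact (hE _ _ hlt).1 (H _ _ (by simp only [Fin.val_rev]; omega) hlt)
    · intro H i j hij hlt
      have hj := j.2
      have e1 : Fin.rev ⟨n - (j.val + 1), by omega⟩ = j := by
        ext; simp only [Fin.val_rev]; omega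
      have e2 : Fin.rev ⟨n - (j.val + 1) + 1, by omega⟩ = i := by
        ext; simp only [Fin.val_rev]; omega
      have := H (n - (j.val + 1)) (by omega)
      rw [e1, e2] at this
      exact (hE _ _ hlt).2 (this hlt)
  symm
  refine Finset.sum_bij (fun σ _ => List.ofFn fun i => σ (Fin.rev i)) (fun σ hσ => ?_)
    (fun σ _ τ _ e => ?_) (fun w hw => ?_) fun σ _ => ?_
  · refine Finset.mem_filter.2 ⟨count_mem.2 ⟨List.nodup_ofFn.2
      (σ.injective.comp Fin.rev_injective), ?_⟩, (hc σ).1 hσ⟩
    ext a
    simp only [List.mem_toFinset, List.mem_ofFn, Finset.mem_univ, iff_true]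
    exact ⟨Fin.rev (σ.symm a), by simp⟩
  · ext i
    have := congrFun (List.ofFn_injective e) (Fin.rev i)
    simp only [Fin.rev_rev] at this
    rw [this]
  · obtain ⟨h1, h2⟩ := Finset.mem_filter.1 hw
    obtain ⟨a1, a2⟩ := count_mem.1 h1
    have hl : w.length = n := by
      rw [← List.toFinset_card_of_nodup a1, a2, Finset.card_univ, Fintype.card_fin]
    have hinj : Function.Injective fun i : Fin n => w.get (Fin.cast hl.symm (Fin.rev i)) :=
      (List.nodup_iff_injective_get.1 a1).comp ((Fin.cast_injective _).comp Fin.rev_injective)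
    have e : (List.ofFn fun i => Equiv.ofBijective _ hinj.bijective_of_finite (Fin.rev i)) = w :=
      List.ext_getElem (by simp [hl]) fun i _ _ => by
        simp only [List.getElem_ofFn, Equiv.ofBijective_apply, Fin.rev_rev, List.get_eq_getElem,
          Fin.val_cast]
    exact ⟨_, (hc _).2 (e.symm ▸ h2), e⟩
  · congr 1
    rw [count_ascW_ofFn, ginv, Finset.card_filter, ← Finset.sum_product', Finset.univ_product_univ]
    refine Fintype.sum_equiv ((Equiv.prodComm _ _).trans (Fin.revPerm.prodCongr Fin.revPerm)) _ _
      fun p => if_congr ?_ rfl rfl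
    simp only [Equiv.trans_apply, Equiv.prodComm_apply, Equiv.prodCongr_apply, Prod.map_fst,
      Prod.map_snd, Prod.fst_swap, Prod.snd_swap, Fin.revPerm_apply, Fin.rev_rev, Fin.rev_lt_rev]
    refine and_congr_right fun _ => ⟨fun h' => h'.2.resolve_left fun h'' => h'.1.not_gt h''.1,
      fun h' => ⟨h'.1, Or.inr h'⟩⟩

theorem altc_Col {n : ℕ} {h : Fin n → ℕ} (hh : IsHessenberg h) :
    altc n (fun α => Col (EH h) α Finset.univ) = ∑ σ ∈ descentSet h, Polynomial.X ^ ginv h σ := by
  have := altc_Col_eq_GW hh Finset.univ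
  rw [Finset.card_univ, Fintype.card_fin] at this
  rw [this, GW_univ]


end

end Crest.Agent.R59
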