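import Crest.Agent.R59.Ser

/-!
# R59/GF: generating functions of graded sets; bosonic and fermionic configurations
-/

set_option autoImplicit false
set_option linter.unusedSectionVars false
set_option linter.unusedVariables false
set_option linter.style.haveILetI false

namespace Crest.Agent.R59

open PowerSeries

noncomputable section

/-- Generating function of a graded set. -/
def GF {Ω : Type} (w : Ω → ℕ) : ℚ⟦X⟧ := PowerSeries.mk fun k => (Nat.card {x // w x = k} : ℚ)

/-- Finite fibres. -/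
def FinF {Ω : Type} (w : Ω → ℕ) : Prop := ∀ k, Finite {x // w x = k}

theorem GF_equiv {Ω Ω' : Type} (e : Ω ≃ Ω') {w : Ω → ℕ} {w' : Ω' → ℕ} (h : ∀ x, w' (e x) = w x) :
    GF w = GF w' := by
  ext k
  simp only [GF, coeff_mk]
  congr 1
  exact Nat.card_congr (e.subtypeEquiv fun x => by rw [h])

theorem FinF.equiv {Ω Ω' : Type} (e : Ω ≃ Ω') {w : Ω → ℕ} {w' : Ω' → ℕ}
    (h : ∀ x, w' (e x) = w x) (hw : FinF w) : FinF w' := by
  intro k
  haveI := hw k
  exact Finite.of_equiv _ (e.subtypeEquiv (p := fun x => w x = k) fun x => by rw [h])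

theorem GF_empty {Ω : Type} [IsEmpty Ω] (w : Ω → ℕ) : GF w = 0 := by
  ext k
  simp [GF, coeff_mk]

theorem GF_unique {Ω : Type} [Unique Ω] (w : Ω → ℕ) : GF w = X ^ w default := by
  ext k
  simp only [GF, coeff_mk, coeff_X_pow]
  split_ifs with hk
  · haveI : Unique {x // w x = k} :=
      ⟨⟨⟨default, hk.symm⟩⟩, fun x => Subtype.ext (Subsingleton.elim _ _)⟩
    simp
  · haveI : IsEmpty {x // w x = k} :=
      ⟨fun x => hk (by rw [← x.2, Subsingleton.elim x.1 default])⟩
    simp

theorem GF_shift {Ω : Type} (w : Ω → ℕ) (a : ℕ) : GF (fun x => a + w x) = X ^ a * GF w := by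
  ext k
  rw [coeff_X_pow_mul']
  simp only [GF, coeff_mk]
  split_ifs with hk
  · congr 1
    exact Nat.card_congr (Equiv.subtypeEquivRight fun x => by omega)
  · haveI : IsEmpty {x // a + w x = k} := ⟨fun x => hk (by have := x.2; omega)⟩
    simp

theorem FinF.shift {Ω : Type} {w : Ω → ℕ} (hw : FinF w) (a : ℕ) : FinF fun x => a + w x := by
  intro k
  haveI := hw (k - a)
  refine Finite.of_injective
    (fun x : {x // a + w x = k} => (⟨x.1, by have := x.2; omega⟩ : {x // w x = k - a})) ?_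
  intro x y hxy
  exact Subtype.ext (by simpa using hxy)

def gf_prodEquiv {Ω Ω' : Type} (w : Ω → ℕ) (w' : Ω' → ℕ) (k : ℕ) :
    {x : Ω × Ω' // w x.1 + w' x.2 = k} ≃
      Σ p : Finset.HasAntidiagonal.antidiagonal k, {x // w x = p.1.1} × {y // w' y = p.1.2} where
  toFun x := ⟨⟨(w x.1.1, w' x.1.2), Finset.HasAntidiagonal.mem_antidiagonal.2 x.2⟩, ⟨x.1.1, rfl⟩, ⟨x.1.2, rfl⟩⟩
  invFun p := ⟨(p.2.1.1, p.2.2.1), by
    rw [p.2.1.2, p.2.2.2]; exact Finset.HasAntidiagonal.mem_antidiagonal.1 p.1.2⟩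
  left_inv x := rfl
  right_inv := by
    rintro ⟨⟨⟨a, b⟩, hab⟩, ⟨x, hx⟩, ⟨y, hy⟩⟩
    dsimp only at hx hy
    subst hx hy
    rfl

theorem GF_prod {Ω Ω' : Type} {w : Ω → ℕ} {w' : Ω' → ℕ} (hw : FinF w) (hw' : FinF w') :
    GF (fun x : Ω × Ω' => w x.1 + w' x.2) = GF w * GF w' := by
  ext k
  rw [coeff_mul]
  simp only [GF, coeff_mk]
  haveI : ∀ k, Finite {x // w x = k} := hw
  haveI : ∀ k, Finite {x // w' x = k} := hw'
  rw [Nat.card_congr (gf_prodEquiv w w' k), Nat.card_sigma]
  push_cast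
  rw [← Finset.sum_coe_sort (Finset.HasAntidiagonal.antidiagonal k)]
  refine Finset.sum_congr rfl fun p _ => ?_
  rw [Nat.card_prod]
  push_cast
  rfl

theorem FinF.prod {Ω Ω' : Type} {w : Ω → ℕ} {w' : Ω' → ℕ} (hw : FinF w) (hw' : FinF w') :
    FinF fun x : Ω × Ω' => w x.1 + w' x.2 := by
  intro k
  haveI : ∀ k, Finite {x // w x = k} := hw
  haveI : ∀ k, Finite {x // w' x = k} := hw'
  exact Finite.of_equiv _ (gf_prodEquiv w w' k).symm

def gf_sigmaEquiv {ι : Type} {Ω : ι → Type} (w : ∀ i, Ω i → ℕ) (k : ℕ) :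
    {x : Σ i, Ω i // w x.1 x.2 = k} ≃ Σ i, {y : Ω i // w i y = k} where
  toFun x := ⟨x.1.1, x.1.2, x.2⟩
  invFun p := ⟨⟨p.1, p.2.1⟩, p.2.2⟩
  left_inv x := rfl
  right_inv p := rfl

theorem GF_sigma {ι : Type} [Fintype ι] {Ω : ι → Type} {w : ∀ i, Ω i → ℕ} (hw : ∀ i, FinF (w i)) :
    GF (fun x : Σ i, Ω i => w x.1 x.2) = ∑ i, GF (w i) := by
  ext k
  rw [map_sum]
  simp only [GF, coeff_mk]
  haveI : ∀ i, Finite {x // w i x = k} := fun i => hw i k
  rw [Nat.card_congr (gf_sigmaEquiv w k), Nat.card_sigma]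
  push_cast
  rfl

theorem FinF.sigma {ι : Type} [Fintype ι] {Ω : ι → Type} {w : ∀ i, Ω i → ℕ}
    (hw : ∀ i, FinF (w i)) : FinF fun x : Σ i, Ω i => w x.1 x.2 := by
  intro k
  haveI : ∀ i, Finite {x // w i x = k} := fun i => hw i k
  exact Finite.of_equiv _ (gf_sigmaEquiv w k).symm

theorem gf_finF_of_finite {Ω : Type} [Finite Ω] (w : Ω → ℕ) : FinF w := fun k => inferInstance

theorem gf_pi_aux (ι : Type) [Fintype ι] : ∀ (Ω : ι → Type) (w : ∀ i, Ω i → ℕ),
    (∀ i, FinF (w i)) → (FinF fun x : ∀ i, Ω i => ∑ i, w i (x i)) ∧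
      GF (fun x : ∀ i, Ω i => ∑ i, w i (x i)) = ∏ i, GF (w i) := by
  refine Fintype.induction_empty_option (P := fun (ι : Type) [Fintype ι] =>
    ∀ (Ω : ι → Type) (w : ∀ i, Ω i → ℕ),
    (∀ i, FinF (w i)) → (FinF fun x : ∀ i, Ω i => ∑ i, w i (x i)) ∧
      GF (fun x : ∀ i, Ω i => ∑ i, w i (x i)) = ∏ i, GF (w i)) ?_ ?_ ?_ ι
  · intro α β _ e ih Ω w hw
    letI : Fintype α := Fintype.ofEquiv β e.symm
    obtain ⟨h1, h2⟩ := ih (fun a => Ω (e a)) (fun a => w (e a)) (fun a => hw (e a))
    have hE : ∀ x : ∀ a, Ω (e a), ∑ i, w i (Equiv.piCongrLeft Ω e x i) = ∑ a, w (e a) (x a) := by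
      intro x
      rw [← e.sum_comp]
      simp only [Equiv.piCongrLeft_apply_apply]
    refine ⟨FinF.equiv (Equiv.piCongrLeft Ω e) hE h1, ?_⟩
    rw [← GF_equiv (Equiv.piCongrLeft Ω e) hE, h2]
    exact e.prod_comp (fun i => GF (w i))
  · intro Ω w hw
    refine ⟨gf_finF_of_finite _, ?_⟩
    rw [GF_unique]
    simp
  · intro α _ ih Ω w hw
    obtain ⟨h1, h2⟩ := ih (fun a => Ω (some a)) (fun a => w (some a)) (fun a => hw (some a))
    have hE : ∀ x : Ω none × ∀ a, Ω (some a),
        ∑ i, w i ((Equiv.piOptionEquivProd (β := Ω)).symm x i) =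
          w none x.1 + ∑ a, w (some a) (x.2 a) := by
      intro x
      rw [Fintype.sum_option]
      rfl
    refine ⟨FinF.equiv (Equiv.piOptionEquivProd (β := Ω)).symm hE (FinF.prod (hw none) h1), ?_⟩
    rw [← GF_equiv (Equiv.piOptionEquivProd (β := Ω)).symm hE, GF_prod (hw none) h1, h2,
      Fintype.prod_option]

theorem GF_pi {ι : Type} [Fintype ι] {Ω : ι → Type} {w : ∀ i, Ω i → ℕ} (hw : ∀ i, FinF (w i)) :
    GF (fun x : ∀ i, Ω i => ∑ i, w i (x i)) = ∏ i, GF (w i) := by
  exact (gf_pi_aux ι Ω w hw).2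

theorem FinF.pi {ι : Type} [Fintype ι] {Ω : ι → Type} {w : ∀ i, Ω i → ℕ}
    (hw : ∀ i, FinF (w i)) : FinF fun x : ∀ i, Ω i => ∑ i, w i (x i) := by
  exact (gf_pi_aux ι Ω w hw).1

/-- `1/(q;q)_n` (boson, `b = false`) and `q^{n(n-1)/2}/(q;q)_n` (fermion, `b = true`). -/
def hE (b : Bool) : ℕ → ℚ⟦X⟧
  | 0 => 1
  | n + 1 => (if b then X ^ n else 1) * (1 - X ^ (n + 1))⁻¹ * hE b n

theorem hE_succ (b : Bool) (n : ℕ) :
    (1 - X ^ (n + 1)) * hE b (n + 1) = (if b then X ^ n else 1) * hE b n := by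
  have h : (1 - X ^ (n + 1) : ℚ⟦X⟧) * (1 - X ^ (n + 1))⁻¹ = 1 := by
    apply PowerSeries.mul_inv_cancel
    simp
  rw [hE]
  linear_combination ((if b then X ^ n else 1) * hE b n : ℚ⟦X⟧) * h

/-- Configurations: multisets of pairs (species, energy) with no repeated fermion. -/
def Gd {ι : Type} (β : ι → Bool) (μ : Multiset (ι × ℕ)) : Prop :=
  (μ.filter fun y => β y.1 = true).Nodup

/-- Total energy. -/
def en {ι : Type} (μ : Multiset (ι × ℕ)) : ℕ := (μ.map Prod.snd).sum

theorem gf_sum {Ω Ω' : Type} {w : Ω → ℕ} {w' : Ω' → ℕ} (hw : FinF w) (hw' : FinF w') :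
    GF (Sum.elim w w') = GF w + GF w' := by
  ext k
  rw [map_add]
  simp only [GF, coeff_mk]
  haveI : Finite {a // Sum.elim w w' (Sum.inl a) = k} := hw k
  haveI : Finite {a // Sum.elim w w' (Sum.inr a) = k} := hw' k
  rw [Nat.card_congr (Equiv.subtypeSum (p := fun x => Sum.elim w w' x = k)), Nat.card_sum]
  push_cast
  rfl

theorem gf_one_fin (b : Bool) (n : ℕ) :
    FinF (fun m : {m : Multiset ℕ // (b = true → m.Nodup) ∧ m.card = n} => m.1.sum) := by
  intro k
  have hfin : (Set.Icc (0 : Multiset ℕ) (n • Multiset.range (k + 1))).Finite := Set.finite_Icc _ _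
  haveI := hfin.to_subtype
  refine Finite.of_injective (fun x : {x : {m : Multiset ℕ // (b = true → m.Nodup) ∧ m.card = n} //
      x.1.sum = k} => (⟨x.1.1, Multiset.zero_le _, ?_⟩ :
        Set.Icc (0 : Multiset ℕ) (n • Multiset.range (k + 1)))) ?_
  · rw [Multiset.le_iff_count]
    intro a
    rw [Multiset.count_nsmul]
    by_cases ha : a ∈ x.1.1
    · have h1 : a ≤ k := by
        rw [← x.2]
        exact Multiset.single_le_sum (fun _ _ => Nat.zero_le _) a ha
      rw [Multiset.count_eq_one_of_mem (Multiset.nodup_range _)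
        (Multiset.mem_range.2 (by omega)), mul_one]
      exact (Multiset.count_le_card _ _).trans x.1.2.2.le
    · rw [Multiset.count_eq_zero_of_notMem ha]
      exact Nat.zero_le _
  · intro x y hxy
    exact Subtype.ext (Subtype.ext (Subtype.mk.inj hxy))

theorem gf_sum_succ (m : Multiset ℕ) : (m.map Nat.succ).sum = m.card + m.sum := by
  induction m using Multiset.induction_on with
  | empty => simp
  | cons a m ih => simp only [Multiset.map_cons, Multiset.sum_cons, Multiset.card_cons, ih]; omega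

theorem gf_pred_succ (m : Multiset ℕ) (h : 0 ∉ m) : (m.map Nat.pred).map Nat.succ = m := by
  rw [Multiset.map_map]
  conv_rhs => rw [← Multiset.map_id m]
  refine Multiset.map_congr rfl fun x hx => ?_
  have : x ≠ 0 := fun h0 => h (h0 ▸ hx)
  exact Nat.succ_pred_eq_of_ne_zero this

/-- The recursion map for one species. -/
def gf_oneMap (b : Bool) (n : ℕ) :
    {m : Multiset ℕ // (b = true → m.Nodup) ∧ m.card = n + 1} ⊕
      {m : Multiset ℕ // (b = true → m.Nodup) ∧ m.card = n} →
    {m : Multiset ℕ // (b = true → m.Nodup) ∧ m.card = n + 1}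
  | Sum.inl m => ⟨m.1.map Nat.succ, fun hb => (m.2.1 hb).map Nat.succ_injective, by
      rw [Multiset.card_map, m.2.2]⟩
  | Sum.inr m => ⟨0 ::ₘ (if b then m.1.map Nat.succ else m.1), fun hb => by
      rw [if_pos hb, Multiset.nodup_cons]
      exact ⟨by simp, (m.2.1 hb).map Nat.succ_injective⟩, by
      rw [Multiset.card_cons]
      split_ifs
      · rw [Multiset.card_map, m.2.2]
      · rw [m.2.2]⟩

theorem gf_oneMap_bij (b : Bool) (n : ℕ) : Function.Bijective (gf_oneMap b n) := by
  constructor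
  · rintro (x | x) (y | y) hxy
    · have h : x.1.map Nat.succ = y.1.map Nat.succ := congrArg Subtype.val hxy
      rw [Subtype.ext (Multiset.map_injective Nat.succ_injective h)]
    · have h : x.1.map Nat.succ = 0 ::ₘ (if b then y.1.map Nat.succ else y.1) :=
        congrArg Subtype.val hxy
      have h0 : 0 ∈ x.1.map Nat.succ := by rw [h]; exact Multiset.mem_cons_self _ _
      simp at h0
    · have h : 0 ::ₘ (if b then x.1.map Nat.succ else x.1) = y.1.map Nat.succ :=
        congrArg Subtype.val hxy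
      have h0 : 0 ∈ y.1.map Nat.succ := by rw [← h]; exact Multiset.mem_cons_self _ _
      simp at h0
    · have h : 0 ::ₘ (if b then x.1.map Nat.succ else x.1) =
          0 ::ₘ (if b then y.1.map Nat.succ else y.1) := congrArg Subtype.val hxy
      rw [Multiset.cons_inj_right] at h
      split_ifs at h
      · rw [Subtype.ext (Multiset.map_injective Nat.succ_injective h)]
      · rw [Subtype.ext h]
  · rintro ⟨m, hm, hc⟩
    by_cases h0 : 0 ∈ m
    · obtain ⟨t, rfl⟩ := Multiset.exists_cons_of_mem h0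
      rw [Multiset.card_cons] at hc
      by_cases hb : b = true
      · have h1 := hm hb
        rw [Multiset.nodup_cons] at h1
        have h2 := gf_pred_succ t h1.1
        refine ⟨Sum.inr ⟨t.map Nat.pred, fun _ => ?_, by rw [Multiset.card_map]; omega⟩, ?_⟩
        · exact Multiset.Nodup.of_map Nat.succ (by rw [h2]; exact h1.2)
        · apply Subtype.ext
          change 0 ::ₘ (if b then (t.map Nat.pred).map Nat.succ else t.map Nat.pred) = 0 ::ₘ t
          rw [if_pos hb, h2]
      · refine ⟨Sum.inr ⟨t, fun h => absurd h hb, by omega⟩, ?_⟩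
        apply Subtype.ext
        change 0 ::ₘ (if b then t.map Nat.succ else t) = 0 ::ₘ t
        rw [if_neg hb]
    · have h2 := gf_pred_succ m h0
      refine ⟨Sum.inl ⟨m.map Nat.pred, fun hb => ?_, by rw [Multiset.card_map, hc]⟩, ?_⟩
      · exact Multiset.Nodup.of_map Nat.succ (by rw [h2]; exact hm hb)
      · exact Subtype.ext h2

/-- One species.  A multiset of card `n+1` either has all elements `≥ 1` (subtract `1` from each:
weight `X^(n+1)`) or contains `0` (erase it; for fermions the others are `≥ 1`, subtract `1`). -/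
theorem GF_one (b : Bool) (n : ℕ) :
    FinF (fun m : {m : Multiset ℕ // (b = true → m.Nodup) ∧ m.card = n} => m.1.sum) ∧
    GF (fun m : {m : Multiset ℕ // (b = true → m.Nodup) ∧ m.card = n} => m.1.sum) = hE b n := by
  refine ⟨gf_one_fin b n, ?_⟩
  induction n with
  | zero =>
    haveI : Unique {m : Multiset ℕ // (b = true → m.Nodup) ∧ m.card = 0} :=
      ⟨⟨⟨0, fun _ => Multiset.nodup_zero, rfl⟩⟩, fun x => Subtype.ext (Multiset.card_eq_zero.1 x.2.2)⟩
    rw [GF_unique, Multiset.card_eq_zero.1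
      (default : {m : Multiset ℕ // (b = true → m.Nodup) ∧ m.card = 0}).2.2]
    simp [hE]
  | succ n ih =>
    have key := GF_equiv (Equiv.ofBijective _ (gf_oneMap_bij b n))
      (w := Sum.elim (fun m => (n + 1) + m.1.sum) (fun m => (if b then n else 0) + m.1.sum))
      (w' := fun m => m.1.sum) (by
        rintro (x | x)
        · change (x.1.map Nat.succ).sum = (n + 1) + x.1.sum
          rw [gf_sum_succ, x.2.2]
        · change (0 ::ₘ (if b then x.1.map Nat.succ else x.1)).sum = (if b then n else 0) + x.1.sum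
          rw [Multiset.sum_cons, zero_add]
          split_ifs
          · rw [gf_sum_succ, x.2.2]
          · rw [zero_add])
    rw [gf_sum ((gf_one_fin b (n + 1)).shift _) ((gf_one_fin b n).shift _), GF_shift, GF_shift,
      ih] at key
    have h1 := hE_succ b n
    have h2 : (X ^ (if b then n else 0) : ℚ⟦X⟧) = if b then X ^ n else 1 := by
      split_ifs <;> simp
    rw [h2] at key
    have h3 : (1 - X ^ (n + 1) : ℚ⟦X⟧) ≠ 0 := by
      intro h
      have := congrArg constantCoeff h
      simp at this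
    apply mul_left_cancel₀ h3
    rw [h1]
    linear_combination -key

theorem gf_count_F {ι : Type} [Fintype ι] [DecidableEq ι] (m : ι → Multiset ℕ) (j : ι) (a : ℕ) :
    (∑ i, (m i).map (Prod.mk i)).count (j, a) = (m j).count a := by
  rw [Multiset.count_sum', Finset.sum_eq_single j]
  · exact Multiset.count_map_eq_count' _ _ (Prod.mk_right_injective j) a
  · intro i _ hij
    rw [Multiset.count_eq_zero]
    intro h
    obtain ⟨b, _, hb⟩ := Multiset.mem_map.1 h
    exact hij (congrArg Prod.fst hb)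
  · intro h; exact absurd (Finset.mem_univ j) h

theorem gf_count_G {ι : Type} [DecidableEq ι] (μ : Multiset (ι × ℕ)) (j : ι) (a : ℕ) :
    ((μ.filter fun y => j = y.1).map Prod.snd).count a = μ.count (j, a) := by
  induction μ using Multiset.induction_on with
  | empty => simp
  | cons y μ ih =>
    obtain ⟨i, c⟩ := y
    by_cases h : j = i
    · subst h
      rw [Multiset.filter_cons_of_pos _ (by rfl), Multiset.map_cons, Multiset.count_cons,
        Multiset.count_cons, ih]
      simp
    · rw [Multiset.filter_cons_of_neg _ (by exact h), ih, Multiset.count_cons_of_ne]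
      intro h'
      exact h (congrArg Prod.fst h')

/-- The species decomposition. -/
def gf_confEquiv {ι : Type} [Fintype ι] [DecidableEq ι] :
    (ι → Multiset ℕ) ≃ Multiset (ι × ℕ) where
  toFun m := ∑ i, (m i).map (Prod.mk i)
  invFun μ j := (μ.filter fun y => j = y.1).map Prod.snd
  left_inv m := by
    funext j
    ext a
    rw [gf_count_G, gf_count_F]
  right_inv μ := by
    ext ⟨j, a⟩
    rw [gf_count_F, gf_count_G]

theorem gf_conf_iff {ι : Type} [Fintype ι] [DecidableEq ι] (β : ι → Bool) (n : ι → ℕ)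
    (m : ι → Multiset ℕ) :
    (∀ j, (β j = true → (m j).Nodup) ∧ (m j).card = n j) ↔
      (Gd β (gf_confEquiv m) ∧ ∀ j, ((gf_confEquiv m).map Prod.fst).count j = n j) := by
  have h1 : ∀ j, ((gf_confEquiv m).map Prod.fst).count j = (m j).card := by
    intro j
    rw [Multiset.count_map, ← Multiset.card_map Prod.snd]
    congr 1
    exact congrFun (gf_confEquiv.left_inv m) j
  have h2 : Gd β (gf_confEquiv m) ↔ ∀ j, β j = true → (m j).Nodup := by
    unfold Gd
    rw [Multiset.nodup_iff_count_le_one]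
    constructor
    · intro h j hj
      rw [Multiset.nodup_iff_count_le_one]
      intro a
      have := h (j, a)
      rw [Multiset.count_filter_of_pos (by exact hj)] at this
      rw [← gf_count_F m j a]
      exact this
    · rintro h ⟨j, a⟩
      by_cases hj : β j = true
      · rw [Multiset.count_filter_of_pos (by exact hj)]
        change (∑ i, (m i).map (Prod.mk i)).count (j, a) ≤ 1
        rw [gf_count_F]
        exact Multiset.nodup_iff_count_le_one.1 (h j hj) a
      · rw [Multiset.count_filter_of_neg (by exact hj)]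
        exact Nat.zero_le _
  rw [h2]
  simp only [h1]
  exact forall_and

theorem gf_en_conf {ι : Type} [Fintype ι] [DecidableEq ι] (m : ι → Multiset ℕ) :
    en (gf_confEquiv m) = ∑ j, (m j).sum := by
  change (Multiset.sumAddMonoidHom.comp (Multiset.mapAddMonoidHom Prod.snd))
    (∑ i, (m i).map (Prod.mk i)) = _
  rw [map_sum]
  refine Finset.sum_congr rfl fun i _ => ?_
  simp [Multiset.map_map]

/-- Several species: `μ ↦ fun j => (μ.filter (·.1 = j)).map Prod.snd` is a bijection onto the product. -/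
theorem GF_conf {ι : Type} [Fintype ι] [DecidableEq ι] (β : ι → Bool) (n : ι → ℕ) :
    FinF (fun μ : {μ : Multiset (ι × ℕ) // Gd β μ ∧ ∀ j, (μ.map Prod.fst).count j = n j} => en μ.1) ∧
    GF (fun μ : {μ : Multiset (ι × ℕ) // Gd β μ ∧ ∀ j, (μ.map Prod.fst).count j = n j} => en μ.1) =
      ∏ j, hE (β j) (n j) := by
  let e : (∀ j, {m : Multiset ℕ // (β j = true → m.Nodup) ∧ m.card = n j}) ≃
      {μ : Multiset (ι × ℕ) // Gd β μ ∧ ∀ j, (μ.map Prod.fst).count j = n j} :=
    (Equiv.subtypePiEquivPi (p := fun j (m : Multiset ℕ) =>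
      (β j = true → m.Nodup) ∧ m.card = n j)).symm.trans
      (gf_confEquiv.subtypeEquiv (gf_conf_iff β n))
  have he : ∀ x, en (e x).1 = ∑ j, (x j).1.sum := fun x => gf_en_conf fun j => (x j).1
  have hf := fun j => (GF_one (β j) (n j)).1
  refine ⟨FinF.equiv e he (FinF.pi hf), ?_⟩
  rw [← GF_equiv e he, GF_pi hf]
  exact Finset.prod_congr rfl fun j _ => (GF_one (β j) (n j)).2

end

end Crest.Agent.R59
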