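import Crest.Agent.R59.Fact
import Crest.Agent.R59.GF

/-!
# R59/Efun: quantum dilogarithms

`E true s e = ∏_{i ≥ 0} (1 + v^{s+2i} z^e)` and `E false s e = ∏_{i ≥ 0} (1 - v^{s+2i} z^e)⁻¹`.
-/

set_option autoImplicit false
set_option linter.unusedSectionVars false
set_option linter.unusedVariables false

namespace Crest.Agent.R59

noncomputable section

variable {N : Type} [AddCommGroup N] [Alt N]

/-- Coefficient of `z^{n e}`. -/
def cE (b : Bool) (s : ℤ) (n : ℕ) : R := vp (s * n) * iq (hE b n)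

/-- The series as a function. -/
def Efn (b : Bool) (s : ℤ) (e : N) : N → R := fun γ => by
  classical exact ∑ᶠ n : ℕ, if n • e = γ then cE b s n else 0

theorem efun_nsmul_inj {e : N} (he : e ≠ 0) {m n : ℕ} (h : m • e = n • e) : m = n := by
  have h1 : ((m : ℤ) - n) • e = 0 := by
    rw [sub_smul, natCast_zsmul, natCast_zsmul, h, sub_self]
  rcases Alt.tf _ _ h1 with h2 | h2
  · omega
  · exact absurd h2 he

theorem cE_zero (b : Bool) (s : ℤ) : cE b s 0 = 1 := by
  simp [cE, hE]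

theorem Efn_nsmul (b : Bool) (s : ℤ) {e : N} (he : e ≠ 0) (n : ℕ) : Efn b s e (n • e) = cE b s n := by
  unfold Efn
  rw [finsum_eq_single _ n, if_pos rfl]
  intro m hm
  rw [if_neg fun h => hm (efun_nsmul_inj he h)]

theorem Efn_ne_zero {b : Bool} {s : ℤ} {e γ : N} (h : Efn b s e γ ≠ 0) : ∃ n : ℕ, γ = n • e := by
  by_contra hne
  apply h
  unfold Efn
  refine finsum_eq_zero_of_forall_eq_zero fun n => ?_
  rw [if_neg fun h' => hne ⟨n, h'.symm⟩]

variable {M : AddSubmonoid N} [Good M]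

open Classical in
/-- The series as a group element (`1` if `e` is not a non-zero element of `M`). -/
def E (M : AddSubmonoid N) [Good M] (b : Bool) (s : ℤ) (e : N) : Gp M :=
  if h : e ∈ M ∧ e ≠ 0 then
    Gp.mk' (Efn b s e) (by simpa [cE_zero] using Efn_nsmul b s h.2 0) (fun γ hγ => by
      obtain ⟨n, rfl⟩ := Efn_ne_zero hγ
      exact M.nsmul_mem h.1 n)
  else 1

theorem efun_E_of_not (b : Bool) (s : ℤ) {e : N} (h : ¬ (e ∈ M ∧ e ≠ 0)) : E M b s e = 1 := by
  unfold E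
  rw [dif_neg h]

theorem efun_zero_of_not (b : Bool) (s : ℤ) {e γ : N} (h : ∀ n : ℕ, γ ≠ n • e) :
    Efn b s e γ = 0 := by
  by_contra h0
  obtain ⟨n, hn⟩ := Efn_ne_zero h0
  exact h n hn

theorem efun_z_mul (x : A M) (p r : N) : (z M p * x) r = vp (ω p r) * x (r - p) :=
  zf_tmul p x.1 r

theorem efun_cE_succ (b : Bool) (k : ℕ) :
    (1 - vp (2 * ((k : ℤ) + 1))) * iq (hE b (k + 1)) =
      (if b then vp (2 * (k : ℤ)) else 1) * iq (hE b k) := by
  have h := congrArg iq (hE_succ b k)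
  rw [map_mul, map_mul, map_sub, map_one, map_pow, iq_X, vp_pow] at h
  push_cast at h
  rw [h]
  congr 1
  split_ifs
  · rw [map_pow, iq_X, vp_pow]
  · rw [map_one]

/-- Extensionality along the ray of `e`. -/
theorem efun_cases {e : N} (h0 : e ≠ 0) (γ : N) :
    (γ = 0 ∧ ∀ n : ℕ, γ - e ≠ n • e) ∨ (∃ k : ℕ, γ = (k + 1) • e ∧ γ - e = k • e ∧ ω e γ = 0) ∨
      ((∀ n : ℕ, γ ≠ n • e) ∧ ∀ n : ℕ, γ - e ≠ n • e) := by
  by_cases h : ∃ n : ℕ, γ = n • e
  · obtain ⟨n, rfl⟩ := h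
    cases n with
    | zero =>
      refine Or.inl ⟨zero_nsmul e, fun n hn => ?_⟩
      have : (n + 1) • e = 0 • e := by rw [succ_nsmul, ← hn]; simp
      exact absurd (efun_nsmul_inj h0 this) (Nat.succ_ne_zero n)
    | succ k =>
      refine Or.inr (Or.inl ⟨k, rfl, by rw [succ_nsmul, add_sub_cancel_right], ?_⟩)
      rw [map_nsmul, ω_self, smul_zero]
  · push Not at h
    refine Or.inr (Or.inr ⟨h, fun n hn => h (n + 1) ?_⟩)
    rw [succ_nsmul, ← hn, sub_add_cancel]

theorem E_apply (b : Bool) (s : ℤ) {e : N} (he : e ∈ M) (h0 : e ≠ 0) (γ : N) :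
    E M b s e γ = Efn b s e γ := by
  unfold E
  rw [dif_pos ⟨he, h0⟩]
  rfl

theorem E_supp (b : Bool) (s : ℤ) (e : N) : SuppIn (AddSubmonoid.multiples e) (E M b s e) := by
  intro γ hγ
  by_cases h : e ∈ M ∧ e ≠ 0
  · rw [E_apply b s h.1 h.2] at hγ
    obtain ⟨n, rfl⟩ := Efn_ne_zero hγ
    exact (AddSubmonoid.mem_multiples_iff _ _).2 ⟨n, rfl⟩
  · rw [efun_E_of_not b s h] at hγ
    by_cases h0 : γ = 0
    · rw [h0]; exact AddSubmonoid.zero_mem _
    · exact absurd (zf_of_ne h0) hγ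

/-- `hE_succ`. -/
theorem E_true_succ (s : ℤ) {e : N} (he : e ∈ M) (h0 : e ≠ 0) :
    (E M true s e).1 = (1 + vp s • z M e) * (E M true (s + 2) e).1 := by
  ext γ : 1
  rw [add_mul, one_mul, smul_mul_assoc, A.add_apply, A.smul_apply, efun_z_mul]
  rcases efun_cases h0 γ with ⟨h1, h2⟩ | ⟨k, h1, h2, h3⟩ | ⟨h1, h2⟩
  · rw [E_apply _ _ he h0 (γ - e), efun_zero_of_not _ _ h2, h1, Gp.zero, Gp.zero]
    simp
  · rw [h2, h3, h1]
    simp only [E_apply _ _ he h0, Efn_nsmul _ _ h0, cE]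
    have h4 := efun_cE_succ true k
    rw [if_pos rfl] at h4
    have e1 : vp ((s + 2) * ((k + 1 : ℕ) : ℤ)) = vp (s * ((k + 1 : ℕ) : ℤ)) * vp (2 * ((k : ℤ) + 1)) := by
      rw [← vp_add]; congr 1; push_cast; ring
    have e2 : vp s * vp ((s + 2) * (k : ℤ)) = vp (s * ((k + 1 : ℕ) : ℤ)) * vp (2 * (k : ℤ)) := by
      rw [← vp_add, ← vp_add]; congr 1; push_cast; ring
    rw [e1, vp_zero]
    linear_combination vp (s * ((k + 1 : ℕ) : ℤ)) * h4 - iq (hE true k) * e2
  · simp only [E_apply _ _ he h0, efun_zero_of_not _ _ h1, efun_zero_of_not _ _ h2]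
    simp

theorem E_false_succ (s : ℤ) {e : N} (he : e ∈ M) (h0 : e ≠ 0) :
    (1 - vp s • z M e) * (E M false s e).1 = (E M false (s + 2) e).1 := by
  ext γ : 1
  rw [sub_mul, one_mul, smul_mul_assoc, A.sub_apply, A.smul_apply, efun_z_mul]
  rcases efun_cases h0 γ with ⟨h1, h2⟩ | ⟨k, h1, h2, h3⟩ | ⟨h1, h2⟩
  · rw [E_apply _ _ he h0 (γ - e), efun_zero_of_not _ _ h2, h1, Gp.zero, Gp.zero]
    simp
  · rw [h2, h3, h1]
    simp only [E_apply _ _ he h0, Efn_nsmul _ _ h0, cE]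
    have h4 := efun_cE_succ false k
    rw [if_neg Bool.false_ne_true] at h4
    have e1 : vp ((s + 2) * ((k + 1 : ℕ) : ℤ)) = vp (s * ((k + 1 : ℕ) : ℤ)) * vp (2 * ((k : ℤ) + 1)) := by
      rw [← vp_add]; congr 1; push_cast; ring
    have e2 : vp s * vp (s * (k : ℤ)) = vp (s * ((k + 1 : ℕ) : ℤ)) := by
      rw [← vp_add]; congr 1; push_cast; ring
    rw [e1, vp_zero]
    linear_combination vp (s * ((k + 1 : ℕ) : ℤ)) * h4 - iq (hE false k) * e2
  · simp only [E_apply _ _ he h0, efun_zero_of_not _ _ h1, efun_zero_of_not _ _ h2]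
    simp

theorem E_mul_z (b : Bool) (s : ℤ) (e p : N) :
    (E M b s e).1 * z M p = z M p * (E M b (s + 2 * ω e p) e).1 := by
  by_cases h : e ∈ M ∧ e ≠ 0
  swap
  · rw [efun_E_of_not b _ h, efun_E_of_not b _ h, Gp.val_one, one_mul, mul_one]
  ext γ : 1
  rw [grp_mul_z, efun_z_mul, E_apply _ _ h.1 h.2, E_apply _ _ h.1 h.2]
  by_cases hn : ∃ n : ℕ, γ - p = n • e
  · obtain ⟨n, hn⟩ := hn
    have h1 : ω γ p = n * ω e p := by
      rw [← sub_add_cancel γ p, hn, map_add, AddMonoidHom.add_apply, ω_self, add_zero, map_nsmul,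
        AddMonoidHom.nsmul_apply, nsmul_eq_mul]
    rw [hn, Efn_nsmul _ _ h.2, Efn_nsmul _ _ h.2, cE, cE, ← mul_assoc, ← mul_assoc, ← vp_add,
      ← vp_add, ω_swap p γ, h1]
    congr 2
    ring
  · push Not at hn
    rw [efun_zero_of_not _ _ hn, efun_zero_of_not _ _ hn, mul_zero, mul_zero]

theorem E_comm (b : Bool) (s : ℤ) (e : N) {x : A M} (hx : SuppIn {a | ω a e = 0} x) :
    (E M b s e).1 * x = x * (E M b s e).1 := by
  have hE : ∀ γ, ω e γ = 0 → SuppIn {a | ω a γ = 0} (E M b s e) := fun γ hγ a ha => by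
    obtain ⟨n, rfl⟩ := (AddSubmonoid.mem_multiples_iff _ _).1 (E_supp b s e a ha)
    change ω (n • e) γ = 0
    rw [map_nsmul, AddMonoidHom.nsmul_apply, hγ, smul_zero]
  have hadd : ∀ a ∈ {a | ω a e = 0}, ∀ c ∈ {a | ω a e = 0}, a + c ∈ {a | ω a e = 0} := by
    intro a ha c hc
    change ω (a + c) e = 0
    rw [map_add, AddMonoidHom.add_apply, show ω a e = 0 from ha, show ω c e = 0 from hc, add_zero]
  ext γ : 1
  by_cases h : ω e γ = 0
  · exact A.mul_comm_apply x (hE γ h)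
  · have h' : γ ∉ {a | ω a e = 0} := fun h1 => h (by rw [ω_swap, show ω γ e = 0 from h1, neg_zero])
    rw [grp_zero_of_not_mem (SuppIn.mul (hE e (ω_self e)) hx hadd) h',
      grp_zero_of_not_mem (SuppIn.mul hx (hE e (ω_self e)) hadd) h']

theorem efun_commute_z (b : Bool) (s : ℤ) {e p : N} (h : ω e p = 0) :
    Commute (E M b s e).1 (z M p) := by
  have := E_mul_z (M := M) b s e p
  rwa [h, mul_zero, add_zero] at this

theorem efun_commute_lin (b : Bool) (s : ℤ) {e p : N} (h : ω e p = 0) (c : R) :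
    Commute (E M b s e).1 (1 + c • z M p) :=
  (Commute.one_right _).add_right ((efun_commute_z b s h).smul_right c)

theorem efun_commute_E (b b' : Bool) (s s' : ℤ) (e : N) : Commute (E M b s e) (E M b' s' e) := by
  refine Subtype.ext (E_comm b s e fun a ha => ?_)
  obtain ⟨n, rfl⟩ := (AddSubmonoid.mem_multiples_iff _ _).1 (E_supp b' s' e a ha)
  change ω (n • e) e = 0
  rw [map_nsmul, AddMonoidHom.nsmul_apply, ω_self, smul_zero]

theorem efun_pos_mul {x y : A M} (hx : ∀ γ, Pos (x γ)) (hy : ∀ γ, Pos (y γ)) (γ : N) :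
    Pos ((x * y) γ) :=
  Pos.finsum fun a => (pos_vp _).mul ((hx a).mul (hy _))

omit [AddCommGroup N] [Alt N] in
theorem efun_pos_zf (p γ : N) : Pos (zf p γ) := by
  by_cases h : γ = p
  · rw [h, zf_self]; exact pos_one
  · rw [zf_of_ne h]; exact pos_zero

theorem efun_ratio_one (b : Bool) (t : ℤ) (e γ : N) :
    Pos (((E M b (t + 2) e)⁻¹ * E M b t e : Gp M) γ) := by
  by_cases h : e ∈ M ∧ e ≠ 0
  swap
  · rw [efun_E_of_not b _ h, efun_E_of_not b _ h, inv_one, mul_one]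
    exact efun_pos_zf 0 γ
  cases b with
  | true =>
    have h1 : ((E M true (t + 2) e)⁻¹ * E M true t e : Gp M).1 = 1 + vp t • z M e := by
      rw [Gp.val_mul, E_true_succ t h.1 h.2, ← (efun_commute_lin true (t + 2) (ω_self e) _).eq,
        ← mul_assoc, Gp.inv_mul_val, one_mul]
    rw [h1, A.add_apply, A.smul_apply]
    exact (efun_pos_zf 0 γ).add ((pos_vp t).mul (efun_pos_zf e γ))
  | false =>
    set G : Gp M := (E M false (t + 2) e)⁻¹ * E M false t e with hG
    have h1 : (1 - vp t • z M e) * G.1 = 1 := by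
      rw [hG, ((efun_commute_E false false (t + 2) t e).inv_left).eq, Gp.val_mul, ← mul_assoc,
        E_false_succ t h.1 h.2, Gp.mul_inv_val]
    have h2 : ∀ γ, G γ = zf 0 γ + vp t * (vp (ω e γ) * G (γ - e)) := by
      intro γ
      have := congrArg (fun w : A M => w γ) h1
      simp only [sub_mul, one_mul, smul_mul_assoc, A.sub_apply, A.smul_apply, efun_z_mul,
        grp_one_apply] at this
      rw [← this]
      ring
    have key : ∀ n : ℕ, ∀ γ, (dg M γ).toNat = n → Pos (G γ) := by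
      intro n
      induction n using Nat.strong_induction_on with
      | _ n ih =>
        intro γ hn
        rw [h2]
        refine (efun_pos_zf 0 γ).add ((pos_vp _).mul ((pos_vp _).mul ?_))
        by_cases hm : γ - e ∈ M
        · have h3 := dg_nonneg hm
          have h4 := dg_pos h.1 h.2
          refine ih _ ?_ _ rfl
          rw [map_sub] at h3 ⊢
          omega
        · rw [grp_zero_of_not_mem G.supp hm]
          exact pos_zero
    exact key _ γ rfl

/-- `(E (s+2m))⁻¹ E s` is a finite product of `1 + v^j z^e`, resp. of geometric series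
`(1 - v^j z^e)⁻¹ = ∑ v^{jn} z^{ne}`. -/
theorem E_ratio_pos (b : Bool) (s : ℤ) (e : N) (m : ℕ) (γ : N) :
    Pos (((E M b (s + 2 * m) e)⁻¹ * E M b s e : Gp M) γ) := by
  induction m generalizing γ with
  | zero =>
    rw [Nat.cast_zero, mul_zero, add_zero, inv_mul_cancel]
    exact efun_pos_zf 0 γ
  | succ m ih =>
    have e1 : ((E M b (s + 2 * ((m + 1 : ℕ) : ℤ)) e)⁻¹ * E M b s e : Gp M) =
        ((E M b (s + 2 * m + 2) e)⁻¹ * E M b (s + 2 * m) e) *
          ((E M b (s + 2 * m) e)⁻¹ * E M b s e) := by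
      rw [show s + 2 * ((m + 1 : ℕ) : ℤ) = s + 2 * m + 2 by push_cast; ring]
      group
    rw [e1]
    exact efun_pos_mul (efun_ratio_one b _ e) ih γ

theorem E_conj_pos (b : Bool) (s : ℤ) {e p : N} (h : 0 ≤ ω e p) (r : N) :
    Pos ((((E M b s e)⁻¹).1 * z M p * (E M b s e).1) r) := by
  obtain ⟨m, hm⟩ := Int.eq_ofNat_of_zero_le h
  have h1 := E_mul_z (M := M) b (s - 2 * m) e p
  rw [hm, sub_add_cancel] at h1
  have h2 := E_ratio_pos (M := M) b (s - 2 * m) e m
  rw [sub_add_cancel] at h2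
  rw [mul_assoc, ← h1, ← mul_assoc, grp_mul_z]
  exact (pos_vp _).mul (h2 _)

theorem E_conj_pos' (b : Bool) (s : ℤ) {e p : N} (h : ω e p ≤ 0) (r : N) :
    Pos (((E M b s e).1 * z M p * ((E M b s e)⁻¹).1) r) := by
  obtain ⟨m, hm⟩ := Int.eq_ofNat_of_zero_le (neg_nonneg.2 h)
  have h1 := E_mul_z (M := M) b s e p
  rw [show s + 2 * ω e p = s - 2 * m by omega] at h1
  have h2 := E_ratio_pos (M := M) b (s - 2 * m) e m
  rw [sub_add_cancel, ((efun_commute_E b b s (s - 2 * m) e).inv_left).eq] at h2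
  rw [h1, mul_assoc, efun_z_mul]
  exact (pos_vp _).mul (h2 _)

/-- The quantum dilogarithm of cluster theory. -/
abbrev Psi (M : AddSubmonoid N) [Good M] (e : N) : Gp M := E M true 1 e

theorem cE_one_ne_zero : cE true 1 1 ≠ 0 := by
  have h := efun_cE_succ true 0
  refine mul_ne_zero (vp_ne_zero _) fun h0 => ?_
  rw [zero_add, h0] at h
  simp [hE] at h

theorem psi_conj_zero {e p : N} (h : ω e p = 0) : z M p * (Psi M e).1 = (Psi M e).1 * z M p := by
  exact (efun_commute_z true 1 h).eq.symm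

theorem psi_conj_one {e p : N} (he : e ∈ M) (h0 : e ≠ 0) (h : ω e p = 1) :
    z M p * (Psi M e).1 = (Psi M e).1 * (z M p + z M (p + e)) := by
  have h1 := E_mul_z (M := M) true (-1) e p
  rw [h, show (-1 : ℤ) + 2 * 1 = 1 by norm_num] at h1
  have h2 := E_true_succ (M := M) (-1) he h0
  rw [show (-1 : ℤ) + 2 = 1 by norm_num] at h2
  rw [← h1, h2, ← (efun_commute_lin true 1 (ω_self e) _).eq, mul_assoc, add_mul, one_mul,
    smul_mul_assoc, z_mul_z, h, smul_smul, ← vp_add, add_comm e p]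
  simp

theorem psi_conj_neg {e p : N} (he : e ∈ M) (h0 : e ≠ 0) (h : ω e p = -1) :
    (z M p + z M (p + e)) * (Psi M e).1 = (Psi M e).1 * z M p := by
  have h1 := E_mul_z (M := M) true 1 e p
  rw [h, show (1 : ℤ) + 2 * -1 = -1 by norm_num] at h1
  have h2 := E_true_succ (M := M) (-1) he h0
  rw [show (-1 : ℤ) + 2 = 1 by norm_num] at h2
  rw [h1, h2, ← mul_assoc, mul_add, mul_one, mul_smul_comm, z_mul_z, ω_swap p e, h, smul_smul,
    ← vp_add]
  simp

/-- The polynomial `z^p ∏_{i<m} (1 + v^{2i+1} z^e)`; for `ω e p = m` it equals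
`∑_j [m choose j] z^{p + j e}`. -/
def cj (e p : N) (m : ℕ) : A (⊥ : AddSubmonoid N) :=
  z ⊥ p * ((List.range m).map fun i : ℕ => 1 + vp (2 * i + 1) • z ⊥ e).prod

theorem efun_fin_cj (e p : N) (m : ℕ) : fin M (cj e p m) =
    z M p * ((List.range m).map fun i : ℕ => 1 + vp (2 * i + 1) • z M e).prod := by
  rw [cj, map_mul, map_list_prod, List.map_map]
  rfl

theorem efun_E_prod {e : N} (he : e ∈ M) (h0 : e ≠ 0) (m : ℕ) :
    (E M true 1 e).1 = ((List.range m).map fun i : ℕ => 1 + vp (2 * i + 1) • z M e).prod *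
      (E M true (1 + 2 * m) e).1 := by
  induction m with
  | zero => simp
  | succ m ih =>
    rw [List.range_succ, List.map_append, List.prod_append, List.map_singleton, List.prod_singleton,
      mul_assoc, ih, E_true_succ _ he h0]
    push_cast
    rw [add_comm (2 * (m : ℤ)) 1, show (1 : ℤ) + 2 * (m + 1) = 1 + 2 * m + 2 by ring]

theorem efun_E_prod' {e : N} (he : -e ∈ M) (h0 : e ≠ 0) (m : ℕ) :
    ((List.range m).map fun i : ℕ => 1 + vp (2 * i + 1) • z M e).prod * (E M true 1 (-e)).1 =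
      vp (m * m) • z M (m • e) * (E M true (1 - 2 * m) (-e)).1 := by
  have hω : ω (-e) e = 0 := by rw [map_neg, AddMonoidHom.neg_apply, ω_self, neg_zero]
  induction m with
  | zero => simp [z_zero]
  | succ m ih =>
    rw [List.range_succ, List.map_append, List.prod_append, List.map_singleton, List.prod_singleton,
      mul_assoc, ← (efun_commute_lin true 1 hω _).eq, ← mul_assoc, ih, mul_assoc,
      (efun_commute_lin true _ hω _).eq, E_true_succ (1 - 2 * ((m + 1 : ℕ) : ℤ)) he (neg_ne_zero.2 h0),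
      show (1 : ℤ) - 2 * ((m + 1 : ℕ) : ℤ) + 2 = 1 - 2 * m by push_cast; ring, ← mul_assoc,
      ← mul_assoc]
    congr 1
    have h1 : ω (m • e) e = 0 := by rw [map_nsmul, AddMonoidHom.nsmul_apply, ω_self, smul_zero]
    have h2 : ω ((m + 1) • e) (-e) = 0 := by
      rw [map_neg, map_nsmul, AddMonoidHom.nsmul_apply, ω_self, smul_zero, neg_zero]
    simp only [mul_add, mul_one, smul_mul_assoc, mul_smul_comm, z_mul_z, h1, h2, vp_zero, one_smul,
      smul_smul, ← vp_add]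
    rw [succ_nsmul, add_neg_cancel_right, add_comm]
    congr 3
    · push_cast; ring
    · push_cast; ring

theorem psi_conj_cj {e p : N} (he : e ∈ M) (h0 : e ≠ 0) {m : ℕ} (h : ω e p = m) :
    ((Psi M e)⁻¹).1 * z M p * (Psi M e).1 = fin M (cj e p m) := by
  have h1 := E_mul_z (M := M) true 1 e p
  rw [h] at h1
  have hc : Commute (E M true (1 + 2 * m) e).1
      ((List.range m).map fun i : ℕ => 1 + vp (2 * i + 1) • z M e).prod := by
    refine Commute.list_prod_right _ _ fun x hx => ?_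
    obtain ⟨i, -, rfl⟩ := List.mem_map.1 hx
    exact efun_commute_lin true _ (ω_self e) _
  rw [efun_fin_cj, mul_assoc]
  conv_lhs => enter [2, 2]; rw [efun_E_prod he h0 m, ← hc.eq]
  rw [← mul_assoc (z M p), ← h1, mul_assoc, ← mul_assoc, Gp.inv_mul_val, one_mul]

/-- `1 + v^{2i+1} z^e = v^{2i+1} z^e (1 + v^{-2i-1} z^{-e})` and `z^p (z^e)^m = v^{-m²} z^{p+me}`. -/
theorem psi_conj_cj' {e p : N} (he : -e ∈ M) (h0 : e ≠ 0) {m : ℕ} (h : ω e p = m) :
    (Psi M (-e)).1 * z M (p + m • e) * ((Psi M (-e))⁻¹).1 = fin M (cj e p m) := by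
  have h1 := E_mul_z (M := M) true 1 (-e) (p + m • e)
  have h2 : ω (-e) (p + m • e) = -m := by
    rw [map_add, map_nsmul, map_neg, AddMonoidHom.neg_apply, AddMonoidHom.neg_apply, ω_self, h]
    simp
  have h3 : ω p (m • e) = -(m * m) := by
    rw [map_nsmul, ω_swap, h]
    simp
  rw [h2, show (1 : ℤ) + 2 * -(m : ℤ) = 1 - 2 * m by ring] at h1
  have h4 := congrArg (fun w => z M p * w * ((Psi M (-e))⁻¹).1) (efun_E_prod' he h0 m)
  simp only [mul_assoc, Gp.mul_inv_val, mul_one] at h4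
  rw [efun_fin_cj, h4, h1, ← mul_assoc (z M p), mul_smul_comm, z_mul_z, h3, smul_smul, ← vp_add,
    add_neg_cancel, vp_zero, one_smul, mul_assoc]

end

end Crest.Agent.R59
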