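import Crest.Agent.R59.Grp

/-!
# R59/Fact: stabilities and the factorisation `g = P W R`
-/

set_option autoImplicit false
set_option linter.unusedSectionVars false
set_option linter.unusedVariables false

namespace Crest.Agent.R59

noncomputable section

/-- Sign patterns of additive functions with values in ordered groups. -/
structure Stab (N : Type) [AddCommGroup N] where
  s : N → SignType
  neg : ∀ a, s (-a) = -s a
  add_neg : ∀ a b, s a = -1 → s b ≤ 0 → s (a + b) = -1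
  add_zero : ∀ a b, s a = 0 → s b = 0 → s (a + b) = 0

variable {N : Type} [AddCommGroup N]

theorem Stab.zero (σ : Stab N) : σ.s 0 = 0 := by
  have h := σ.neg 0
  rw [neg_zero] at h
  exact SignType.self_eq_neg_iff.1 h

theorem Stab.add_pos (σ : Stab N) {a b : N} (ha : σ.s a = 1) (hb : 0 ≤ σ.s b) : σ.s (a + b) = 1 := by
  have h := σ.add_neg (-a) (-b) (by rw [σ.neg, ha])
    (by rw [σ.neg]; revert hb; cases σ.s b <;> decide)
  rw [← neg_add, σ.neg] at h
  exact neg_injective h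

theorem fact_sign_cases (t : SignType) : t = -1 ∨ t = 0 ∨ t = 1 := by cases t <;> simp

/-- The sign of a real functional. -/
def Stab.ofR (θ : N →+ ℝ) : Stab N where
  s a := SignType.sign (θ a)
  neg := fun a => by rw [map_neg, Left.sign_neg]
  add_neg := fun a b ha hb => by
    rw [sign_eq_neg_one_iff] at ha ⊢
    rw [sign_nonpos_iff] at hb
    rw [map_add]; linarith
  add_zero := fun a b ha hb => by
    rw [sign_eq_zero_iff] at ha hb ⊢
    rw [map_add, ha, hb, _root_.add_zero]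

/-- The sign of an integer functional. -/
def Stab.ofZ (θ : N →+ ℤ) : Stab N := Stab.ofR ((Int.castAddHom ℝ).comp θ)

theorem Stab.ofR_s (θ : N →+ ℝ) (a : N) : (Stab.ofR θ).s a = SignType.sign (θ a) := rfl

theorem Stab.ofZ_s (θ : N →+ ℤ) (a : N) : (Stab.ofZ θ).s a = SignType.sign (θ a) := by
  change SignType.sign ((θ a : ℤ) : ℝ) = _
  rcases lt_trichotomy (θ a) 0 with h | h | h
  · rw [sign_neg h, sign_neg (by exact_mod_cast h)]
  · rw [h]; simp
  · rw [sign_pos h, sign_pos (by exact_mod_cast h)]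

/-- Lexicographic refinement. -/
def Stab.lex (σ τ : Stab N) : Stab N where
  s a := if σ.s a = 0 then τ.s a else σ.s a
  neg := fun a => by
    rw [σ.neg, τ.neg]
    by_cases h : σ.s a = 0 <;> simp [h]
  add_neg := fun a b ha hb => by
    by_cases h1 : σ.s a = 0
    · rw [if_pos h1] at ha
      by_cases h2 : σ.s b = 0
      · rw [if_pos h2] at hb
        rw [if_pos (σ.add_zero a b h1 h2)]
        exact τ.add_neg a b ha hb
      · rw [if_neg h2] at hb
        have h3 : σ.s b = -1 := by revert hb h2; cases σ.s b <;> decide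
        have h4 : σ.s (a + b) = -1 := by rw [add_comm]; exact σ.add_neg b a h3 h1.le
        rw [h4]; rfl
    · rw [if_neg h1] at ha
      have h2 : σ.s b ≤ 0 := by
        by_cases h2 : σ.s b = 0
        · exact h2.le
        · rwa [if_neg h2] at hb
      rw [σ.add_neg a b ha h2]; rfl
  add_zero := fun a b ha hb => by
    have h1 : σ.s a = 0 := by
      by_contra h; rw [if_neg h] at ha; exact h ha
    have h2 : σ.s b = 0 := by
      by_contra h; rw [if_neg h] at hb; exact h hb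
    rw [if_pos h1] at ha
    rw [if_pos h2] at hb
    rw [if_pos (σ.add_zero a b h1 h2)]
    exact τ.add_zero a b ha hb

theorem Stab.lex_s (σ τ : Stab N) (a : N) :
    (σ.lex τ).s a = if σ.s a = 0 then τ.s a else σ.s a := rfl

/-- Pull-back. -/
def Stab.comap (σ : Stab N) (T : N →+ N) : Stab N where
  s a := σ.s (T a)
  neg := fun a => by rw [map_neg, σ.neg]
  add_neg := fun a b ha hb => by rw [map_add]; exact σ.add_neg _ _ ha hb
  add_zero := fun a b ha hb => by rw [map_add]; exact σ.add_zero _ _ ha hb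

/-- `{0} ∪ {σ < 0}`. -/
def Stab.ng (σ : Stab N) : AddSubmonoid N where
  carrier := {a | a = 0 ∨ σ.s a = -1}
  zero_mem' := Or.inl rfl
  add_mem' := by
    rintro a b (rfl | ha) hb
    · rwa [zero_add]
    · rcases hb with rfl | hb
      · rw [_root_.add_zero]; exact Or.inr ha
      · exact Or.inr (σ.add_neg a b ha (by rw [hb]; decide))

/-- `{σ = 0}`. -/
def Stab.ker (σ : Stab N) : AddSubmonoid N where
  carrier := {a | σ.s a = 0}
  zero_mem' := σ.zero
  add_mem' := fun ha hb => σ.add_zero _ _ ha hb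

/-- `{0} ∪ {σ > 0}`. -/
def Stab.ps (σ : Stab N) : AddSubmonoid N where
  carrier := {a | a = 0 ∨ σ.s a = 1}
  zero_mem' := Or.inl rfl
  add_mem' := by
    rintro a b (rfl | ha) hb
    · rwa [zero_add]
    · rcases hb with rfl | hb
      · rw [_root_.add_zero]; exact Or.inr ha
      · exact Or.inr (σ.add_pos ha (by rw [hb]; decide))

theorem Stab.mem_ng {σ : Stab N} {a : N} : a ∈ σ.ng ↔ a = 0 ∨ σ.s a = -1 := Iff.rfl
theorem Stab.mem_ker {σ : Stab N} {a : N} : a ∈ σ.ker ↔ σ.s a = 0 := Iff.rfl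
theorem Stab.mem_ps {σ : Stab N} {a : N} : a ∈ σ.ps ↔ a = 0 ∨ σ.s a = 1 := Iff.rfl

/-- On finite sets the pattern is that of a real functional. -/
def Stab.Real (σ : Stab N) : Prop :=
  ∀ B : Finset N, ∃ θ : N →+ ℝ, ∀ a ∈ B, σ.s a = SignType.sign (θ a)

theorem Stab.real_ofR (θ : N →+ ℝ) : (Stab.ofR θ).Real := fun _ => ⟨θ, fun _ _ => rfl⟩

theorem Stab.real_ofZ (θ : N →+ ℤ) : (Stab.ofZ θ).Real := Stab.real_ofR _

/-- `θ + ε η` for small `ε > 0`. -/
theorem exists_eps (B : Finset N) (θ η : N →+ ℝ) : ∃ ε0 : ℝ, 0 < ε0 ∧ ∀ ε : ℝ, 0 < ε → ε ≤ ε0 →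
    ∀ a ∈ B, SignType.sign (θ a + ε * η a) = ((Stab.ofR θ).lex (Stab.ofR η)).s a := by
  classical
  induction B using Finset.induction_on with
  | empty => exact ⟨1, one_pos, fun _ _ _ a ha => absurd ha (Finset.notMem_empty a)⟩
  | insert b B _ ih =>
    obtain ⟨ε1, h1, ih⟩ := ih
    have hb : ∃ ε2 : ℝ, 0 < ε2 ∧ ∀ ε : ℝ, 0 < ε → ε ≤ ε2 →
        SignType.sign (θ b + ε * η b) = ((Stab.ofR θ).lex (Stab.ofR η)).s b := by
      rw [Stab.lex_s, Stab.ofR_s, Stab.ofR_s]
      by_cases h0 : θ b = 0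
      · refine ⟨1, one_pos, fun ε hε _ => ?_⟩
        rw [h0, zero_add, sign_mul, sign_pos hε, one_mul, sign_zero, if_pos rfl]
      · have hp : 0 < |θ b| := abs_pos.2 h0
        refine ⟨|θ b| / (|η b| + 1), by positivity, fun ε hε hle => ?_⟩
        rw [if_neg (fun h => h0 (sign_eq_zero_iff.1 h))]
        rw [le_div_iff₀ (by positivity)] at hle
        have h2 : |ε * η b| < |θ b| := by rw [abs_mul, abs_of_pos hε]; linarith
        have h3 := abs_lt.1 h2
        rcases lt_or_gt_of_ne h0 with h | h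
        · rw [abs_of_neg h] at h3
          rw [sign_neg h, sign_neg (by linarith)]
        · rw [abs_of_pos h] at h3
          rw [sign_pos h, sign_pos (by linarith)]
    obtain ⟨ε2, h2, hb⟩ := hb
    refine ⟨min ε1 ε2, lt_min h1 h2, fun ε hε hle a ha => ?_⟩
    rcases Finset.mem_insert.1 ha with rfl | ha
    · exact hb ε hε (hle.trans (min_le_right _ _))
    · exact ih ε hε (hle.trans (min_le_left _ _)) a ha

theorem Stab.Real.lex {σ τ : Stab N} (hσ : σ.Real) (hτ : τ.Real) : (σ.lex τ).Real := by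
  intro B
  obtain ⟨θ, hθ⟩ := hσ B
  obtain ⟨η, hη⟩ := hτ B
  obtain ⟨ε, hε, h⟩ := exists_eps B θ η
  refine ⟨θ + (AddMonoidHom.mulLeft ε).comp η, fun a ha => ?_⟩
  have := h ε hε le_rfl a ha
  rw [Stab.lex_s, Stab.ofR_s, Stab.ofR_s] at this
  rw [Stab.lex_s, hθ a ha, hη a ha, ← this]
  rfl

variable [Alt N] {M : AddSubmonoid N} [Good M]

/-- The attractor stability `a ↦ ω a γ`. -/
def attr (γ : N) : Stab N := Stab.ofZ ((ω : N →+ N →+ ℤ).flip γ)

/-- The opposite of the attractor stability. -/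
def rattr (γ : N) : Stab N := Stab.ofZ ((ω : N →+ N →+ ℤ) γ)

theorem attr_s (γ a : N) : (attr γ).s a = SignType.sign (ω a γ) :=
  Stab.ofZ_s _ _

theorem rattr_s (γ a : N) : (rattr γ).s a = SignType.sign (ω γ a) :=
  Stab.ofZ_s _ _

/-- Factorisations. -/
structure IsFact (σ : Stab N) (g P W Q : Gp M) : Prop where
  eq : g = P * W * Q
  hP : SuppIn σ.ng P
  hW : SuppIn σ.ker W
  hQ : SuppIn σ.ps Q

omit [Alt N] in
theorem fact_ind (p : N → Prop) (h0 : ∀ γ, γ ∉ M ∨ γ = 0 → p γ)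
    (hstep : ∀ γ ∈ M, γ ≠ 0 → (∀ a, dg M a < dg M γ → p a) → p γ) (γ : N) : p γ := by
  have key : ∀ n : ℕ, ∀ γ, dg M γ < n → p γ := by
    intro n
    induction n with
    | zero =>
      intro γ h
      refine h0 γ (Or.inl fun hm => ?_)
      have := dg_nonneg hm
      omega
    | succ n ih =>
      intro γ h
      by_cases hm : γ ∈ M
      · by_cases hz : γ = 0
        · exact h0 γ (Or.inr hz)
        · exact hstep γ hm hz fun a ha => ih a (by omega)
      · exact h0 γ (Or.inl hm)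
  exact key ((dg M γ).toNat + 1) γ (by omega)

theorem fact_triv (x y : Gp M) {γ : N} (h : γ ∉ M ∨ γ = 0) : x γ = y γ := by
  rcases h with h | rfl
  · have h1 : x γ = 0 := by by_contra h'; exact h (x.supp γ h')
    have h2 : y γ = 0 := by by_contra h'; exact h (y.supp γ h')
    rw [h1, h2]
  · rw [x.zero, y.zero]

theorem fact_lim_triv (x : ℕ → Gp M) (y : Gp M) {γ : N} (h : γ ∉ M ∨ γ = 0) :
    Lim (fun k => x k γ) (y γ) := by
  have : (fun k => x k γ) = fun _ => y γ := funext fun k => fact_triv _ _ h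
  rw [this]; exact lim_const _

omit [Alt N] in
theorem fact_lower_cut {S : Set N} (hS : Lower M S) (γ : N) :
    Lower M (S ∩ {a | dg M a < dg M γ}) :=
  fun a ha b hb h => ⟨hS a ha b hb h.1, lower_deg_lt _ a ha b hb h.2⟩

omit [Alt N] in
theorem fact_top_cut {S : Set N} (hS : Lower M S) {γ : N} (hγ : γ ∈ S) :
    Top M (S ∩ {a | dg M a < dg M γ}) γ :=
  fun a ha b hb h0 h => ⟨hS a ha b hb (h ▸ hγ), top_deg γ a ha b hb h0 h⟩

theorem fact_top3 {S : Set N} (hS : Lower M S) {γ : N} (hγ : γ ≠ 0) (hT : Top M S γ)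
    {P W Q : ℕ → Gp M} {P' W' Q' : Gp M} (hP : LimOn S (fun k => P k) P')
    (hW : LimOn S (fun k => W k) W') (hQ : LimOn S (fun k => Q k) Q') :
    Lim (fun k => (P k * W k * Q k : Gp M) γ - (P k γ + W k γ + Q k γ))
      ((P' * W' * Q' : Gp M) γ - (P' γ + W' γ + Q' γ)) := by
  have h1 := LimOn.mul_top (x := fun k => P k * W k) hγ hT (LimOn.mul hS hP hW) hQ
  have h2 := LimOn.mul_top hγ hT hP hW
  convert h1.add h2 using 1
  · funext k; ring
  · ring

theorem fact_vanish {σ : Stab N} {g P W Q : Gp M} (h : IsFact σ g P W Q) {γ : N} (hγ : γ ≠ 0) :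
    (σ.s γ ≠ -1 → P γ = 0) ∧ (σ.s γ ≠ 0 → W γ = 0) ∧ (σ.s γ ≠ 1 → Q γ = 0) := by
  refine ⟨fun hs => ?_, fun hs => ?_, fun hs => ?_⟩
  · by_contra h'; exact (h.hP γ h').elim hγ hs
  · by_contra h'; exact hs (h.hW γ h')
  · by_contra h'; exact (h.hQ γ h').elim hγ hs

theorem fact_core {σ σ' : Stab N} {S : Set N} (hS : Lower M S)
    (hσ : ∀ a ∈ S, a ∈ M → σ.s a = σ'.s a) {x P W Q : ℕ → Gp M} {y P' W' Q' : Gp M}
    (hx : ∀ k, IsFact σ (x k) (P k) (W k) (Q k)) (hy : IsFact σ' y P' W' Q')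
    (h : LimOn S (fun k => x k) y) :
    LimOn S (fun k => P k) P' ∧ LimOn S (fun k => W k) W' ∧ LimOn S (fun k => Q k) Q' := by
  have key : ∀ γ, γ ∈ S → Lim (fun k => P k γ) (P' γ) ∧ Lim (fun k => W k γ) (W' γ) ∧
      Lim (fun k => Q k γ) (Q' γ) := by
    refine fact_ind (M := M) _ (fun γ hγ _ => ⟨fact_lim_triv _ _ hγ, fact_lim_triv _ _ hγ,
      fact_lim_triv _ _ hγ⟩) fun γ hm h0 ih hγ => ?_
    have h1 := fact_top3 (fact_lower_cut hS γ) h0 (fact_top_cut hS hγ) (P := P) (W := W) (Q := Q)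
      (P' := P') (W' := W') (Q' := Q') (fun a ha => (ih a ha.2 ha.1).1)
      (fun a ha => (ih a ha.2 ha.1).2.1) (fun a ha => (ih a ha.2 ha.1).2.2)
    simp only [← (hx _).eq, ← hy.eq] at h1
    have h2 := (h γ hγ).sub h1
    simp only [sub_sub_cancel] at h2
    have hv := fun k => fact_vanish (hx k) h0
    have hv' := fact_vanish hy h0
    rw [← hσ γ hγ hm] at hv'
    rcases fact_sign_cases (σ.s γ) with hs | hs | hs
    · have e1 := fun k => (hv k).2.1 (by rw [hs]; decide)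
      have e2 := fun k => (hv k).2.2 (by rw [hs]; decide)
      have e3 := hv'.2.1 (by rw [hs]; decide)
      have e4 := hv'.2.2 (by rw [hs]; decide)
      simp only [e1, e2, e3, e4, add_zero] at h2 ⊢
      exact ⟨h2, lim_const _, lim_const _⟩
    · have e1 := fun k => (hv k).1 (by rw [hs]; decide)
      have e2 := fun k => (hv k).2.2 (by rw [hs]; decide)
      have e3 := hv'.1 (by rw [hs]; decide)
      have e4 := hv'.2.2 (by rw [hs]; decide)
      simp only [e1, e2, e3, e4, add_zero, zero_add] at h2 ⊢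
      exact ⟨lim_const _, h2, lim_const _⟩
    · have e1 := fun k => (hv k).1 (by rw [hs]; decide)
      have e2 := fun k => (hv k).2.1 (by rw [hs]; decide)
      have e3 := hv'.1 (by rw [hs]; decide)
      have e4 := hv'.2.1 (by rw [hs]; decide)
      simp only [e1, e2, e3, e4, add_zero, zero_add] at h2 ⊢
      exact ⟨lim_const _, lim_const _, h2⟩
  exact ⟨fun γ hγ => (key γ hγ).1, fun γ hγ => (key γ hγ).2.1, fun γ hγ => (key γ hγ).2.2⟩

open Classical in
/-- The part of `1 + u` with a given sign. -/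
def fact_part (σ : Stab N) (t : SignType) (u : {a : N // a ∈ M ∧ a ≠ 0} → R) : Gp M :=
  Gp.mk' (fun γ => if h : γ ∈ M ∧ γ ≠ 0 then (if σ.s γ = t then u ⟨γ, h⟩ else 0)
      else if γ = 0 then 1 else 0) (by simp) fun γ hγ => by
    by_contra hm
    apply hγ
    have h0 : γ ≠ 0 := fun h => hm (h ▸ M.zero_mem)
    simp only [if_neg h0]
    exact dif_neg fun h => hm h.1

theorem fact_part_apply (σ : Stab N) (t : SignType) (u : {a : N // a ∈ M ∧ a ≠ 0} → R)
    (i : {a : N // a ∈ M ∧ a ≠ 0}) : fact_part σ t u i.1 = if σ.s i.1 = t then u i else 0 :=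
  dif_pos i.2

theorem fact_part_supp (σ : Stab N) (t : SignType) (u : {a : N // a ∈ M ∧ a ≠ 0} → R) {γ : N}
    (h : fact_part σ t u γ ≠ 0) : γ = 0 ∨ σ.s γ = t := by
  by_cases h0 : γ = 0
  · exact Or.inl h0
  · refine Or.inr ?_
    by_contra ht
    exact h ((fact_part_apply σ t u ⟨γ, (fact_part σ t u).supp γ h, h0⟩).trans (if_neg ht))

theorem fact_part_sum (σ : Stab N) (u : {a : N // a ∈ M ∧ a ≠ 0} → R)
    (i : {a : N // a ∈ M ∧ a ≠ 0}) :
    fact_part σ (-1) u i.1 + fact_part σ 0 u i.1 + fact_part σ 1 u i.1 = u i := by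
  simp only [fact_part_apply]
  rcases fact_sign_cases (σ.s i.1) with hs | hs | hs <;> simp [hs]

/-- `tri_bijective` for `u ↦ (1 + u₋)(1 + u₀)(1 + u₊)` on functions `u : {a ∈ M | a ≠ 0} → R`
(use `LimOn.mul_top` with constant sequences and `top_deg`). -/
theorem exists_unique_fact (σ : Stab N) (g : Gp M) :
    ∃! t : Gp M × Gp M × Gp M, IsFact σ g t.1 t.2.1 t.2.2 := by
  have hb := tri_bijective (ι := {a : N // a ∈ M ∧ a ≠ 0}) (A := R) (fun i => (dg M i.1).toNat)
    (fun u i => (fact_part σ (-1) u * fact_part σ 0 u * fact_part σ 1 u : Gp M) i.1) (by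
      intro u u' i hu
      have ha : ∀ t, Agree {a | dg M a < dg M i.1} (fact_part σ t u) (fact_part σ t u') := by
        intro t a ha
        by_cases hm : a ∈ M ∧ a ≠ 0
        · have := dg_nonneg hm.1
          have ha' : dg M a < dg M i.1 := ha
          rw [fact_part_apply σ t u ⟨a, hm⟩, fact_part_apply σ t u' ⟨a, hm⟩,
            hu ⟨a, hm⟩ (by simp only; omega)]
        · exact fact_triv _ _ (by tauto)
      have h1 := fact_top3 (lower_deg_lt _) i.2.2 (top_deg i.1) (P := fun _ => fact_part σ (-1) u)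
        (W := fun _ => fact_part σ 0 u) (Q := fun _ => fact_part σ 1 u)
        (limOn_const_iff.2 (ha _)) (limOn_const_iff.2 (ha _)) (limOn_const_iff.2 (ha _))
      rw [lim_const_iff, fact_part_sum, fact_part_sum] at h1
      exact h1)
  obtain ⟨u, hu⟩ := hb.2 fun i => g i.1
  have hF : IsFact σ g (fact_part σ (-1) u) (fact_part σ 0 u) (fact_part σ 1 u) := by
    refine ⟨Gp.ext fun γ => ?_, fun γ h => fact_part_supp σ _ u h, fun γ h => ?_,
      fun γ h => fact_part_supp σ _ u h⟩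
    · by_cases hm : γ ∈ M ∧ γ ≠ 0
      · exact (congrFun hu ⟨γ, hm⟩).symm
      · exact fact_triv _ _ (by tauto)
    · rcases fact_part_supp σ _ u h with rfl | h
      · exact σ.zero
      · exact h
  refine ⟨(_, _, _), hF, fun t ht => ?_⟩
  have h := fact_core (S := Set.univ) (fun _ _ _ _ _ => Set.mem_univ _) (fun _ _ _ => rfl)
    (x := fun _ => g) (P := fun _ => t.1) (W := fun _ => t.2.1) (Q := fun _ => t.2.2)
    (fun _ => ht) hF fun γ _ => lim_const _
  refine Prod.ext (Gp.ext fun γ => ?_) (Prod.ext (Gp.ext fun γ => ?_) (Gp.ext fun γ => ?_))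
  · exact lim_const_iff.1 (h.1 γ (Set.mem_univ _))
  · exact lim_const_iff.1 (h.2.1 γ (Set.mem_univ _))
  · exact lim_const_iff.1 (h.2.2 γ (Set.mem_univ _))

def fP (σ : Stab N) (g : Gp M) : Gp M := (Classical.choose (exists_unique_fact σ g).exists).1
def fW (σ : Stab N) (g : Gp M) : Gp M := (Classical.choose (exists_unique_fact σ g).exists).2.1
def fQ (σ : Stab N) (g : Gp M) : Gp M := (Classical.choose (exists_unique_fact σ g).exists).2.2

theorem isFact (σ : Stab N) (g : Gp M) : IsFact σ g (fP σ g) (fW σ g) (fQ σ g) :=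
  Classical.choose_spec (exists_unique_fact σ g).exists

theorem IsFact.unique {σ : Stab N} {g P W Q : Gp M} (h : IsFact σ g P W Q) :
    fP σ g = P ∧ fW σ g = W ∧ fQ σ g = Q := by
  have := (exists_unique_fact σ g).unique (y₁ := (fP σ g, fW σ g, fQ σ g)) (y₂ := (P, W, Q))
    (isFact σ g) h
  simpa using this

theorem fact_incl {M' : AddSubmonoid N} [Good M'] (h : M' ≤ M) (σ : Stab N) {g : Gp M} {g' : Gp M'}
    (hg : ∀ γ, g γ = g' γ) (γ : N) :
    fP σ g γ = fP σ g' γ ∧ fW σ g γ = fW σ g' γ ∧ fQ σ g γ = fQ σ g' γ := by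
  have h1 := isFact σ g'
  have h2 : IsFact σ g (Gp.incl h (fP σ g')) (Gp.incl h (fW σ g')) (Gp.incl h (fQ σ g')) := by
    refine ⟨?_, h1.hP, h1.hW, h1.hQ⟩
    rw [← map_mul, ← map_mul, ← h1.eq]
    exact Gp.ext hg
  obtain ⟨e1, e2, e3⟩ := h2.unique
  rw [e1, e2, e3]
  exact ⟨rfl, rfl, rfl⟩

/-- The factors do not depend on the monoid (factorise in `Gp (M ⊓ M')`). -/
theorem fact_congr {M' : AddSubmonoid N} [Good M'] (σ : Stab N) {g : Gp M} {g' : Gp M'}
    (h : ∀ γ, g γ = g' γ) (γ : N) :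
    fP σ g γ = fP σ g' γ ∧ fW σ g γ = fW σ g' γ ∧ fQ σ g γ = fQ σ g' γ := by
  have hs : SuppIn (M ⊓ M' : AddSubmonoid N) g :=
    fun a ha => ⟨g.supp a ha, g'.supp a (h a ▸ ha)⟩
  have h1 := fact_incl (inf_le_left : M ⊓ M' ≤ M) σ (g := g) (g' := Gp.res (M ⊓ M') g hs)
    (fun _ => rfl) γ
  have h2 := fact_incl (inf_le_right : M ⊓ M' ≤ M') σ (g := g') (g' := Gp.res (M ⊓ M') g hs)
    (fun a => (h a).symm) γ
  exact ⟨h1.1.trans h2.1.symm, h1.2.1.trans h2.2.1.symm, h1.2.2.trans h2.2.2.symm⟩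

theorem fact_supp (σ : Stab N) {g : Gp M} {M' : AddSubmonoid N} (h : SuppIn M' g) :
    SuppIn M' (fP σ g) ∧ SuppIn M' (fW σ g) ∧ SuppIn M' (fQ σ g) := by
  have hs : SuppIn (M ⊓ M' : AddSubmonoid N) g := fun a ha => ⟨g.supp a ha, h a ha⟩
  have h1 := fact_incl (inf_le_left : M ⊓ M' ≤ M) σ (g := g) (g' := Gp.res (M ⊓ M') g hs)
    (fun _ => rfl)
  refine ⟨fun a ha => ?_, fun a ha => ?_, fun a ha => ?_⟩
  · rw [(h1 a).1] at ha; exact (Gp.supp (M := M ⊓ M') _ a ha).2
  · rw [(h1 a).2.1] at ha; exact (Gp.supp (M := M ⊓ M') _ a ha).2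
  · rw [(h1 a).2.2] at ha; exact (Gp.supp (M := M ⊓ M') _ a ha).2

theorem fact_lex (σ τ : Stab N) (g : Gp M) :
    fP (σ.lex τ) g = fP σ g * fP τ (fW σ g) ∧ fW (σ.lex τ) g = fW τ (fW σ g) ∧
      fQ (σ.lex τ) g = fQ τ (fW σ g) * fQ σ g := by
  have h1 := isFact σ g
  have h2 := isFact τ (fW σ g)
  obtain ⟨k1, k2, k3⟩ := fact_supp τ h1.hW
  refine IsFact.unique ⟨?_, Gp.mul_supp (fun a ha => ?_) fun a ha => ?_, fun a ha => ?_,
    Gp.mul_supp (fun a ha => ?_) fun a ha => ?_⟩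
  · calc g = fP σ g * fW σ g * fQ σ g := h1.eq
      _ = fP σ g * (fP τ (fW σ g) * fW τ (fW σ g) * fQ τ (fW σ g)) * fQ σ g := by rw [← h2.eq]
      _ = _ := by simp only [mul_assoc]
  · refine (h1.hP a ha).imp id fun h => ?_
    rw [Stab.lex_s, h]; rfl
  · refine (h2.hP a ha).imp id fun h => ?_
    rw [Stab.lex_s, if_pos (Stab.mem_ker.1 (k1 a ha)), h]
  · change (σ.lex τ).s a = 0
    rw [Stab.lex_s, if_pos (Stab.mem_ker.1 (k2 a ha))]
    exact h2.hW a ha
  · refine (h2.hQ a ha).imp id fun h => ?_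
    rw [Stab.lex_s, if_pos (Stab.mem_ker.1 (k3 a ha)), h]
  · refine (h1.hQ a ha).imp id fun h => ?_
    rw [Stab.lex_s, h]; rfl

/-- Strong induction on the degree with `LimOn.mul_top`. -/
theorem fact_lim {σ σ' : Stab N} {S : Set N} (hS : Lower M S)
    (hσ : ∀ a ∈ S, a ∈ M → σ.s a = σ'.s a) {x : ℕ → Gp M} {y : Gp M}
    (h : LimOn S (fun k => x k) y) :
    LimOn S (fun k => fP σ (x k)) (fP σ' y) ∧ LimOn S (fun k => fW σ (x k)) (fW σ' y) ∧
      LimOn S (fun k => fQ σ (x k)) (fQ σ' y) :=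
  fact_core hS hσ (fun k => isFact σ (x k)) (isFact σ' y) h

theorem fact_agree {σ σ' : Stab N} {S : Set N} (hS : Lower M S)
    (hσ : ∀ a ∈ S, a ∈ M → σ.s a = σ'.s a) {x y : Gp M} (h : Agree S x y) :
    Agree S (fP σ x) (fP σ' y) ∧ Agree S (fW σ x) (fW σ' y) ∧ Agree S (fQ σ x) (fQ σ' y) := by
  have := fact_lim (x := fun _ => x) hS hσ (limOn_const_iff.2 h)
  exact ⟨limOn_const_iff.1 this.1, limOn_const_iff.1 this.2.1, limOn_const_iff.1 this.2.2⟩

theorem fW_top_lim {σ : Stab N} {S : Set N} (hS : Lower M S) {γ : N} (hT : Top M S γ)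
    (h0 : σ.s γ = 0) {x : ℕ → Gp M} {y : Gp M} (h : LimOn S (fun k => x k) y) :
    Lim (fun k => fW σ (x k) γ - x k γ) (fW σ y γ - y γ) := by
  by_cases hγ : γ = 0
  · subst hγ
    simp only [Gp.zero]
    exact lim_const _
  obtain ⟨h1, h2, h3⟩ := fact_lim (σ := σ) (σ' := σ) hS (fun _ _ _ => rfl) h
  have h4 := (fact_top3 hS hγ hT h1 h2 h3).neg
  have e1 := fun g : Gp M => (fact_vanish (isFact σ g) hγ).1 (by rw [h0]; decide)
  have e2 := fun g : Gp M => (fact_vanish (isFact σ g) hγ).2.2 (by rw [h0]; decide)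
  simp only [← (isFact σ _).eq, e1, e2, zero_add, add_zero, neg_sub] at h4
  exact h4

theorem fW_top {σ : Stab N} {S : Set N} (hS : Lower M S) {γ : N} (hT : Top M S γ)
    (h0 : σ.s γ = 0) {x y : Gp M} (h : Agree S x y) : fW σ x γ - x γ = fW σ y γ - y γ :=
  lim_const_iff.1 (fW_top_lim (x := fun _ => x) hS hT h0 (limOn_const_iff.2 h))

/-- The wall data determine the group element continuously (induction on the degree). -/
theorem lim_of_data {σ : N → Stab N} (hσ : ∀ γ, (σ γ).s γ = 0) {S : Set N} (hS : Lower M S)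
    {x : ℕ → Gp M} {y : Gp M}
    (h : ∀ γ ∈ S, γ ∈ M → γ ≠ 0 → Lim (fun k => fW (σ γ) (x k) γ) (fW (σ γ) y γ)) :
    LimOn S (fun k => x k) y := by
  refine fact_ind (M := M) (fun γ => γ ∈ S → Lim (fun k => x k γ) (y γ))
    (fun γ hγ _ => fact_lim_triv _ _ hγ) fun γ hm h0 ih hγ => ?_
  have h1 := fW_top_lim (fact_lower_cut hS γ) (fact_top_cut hS hγ) (hσ γ) (x := x) (y := y)
    fun a ha => ih a ha.2 ha.1
  have h2 := (h γ hγ hm h0).sub h1
  simpa only [sub_sub_cancel] using h2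

theorem fact_one_supp {γ : N} (h : (1 : Gp M) γ ≠ 0) : γ = 0 := by
  by_contra h0
  exact h (zf_of_ne h0)

theorem fP_eq_one {σ : Stab N} {g : Gp M} (h : ∀ a, g a ≠ 0 → a ≠ 0 → σ.s a = 1) : fP σ g = 1 := by
  refine (IsFact.unique (W := 1) (Q := g) ⟨by simp, fun a ha => Or.inl (fact_one_supp ha),
    fun a ha => ?_, fun a ha => ?_⟩).1
  · rw [fact_one_supp ha]; exact σ.zero
  · by_cases h0 : a = 0
    · exact Or.inl h0
    · exact Or.inr (h a ha h0)

/-- If `x` lives on the orthogonal of `γ`, refining the stability does not change `J` at `γ`. -/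
theorem J_fW (ψ : N →+ ℤ) {σ : Stab N} {x : Gp M} {γ : N} (hx : SuppIn {a | ω a γ = 0} x)
    (hγ : γ ≠ 0) (h0 : σ.s γ = 0) : J ψ (fW σ x) γ = J ψ x γ := by
  have h1 := isFact σ x
  obtain ⟨-, k2, k3⟩ := fact_supp σ (g := x)
    (M' := AddMonoidHom.mker ((ω : N →+ N →+ ℤ).flip γ)) hx
  have e1 : J ψ (fP σ x) γ = 0 := by
    by_contra h
    rcases J_supp ψ h1.hP γ h with h | h
    · exact hγ h
    · rw [h0] at h; exact absurd h (by decide)
  have e2 : J ψ (fQ σ x) γ = 0 := by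
    by_contra h
    rcases J_supp ψ h1.hQ γ h with h | h
    · exact hγ h
    · rw [h0] at h; exact absurd h (by decide)
  conv_rhs => rw [h1.eq]
  rw [J_mul ψ k3, J_mul ψ k2, e1, e2, zero_add, add_zero]

theorem fact_tmul_map (T : N ≃+ N) (hT : ∀ a b, ω (T a) (T b) = ω a b) (f g : N → R) (γ : N) :
    tmul (fun a => f (T.symm a)) (fun a => g (T.symm a)) γ = tmul f g (T.symm γ) := by
  unfold tmul
  rw [← finsum_comp_equiv T.toEquiv]
  refine finsum_congr fun a => ?_
  have h : ω (T a) γ = ω a (T.symm γ) := by rw [← hT a, T.apply_symm_apply]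
  simp only [AddEquiv.toEquiv_eq_coe, EquivLike.coe_coe, h, map_sub, T.symm_apply_apply]

/-- Transport along an `ω`-preserving automorphism. -/
def Gp.map {M M' : AddSubmonoid N} [Good M] [Good M'] (T : N ≃+ N)
    (hT : ∀ a b, ω (T a) (T b) = ω a b) (hM : ∀ a ∈ M, T a ∈ M') : Gp M →* Gp M' where
  toFun x := Gp.mk' (fun γ => x (T.symm γ)) (by simpa using x.zero) fun γ h => by
    simpa using hM _ (x.supp _ h)
  map_one' := Gp.ext fun γ => by
    change zf 0 (T.symm γ) = zf 0 γ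
    by_cases h : γ = 0
    · rw [h, map_zero]
    · rw [zf_of_ne h, zf_of_ne (by simpa using h)]
  map_mul' := fun x y => Gp.ext fun γ => (fact_tmul_map T hT x y γ).symm

theorem Gp.map_apply {M M' : AddSubmonoid N} [Good M] [Good M'] (T : N ≃+ N)
    (hT : ∀ a b, ω (T a) (T b) = ω a b) (hM : ∀ a ∈ M, T a ∈ M') (x : Gp M) (γ : N) :
    Gp.map T hT hM x (T γ) = x γ := by
  change x (T.symm (T γ)) = x γ
  rw [T.symm_apply_apply]

theorem J_map {M M' : AddSubmonoid N} [Good M] [Good M'] (T : N ≃+ N)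
    (hT : ∀ a b, ω (T a) (T b) = ω a b) (hM : ∀ a ∈ M, T a ∈ M') (x : Gp M) (ψ : N →+ ℤ) (γ : N) :
    J ψ (Gp.map T hT hM x) (T γ) = J (ψ.comp T.toAddMonoidHom) x γ := by
  have h := fact_tmul_map T hT (x⁻¹ : Gp M) (del (ψ.comp T.toAddMonoidHom) x.1) (T γ)
  rw [T.symm_apply_apply] at h
  unfold J
  rw [← map_inv]
  refine Eq.trans ?_ h
  change tmul _ _ _ = _
  congr 1
  funext a
  change ((ψ a : ℤ) : R) * x (T.symm a) = ((ψ (T (T.symm a)) : ℤ) : R) * x (T.symm a)
  rw [T.apply_symm_apply]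

theorem J_fW_map {M M' : AddSubmonoid N} [Good M] [Good M'] (T : N ≃+ N)
    (hT : ∀ a b, ω (T a) (T b) = ω a b) (hM : ∀ a ∈ M, T a ∈ M') (x : Gp M) (ψ : N →+ ℤ) (γ : N) :
    J ψ (fW (attr (T γ)) (Gp.map T hT hM x)) (T γ) =
      J (ψ.comp T.toAddMonoidHom) (fW (attr γ) x) γ := by
  have h1 := isFact (attr γ) x
  have hs : ∀ b, (attr (T γ)).s b = (attr γ).s (T.symm b) := fun b => by
    rw [attr_s, attr_s, ← hT (T.symm b), T.apply_symm_apply]
  have h2 : IsFact (attr (T γ)) (Gp.map T hT hM x) (Gp.map T hT hM (fP (attr γ) x))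
      (Gp.map T hT hM (fW (attr γ) x)) (Gp.map T hT hM (fQ (attr γ) x)) := by
    refine ⟨by rw [← map_mul, ← map_mul, ← h1.eq], fun b hb => ?_, fun b hb => ?_, fun b hb => ?_⟩
    · exact (h1.hP (T.symm b) hb).imp (fun h => by simpa using h) fun h => (hs b).trans h
    · exact (hs b).trans (h1.hW (T.symm b) hb)
    · exact (h1.hQ (T.symm b) hb).imp (fun h => by simpa using h) fun h => (hs b).trans h
  rw [h2.unique.2.1, J_map]

end

end Crest.Agent.R59
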