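import Crest.Agent.R59.Comb
import Crest.Prelude.Def_ChromaticQSym

/-!
# R59/Word: levels and times of a unit interval graph

The vertex `a` sits at the real point `lv a + t a` (with `t` rescaled into `(0,1)`); two vertices are adjacent iff
their distance is `< 1`.
-/

set_option autoImplicit false
set_option linter.unusedSectionVars false
set_option linter.unusedVariables false

namespace Crest.Agent.R59

noncomputable section

open Crest.CombinatoricsR.UnitInterval

/-- the greedy sequence -/
def word_g {n : ℕ} (h : Fin n → ℕ) : ℕ → ℕ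
  | 0 => 0
  | j + 1 => if hj : word_g h j < n then h ⟨_, hj⟩ else word_g h j + 1

theorem word_g_strictMono {n : ℕ} {h : Fin n → ℕ} (hh : IsHessenberg h) : StrictMono (word_g h) := by
  refine strictMono_nat_of_lt_succ fun j => ?_
  rw [word_g]
  split_ifs with hj
  · exact (hh.2 ⟨_, hj⟩).1
  · exact Nat.lt_succ_self _

/-- Greedy levels: `g 0 = 0`, `g (j+1) = h (g j)` (the first vertex not adjacent to `g j`), the level `j` is
`[g j, g (j+1))`.  (Or: induction on an initial segment `{a | a < k}`, keeping track of the first vertex of the last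
level.) -/
theorem exists_level {n : ℕ} {h : Fin n → ℕ} (hh : IsHessenberg h) :
    ∃ (L : ℕ) (lv : Fin n → ℕ), Monotone lv ∧ (∀ a, lv a < L) ∧ (∀ j, j < L → ∃ a, lv a = j) ∧
      (∀ a b, a < b → lv a = lv b → EH h a b) ∧ ∀ a b, EH h a b → lv b ≤ lv a + 1 := by
  have hg := word_g_strictMono hh
  have ex : ∀ a : ℕ, ∃ j, a < word_g h (j + 1) := fun a => ⟨a, hg.id_le (a + 1)⟩
  have exL : ∃ j, n ≤ word_g h j := ⟨n, hg.id_le n⟩
  have h1 : ∀ a : ℕ, a < word_g h (Nat.find (ex a) + 1) := fun a => Nat.find_spec (ex a)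
  have h2 : ∀ a : ℕ, word_g h (Nat.find (ex a)) ≤ a := fun a => by
    rcases hj : Nat.find (ex a) with _ | j
    · exact Nat.zero_le _
    · exact not_lt.1 (Nat.find_min (ex a) (hj ▸ Nat.lt_succ_self j))
  have h3 : ∀ (j : ℕ) (a : Fin n), word_g h j ≤ a → word_g h (j + 1) ≤ h a := fun j a ha => by
    rw [word_g, dif_pos (ha.trans_lt a.2)]
    exact hh.1 ha
  refine ⟨Nat.find exL, fun a => Nat.find (ex a), fun a b hab => Nat.find_min' _ (lt_of_le_of_lt hab (h1 b)),
    fun a => hg.lt_iff_lt.1 ((h2 a).trans_lt (a.2.trans_le (Nat.find_spec exL))), fun j hj => ?_,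
    fun a b hab e => ⟨hab, ?_⟩, fun a b hab => Nat.find_min' _ ?_⟩
  · refine ⟨⟨word_g h j, not_le.1 (Nat.find_min exL hj)⟩, le_antisymm
      (Nat.find_min' _ (hg (Nat.lt_succ_self j))) (Nat.le_of_lt_succ (hg.lt_iff_lt.1 (h1 _)))⟩
  · have h4 := h1 b
    rw [← show Nat.find (ex a) = Nat.find (ex b) from e] at h4
    exact Nat.succ_le_of_lt (h4.trans_le (h3 _ a (h2 a)))
  · by_cases hj : word_g h (Nat.find (ex a) + 1) < n
    · rw [word_g, dif_pos hj]
      exact hab.2.trans (hh.1 (h1 a).le)
    · exact b.2.trans_le ((not_lt.1 hj).trans (hg.monotone (Nat.le_succ _)))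

/-- Choose `t b` by induction on `b` (prove the statement for all `a, b < k` by induction on `k`): it has to be above
`t a` for the earlier `a` of the same level and the non-neighbours `a` in the previous level, and below `t a` for the
neighbours `a` in the previous level; these conditions are compatible and leave an open interval, from which
finitely many values are to be avoided. -/
theorem exists_time {n : ℕ} {h : Fin n → ℕ} (hh : IsHessenberg h) {lv : Fin n → ℕ} (hm : Monotone lv) :
    ∃ t : Fin n → ℚ, Function.Injective t ∧ (∀ a b, a < b → lv a = lv b → t a < t b) ∧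
      ∀ a b, lv b = lv a + 1 → (EH h a b ↔ t b < t a) := by
  have hlt : ∀ a b, lv b = lv a + 1 → a < b := fun a b e => lt_of_not_ge fun hab => by
    have := hm hab
    omega
  have key : ∀ k : ℕ, ∃ t : Fin n → ℚ, (∀ a b : Fin n, b.val < k → a < b → t a ≠ t b) ∧
      (∀ a b : Fin n, b.val < k → a < b → lv a = lv b → t a < t b) ∧
      ∀ a b : Fin n, b.val < k → lv b = lv a + 1 → (EH h a b ↔ t b < t a) := by
    intro k
    induction k with
    | zero => exact ⟨0, by simp, by simp, by simp⟩
    | succ k ih =>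
      obtain ⟨t, h1, h2, h3⟩ := ih
      by_cases hk : k < n
      swap
      · exact ⟨t, fun a b _ => h1 a b (by omega), fun a b _ => h2 a b (by omega),
          fun a b _ => h3 a b (by omega)⟩
      set c : Fin n := ⟨k, hk⟩ with hc
      obtain ⟨p, hp, hp'⟩ := Set.Finite.exists_between'
        ((Set.toFinite {a | (a < c ∧ lv a = lv c) ∨ (lv c = lv a + 1 ∧ ¬EH h a c)}).image t)
        ((Set.toFinite {a | lv c = lv a + 1 ∧ EH h a c}).image t) (by
          rintro _ ⟨a, ⟨ha, ha'⟩ | ⟨ha, ha'⟩, rfl⟩ _ ⟨b, ⟨hb, hb'⟩, rfl⟩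
          · exact (h3 b a ha (ha'.trans hb)).1
              ⟨hlt _ _ (ha'.trans hb), le_trans (Nat.succ_le_succ ha.le) hb'.2⟩
          · refine h2 a b hb'.1 (lt_of_not_ge fun hab => ha' ⟨hlt _ _ ha, hb'.2.trans (hh.1 hab)⟩)
              (by omega))
      obtain ⟨q, hq, hq'⟩ := Set.Finite.exists_between' (Set.finite_singleton p)
        ((Set.toFinite {a | lv c = lv a + 1 ∧ EH h a c}).image t) (by simpa using hp')
      obtain ⟨z, hz, hz'⟩ := (Set.Ioo_infinite (hq p rfl)).exists_notMem_finite (Set.finite_range t)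
      have hne : ∀ {a b : Fin n}, a < b → b.val < k + 1 → a ≠ c := fun hab hb e => by
        rw [e, Fin.lt_def] at hab
        exact absurd hab (by simp only [hc]; omega)
      have hb' : ∀ {b : Fin n}, b.val < k + 1 → b ≠ c → b.val < k := fun hb e =>
        lt_of_le_of_ne (Nat.le_of_lt_succ hb) fun e' => e (Fin.ext e')
      refine ⟨Function.update t c z, fun a b hb hab => ?_, fun a b hb hab e => ?_, fun a b hb e => ?_⟩
      · rw [Function.update_of_ne (hne hab hb)]
        by_cases hbc : b = c
        · rw [hbc, Function.update_self]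
          exact fun e => hz' ⟨a, e⟩
        · rw [Function.update_of_ne hbc]
          exact h1 a b (hb' hb hbc) hab
      · rw [Function.update_of_ne (hne hab hb)]
        by_cases hbc : b = c
        · subst hbc
          rw [Function.update_self]
          exact (hp _ ⟨a, Or.inl ⟨hab, e⟩, rfl⟩).trans hz.1
        · rw [Function.update_of_ne hbc]
          exact h2 a b (hb' hb hbc) hab e
      · rw [Function.update_of_ne (hne (hlt a b e) hb)]
        by_cases hbc : b = c
        · subst hbc
          rw [Function.update_self]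
          exact ⟨fun hE => hz.2.trans (hq' _ ⟨a, ⟨e, hE⟩, rfl⟩), fun hlt => by_contra fun hE =>
            lt_asymm hlt ((hp _ ⟨a, Or.inr ⟨e, hE⟩, rfl⟩).trans hz.1)⟩
        · rw [Function.update_of_ne hbc]
          exact h3 a b (hb' hb hbc) e
  obtain ⟨t, h1, h2, h3⟩ := key n
  refine ⟨t, fun a b e => ?_, fun a b => h2 a b b.2, fun a b => h3 a b b.2⟩
  rcases lt_trichotomy a b with hab | hab | hab
  · exact absurd e (h1 a b b.2 hab)
  · exact hab
  · exact absurd e.symm (h1 b a a.2 hab)

/-- Sort the vertices by time (`Tuple.sort`). -/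
theorem exists_word {n : ℕ} {h : Fin n → ℕ} (hh : IsHessenberg h) :
    ∃ (L : ℕ) (lv : Fin n → ℕ) (e : Fin n ≃ Fin n), (∀ s, lv s < L) ∧ (∀ j, j < L → ∃ s, lv s = j) ∧
      ∀ s s', EH h (e s) (e s') ↔ (lv s' = lv s ∧ s < s') ∨ (lv s' = lv s + 1 ∧ s' < s) := by
  obtain ⟨L, lv, hm, h1, h2, h3, h4⟩ := exists_level hh
  obtain ⟨t, ht, h5, h6⟩ := exists_time hh hm
  have hs : StrictMono (t ∘ Tuple.sort t) :=
    (Tuple.monotone_sort t).strictMono_of_injective (ht.comp (Tuple.sort t).injective)
  refine ⟨L, fun s => lv (Tuple.sort t s), Tuple.sort t, fun s => h1 _, fun j hj => ?_, fun s s' => ?_⟩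
  · obtain ⟨a, ha⟩ := h2 j hj
    exact ⟨(Tuple.sort t).symm a, by simpa using ha⟩
  rw [← hs.lt_iff_lt, ← hs.lt_iff_lt]
  simp only [Function.comp_apply]
  generalize Tuple.sort t s = a
  generalize Tuple.sort t s' = b
  constructor
  · intro hE
    have h7 := hm hE.1.le
    have h8 := h4 a b hE
    rcases h7.eq_or_lt with e | e
    · exact Or.inl ⟨e.symm, h5 a b hE.1 e⟩
    · exact Or.inr ⟨by omega, (h6 a b (by omega)).1 hE⟩
  · rintro (⟨e, hab⟩ | ⟨e, hab⟩)
    · refine h3 a b (lt_of_not_ge fun hba => ?_) e.symm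
      rcases hba.eq_or_lt with rfl | hba
      · exact lt_irrefl _ hab
      · exact lt_asymm hab (h5 b a hba e)
    · exact (h6 a b e).2 hab


end

end Crest.Agent.R59
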