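import Crest.Agent.R59.RotDef
import Crest.Agent.R59.Word

/-!
# R59/Lat: the lattice of a word
-/

set_option autoImplicit false
set_option linter.unusedSectionVars false
set_option linter.unusedVariables false

namespace Crest.Agent.R59

noncomputable section

open Crest.CombinatoricsR.UnitInterval

/-- The upper triangular part of the form on the basis. -/
def latB (lv : ℕ → ℕ) : ℕ ⊕ ℕ ⊕ Bool → ℕ ⊕ ℕ ⊕ Bool → ℤ
  | .inr (.inl s), .inl j => if lv s = j then -1 else if lv s + 1 = j then 1 else 0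
  | .inr (.inl s), .inr (.inl s') =>
    if s < s' then if lv s' = lv s then 1 else if lv s' + 1 = lv s then -1 else 0 else 0
  | .inl _, .inr (.inr b) => if b then 1 else 0
  | .inr (.inl _), .inr (.inr b) => if b then 1 else 0
  | _, _ => 0

theorem lat_base (lv : ℕ → ℕ) : ∃ (N : Type) (_ : AddCommGroup N) (_ : Alt N) (Y u : ℕ → N)
    (x f : N), (∀ i j, ω (Y i) (Y j) = 0) ∧
      (∀ s j, ω (u s) (Y j) = if lv s = j then -1 else if lv s + 1 = j then 1 else 0) ∧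
      (∀ s s', s < s' →
        ω (u s) (u s') = if lv s' = lv s then 1 else if lv s' + 1 = lv s then -1 else 0) ∧
      (∀ a, ω x a = 0) ∧ (∀ j, ω (Y j) f = 1) ∧ (∀ s, ω (u s) f = 1) ∧
      ∀ (A : Type) [AddCommGroup A] (a b : ℕ → A) (c : A), ∃ θ : N →+ A,
        (∀ j, θ (Y j) = a j) ∧ (∀ s, θ (u s) = b s) ∧ θ x = c ∧ θ f = 0 := by
  let B : FreeAbelianGroup (ℕ ⊕ ℕ ⊕ Bool) →+ FreeAbelianGroup (ℕ ⊕ ℕ ⊕ Bool) →+ ℤ :=
    FreeAbelianGroup.lift fun i => FreeAbelianGroup.lift (latB lv i)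
  let I : Alt (FreeAbelianGroup (ℕ ⊕ ℕ ⊕ Bool)) :=
    ⟨B - B.flip, fun a => sub_self _, fun n a => smul_eq_zero.1⟩
  have h : ∀ i j, ω (FreeAbelianGroup.of i) (FreeAbelianGroup.of j) = latB lv i j - latB lv j i :=
    fun i j => by
      change B (.of i) (.of j) - B (.of j) (.of i) = _
      simp only [B, FreeAbelianGroup.lift_apply_of]
  refine ⟨_, _, I, fun j => .of (.inl j), fun s => .of (.inr (.inl s)), .of (.inr (.inr false)),
    .of (.inr (.inr true)), fun i j => h _ _, fun s j => (h _ _).trans (sub_zero _),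
    fun s s' a => ?_, fun a => ?_, fun j => h _ _, fun s => h _ _, fun A _ a b c =>
      ⟨FreeAbelianGroup.lift (Sum.elim a (Sum.elim b fun e => if e then 0 else c)), ?_⟩⟩
  · simp [h, latB, a, a.le]
  · refine DFunLike.congr_fun (FreeAbelianGroup.lift_ext _ 0 fun i => ?_) a
    rcases i with i | i | i <;> simp [h, latB]
  · simp

/-- Take `N = (ℕ ⊕ ℕ ⊕ Bool) →₀ ℤ` with basis `Y j`, `u s`, `x`, `f` and the alternating form given on the basis by
the fields of `Rot` (for `s < s' < m`; `ω = B - Bᵀ` for a bilinear `B`), `lv s = l (s % m)`,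
`u s = u (s % m) + (s / m) • (Y (lv s + 1) - Y (lv s))`.  Note that
`ω (u s) (Y (lv s' + 1) - Y (lv s'))` is symmetric in `s, s'`. -/
theorem exists_rot_of_lv {m L : ℕ} (hm : 0 < m) (l : Fin m → ℕ) (hlt : ∀ s, l s < L)
    (hne : ∀ j, j < L → ∃ s, l s = j) :
    ∃ (N : Type) (_ : AddCommGroup N) (_ : Alt N) (P : Rot N), P.m = m ∧ ∀ s : Fin m, P.lv s = l s := by
  obtain ⟨lv, hlv⟩ : ∃ lv : ℕ → ℕ, ∀ s, lv s = l ⟨s % m, Nat.mod_lt _ hm⟩ := ⟨_, fun _ => rfl⟩
  have h0 : ∀ s : Fin m, lv s = l s := fun s => by simp only [hlv, Nat.mod_eq_of_lt s.2]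
  have h1 : ∀ s, lv (s % m) = lv s := fun s => by simp only [hlv, Nat.mod_mod]
  obtain ⟨N, _, _, Y, u, x, f, oYY, ouY, ouu, ox, oYf, ouf, ext⟩ := lat_base lv
  have oYu : ∀ j s, ω (Y j) (u s) = if lv s = j then 1 else if lv s + 1 = j then -1 else 0 :=
    fun j s => by rw [ω_swap, ouY]; split_ifs <;> rfl
  have hu : ∀ s, s < m → u (s % m) + (s / m) • (Y (lv s + 1) - Y (lv s)) = u s := fun s hs => by
    rw [Nat.mod_eq_of_lt hs, Nat.div_eq_of_lt hs, zero_smul, add_zero]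
  have per : ∀ s, lv (s + m) = lv s := fun s => by rw [← h1, Nat.add_mod_right, h1]
  refine ⟨N, _, _, ⟨m, L, lv, Y, fun s => u (s % m) + (s / m) • (Y (lv s + 1) - Y (lv s)), x, f,
    per, fun s => hlv s ▸ hlt _, fun j hj => ?_, fun s => ?_, oYY, fun s j => ?_,
    fun s s' a b => ?_, ox, oYf, fun s => ?_, fun a b c => ?_, fun a b => ?_⟩, rfl, h0⟩
  · obtain ⟨s, hs⟩ := hne j hj
    exact ⟨s, s.2, (h0 s).trans hs⟩
  · rw [Nat.add_mod_right, Nat.add_div_right _ hm, per, succ_nsmul]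
    abel
  · simp [oYY, ouY, h1]
  · simp only [map_add, map_nsmul, map_sub, AddMonoidHom.add_apply, AddMonoidHom.nsmul_apply,
      AddMonoidHom.sub_apply, oYY, ouY, oYu, h1, nsmul_eq_mul]
    have e1 := Nat.div_add_mod s m
    have e2 := Nat.div_add_mod s' m
    have e3 : s / m ≤ s' / m := Nat.div_le_div_right a.le
    have e4 : s' / m ≤ s / m + 1 := (Nat.div_le_div_right b.le).trans_eq (Nat.add_div_right _ hm)
    rcases e3.eq_or_lt with e | e
    · rw [← e] at e2 ⊢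
      rw [ouu _ _ (by omega), h1, h1]
      split_ifs <;> omega
    · rw [le_antisymm e4 e] at e2 ⊢
      rw [mul_add] at e2
      rw [ω_swap, ouu _ _ (by omega), h1, h1]
      split_ifs <;> omega
  · simp [oYf, ouf]
  · obtain ⟨θ, t1, t2, t3⟩ := ext ℤ a b c
    exact ⟨θ, t1, fun s hs => by rw [hu s hs, t2], t3⟩
  · obtain ⟨θ, t1, t2, -⟩ := ext ℝ a b 0
    exact ⟨θ, t1, fun s hs => by rw [hu s hs, t2]⟩

theorem exists_rot {n : ℕ} (hn : 0 < n) {h : Fin n → ℕ} (hh : IsHessenberg h) :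
    ∃ (N : Type) (_ : AddCommGroup N) (_ : Alt N) (P : Rot N) (e : Fin P.m ≃ Fin n),
      ∀ a b, EH h (e a) (e b) ↔ P.E a b := by
  obtain ⟨L, lv, e, h1, h2, h3⟩ := exists_word hh
  obtain ⟨N, _, _, P, rfl, h4⟩ := exists_rot_of_lv hn lv h1 h2
  exact ⟨N, _, _, P, e, fun a b => by rw [h3, Rot.E, h4, h4]⟩


end

end Crest.Agent.R59
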