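import Crest.Agent.R59.Toda
import Crest.Agent.R59.Lat
import Crest.Agent.R59.Coef
import Crest.Agent.R59.Count

/-!
# R59/Final: the Shareshian–Wachs `e`-positivity (S0081)

## Overview

* `Ser`, `GF`: coefficients `R = ℚ((v))`, positivity, `v`-adic limits, `q`-series.
* `Tor`, `Grp`, `Fact`, `Efun`: the completed quantum torus, the pro-unipotent group `G M`, unique factorisation along
  a (lexicographic) stability `σ` into negative / zero / positive parts, the quantum dilogarithm `Psi`.
* `Seed`, `MutA`, `Mut`: the canonical element `can s` of a seed (its wall at `a` along `a^*` is trivial except for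
  `Psi` at the seed vectors), the charts `chart s σ`, and invariance of charts under mutation.
* `Sh*`, `Pbw*`, `Quiv*`: the shuffle algebra of a symmetric quiver has a graded PBW basis, so generating series of
  quivers with potential-free cut factor with non-negative DT invariants; hence (`TwoD`, `Gen`, `ThmP`) all wall
  functions of rank two completions are positive.
* `Flow`, `Theta`: positivity of all charts of monomials; theta functions; an element is determined by its
  values `ast` "at infinity".
* `St`: the Hamiltonians `HH k` (sums over stable `k`-sets) are positive in all charts (Baxter sweep).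
* `RotDef`, `RotSeed`, `RotLim`, `Toda`: rotation of a periodic word is a mutation that preserves the Hamiltonians; the
  product `HH α₁ ⋯ HH αₗ` equals `∑_ν MM α ν • θ_ν` with positive theta functions `θ_ν`; the coefficient of the product
  of all letters is the chromatic coefficient `Col α`.
* `Word`, `Lat`, `Coef`, `Count`, `Final`: translation to the statement.
-/

set_option autoImplicit false
set_option linter.unusedSectionVars false
set_option linter.unusedVariables false

namespace Crest.Agent.R59

noncomputable section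

open Crest.CombinatoricsR.UnitInterval

theorem final_Col_empty {ι : Type} [DecidableEq ι] (E : ι → ι → Prop) [DecidableRel E] {α : List ℕ}
    (h : α.sum = 0) : Col E α ∅ = 1 := by
  induction α with
  | nil => simp [Col]
  | cons k α ih =>
    rw [List.sum_cons] at h
    obtain rfl : k = 0 := by omega
    simp [Col, Finset.filter_singleton, upE, ih (by omega)]

theorem final_MM_zero {κ : Type} [Fintype κ] [DecidableEq κ] {α : List ℕ} (h : α.sum = 0) :
    MM α (0 : κ → ℕ) = 1 := by
  induction α with
  | nil => simp [MM]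
  | cons k α ih =>
    rw [List.sum_cons] at h
    obtain rfl : k = 0 := by omega
    simpa [MM, Pi.zero_def] using ih (by omega)

/-- `exists_rot`, `col_expand`, `Col_equiv`; for `n = 0` take `κ = Unit`, `t = {0}`, `c = 1`. -/
theorem exists_expand {n : ℕ} {h : Fin n → ℕ} (hh : IsHessenberg h) :
    ∃ (κ : Type) (_ : Fintype κ) (_ : DecidableEq κ) (t : Finset (κ → ℕ)) (c : (κ → ℕ) → Polynomial ℤ),
      (∀ ν k, 0 ≤ (c ν).coeff k) ∧ (∀ ν ∈ t, ∑ j, ν j = n) ∧ ∀ α : List ℕ, α.sum = n →
        Col (EH h) α Finset.univ = ∑ ν ∈ t, c ν * (MM α ν : Polynomial ℤ) := by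
  rcases Nat.eq_zero_or_pos n with rfl | hn
  · refine ⟨Unit, inferInstance, inferInstance, {0}, fun _ => 1, fun _ k => ?_, by simp,
      fun α hα => ?_⟩
    · rw [Polynomial.coeff_one]; split_ifs <;> simp
    · rw [Finset.univ_eq_empty, final_Col_empty _ hα, Finset.sum_singleton, final_MM_zero hα]
      simp
  · obtain ⟨N, _, _, P, e, he⟩ := exists_rot hn hh
    have hm : P.m = n := by simpa using Fintype.card_congr e
    obtain ⟨c, hc, h1⟩ := P.col_expand
    refine ⟨Fin (P.L + 1), inferInstance, inferInstance, P.An P.m, c, hc,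
      fun ν hν => hm ▸ (P.mem_An.1 hν).1, fun α hα => ?_⟩
    rw [← h1 α (hα.trans hm.symm), ← Col_equiv e he, Finset.map_univ_equiv]

theorem final_pos {ι S : Type} {t : Finset ι} {c : ι → Polynomial ℤ} {g : S → ℕ} {s : Finset S}
    (h : ∑ ν ∈ t, c ν = ∑ σ ∈ s, Polynomial.X ^ g σ) {σ₀ : S} (hσ : σ₀ ∈ s) :
    ∃ ν ∈ t, 0 < (c ν).coeff (g σ₀) := by
  by_contra hn
  push Not at hn
  have h1 := congrArg (fun p => p.coeff (g σ₀)) h
  simp only [Polynomial.finsetSum_coeff] at h1
  have h2 := Finset.single_le_sum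
    (f := fun σ => (Polynomial.X ^ g σ : Polynomial ℤ).coeff (g σ₀))
    (fun σ _ => by rw [Polynomial.coeff_X_pow]; split_ifs <;> simp) hσ
  have h3 := Finset.sum_nonpos hn
  simp only [Polynomial.coeff_X_pow_self] at h2
  omega

theorem final_assign {ι S : Type} [DecidableEq ι] (t : Finset ι) (g : S → ℕ) (φ₀ : S → ι)
    (s : Finset S) : ∀ c : ι → Polynomial ℤ, (∀ ν k, 0 ≤ (c ν).coeff k) →
      ∑ ν ∈ t, c ν = ∑ σ ∈ s, Polynomial.X ^ g σ → ∃ φ : S → ι, (∀ σ ∈ s, φ σ ∈ t) ∧
        ∀ ν ∈ t, c ν = ∑ σ ∈ s.filter (fun σ => φ σ = ν), Polynomial.X ^ g σ := by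
  classical
  induction s using Finset.induction_on with
  | empty =>
    intro c hc h
    refine ⟨φ₀, by simp, fun ν hν => ?_⟩
    ext k
    have h1 := congrArg (fun p => p.coeff k) h
    simp only [Polynomial.finsetSum_coeff, Finset.sum_empty] at h1
    simpa using (Finset.sum_eq_zero_iff_of_nonneg fun ν _ => hc ν k).1 h1 ν hν
  | insert σ₀ s hs ih =>
    intro c hc h
    obtain ⟨ν₀, hν₀, hp⟩ := final_pos h (Finset.mem_insert_self σ₀ s)
    obtain ⟨φ, h1, h2⟩ := ih (fun ν => c ν - if ν₀ = ν then Polynomial.X ^ g σ₀ else 0) (by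
      intro ν k
      split_ifs with a
      · subst a
        rw [Polynomial.coeff_sub, Polynomial.coeff_X_pow]
        split_ifs with b
        · subst b; omega
        · simpa using hc _ k
      · simpa using hc ν k) (by
      rw [Finset.sum_sub_distrib, h, Finset.sum_ite_eq, if_pos hν₀, Finset.sum_insert hs,
        add_sub_cancel_left])
    have e : ∀ σ ∈ s, Function.update φ σ₀ ν₀ σ = φ σ := fun σ hσ =>
      Function.update_of_ne (by rintro rfl; exact hs hσ) _ _
    refine ⟨Function.update φ σ₀ ν₀, fun σ hσ => ?_, fun ν hν => ?_⟩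
    · rcases Finset.mem_insert.1 hσ with rfl | hσ
      · rwa [Function.update_self]
      · rw [e σ hσ]; exact h1 σ hσ
    · rw [Finset.sum_filter, Finset.sum_insert hs, Function.update_self, ← sub_eq_iff_eq_add', h2 ν hν,
        Finset.sum_filter]
      exact Finset.sum_congr rfl fun σ hσ => by rw [e σ hσ]

/-- Induction on a finite subset `s` of `S` (generalising `c`): remove `σ₀`, pick `ν₀ ∈ t` whose coefficient at
`g σ₀` is positive and subtract `X ^ g σ₀` from `c ν₀`. -/
theorem exists_assign {ι S : Type} [Fintype S] [DecidableEq ι] (t : Finset ι) (c : ι → Polynomial ℤ)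
    (hc : ∀ ν k, 0 ≤ (c ν).coeff k) (g : S → ℕ) (h : ∑ ν ∈ t, c ν = ∑ σ, Polynomial.X ^ g σ) :
    ∃ φ : S → ι, (∀ σ, φ σ ∈ t) ∧
      ∀ ν ∈ t, c ν = ∑ σ ∈ Finset.univ.filter (fun σ => φ σ = ν), Polynomial.X ^ g σ := by
  choose φ₀ _ using fun σ => final_pos h (Finset.mem_univ σ)
  obtain ⟨φ, h1, h2⟩ := final_assign t g φ₀ Finset.univ c hc h
  exact ⟨φ, fun σ => h1 σ (Finset.mem_univ σ), h2⟩

theorem esymmPart_ofSums {κ : Type} [Fintype κ] {n : ℕ} (ν : κ → ℕ) (hν : (Finset.univ.val.map ν).sum = n)
    (N : ℕ) : MvPolynomial.esymmPart (Fin N) (Polynomial ℤ) (Nat.Partition.ofSums n _ hν) =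
      ∏ j, MvPolynomial.esymm (Fin N) (Polynomial ℤ) (ν j) := by
  have : ∀ l : Multiset ℕ,
      ((l.filter (· ≠ 0)).map (MvPolynomial.esymm (Fin N) (Polynomial ℤ))).prod =
        (l.map (MvPolynomial.esymm (Fin N) (Polynomial ℤ))).prod := by
    intro l
    induction l using Multiset.induction_on with
    | empty => simp
    | cons a l ih =>
      by_cases ha : a = 0
      · rw [Multiset.filter_cons_of_neg _ (by simpa using ha), ih, ha]
        simp
      · rw [Multiset.filter_cons_of_pos _ (by simpa using ha), Multiset.map_cons,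
          Multiset.prod_cons, ih]
        simp
  rw [MvPolynomial.esymmPart, Nat.Partition.ofSums_parts, this, Multiset.map_map]
  rfl

/-- Compare coefficients (`coeff_chromatic`, `coeff_prod_esymm`, `Col_eq_zero`, `MM_eq_zero`); the total
`∑ c ν` is computed by `altc_congr`, `altc_sum`, `altc_MM`, `altc_Col`; then `exists_assign`. -/
theorem main (n : ℕ) (h : Fin n → ℕ) (hh : IsHessenberg h) :
    ∃ θ : {σ : Equiv.Perm (Fin n) // σ ∈ descentSet h} → Nat.Partition n,
      ∀ N : ℕ, chromaticQSym h N =
        ∑ σ : {σ : Equiv.Perm (Fin n) // σ ∈ descentSet h},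
          MvPolynomial.C (Polynomial.X ^ ginv h σ.1) *
            MvPolynomial.esymmPart (Fin N) (Polynomial ℤ) (θ σ) := by
  classical
  obtain ⟨κ, _, _, t, c, hc, ht, hα⟩ := exists_expand hh
  have h1 : ∑ ν ∈ t, c ν =
      ∑ σ : {σ : Equiv.Perm (Fin n) // σ ∈ descentSet h}, Polynomial.X ^ ginv h σ.1 := by
    rw [Finset.sum_coe_sort (descentSet h) fun σ => (Polynomial.X ^ ginv h σ : Polynomial ℤ),
      ← altc_Col hh, altc_congr n hα, altc_sum n t fun ν α => (MM α ν : Polynomial ℤ)]
    exact Finset.sum_congr rfl fun ν hν => by rw [altc_MM n ν (ht ν hν), mul_one]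
  obtain ⟨φ, h2, h3⟩ := exists_assign t c hc _ h1
  refine ⟨fun σ => Nat.Partition.ofSums n (Finset.univ.val.map (φ σ)) (ht _ (h2 σ)), fun N => ?_⟩
  simp only [esymmPart_ofSums]
  ext1 α
  rw [coeff_chromatic, MvPolynomial.coeff_sum]
  simp only [MvPolynomial.coeff_C_mul, coeff_prod_esymm]
  by_cases hs : (List.ofFn α).sum = n
  · rw [hα _ hs, ← Finset.sum_fiberwise_of_maps_to (s := Finset.univ) (t := t) (g := φ)
      fun σ _ => h2 σ]
    refine Finset.sum_congr rfl fun ν hν => ?_
    rw [h3 ν hν, Finset.sum_mul]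
    exact Finset.sum_congr rfl fun σ hσ => by rw [(Finset.mem_filter.1 hσ).2]
  · rw [Col_eq_zero _ (by simpa using hs)]
    refine (Finset.sum_eq_zero fun σ _ => ?_).symm
    rw [MM_eq_zero (by rwa [ht _ (h2 σ)]), Nat.cast_zero, mul_zero]


end

end Crest.Agent.R59
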