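import Crest.Agent.R59.ThmP

/-!
# R59/Flow: broken lines

`chart_expand`: `flow_ind` with `ρ = 0`, `B = Gam (dg γ₀)`, `ζ = ω · r`, `r = p + γ₀`.  At a crossing the kernel
of `θc` on `B` is the ray of `γ₁`; let `W = fW θc (can s)`, which is positive by `thmP`.  If `ζ γ₁ > 0`
then (on the lower set `{dg ≤ dg γ₀}`) `fP θ' = fP θc` and `fP θ = fP θc * W`, so
`chart θ F r = (W⁻¹ * chart θ' F * W) r`; if `ζ γ₁ < 0` then `chart θ F r = (W * chart θ' F * W⁻¹) r`.
Expand with `sandwich_apply`; the term `a = 0` is `chart θ' F r`, the other coefficients are positive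
(`PP.conj_pos`) and vanish unless `a` is on the ray.  For a seed vector `a = e` the coefficient is
`± cE true 1 1 * (vp (-m) - vp m) ≠ 0` (`fW_can_seed`).
-/

set_option autoImplicit false
set_option linter.unusedSectionVars false
set_option linter.unusedVariables false

namespace Crest.Agent.R59

noncomputable section

variable {N : Type} [AddCommGroup N] [Alt N] {s : Finset N} [IsSeed s]

theorem flow_sand_agree {M : AddSubmonoid N} [Good M] {D : ℤ} {x x' y y' : Gp M}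
    (hx : Agree {a | dg M a ≤ D} x x') (hy : Agree {a | dg M a ≤ D} y y') {F : A M} {p γ : N}
    (hF : SuppIn {r | r - p ∈ M} F) (hγ : dg M γ ≤ D) :
    (x.1 * F * y.1) (p + γ) = (x'.1 * F * y'.1) (p + γ) := by
  rw [sandwich_apply x y hF, sandwich_apply x' y' hF]
  refine Finset.sum_congr rfl fun a ha => ?_
  have h1 := dg_nonneg (mem_ad.1 ha).2
  rw [map_sub] at h1
  have := lim_const_iff.1 (LimOn.sandwich (x := fun _ => x) (y := fun _ => y) (lower_deg D)
    (limOn_const_iff.2 hx) (limOn_const_iff.2 hy) (γ := a) (show dg M a ≤ D by omega) (p + γ - a))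
  rw [sub_add_cancel] at this
  rw [this]

theorem flow_sand_indec {M : AddSubmonoid N} [Good M] (x y : Gp M) {e : N} (h0 : e ≠ 0)
    (he : ∀ a ∈ M, ∀ b ∈ M, a + b = e → a = 0 ∨ b = 0) (p : N) :
    (x.1 * z M p * y.1) (p + e) = vp (ω e p) * x e + vp (ω p e) * y e := by
  classical
  have e1 : ∀ a, (x.1 * z M p) a = vp (ω a p) * x (a - p) := fun a => tmul_zf p _ a
  change tmul (x.1 * z M p).1 y.1.1 (p + e) = _
  rw [tmul_eq_sum (B := {p, p + e}), Finset.sum_pair (by simpa using h0)]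
  · change vp _ * ((x.1 * z M p) p * y _) + vp _ * ((x.1 * z M p) (p + e) * y _) = _
    rw [e1, e1, sub_self, sub_self, add_sub_cancel_left, x.zero, y.zero]
    simp only [map_add, AddMonoidHom.add_apply, ω_self, ω_swap e p]
    simp [add_comm]
  · intro a ha hb
    change (x.1 * z M p) a ≠ 0 at ha
    rw [e1] at ha
    rcases he _ (x.supp _ (right_ne_zero_of_mul ha)) _ (y.supp _ hb) (by abel) with h | h
    · simp [sub_eq_zero.1 h]
    · simp [← sub_eq_zero.1 h]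

theorem flow_inv_indec {M : AddSubmonoid N} [Good M] (x : Gp M) {e : N} (h0 : e ≠ 0)
    (he : ∀ a ∈ M, ∀ b ∈ M, a + b = e → a = 0 ∨ b = 0) : (x⁻¹ : Gp M) e = -x e := by
  have := flow_sand_indec x⁻¹ x h0 he 0
  rw [z_zero, mul_one, Gp.inv_mul_val, zero_add] at this
  change zf 0 e = _ at this
  rw [zf_of_ne h0] at this
  simp only [map_zero, AddMonoidHom.zero_apply, vp_zero, one_mul] at this
  exact eq_neg_of_add_eq_zero_left this.symm

theorem flow_suppIn_one {M : AddSubmonoid N} [Good M] (M' : AddSubmonoid N) :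
    SuppIn M' (1 : Gp M) := by
  intro γ h
  by_cases h0 : γ = 0
  · exact h0 ▸ M'.zero_mem
  · exact (h (zf_of_ne h0)).elim

theorem flow_fP_trunc {M : AddSubmonoid N} [Good M] (D : ℤ) (W : Gp M) (τ : Stab N) :
    ((∀ a, W a ≠ 0 → a ≠ 0 → dg M a ≤ D → τ.s a = -1) → Agree {a | dg M a ≤ D} (fP τ W) W) ∧
    ((∀ a, W a ≠ 0 → a ≠ 0 → dg M a ≤ D → τ.s a = 1) →
      Agree {a | dg M a ≤ D} (fP τ W) (1 : Gp M)) := by
  classical
  let y : Gp M := Gp.mk' (fun a => if a = 0 ∨ dg M a ≤ D then W a else 0) (by simp [W.zero])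
    fun a ha => W.supp a fun h => ha (by simp [h])
  have hy : ∀ a, y a = if a = 0 ∨ dg M a ≤ D then W a else 0 := fun _ => rfl
  have hag : Agree {a | dg M a ≤ D} W y := fun a ha => by rw [hy]; exact (if_pos (Or.inr ha)).symm
  have h1 := (fact_agree (σ := τ) (σ' := τ) (lower_deg D) (fun _ _ _ => rfl) hag).1
  have h2 : ∀ a, y a ≠ 0 → a ≠ 0 → W a ≠ 0 ∧ dg M a ≤ D := by
    intro a ha h0
    rw [hy] at ha
    split_ifs at ha with h
    · exact ⟨ha, h.resolve_left h0⟩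
    · exact (ha rfl).elim
  constructor
  · intro h
    have : IsFact τ y y 1 1 := ⟨by simp, fun a ha => by
      by_cases h0 : a = 0
      · exact Or.inl h0
      · exact Or.inr (h a (h2 a ha h0).1 h0 (h2 a ha h0).2), flow_suppIn_one _, flow_suppIn_one _⟩
    rw [this.unique.1] at h1
    exact fun a ha => (h1 a ha).trans (hag a ha).symm
  · intro h
    rwa [fP_eq_one (g := y) fun a ha h0 => h a (h2 a ha h0).1 h0 (h2 a ha h0).2] at h1

theorem flow_chart_lex (σ τ : Stab N) (F : A (cone s)) :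
    chart s (σ.lex τ) F = ((fP τ (fW σ (can s)))⁻¹).1 * chart s σ F * (fP τ (fW σ (can s))).1 := by
  rw [chart, chart, (fact_lex σ τ _).1, mul_inv_rev]
  simp only [Gp.val_mul, mul_assoc]

theorem flow_sign_ofZ (ζ : N →+ ℤ) (a : N) :
    (0 < ζ a → (Stab.ofZ ζ).s a = 1) ∧ (ζ a < 0 → (Stab.ofZ ζ).s a = -1) := by
  rw [Stab.ofZ_s]
  exact ⟨fun h => sign_pos h, fun h => sign_neg h⟩

/-- The wall-crossing formula at one crossing. -/
theorem flow_cross {p γ₀ : N} {ζ : N →+ ℤ} {θ θc θ' : N →+ ℝ} {γ₁ : N}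
    (h : Cross (Gam (cone s) (dg (cone s) γ₀)) 0 ζ θ θc θ' γ₁) :
    ∃ X : Gp (cone s), ((X = fW (Stab.ofR θc) (can s) ∧ 0 < ζ γ₁) ∨
      (X = (fW (Stab.ofR θc) (can s))⁻¹ ∧ ζ γ₁ < 0)) ∧
      ∀ F : A (cone s), SuppIn {r | r - p ∈ cone s} F →
        chart s (Stab.ofR θ) F (p + γ₀) = ∑ a ∈ ad (cone s) γ₀,
          chart s (Stab.ofR θ') F (p + γ₀ - a) * ((X⁻¹).1 * z (cone s) (p + γ₀ - a) * X.1) (p + γ₀) := by
  set M := cone s
  set D := dg M γ₀
  set W := fW (Stab.ofR θc) (can s) with hW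
  have hγ₁ := mem_Gam.1 h.mem
  have hd₁ := dg_pos hγ₁.1 hγ₁.2.1
  have hsg : ∀ a, W a ≠ 0 → a ≠ 0 → dg M a ≤ D → (0 < ζ γ₁ → 0 < ζ a) ∧ (ζ γ₁ < 0 → ζ a < 0) := by
    intro a ha h0 hD
    have haM := W.supp a ha
    have hk : (Stab.ofR θc).s a = 0 := (isFact _ _).hW a ha
    rw [Stab.ofR_s, sign_eq_zero_iff] at hk
    obtain ⟨m, k, l, hm, e⟩ := h.pl a (mem_Gam.2 ⟨haM, h0, hD⟩) hk
    rw [smul_zero, add_zero] at e
    have e1 := congrArg (dg M) e
    have e2 := congrArg ζ e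
    simp only [map_zsmul, smul_eq_mul] at e1 e2
    have hda := dg_pos haM h0
    have e3 : m * (dg M γ₁ * ζ a) = m * (dg M a * ζ γ₁) := by
      linear_combination dg M γ₁ * e2 - ζ γ₁ * e1
    have e4 := mul_left_cancel₀ hm e3
    constructor
    · intro hz
      exact (mul_pos_iff_of_pos_left hd₁).1 (e4 ▸ mul_pos hda hz)
    · intro hz
      have : dg M γ₁ * ζ a < 0 := e4 ▸ mul_neg_of_pos_of_neg hda hz
      exact neg_of_mul_neg_right this hd₁.le
  have hb : ∀ F : A M, SuppIn {r | r - p ∈ M} F → chart s (Stab.ofR θ) F (p + γ₀) =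
      chart s ((Stab.ofR θc).lex (Stab.ofZ (-ζ))) F (p + γ₀) := fun F hF =>
    chart_congr hF fun a ha hD => by
      by_cases h0 : a = 0
      · rw [h0, Stab.zero, Stab.zero]
      · exact h.before a (mem_Gam.2 ⟨ha, h0, hD⟩)
  have ha : ∀ F : A M, SuppIn {r | r - p ∈ M} F → ∀ γ, dg M γ ≤ D → chart s (Stab.ofR θ') F (p + γ) =
      chart s ((Stab.ofR θc).lex (Stab.ofZ ζ)) F (p + γ) := fun F hF γ hγ =>
    chart_congr hF fun a ha hD => by
      by_cases h0 : a = 0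
      · rw [h0, Stab.zero, Stab.zero]
      · exact h.after a (mem_Gam.2 ⟨ha, h0, hD.trans hγ⟩)
  have hdeg : ∀ a ∈ ad M γ₀, dg M (γ₀ - a) ≤ D := fun a ha => by
    have := dg_nonneg (mem_ad.1 ha).1
    rw [map_sub]
    omega
  rcases lt_or_gt_of_ne h.ne with hz | hz
  · refine ⟨W⁻¹, Or.inr ⟨rfl, hz⟩, fun F hF => ?_⟩
    have a1 := (flow_fP_trunc D W (Stab.ofZ (-ζ))).2 fun a h1 h2 h3 =>
      (flow_sign_ofZ _ a).1 (by simpa using (hsg a h1 h2 h3).2 hz)
    have a2 := (flow_fP_trunc D W (Stab.ofZ ζ)).1 fun a h1 h2 h3 =>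
      (flow_sign_ofZ _ a).2 ((hsg a h1 h2 h3).2 hz)
    have hG := chart_supp (Stab.ofR θc) hF
    rw [hb F hF, flow_chart_lex, flow_sand_agree (a1.inv (lower_deg D)) a1 hG le_rfl]
    have e : ((1 : Gp M)⁻¹).1 * chart s (Stab.ofR θc) F * (1 : Gp M).1 =
        (W⁻¹⁻¹).1 * ((W⁻¹).1 * chart s (Stab.ofR θc) F * W.1) * (W⁻¹).1 := by
      rw [inv_one, inv_inv, Gp.val_one, one_mul, mul_one]
      simp only [← mul_assoc, Gp.mul_inv_val, one_mul]
      rw [mul_assoc, Gp.mul_inv_val, mul_one]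
    rw [e, sandwich_apply _ _ (sandwich_suppIn _ _ hG)]
    refine Finset.sum_congr rfl fun a haa => ?_
    rw [add_sub_assoc, ha F hF _ (hdeg a haa), flow_chart_lex,
      flow_sand_agree (a2.inv (lower_deg D)) a2 hG (hdeg a haa)]
  · refine ⟨W, Or.inl ⟨rfl, hz⟩, fun F hF => ?_⟩
    have a1 := (flow_fP_trunc D W (Stab.ofZ (-ζ))).1 fun a h1 h2 h3 =>
      (flow_sign_ofZ _ a).2 (by simpa using (hsg a h1 h2 h3).1 hz)
    have a2 := (flow_fP_trunc D W (Stab.ofZ ζ)).2 fun a h1 h2 h3 =>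
      (flow_sign_ofZ _ a).1 ((hsg a h1 h2 h3).1 hz)
    have hG := chart_supp (Stab.ofR θc) hF
    rw [hb F hF, flow_chart_lex, flow_sand_agree (a1.inv (lower_deg D)) a1 hG le_rfl,
      sandwich_apply _ _ hG]
    refine Finset.sum_congr rfl fun a haa => ?_
    rw [add_sub_assoc, ha F hF _ (hdeg a haa), flow_chart_lex,
      flow_sand_agree (a2.inv (lower_deg D)) a2 hG (hdeg a haa), inv_one, Gp.val_one, one_mul, mul_one]

theorem chart_expand (p γ₀ : N) (θ : N →+ ℝ) (hθ : ∀ a ∈ Gam (cone s) (dg (cone s) γ₀), θ a ≠ 0) :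
    ∃ l : List (R × (N →+ ℝ) × N),
      (∀ t ∈ l, Pos t.1 ∧ t.2.2 ∈ cone s ∧ t.2.2 ≠ 0 ∧ γ₀ - t.2.2 ∈ cone s ∧
        ∀ a ∈ Gam (cone s) (dg (cone s) γ₀), t.2.1 a ≠ 0) ∧
      (0 < θ γ₀ → 0 ≤ ω γ₀ p → ∀ t ∈ l, 0 < t.2.1 (γ₀ - t.2.2)) ∧
      (∀ e ∈ s, γ₀ - e ∈ cone s → θ e * (ω e (p + γ₀) : ℝ) < 0 → ∃ t ∈ l, t.2.2 = e ∧ t.1 ≠ 0) ∧
      ∀ F : A (cone s), SuppIn {r | r - p ∈ cone s} F →
        chart s (Stab.ofR θ) F (p + γ₀) = ast s F (p + γ₀) +
          (l.map fun t => t.1 * chart s (Stab.ofR t.2.1) F (p + γ₀ - t.2.2)).sum := by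
  classical
  by_cases hγ₀ : γ₀ ∈ cone s
  swap
  · refine ⟨[], by simp, by simp, fun e he h _ => (hγ₀ ?_).elim, fun F hF => ?_⟩
    · simpa using (cone s).add_mem h (mem_cone_of_mem he)
    · have : ∀ σ, chart s σ F (p + γ₀) = 0 := fun σ => by
        by_contra h
        exact hγ₀ (by simpa using chart_supp σ hF _ h)
      simp [ast, this]
  set M := cone s with hM
  set D := dg M γ₀ with hD
  have hfine : ∀ θ : N →+ ℝ, Fine (Gam M D) 0 θ ↔ ∀ a ∈ Gam M D, θ a ≠ 0 := by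
    intro θ
    refine ⟨fun h a ha h0 => ?_, fun h => ⟨map_zero _, fun a ha h0 => (h a ha h0).elim⟩⟩
    obtain ⟨m, k, hm, e⟩ := h.2 a ha h0
    rw [smul_zero] at e
    exact (mem_Gam.1 ha).2.1 ((Alt.tf m a e).resolve_left hm)
  have hsB : ∀ e ∈ s, γ₀ - e ∈ M → e ∈ Gam M D := fun e he h => by
    have := dg_nonneg h
    rw [map_sub] at this
    exact mem_Gam.2 ⟨mem_cone_of_mem he, seed_ne_zero he, by omega⟩
  have hγB : ∀ θ : N →+ ℝ, 0 < θ γ₀ → γ₀ ∈ Gam M D := fun θ h =>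
    mem_Gam.2 ⟨hγ₀, fun h0 => by simp [h0] at h, le_rfl⟩
  have hsm : ∀ a b c : ℝ, SignType.sign a = SignType.sign b → a * c < 0 → b * c < 0 := by
    intro a b c h h'
    rw [← sign_eq_neg_one_iff, sign_mul] at h' ⊢
    rwa [← h]
  revert θ
  intro θ hθ
  refine flow_ind (s := s) (Gam M D) (fun a ha => (mem_Gam.1 ha).1) (ρ := 0) M.zero_mem
    ((ω : N →+ N →+ ℤ).flip (p + γ₀)) (map_zero _) (fun θ => ∃ l : List (R × (N →+ ℝ) × N),
      (∀ t ∈ l, Pos t.1 ∧ t.2.2 ∈ M ∧ t.2.2 ≠ 0 ∧ γ₀ - t.2.2 ∈ M ∧ ∀ a ∈ Gam M D, t.2.1 a ≠ 0) ∧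
      (0 < θ γ₀ → 0 ≤ ω γ₀ p → ∀ t ∈ l, 0 < t.2.1 (γ₀ - t.2.2)) ∧
      (∀ e ∈ s, γ₀ - e ∈ M → θ e * (ω e (p + γ₀) : ℝ) < 0 → ∃ t ∈ l, t.2.2 = e ∧ t.1 ≠ 0) ∧
      ∀ F : A M, SuppIn {r | r - p ∈ M} F →
        chart s (Stab.ofR θ) F (p + γ₀) = ast s F (p + γ₀) +
          (l.map fun t => t.1 * chart s (Stab.ofR t.2.1) F (p + γ₀ - t.2.2)).sum) ?_ ?_ ?_ θ
      ((hfine θ).2 hθ)
  · rintro θ θ' h - - ⟨l, h1, h2, h3, h4⟩
    refine ⟨l, h1, fun h0 => h2 ?_, fun e he hm hlt => h3 e he hm (hsm _ _ _ (h e (hsB e he hm)) hlt),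
      fun F hF => ?_⟩
    · rw [← sign_eq_one_iff, ← h _ (hγB θ h0), sign_eq_one_iff]
      exact h0
    · rw [← h4 F hF]
      refine chart_congr hF fun a ha hd => ?_
      by_cases h0 : a = 0
      · rw [h0, Stab.zero, Stab.zero]
      · exact h a (mem_Gam.2 ⟨ha, h0, hd⟩)
  · intro θ _ h
    refine ⟨[], by simp, by simp, fun e he hm hlt => ?_, fun F hF => ?_⟩
    · exfalso
      have hne : ω e (p + γ₀) ≠ 0 := fun h0 => by simp [h0] at hlt
      have := h e (hsB e he hm) hne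
      rw [AddMonoidHom.flip_apply] at this
      rw [← sign_eq_neg_one_iff, sign_mul, this, sign_intCast] at hlt
      revert hlt
      generalize SignType.sign (ω e (p + γ₀)) = x
      revert x
      decide
    · rw [List.map_nil, List.sum_nil, add_zero]
      refine chart_eq_ast hF fun a ha hd hne => ?_
      exact h a (mem_Gam.2 ⟨ha, fun h0 => hne (by simp [h0]), hd⟩) hne
  · rintro θ θc θ' γ₁ h ⟨l, h1, h2, h3, h4⟩
    obtain ⟨X, hX, hexp⟩ := flow_cross (p := p) h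
    simp only [AddMonoidHom.flip_apply] at hX
    set W := fW (Stab.ofR θc) (can s) with hW
    have hγ₁ := mem_Gam.1 h.mem
    have hd₁ := dg_pos hγ₁.1 hγ₁.2.1
    let c : N → R := fun a => ((X⁻¹).1 * z M (p + γ₀ - a) * X.1) (p + γ₀)
    let T := (ad M γ₀).filter fun a => a ≠ 0 ∧ θc a = 0
    have hT : ∀ a ∈ T, a ∈ Gam M D ∧ γ₀ - a ∈ M ∧ θc a = 0 := fun a ha => by
      obtain ⟨ha1, ha2, ha3⟩ := Finset.mem_filter.1 ha
      have := dg_nonneg (mem_ad.1 ha1).2
      rw [map_sub] at this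
      exact ⟨mem_Gam.2 ⟨(mem_ad.1 ha1).1, ha2, by omega⟩, (mem_ad.1 ha1).2, ha3⟩
    have hWk : SuppIn (Stab.ofR θc).ker W := (isFact _ _).hW
    have hXk : SuppIn (Stab.ofR θc).ker X := by
      rcases hX with ⟨rfl, -⟩ | ⟨rfl, -⟩
      · exact hWk
      · exact Gp.inv_supp hWk
    have hPP : PP M D γ₁ W := thmP D h.mem ⟨h.c1, fun a ha h0 => by
      obtain ⟨m, k, l, hm, e⟩ := h.pl a ha h0
      exact ⟨m, k, hm, by simpa using e⟩⟩
    have hWp : ∀ γ ∈ M, dg M γ ≤ D → W γ ≠ 0 → Par M γ γ₁ := by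
      intro γ hγ hd hne
      by_cases h0 : γ = 0
      · simp [h0, Par]
      obtain ⟨m, k, l, hm, e⟩ := h.pl γ (mem_Gam.2 ⟨hγ, h0, hd⟩) (sign_eq_zero_iff.1 (hWk γ hne))
      exact (par_iff hd₁).2 ⟨m, k, hm, by simpa using e⟩
    have hlex : ∀ (τ : Stab N) a, θc a ≠ 0 → ((Stab.ofR θc).lex τ).s a = SignType.sign (θc a) := by
      intro τ a ha
      rw [Stab.lex_s, Stab.ofR_s, if_neg (by simpa using ha)]
    refine ⟨l ++ T.toList.map fun a => (c a, θ', a), fun t ht => ?_, fun h0 hω => ?_,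
      fun e he hm hlt => ?_, fun F hF => ?_⟩
    · rcases List.mem_append.1 ht with ht | ht
      · exact h1 t ht
      obtain ⟨a, ha, rfl⟩ := List.mem_map.1 ht
      obtain ⟨haB, ha2, ha3⟩ := hT a (Finset.mem_toList.1 ha)
      refine ⟨?_, (mem_Gam.1 haB).1, (mem_Gam.1 haB).2.1, ha2, (hfine θ').1 h.fine'⟩
      have hω : ω γ₁ (p + γ₀ - a) = ω γ₁ (p + γ₀) := by
        obtain ⟨m, k, l, hm, e⟩ := h.pl a haB ha3
        have := congrArg (ω γ₁) e
        simp only [map_zsmul, smul_zero, add_zero, ω_self, smul_eq_mul, mul_zero, mul_eq_zero, hm,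
          false_or] at this
        rw [map_sub, this, sub_zero]
      have := hPP.conj_pos hd₁ hWp (p := p + γ₀ - a) (mem_Gam.1 haB).2.2
      rw [sub_add_cancel, hω] at this
      rcases hX with ⟨rfl, hz⟩ | ⟨rfl, hz⟩
      · exact this.1 hz.le
      · simpa only [c, inv_inv] using this.2 hz.le
    · have hB := hγB θ h0
      have hc : 0 < θc γ₀ := by
        have e := h.before _ hB
        rw [sign_pos h0] at e
        by_cases hc0 : θc γ₀ = 0
        · rw [Stab.lex_s, Stab.ofR_s, hc0, sign_zero, if_pos rfl, Stab.ofZ_s, eq_comm,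
            sign_eq_one_iff] at e
          rw [AddMonoidHom.neg_apply, AddMonoidHom.flip_apply, map_add, ω_self] at e
          omega
        · rw [hlex _ _ hc0] at e
          exact sign_eq_one_iff.1 e.symm
      intro t ht
      rcases List.mem_append.1 ht with ht | ht
      · refine h2 ?_ hω t ht
        rw [← sign_eq_one_iff, h.after _ hB, hlex _ _ hc.ne', sign_pos hc]
      obtain ⟨a, ha, rfl⟩ := List.mem_map.1 ht
      obtain ⟨haB, ha2, ha3⟩ := hT a (Finset.mem_toList.1 ha)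
      have hc' : 0 < θc (γ₀ - a) := by rw [map_sub, ha3, sub_zero]; exact hc
      have hB' : γ₀ - a ∈ Gam M D := mem_Gam.2 ⟨ha2, fun h0 => by simp [h0] at hc', by
        have := dg_nonneg (mem_Gam.1 haB).1
        rw [map_sub]
        omega⟩
      rw [← sign_eq_one_iff, h.after _ hB', hlex _ _ hc'.ne', sign_pos hc']
    · have heB := hsB e he hm
      by_cases hc : θc e = 0
      · refine ⟨(c e, θ', e), List.mem_append_right _ (List.mem_map.2 ⟨e, Finset.mem_toList.2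
          (Finset.mem_filter.2 ⟨mem_ad.2 ⟨mem_cone_of_mem he, hm⟩, seed_ne_zero he, hc⟩), rfl⟩), rfl, ?_⟩
        have hind : ∀ a ∈ M, ∀ b ∈ M, a + b = e → a = 0 ∨ b = 0 := fun a ha b hb =>
          seed_indec he ha hb
        have e1 := flow_sand_indec X⁻¹ X (seed_ne_zero he) hind (p + γ₀ - e)
        rw [sub_add_cancel, flow_inv_indec X (seed_ne_zero he) hind] at e1
        have e2 : W e ≠ 0 := by
          rw [hW, fW_can_seed he (by rw [Stab.ofR_s, hc, sign_zero])]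
          exact cE_one_ne_zero
        have e3 : X e ≠ 0 := by
          rcases hX with ⟨rfl, -⟩ | ⟨rfl, -⟩
          · exact e2
          · rw [flow_inv_indec W (seed_ne_zero he) hind]
            exact neg_ne_zero.2 e2
        have hne : ω e (p + γ₀) ≠ 0 := fun h0 => by simp [h0] at hlt
        change ((X⁻¹).1 * z M (p + γ₀ - e) * X.1) (p + γ₀) ≠ 0
        rw [e1, mul_neg, neg_add_eq_sub, ← sub_mul]
        refine mul_ne_zero (sub_ne_zero.2 fun h' => hne ?_) e3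
        have := vp_injective h'
        rw [ω_swap, map_sub, ω_self] at this
        omega
      · obtain ⟨t, ht, ht'⟩ := h3 e he hm (hsm _ _ _
          (by rw [h.before e heB, h.after e heB, hlex _ _ hc, hlex _ _ hc]) hlt)
        exact ⟨t, List.mem_append_left _ ht, ht'⟩
    · rw [List.map_append, List.sum_append, ← add_assoc, ← h4 F hF, List.map_map, hexp F hF,
        Finset.sum_map_toList, ← Finset.add_sum_erase _ _ (mem_ad.2 ⟨M.zero_mem, by simpa using hγ₀⟩),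
        sub_zero, sandwich_self, mul_one]
      congr 1
      refine (Finset.sum_subset_zero_on_sdiff (fun a ha => ?_) (fun a ha => ?_)
        fun a _ => mul_comm _ _).symm
      · exact Finset.mem_erase.2 ⟨(Finset.mem_filter.1 ha).2.1, (Finset.mem_filter.1 ha).1⟩
      · obtain ⟨ha1, ha2⟩ := Finset.mem_sdiff.1 ha
        obtain ⟨ha0, ha1⟩ := Finset.mem_erase.1 ha1
        have hc : θc a ≠ 0 := fun hc => ha2 (Finset.mem_filter.2 ⟨ha1, ha0, hc⟩)
        refine mul_eq_zero_of_right _ ?_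
        by_contra hne
        have s1 : SuppIn {r | θc r = θc (p + γ₀ - a)} ((X⁻¹).1 * z M (p + γ₀ - a) * X.1 : A M) := by
          refine SuppIn.mul (S := {r | θc r = θc (p + γ₀ - a)}) (T := (Stab.ofR θc).ker)
            (SuppIn.mul (S := (Stab.ofR θc).ker) (T := {p + γ₀ - a}) (Gp.inv_supp hXk)
              (fun r hr => ?_) fun a ha b hb => ?_) hXk fun a ha b hb => ?_
          · by_contra h'
            exact hr (zf_of_ne h')
          · have : θc a = 0 := sign_eq_zero_iff.1 ha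
            rw [Set.mem_singleton_iff.1 hb, Set.mem_ofPred_eq, map_add, this, zero_add]
          · have : θc b = 0 := sign_eq_zero_iff.1 hb
            rw [Set.mem_ofPred_eq, map_add, this, add_zero]
            exact ha
        have := s1 _ hne
        rw [Set.mem_ofPred_eq, map_sub] at this
        exact hc (by linarith)

end

end Crest.Agent.R59
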