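import Crest.Agent.R59.Seed

/-!
# R59/Gen: flowing a real stability towards an attractor point

`B` is a finite set of vectors, `ζ` an integer functional (the attractor point), `ρ` a vector with
`ζ ρ = 0` (`ρ = 0` is allowed).  The line `θ + t ζ`, `t ≥ 0`, crosses the hyperplanes of the `a ∈ B` with
`θ a * ζ a < 0`.  `flow_ind` is the induction along this line.
-/

set_option autoImplicit false
set_option linter.unusedSectionVars false
set_option linter.unusedVariables false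

namespace Crest.Agent.R59

noncomputable section

variable {N : Type} [AddCommGroup N] [Alt N]

/-- Rationally proportional to `ρ`. -/
def QP (w ρ : N) : Prop := ∃ a b : ℤ, a ≠ 0 ∧ a • w = b • ρ

/-- `θ` vanishes on `ρ` and on no element of `B` that is not proportional to `ρ`. -/
def Fine (B : Finset N) (ρ : N) (θ : N →+ ℝ) : Prop := θ ρ = 0 ∧ ∀ a ∈ B, θ a = 0 → QP a ρ

/-- Data of one crossing: `θ` (before) and `θ'` (after, closer to the attractor point) refine `θc`. -/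
structure Cross (B : Finset N) (ρ : N) (ζ : N →+ ℤ) (θ θc θ' : N →+ ℝ) (γ₁ : N) : Prop where
  mem : γ₁ ∈ B
  ne : ζ γ₁ ≠ 0
  c1 : θc γ₁ = 0
  cρ : θc ρ = 0
  pl : ∀ a ∈ B, θc a = 0 → ∃ m k l : ℤ, m ≠ 0 ∧ m • a = k • γ₁ + l • ρ
  before : ∀ a ∈ B, SignType.sign (θ a) = ((Stab.ofR θc).lex (Stab.ofZ (-ζ))).s a
  after : ∀ a ∈ B, SignType.sign (θ' a) = ((Stab.ofR θc).lex (Stab.ofZ ζ)).s a
  fine : Fine B ρ θ
  fine' : Fine B ρ θ'

theorem gen_eps (B : Finset N) (θ η : N →+ ℝ) : ∃ ε : ℝ, 0 < ε ∧ ∀ a ∈ B,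
    SignType.sign ((θ + ε • η) a) =
      if θ a = 0 then SignType.sign (η a) else SignType.sign (θ a) := by
  obtain ⟨ε, h0, h⟩ := exists_eps B θ η
  refine ⟨ε, h0, fun a ha => (h ε h0 le_rfl a ha).trans ?_⟩
  simp only [Stab.lex_s, Stab.ofR_s, sign_eq_zero_iff]

theorem gen_qp {R : Type} [Ring R] [NoZeroDivisors R] [CharZero R] {a ρ : N} (h : QP a ρ)
    {θ : N →+ R} (h0 : θ ρ = 0) : θ a = 0 := by
  obtain ⟨m, l, hm, h⟩ := h
  have := congrArg θ h
  rw [map_zsmul, map_zsmul, h0, smul_zero, zsmul_eq_mul, mul_eq_zero] at this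
  exact this.resolve_left (Int.cast_ne_zero.2 hm)

/-- A functional vanishing on `ρ` and on none of finitely many vectors. -/
theorem exists_avoid (ρ : N) (C : Finset N) (h : ∀ w ∈ C, ∃ η : N →+ ℝ, η ρ = 0 ∧ η w ≠ 0) :
    ∃ η : N →+ ℝ, η ρ = 0 ∧ ∀ w ∈ C, η w ≠ 0 := by
  classical
  induction C using Finset.induction_on with
  | empty => exact ⟨0, rfl, by simp⟩
  | insert w C hw ih =>
    obtain ⟨η, h0, h1⟩ := ih fun a ha => h a (Finset.mem_insert_of_mem ha)
    obtain ⟨η', h2, h3⟩ := h w (Finset.mem_insert_self _ _)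
    obtain ⟨ε, -, h4⟩ := gen_eps (insert w C) η η'
    refine ⟨η + ε • η', by simp [h0, h2], fun a ha => sign_ne_zero.1 ?_⟩
    rw [h4 a ha]
    split_ifs with h5
    · rcases Finset.mem_insert.1 ha with rfl | ha
      · exact sign_ne_zero.2 h3
      · exact absurd h5 (h1 a ha)
    · exact sign_ne_zero.2 h5

theorem gen_sign {x z t : ℝ} (ht : 0 < t) (h0 : z ≠ 0 → x ≠ 0) (h : x * z < 0 → t ≤ -x / z) :
    SignType.sign x =
      if x + t * z = 0 then SignType.sign (-z) else SignType.sign (x + t * z) := by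
  split_ifs with h1
  · rw [eq_neg_of_add_eq_zero_left h1, ← mul_neg, sign_mul, sign_pos ht, one_mul]
  rcases lt_trichotomy z 0 with hz | rfl | hz
  · rcases lt_or_gt_of_ne (h0 hz.ne) with hx | hx
    · rw [sign_neg hx, sign_neg (by nlinarith)]
    · have h2 := (le_div_iff_of_neg hz).1 (h (by nlinarith))
      rw [sign_pos hx, sign_pos (lt_of_le_of_ne (by linarith) (Ne.symm h1))]
  · rw [mul_zero, add_zero]
  · rcases lt_or_gt_of_ne (h0 hz.ne') with hx | hx
    · have h2 := (le_div_iff₀ hz).1 (h (by nlinarith))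
      rw [sign_neg hx, sign_neg (lt_of_le_of_ne (by linarith) h1)]
    · rw [sign_pos hx, sign_pos (by nlinarith)]

/-- First perturb `θ` (`exists_avoid`, `exists_eps`) without changing its signs on `B` so that
`θ (ζ b • a - ζ a • b) = 0` implies `QP (ζ b • a - ζ a • b) ρ` for `a, b ∈ B`; this property is preserved
along the line.  Then induct on the number of `a ∈ B` with `θ a * ζ a < 0`; cross at the smallest
`t = -θ a / ζ a`. -/
theorem flow_ind {s : Finset N} [IsSeed s] (B : Finset N) (hB : ∀ a ∈ B, a ∈ cone s) {ρ : N}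
    (hρ : ρ ∈ cone s) (ζ : N →+ ℤ) (hζ : ζ ρ = 0) (P : (N →+ ℝ) → Prop)
    (hcongr : ∀ θ θ', (∀ a ∈ B, SignType.sign (θ a) = SignType.sign (θ' a)) → Fine B ρ θ →
      Fine B ρ θ' → P θ' → P θ)
    (hbase : ∀ θ, Fine B ρ θ → (∀ a ∈ B, ζ a ≠ 0 → SignType.sign (θ a) = SignType.sign (ζ a)) → P θ)
    (hstep : ∀ θ θc θ' γ₁, Cross B ρ ζ θ θc θ' γ₁ → P θ' → P θ) :
    ∀ θ, Fine B ρ θ → P θ := by
  classical
  set ζ' : N →+ ℝ := (Int.castAddHom ℝ).comp ζ with hζ'
  have e : ∀ a, ζ' a = ζ a := fun a => rfl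
  have key : ∀ (n : ℕ) (θ : N →+ ℝ), (B.filter fun a => θ a * ζ a < 0).card = n → Fine B ρ θ →
      (∀ a ∈ B, ∀ b ∈ B, θ (ζ b • a - ζ a • b) = 0 → QP (ζ b • a - ζ a • b) ρ) → P θ := by
    intro n
    induction n using Nat.strong_induction_on with
    | _ n ih =>
    intro θ hn hf hg
    have hne : ∀ a ∈ B, (ζ a : ℝ) ≠ 0 → θ a ≠ 0 := fun a ha h1 h2 =>
      h1 (by rw [gen_qp (hf.2 a ha h2) hζ, Int.cast_zero])
    rcases (B.filter fun a => θ a * ζ a < 0).eq_empty_or_nonempty with hD | hD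
    · refine hbase θ hf fun a ha h1 => ?_
      have h2 := not_lt.1 (Finset.filter_eq_empty_iff.1 hD ha)
      have h3 := hne a ha (Int.cast_ne_zero.2 h1)
      rcases lt_or_gt_of_ne h1 with h4 | h4
      · have h5 : (ζ a : ℝ) < 0 := by exact_mod_cast h4
        rw [sign_neg h4, sign_neg (lt_of_le_of_ne (by nlinarith) h3)]
      · have h5 : (0 : ℝ) < ζ a := by exact_mod_cast h4
        rw [sign_pos h4, sign_pos (lt_of_le_of_ne (by nlinarith) h3.symm)]
    obtain ⟨γ, hγ, hmin⟩ := Finset.exists_min_image _ (fun a => -θ a / ζ a) hD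
    obtain ⟨hγB, hγ0⟩ := Finset.mem_filter.1 hγ
    have hz : (ζ γ : ℝ) ≠ 0 := fun h => by simp [h] at hγ0
    have ht : 0 < -θ γ / ζ γ := by
      rw [← mul_div_mul_right _ _ hz]
      exact div_pos (by linarith) (mul_self_pos.2 hz)
    have hc : θ γ + -θ γ / ζ γ * ζ γ = 0 := by rw [div_mul_cancel₀ _ hz, add_neg_cancel]
    generalize -θ γ / ζ γ = t at hmin ht hc
    obtain ⟨ε, hε, h1⟩ := gen_eps B (θ + t • ζ') ζ'
    have e1 : ∀ a, (θ + t • ζ') a = θ a + t * ζ a := fun a => rfl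
    have e2 : ∀ a, (θ + t • ζ' + ε • ζ') a = θ a + t * ζ a + ε * ζ a := fun a => rfl
    have e3 : ∀ a b, ζ (ζ b • a - ζ a • b) = 0 := fun a b => by simp [mul_comm]
    have hf' : Fine B ρ (θ + t • ζ' + ε • ζ') := by
      refine ⟨by simp [e2, hf.1, hζ], fun a ha h2 => hf.2 a ha ?_⟩
      have h3 := h1 a ha
      rw [h2, sign_zero] at h3
      split_ifs at h3 with h4
      · rwa [e1, ← e, sign_eq_zero_iff.1 h3.symm, mul_zero, add_zero] at h4
      · exact absurd (sign_eq_zero_iff.1 h3.symm) h4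
    refine hstep θ (θ + t • ζ') (θ + t • ζ' + ε • ζ') γ ⟨hγB, Int.cast_ne_zero.1 hz, hc,
      by simp [e1, hf.1, hζ], fun a ha h2 => ?_, fun a ha => ?_, fun a ha => ?_, hf, hf'⟩
      (ih _ ?_ _ rfl hf' fun a ha b hb h2 => hg a ha b hb ?_)
    · have h3 : (θ + t • ζ') (ζ γ • a - ζ a • γ) = 0 := by
        rw [map_sub, map_zsmul, map_zsmul, h2, e1, hc, smul_zero, smul_zero, sub_self]
      rw [e1, e3, Int.cast_zero, mul_zero, add_zero] at h3
      obtain ⟨m, l, hm, h4⟩ := hg a ha γ hγB h3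
      refine ⟨m * ζ γ, m * ζ a, l, mul_ne_zero hm (Int.cast_ne_zero.1 hz), ?_⟩
      rw [← h4, smul_sub, mul_smul, mul_smul, add_sub_cancel]
    · rw [gen_sign ht (hne a ha) fun h => hmin a (Finset.mem_filter.2 ⟨ha, h⟩)]
      simp only [Stab.lex_s, Stab.ofZ, Stab.ofR_s, sign_eq_zero_iff, e1]
      simp
    · rw [h1 a ha]
      simp only [Stab.lex_s, Stab.ofZ, Stab.ofR_s, sign_eq_zero_iff, hζ']
    · rw [← hn]
      refine Finset.card_lt_card ⟨fun a ha => ?_, fun h => ?_⟩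
      · obtain ⟨h2, h3⟩ := Finset.mem_filter.1 ha
        rw [e2] at h3
        exact Finset.mem_filter.2 ⟨h2, by nlinarith [mul_self_nonneg (ζ a : ℝ)]⟩
      · have h3 := (Finset.mem_filter.1 (h hγ)).2
        rw [e2, hc] at h3
        nlinarith [mul_self_nonneg (ζ γ : ℝ)]
    · rwa [e2, e3, Int.cast_zero, mul_zero, mul_zero, add_zero, add_zero] at h2
  intro θ hf
  have hcl : ∀ a ∈ cone s, a ∈ AddSubgroup.closure (s : Set N) := fun a ha =>
    AddSubgroup.le_closure_toAddSubmonoid _ ha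
  obtain ⟨η, h0, h1⟩ := exists_avoid ρ
    (((B ×ˢ B).image fun p => ζ p.2 • p.1 - ζ p.1 • p.2).filter fun w => ¬QP w ρ) fun w hw => by
      obtain ⟨h1, h2⟩ := Finset.mem_filter.1 hw
      obtain ⟨p, hp, rfl⟩ := Finset.mem_image.1 h1
      obtain ⟨h3, h4⟩ := Finset.mem_product.1 hp
      exact exists_functional (sub_mem (zsmul_mem (hcl _ (hB _ h3)) _)
        (zsmul_mem (hcl _ (hB _ h4)) _)) (hcl _ hρ) h2
  obtain ⟨ε, -, h2⟩ := gen_eps (B ∪ (B ×ˢ B).image fun p => ζ p.2 • p.1 - ζ p.1 • p.2) θ η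
  have h3 : ∀ a ∈ B, SignType.sign (θ a) = SignType.sign ((θ + ε • η) a) := fun a ha => by
    rw [h2 a (Finset.mem_union_left _ ha)]
    split_ifs with h4
    · rw [h4, gen_qp (hf.2 a ha h4) h0]
    · rfl
  have h4 : Fine B ρ (θ + ε • η) := ⟨by simp [hf.1, h0], fun a ha h4 => hf.2 a ha (by
    rw [← sign_eq_zero_iff, h3 a ha, h4, sign_zero])⟩
  refine hcongr θ _ h3 hf h4 (key _ _ rfl h4 fun a ha b hb h5 => by_contra fun h6 => ?_)
  have h7 : ζ b • a - ζ a • b ∈ (B ×ˢ B).image fun p => ζ p.2 • p.1 - ζ p.1 • p.2 :=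
    Finset.mem_image.2 ⟨(a, b), Finset.mk_mem_product ha hb, rfl⟩
  have h8 := h2 _ (Finset.mem_union_right _ h7)
  rw [h5, sign_zero] at h8
  split_ifs at h8 with h9
  · exact h1 _ (Finset.mem_filter.2 ⟨h7, h6⟩) (sign_eq_zero_iff.1 h8.symm)
  · exact h9 (sign_eq_zero_iff.1 h8.symm)

end

end Crest.Agent.R59
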