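import Crest.Agent.R59.Tor

/-!
# R59/Grp: the group `Gp M` of elements `1 + (terms in M \ 0)`; locality and continuity; the
invariants `J ψ x = x⁻¹ δ_ψ x`
-/

set_option autoImplicit false
set_option linter.unusedSectionVars false
set_option linter.unusedVariables false

namespace Crest.Agent.R59

noncomputable section

variable {N : Type} [AddCommGroup N] [Alt N] {M : AddSubmonoid N} [Good M]

/-- Group-like elements. -/
def IsG (x : A M) : Prop := x 0 = 1 ∧ SuppIn M x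

theorem grp_one_apply (γ : N) : (1 : A M) γ = zf 0 γ := rfl

omit [Alt N] in
theorem grp_ad_zero : ad M 0 = {0} := by
  ext a
  rw [mem_ad, Finset.mem_singleton]
  constructor
  · rintro ⟨h1, h2⟩
    by_contra h
    have h3 := dg_pos h1 h
    have h4 := dg_nonneg h2
    rw [zero_sub, map_neg] at h4
    omega
  · rintro rfl
    simp

omit [Alt N] in
theorem grp_ad_of_not_mem {γ : N} (h : γ ∉ M) : ad M γ = ∅ := by
  ext a
  rw [mem_ad]
  simp only [Finset.notMem_empty, iff_false, not_and]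
  intro h1 h2
  exact h (by simpa using M.add_mem h1 h2)

omit [Alt N] [Good M] in
theorem grp_zero_of_not_mem {S : Set N} {x : N → R} (hx : SuppIn S x) {γ : N} (h : γ ∉ S) :
    x γ = 0 := by
  by_contra h0
  exact h (hx γ h0)

theorem grp_mul_zero {x y : A M} (hx : SuppIn M x) (hy : SuppIn M y) :
    (x * y) 0 = x 0 * y 0 := by
  rw [A.mul_apply_ad hx hy, grp_ad_zero, Finset.sum_singleton]
  simp

open Classical in
theorem grp_mul_split {x y : A M} (hx : SuppIn M x) (hy : SuppIn M y) (h0 : y 0 = 1) (γ : N) :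
    (x * y) γ = x γ + ∑ a ∈ (ad M γ).erase γ, vp (ω a γ) * (x a * y (γ - a)) := by
  rw [A.mul_apply_ad hx hy]
  by_cases h : γ ∈ M
  · rw [← Finset.add_sum_erase _ _ (a := γ) (mem_ad.2 ⟨h, by simp⟩), ω_self, sub_self, h0]
    simp
  · rw [grp_ad_of_not_mem h, grp_zero_of_not_mem hx h]
    simp

open Classical in
theorem grp_mul_split' {x y : A M} (hx : SuppIn M x) (hy : SuppIn M y) (h0 : x 0 = 1) (γ : N) :
    (x * y) γ = y γ + ∑ a ∈ (ad M γ).erase 0, vp (ω a γ) * (x a * y (γ - a)) := by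
  rw [A.mul_apply_ad hx hy]
  by_cases h : γ ∈ M
  · rw [← Finset.add_sum_erase _ _ (a := 0) (mem_ad.2 ⟨M.zero_mem, by simpa using h⟩), h0]
    simp
  · rw [grp_ad_of_not_mem h, grp_zero_of_not_mem hy h]
    simp

omit [Alt N] in
theorem grp_dg_lt {a γ : N} (h : γ - a ∈ M) (hne : a ≠ γ) : dg M a < dg M γ := by
  have := dg_pos h (sub_ne_zero.2 hne.symm)
  rw [map_sub] at this
  omega

open Classical in
/-- Extension by zero. -/
def grp_ext (u : M → R) : A M :=
  ⟨fun γ => if h : γ ∈ M then u ⟨γ, h⟩ else 0, Sm.of_suppIn (p := 0) fun γ hγ => by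
    by_contra h
    exact hγ (dif_neg (by simpa using h))⟩

omit [Alt N] [Good M] in
theorem grp_ext_supp (u : M → R) : SuppIn M (grp_ext u) := fun γ hγ => by
  by_contra h
  exact hγ (dif_neg h)

omit [Alt N] [Good M] in
theorem grp_ext_apply (u : M → R) {γ : N} (h : γ ∈ M) : grp_ext u γ = u ⟨γ, h⟩ := dif_pos h

theorem isG_one : IsG (1 : A M) := by
  refine ⟨zf_self 0, fun γ h => ?_⟩
  by_cases h0 : γ = 0
  · rw [h0]; exact M.zero_mem
  · exact absurd (zf_of_ne h0) h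

theorem IsG.mul {x y : A M} (hx : IsG x) (hy : IsG y) : IsG (x * y) := by
  refine ⟨?_, SuppIn.mul hx.2 hy.2 fun a ha b hb => M.add_mem ha hb⟩
  rw [grp_mul_zero hx.2 hy.2, hx.1, hy.1, one_mul]

/-- Left inverse: apply `tri_bijective` to `u ↦ (ext u * x)` on functions `u : M → R` (rank
`(dg M a).toNat`, `A.mul_apply_ad`) and solve `ext u * x = 1`. -/
theorem IsG.exists_inv {x : A M} (hx : IsG x) : ∃ y : A M, IsG y ∧ y * x = 1 := by
  classical
  have hb := tri_bijective (ι := M) (A := R) (fun a => (dg M a).toNat)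
    (fun u i => (grp_ext u * x) i) (by
      intro u u' i h
      rw [grp_mul_split (grp_ext_supp u) hx.2 hx.1, grp_mul_split (grp_ext_supp u') hx.2 hx.1,
        grp_ext_apply u i.2, grp_ext_apply u' i.2, add_sub_cancel_left, add_sub_cancel_left]
      refine Finset.sum_congr rfl fun a ha => ?_
      rw [Finset.mem_erase, mem_ad] at ha
      rw [grp_ext_apply u ha.2.1, grp_ext_apply u' ha.2.1, h]
      have h1 := grp_dg_lt ha.2.2 ha.1
      have h2 := dg_nonneg ha.2.1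
      change (dg M a).toNat < (dg M i).toNat
      omega)
  obtain ⟨u, hu⟩ := hb.2 fun i => (1 : A M) i
  have h1 : grp_ext u * x = 1 := by
    ext γ : 1
    by_cases h : γ ∈ M
    · exact congrFun hu ⟨γ, h⟩
    · rw [grp_zero_of_not_mem
        (SuppIn.mul (grp_ext_supp u) hx.2 fun a ha b hb => M.add_mem ha hb) h,
        grp_zero_of_not_mem isG_one.2 h]
  refine ⟨grp_ext u, ⟨?_, grp_ext_supp u⟩, h1⟩
  have h2 := grp_mul_zero (grp_ext_supp u) hx.2
  rw [h1, hx.1, mul_one] at h2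
  rw [← h2]
  exact zf_self 0

/-- The group. -/
def Gp (M : AddSubmonoid N) [Good M] : Type := {x : A M // IsG x}

instance : CoeFun (Gp M) fun _ => N → R := ⟨fun x => x.1.1⟩

instance : Mul (Gp M) := ⟨fun x y => ⟨x.1 * y.1, x.2.mul y.2⟩⟩
instance : One (Gp M) := ⟨⟨1, isG_one⟩⟩
instance : Inv (Gp M) :=
  ⟨fun x => ⟨Classical.choose x.2.exists_inv, (Classical.choose_spec x.2.exists_inv).1⟩⟩

instance : Group (Gp M) :=
  Group.ofLeftAxioms (fun x y w => Subtype.ext (mul_assoc x.1 y.1 w.1))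
    (fun x => Subtype.ext (one_mul x.1))
    (fun x => Subtype.ext (Classical.choose_spec x.2.exists_inv).2)

@[ext] theorem Gp.ext {x y : Gp M} (h : ∀ γ, x γ = y γ) : x = y := Subtype.ext (A.ext h)

@[simp] theorem Gp.val_mul (x y : Gp M) : (x * y).1 = x.1 * y.1 := rfl
@[simp] theorem Gp.val_one : (1 : Gp M).1 = 1 := rfl
theorem Gp.inv_mul_val (x : Gp M) : (x⁻¹).1 * x.1 = 1 := congrArg Subtype.val (inv_mul_cancel x)
theorem Gp.mul_inv_val (x : Gp M) : x.1 * (x⁻¹).1 = 1 := congrArg Subtype.val (mul_inv_cancel x)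
theorem Gp.zero (x : Gp M) : x 0 = 1 := x.2.1
theorem Gp.supp (x : Gp M) : SuppIn M x := x.2.2

/-- Build a group element from a function. -/
def Gp.mk' (f : N → R) (h0 : f 0 = 1) (hs : SuppIn M f) : Gp M :=
  ⟨⟨f, Sm.of_suppIn (p := 0) fun γ h => by simpa using hs γ h⟩, h0, hs⟩

/-- Inclusion of groups. -/
def Gp.incl {M M' : AddSubmonoid N} [Good M] [Good M'] (h : M ≤ M') : Gp M →* Gp M' where
  toFun x := ⟨A.incl h x.1, x.2.1, fun γ hγ => h (x.2.2 γ hγ)⟩
  map_one' := rfl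
  map_mul' _ _ := rfl

@[simp] theorem Gp.incl_apply {M M' : AddSubmonoid N} [Good M] [Good M'] (h : M ≤ M') (x : Gp M)
    (γ : N) : Gp.incl h x γ = x γ := rfl

/-- Restriction of the monoid. -/
def Gp.res (M' : AddSubmonoid N) [Good M'] (x : Gp M) (h : SuppIn M' x) : Gp M' :=
  Gp.mk' x x.zero h

@[simp] theorem Gp.res_apply (M' : AddSubmonoid N) [Good M'] (x : Gp M) (h : SuppIn M' x) (γ : N) :
    Gp.res M' x h γ = x γ := rfl

/-- Pass through `Gp (M ⊓ M')`. -/
theorem Gp.inv_supp {M' : AddSubmonoid N} {x : Gp M} (h : SuppIn M' x) : SuppIn M' (x⁻¹ : Gp M) := by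
  have hs : SuppIn (M ⊓ M' : AddSubmonoid N) x := fun γ hγ => ⟨x.supp γ hγ, h γ hγ⟩
  have e : x = Gp.incl inf_le_left (Gp.res (M ⊓ M') x hs) := Gp.ext fun _ => rfl
  intro γ hγ
  rw [e, ← map_inv, Gp.incl_apply] at hγ
  exact (Gp.supp _ γ hγ).2

theorem Gp.mul_supp {M' : AddSubmonoid N} {x y : Gp M} (hx : SuppIn M' x) (hy : SuppIn M' y) :
    SuppIn M' (x * y : Gp M) := by
  exact SuppIn.mul (x := x.1) (y := y.1) hx hy fun a ha b hb => M'.add_mem ha hb

/-- The inverse does not depend on the monoid. -/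
theorem Gp.inv_congr {M' : AddSubmonoid N} [Good M'] {x : Gp M} {y : Gp M'} (h : ∀ γ, x γ = y γ)
    (γ : N) : (x⁻¹ : Gp M) γ = (y⁻¹ : Gp M') γ := by
  have hs : SuppIn (M ⊓ M' : AddSubmonoid N) x := fun γ hγ =>
    ⟨x.supp γ hγ, y.supp γ (by rwa [← h])⟩
  have e : x = Gp.incl inf_le_left (Gp.res (M ⊓ M') x hs) := Gp.ext fun _ => rfl
  have e' : y = Gp.incl inf_le_right (Gp.res (M ⊓ M') x hs) := Gp.ext fun γ => (h γ).symm
  have h1 := congrArg (fun w : Gp M => (w⁻¹ : Gp M) γ) e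
  have h2 := congrArg (fun w : Gp M' => (w⁻¹ : Gp M') γ) e'
  simp only [← map_inv, Gp.incl_apply] at h1 h2
  rw [h1, h2]

/-- Sets closed under taking summands in `M`. -/
def Lower (M : AddSubmonoid N) (S : Set N) : Prop := ∀ a ∈ M, ∀ b ∈ M, a + b ∈ S → a ∈ S

/-- All proper summands of `γ` lie in `S`. -/
def Top (M : AddSubmonoid N) (S : Set N) (γ : N) : Prop :=
  ∀ a ∈ M, ∀ b ∈ M, b ≠ 0 → a + b = γ → a ∈ S

/-- Convergence on a set. -/
def LimOn (S : Set N) (x : ℕ → N → R) (y : N → R) : Prop := ∀ γ ∈ S, Lim (fun k => x k γ) (y γ)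

/-- Agreement on a set. -/
def Agree (S : Set N) (x y : N → R) : Prop := ∀ γ ∈ S, x γ = y γ

omit [AddCommGroup N] [Alt N] in
theorem limOn_const_iff {S : Set N} {x y : N → R} : LimOn S (fun _ => x) y ↔ Agree S x y := by
  simp only [LimOn, Agree, lim_const_iff]

omit [Alt N] in
theorem lower_deg (D : ℤ) : Lower M {a | dg M a ≤ D} := by
  intro a ha b hb h
  have h1 := dg_nonneg hb
  have h2 : dg M (a + b) ≤ D := h
  rw [map_add] at h2
  change dg M a ≤ D
  omega

omit [Alt N] in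
theorem top_deg (γ : N) : Top M {a | dg M a < dg M γ} γ := by
  intro a ha b hb h0 h
  have h1 := dg_pos hb h0
  change dg M a < dg M γ
  rw [← h, map_add]
  omega

omit [Alt N] in
theorem lower_deg_lt (D : ℤ) : Lower M {a | dg M a < D} := by
  intro a ha b hb h
  have h1 := dg_nonneg hb
  have h2 : dg M (a + b) < D := h
  rw [map_add] at h2
  change dg M a < D
  omega

theorem LimOn.mul {S : Set N} (hS : Lower M S) {x y : ℕ → Gp M} {x' y' : Gp M}
    (hx : LimOn S (fun k => x k) x') (hy : LimOn S (fun k => y k) y') :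
    LimOn S (fun k => (x k * y k : Gp M)) (x' * y' : Gp M) := by
  intro γ hγ
  have e : ∀ u w : Gp M, (u * w : Gp M) γ = ∑ a ∈ ad M γ, vp (ω a γ) * (u a * w (γ - a)) :=
    fun u w => A.mul_apply_ad u.supp w.supp γ
  simp only [e]
  refine Lim.sum fun a ha => (lim_const _).mul (Lim.mul (hx a ?_) (hy _ ?_))
  · exact hS a (mem_ad.1 ha).1 _ (mem_ad.1 ha).2 (by simpa using hγ)
  · exact hS _ (mem_ad.1 ha).2 a (mem_ad.1 ha).1 (by simpa using hγ)

theorem LimOn.inv {S : Set N} (hS : Lower M S) {x : ℕ → Gp M} {x' : Gp M}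
    (hx : LimOn S (fun k => x k) x') :
    LimOn S (fun k => ((x k)⁻¹ : Gp M)) (x'⁻¹ : Gp M) := by
  classical
  have e : ∀ (u : Gp M) γ, (u⁻¹ : Gp M) γ = zf 0 γ -
      ∑ a ∈ (ad M γ).erase γ, vp (ω a γ) * ((u⁻¹ : Gp M) a * u (γ - a)) := by
    intro u γ
    have := grp_mul_split (u⁻¹ : Gp M).supp u.supp u.zero γ
    rw [Gp.inv_mul_val, grp_one_apply] at this
    rw [this]
    ring
  have key : ∀ n : ℕ, ∀ γ ∈ S, (dg M γ).toNat = n →
      Lim (fun k => ((x k)⁻¹ : Gp M) γ) ((x'⁻¹ : Gp M) γ) := by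
    intro n
    induction n using Nat.strong_induction_on with
    | _ n ih =>
      intro γ hγ hn
      rw [e x' γ]
      simp only [fun k => e (x k) γ]
      refine (lim_const _).sub (Lim.sum fun a ha => (lim_const _).mul (Lim.mul ?_ (hx _ ?_)))
      · rw [Finset.mem_erase, mem_ad] at ha
        have h1 := grp_dg_lt ha.2.2 ha.1
        have h2 := dg_nonneg ha.2.1
        exact ih _ (by omega) a (hS a ha.2.1 _ ha.2.2 (by simpa using hγ)) rfl
      · rw [Finset.mem_erase, mem_ad] at ha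
        exact hS _ ha.2.2 a ha.2.1 (by simpa using hγ)
  exact fun γ hγ => key _ γ hγ rfl

theorem Agree.mul {S : Set N} (hS : Lower M S) {x y x' y' : Gp M} (hx : Agree S x x')
    (hy : Agree S y y') : Agree S (x * y : Gp M) (x' * y' : Gp M) :=
  limOn_const_iff.1 (LimOn.mul (x := fun _ => x) (y := fun _ => y) hS (limOn_const_iff.2 hx)
    (limOn_const_iff.2 hy))

theorem Agree.inv {S : Set N} (hS : Lower M S) {x x' : Gp M} (hx : Agree S x x') :
    Agree S (x⁻¹ : Gp M) (x'⁻¹ : Gp M) :=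
  limOn_const_iff.1 (LimOn.inv (x := fun _ => x) hS (limOn_const_iff.2 hx))

/-- `(x * y) γ = x γ + y γ + (products of values at proper summands)`. -/
theorem LimOn.mul_top {S : Set N} {γ : N} (hγ : γ ≠ 0) (hT : Top M S γ) {x y : ℕ → Gp M}
    {x' y' : Gp M} (hx : LimOn S (fun k => x k) x') (hy : LimOn S (fun k => y k) y') :
    Lim (fun k => (x k * y k : Gp M) γ - x k γ - y k γ) ((x' * y' : Gp M) γ - x' γ - y' γ) := by
  classical
  have e : ∀ u w : Gp M, (u * w : Gp M) γ - u γ - w γ =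
      ∑ a ∈ ((ad M γ).erase γ).erase 0, vp (ω a γ) * (u a * w (γ - a)) := by
    intro u w
    have h1 : (u * w : Gp M) γ = _ := grp_mul_split u.supp w.supp w.zero γ
    rw [h1]
    by_cases h : γ ∈ M
    · rw [← Finset.add_sum_erase _ _ (a := 0) (Finset.mem_erase.2
        ⟨hγ.symm, mem_ad.2 ⟨M.zero_mem, by simpa using h⟩⟩), u.zero]
      simp
    · rw [grp_ad_of_not_mem h, grp_zero_of_not_mem w.supp h]
      simp
  simp only [e]
  refine Lim.sum fun a ha => ?_
  rw [Finset.mem_erase, Finset.mem_erase, mem_ad] at ha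
  refine (lim_const _).mul (Lim.mul (hx a ?_) (hy _ ?_))
  · exact hT a ha.2.2.1 _ ha.2.2.2 (sub_ne_zero.2 ha.2.1.symm) (by simp)
  · exact hT _ ha.2.2.2 a ha.2.2.1 ha.1 (by simp)

theorem grp_mul_shift {F G : A M} {p : N} (hF : SuppIn {r | r - p ∈ M} F) (hG : SuppIn M G)
    (γ : N) : (F * G) (p + γ) =
      ∑ a ∈ ad M γ, vp (ω (p + a) (p + γ)) * (F (p + a) * G (γ - a)) := by
  change tmul F.1 G.1 (p + γ) = _
  rw [tmul_eq_sum (B := (ad M γ).map (addLeftEmbedding p)), Finset.sum_map]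
  · refine Finset.sum_congr rfl fun a _ => ?_
    rw [addLeftEmbedding_apply, add_sub_add_left_eq_sub]
  · intro a h1 h2
    refine Finset.mem_map.2 ⟨a - p, mem_ad.2 ⟨hF a h1, ?_⟩, by simp⟩
    have := hG _ h2
    rwa [show p + γ - a = γ - (a - p) by abel] at this

theorem grp_mul_z (x : A M) (p r : N) : (x * z M p) r = vp (ω r p) * x (r - p) :=
  tmul_zf p x.1 r

theorem grp_mul_z_supp {x : A M} (hx : SuppIn M x) (p : N) :
    SuppIn {r | r - p ∈ M} (x * z M p : A M) := fun r hr => by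
  rw [grp_mul_z] at hr
  exact hx _ (right_ne_zero_of_mul hr)

theorem grp_sandwich_eq {x y : A M} (hx : SuppIn M x) (hy : SuppIn M y) (p γ : N) :
    (x * z M p * y) (p + γ) =
      ∑ a ∈ ad M γ, vp (ω (p + a) (p + γ)) * (vp (ω (p + a) p) * x a * y (γ - a)) := by
  rw [grp_mul_shift (grp_mul_z_supp hx p) hy]
  refine Finset.sum_congr rfl fun a _ => ?_
  rw [grp_mul_z, add_sub_cancel_left]

/-- Sandwiches `x z^{r-γ} y` at `r` only see the summands of `γ`. -/
theorem LimOn.sandwich {S : Set N} (hS : Lower M S) {x y : ℕ → Gp M} {x' y' : Gp M}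
    (hx : LimOn S (fun k => x k) x') (hy : LimOn S (fun k => y k) y') {γ : N} (hγ : γ ∈ S) (p : N) :
    Lim (fun k => ((x k).1 * z M p * (y k).1) (p + γ)) ((x'.1 * z M p * y'.1) (p + γ)) := by
  rw [grp_sandwich_eq x'.supp y'.supp]
  simp only [fun k => grp_sandwich_eq (x k).supp (y k).supp p γ]
  refine Lim.sum fun a ha => (lim_const _).mul (Lim.mul ((lim_const _).mul (hx a ?_)) (hy _ ?_))
  · exact hS a (mem_ad.1 ha).1 _ (mem_ad.1 ha).2 (by simpa using hγ)
  · exact hS _ (mem_ad.1 ha).2 a (mem_ad.1 ha).1 (by simpa using hγ)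

theorem sandwich_supp (x y : Gp M) (p : N) : SuppIn {r | r - p ∈ M} (x.1 * z M p * y.1 : A M) := by
  refine SuppIn.mul (grp_mul_z_supp x.supp p) y.supp fun a ha b hb => ?_
  have := M.add_mem ha hb
  change a + b - p ∈ M
  rwa [show a + b - p = a - p + b by abel]

theorem sandwich_self (x y : Gp M) (p : N) : (x.1 * z M p * y.1 : A M) p = 1 := by
  have := grp_sandwich_eq x.supp y.supp p 0
  rw [add_zero, grp_ad_zero, Finset.sum_singleton, add_zero, sub_zero, ω_self, x.zero, y.zero] at this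
  rw [this]
  simp

/-- For `F` supported in `p + M`. -/
theorem sandwich_apply (x y : Gp M) {F : A M} {p : N} (hF : SuppIn {r | r - p ∈ M} F) (γ : N) :
    (x.1 * F * y.1) (p + γ) =
      ∑ a ∈ ad M γ, F (p + γ - a) * (x.1 * z M (p + γ - a) * y.1) (p + γ) := by
  classical
  rw [(A.mul_mul_apply x.1 F y.1 (p + γ)).2,
    finsum_eq_sum_of_support_subset (s := (ad M γ).image fun a => p + γ - a),
    Finset.sum_image (fun a _ b _ h => sub_right_injective h)]
  intro r hr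
  have h1 := hF r (left_ne_zero_of_mul hr)
  have h2 := sandwich_supp x y r _ (right_ne_zero_of_mul hr)
  refine Finset.mem_coe.2 (Finset.mem_image.2 ⟨p + γ - r, mem_ad.2 ⟨h2, ?_⟩, by simp⟩)
  rwa [show γ - (p + γ - r) = r - p by abel]

theorem sandwich_suppIn (x y : Gp M) {F : A M} {p : N} (hF : SuppIn {r | r - p ∈ M} F) :
    SuppIn {r | r - p ∈ M} (x.1 * F * y.1 : A M) := by
  refine SuppIn.mul (S := {r | r - p ∈ M}) (SuppIn.mul x.supp hF fun a ha b hb => ?_) y.supp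
    fun a ha b hb => ?_
  · have := M.add_mem ha hb
    change a + b - p ∈ M
    rwa [show a + b - p = a + (b - p) by abel]
  · have := M.add_mem ha hb
    change a + b - p ∈ M
    rwa [show a + b - p = a - p + b by abel]

/-- The derivation `z^γ ↦ ψ γ z^γ`. -/
def del (ψ : N →+ ℤ) (x : A M) : A M :=
  ⟨fun γ => (ψ γ : R) * x γ, x.2.of_le fun γ h h0 => h (by simp [h0])⟩

omit [Alt N] [Good M] in
theorem grp_del_apply (ψ : N →+ ℤ) (x : A M) (γ : N) : del ψ x γ = (ψ γ : R) * x γ := rfl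

omit [Alt N] [Good M] in
theorem grp_del_supp (ψ : N →+ ℤ) {S : Set N} {x : A M} (hx : SuppIn S x) :
    SuppIn S (del ψ x) := fun γ h => hx γ (right_ne_zero_of_mul h)

theorem grp_del_one (ψ : N →+ ℤ) : del ψ (1 : A M) = 0 := by
  ext γ : 1
  rw [grp_del_apply, grp_one_apply, A.zero_apply]
  by_cases h : γ = 0
  · simp [h]
  · rw [zf_of_ne h, mul_zero]

omit [Alt N] [Good M] in
theorem grp_del_comm (ψ χ : N →+ ℤ) (x : A M) : del ψ (del χ x) = del χ (del ψ x) := by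
  ext γ : 1
  simp only [grp_del_apply]
  ring

theorem del_mul (ψ : N →+ ℤ) (x y : A M) : del ψ (x * y) = del ψ x * y + x * del ψ y := by
  ext γ : 1
  have hf := Sm.finite_conv x.2 y.2 γ
  rw [A.add_apply, grp_del_apply]
  change (ψ γ : R) * tmul x.1 y.1 γ = tmul (del ψ x).1 y.1 γ + tmul x.1 (del ψ y).1 γ
  rw [tmul_eq_sum (B := hf.toFinset) (fun a h1 h2 => hf.mem_toFinset.2 ⟨h1, h2⟩),
    tmul_eq_sum (f := (del ψ x).1) (B := hf.toFinset)
      (fun a h1 h2 => hf.mem_toFinset.2 ⟨right_ne_zero_of_mul h1, h2⟩),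
    tmul_eq_sum (g := (del ψ y).1) (B := hf.toFinset)
      (fun a h1 h2 => hf.mem_toFinset.2 ⟨h1, right_ne_zero_of_mul h2⟩),
    Finset.mul_sum, ← Finset.sum_add_distrib]
  refine Finset.sum_congr rfl fun a _ => ?_
  rw [grp_del_apply, grp_del_apply, map_sub]
  push_cast
  ring

/-- The invariant `x⁻¹ δ_ψ x`. -/
def J (ψ : N →+ ℤ) (x : Gp M) : A M := (x⁻¹).1 * del ψ x.1

theorem J_one (ψ : N →+ ℤ) : J ψ (1 : Gp M) = 0 := by
  rw [J, Gp.val_one, grp_del_one, mul_zero]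

theorem J_supp (ψ : N →+ ℤ) {M' : AddSubmonoid N} {x : Gp M} (h : SuppIn M' x) :
    SuppIn M' (J ψ x) := by
  exact SuppIn.mul (Gp.inv_supp h) (grp_del_supp ψ h) fun a ha b hb => M'.add_mem ha hb

theorem J_congr {M' : AddSubmonoid N} [Good M'] (ψ : N →+ ℤ) {x : Gp M} {y : Gp M'}
    (h : ∀ γ, x γ = y γ) (γ : N) : J ψ x γ = J ψ y γ := by
  change tmul (x⁻¹ : Gp M).1.1 (del ψ x.1).1 γ = tmul (y⁻¹ : Gp M').1.1 (del ψ y.1).1 γ
  have h1 : (x⁻¹ : Gp M).1.1 = (y⁻¹ : Gp M').1.1 := funext (Gp.inv_congr h)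
  have h2 : (del ψ x.1).1 = (del ψ y.1).1 := funext fun a => by
    rw [grp_del_apply, grp_del_apply, h]
  rw [h1, h2]

/-- `J (x y) = y⁻¹ (J x) y + J y`, and the trace property `A.mul_comm_apply`. -/
theorem J_mul (ψ : N →+ ℤ) {x y : Gp M} {γ : N} (hy : SuppIn {a | ω a γ = 0} y) :
    J ψ (x * y) γ = J ψ x γ + J ψ y γ := by
  have e : J ψ (x * y) = (y⁻¹ : Gp M).1 * J ψ x * y.1 + J ψ y := by
    rw [J, J, J, mul_inv_rev, Gp.val_mul, Gp.val_mul, del_mul, mul_add]
    congr 1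
    · simp only [mul_assoc]
    · rw [mul_assoc, ← mul_assoc (x⁻¹ : Gp M).1, Gp.inv_mul_val, one_mul]
  rw [e, A.add_apply, ← A.mul_comm_apply _ hy, ← mul_assoc, Gp.mul_inv_val, one_mul]

theorem J_agree (ψ : N →+ ℤ) {S : Set N} (hS : Lower M S) {x y : Gp M} (h : Agree S x y) :
    Agree S (J ψ x) (J ψ y) := by
  intro γ hγ
  rw [J, J, A.mul_apply_ad (Gp.supp _) (grp_del_supp ψ x.supp),
    A.mul_apply_ad (Gp.supp _) (grp_del_supp ψ y.supp)]
  refine Finset.sum_congr rfl fun a ha => ?_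
  rw [mem_ad] at ha
  rw [grp_del_apply, grp_del_apply, h _ (hS _ ha.2 a ha.1 (by simpa using hγ)),
    Agree.inv hS h a (hS a ha.1 _ ha.2 (by simpa using hγ))]

theorem J_top (ψ : N →+ ℤ) {S : Set N} (hS : Lower M S) {γ : N} (hT : Top M S γ) {x y : Gp M}
    (h : Agree S x y) : J ψ x γ - (ψ γ : R) * x γ = J ψ y γ - (ψ γ : R) * y γ := by
  classical
  rw [J, J, grp_mul_split' (Gp.supp _) (grp_del_supp ψ x.supp) (Gp.zero _),
    grp_mul_split' (Gp.supp _) (grp_del_supp ψ y.supp) (Gp.zero _), grp_del_apply, grp_del_apply,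
    add_sub_cancel_left, add_sub_cancel_left]
  refine Finset.sum_congr rfl fun a ha => ?_
  rw [Finset.mem_erase, mem_ad] at ha
  rw [grp_del_apply, grp_del_apply]
  by_cases h1 : a = γ
  · simp [h1]
  · rw [h _ (hT _ ha.2.2 a ha.2.1 ha.1 (by simp)),
      Agree.inv hS h a (hT a ha.2.1 _ ha.2.2 (sub_ne_zero.2 (Ne.symm h1)) (by simp))]

/-- Flatness: `δ_χ (J ψ x) - δ_ψ (J χ x) = J ψ x * J χ x - J χ x * J ψ x`; take the trace. -/
theorem J_indep (ψ χ : N →+ ℤ) {x : Gp M} {γ : N} (hx : SuppIn {a | ω a γ = 0} x) :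
    (χ γ : R) * J ψ x γ = (ψ γ : R) * J χ x γ := by
  have hinv : ∀ φ : N →+ ℤ, del φ (x⁻¹ : Gp M).1 = -(J φ x * (x⁻¹ : Gp M).1) := by
    intro φ
    have h1 := del_mul φ (x⁻¹ : Gp M).1 x.1
    rw [Gp.inv_mul_val, grp_del_one] at h1
    have h2 : del φ (x⁻¹ : Gp M).1 * x.1 = -J φ x := eq_neg_of_add_eq_zero_left h1.symm
    rw [← neg_mul, ← h2, mul_assoc, Gp.mul_inv_val, mul_one]
  have hd : ∀ φ φ' : N →+ ℤ, del φ (J φ' x) =
      -(J φ x * J φ' x) + (x⁻¹ : Gp M).1 * del φ (del φ' x.1) := by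
    intro φ φ'
    conv_lhs => rw [J]
    rw [del_mul, hinv, neg_mul, mul_assoc]
    rfl
  let M' : AddSubmonoid N := AddMonoidHom.mker ((ω (N := N)).flip γ)
  have hs : SuppIn {a | ω a γ = 0} (J ψ x) := J_supp ψ (M' := M') hx
  have h1 := congrArg (fun w : A M => w γ) (hd χ ψ)
  have h2 := congrArg (fun w : A M => w γ) (hd ψ χ)
  simp only [grp_del_apply, A.add_apply, A.neg_apply] at h1 h2
  rw [h1, h2, grp_del_comm χ ψ, A.mul_comm_apply _ hs]

end

end Crest.Agent.R59
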