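import Crest.Agent.R59.MutA

/-!
# R59/Mut: mutation invariance of the canonical element

Put `Ψ = Psi k`, `Ψ' = Psi (-k)`, `g = can s`, `g' = can s'`,
`h = Ψ⁻¹ g`, `h⁺ = g Ψ⁻¹` (in `Gp (cone s)`), `h' = g' Ψ'⁻¹`, `h'⁺ = Ψ'⁻¹ g'` (in `Gp (cone s')`).
Claim, by induction on `d = d0 γ`: `h γ = h' γ` and `h⁺ γ = h'⁺ (Tk k γ)`.
* `ω k γ ≤ 0`: `h γ = h' γ` by `compare_top` (`J_strip_left` for `g = Ψ h`, `J_strip_right` with
  `e = -k` for `g' = h' Ψ'`, `isCanon_can`, `target_neg`; if `γ` is outside a cone then both sides of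
  the canonical identity vanish by `J_supp`).
* `0 ≤ ω k γ`: `h⁺ γ = h'⁺ (Tk k γ)` in the same way, comparing `Gp.map (Tk k) h⁺` (monoid
  `(cone s).map (Tk k)`) with `h'⁺`, using `J_fW_map`, `target_pos`.
* The remaining cases by conjugation (`conj_step`, `conj_step'`): `h = Ψ⁻¹ h⁺ Ψ`, `h' = Ψ' h'⁺ Ψ'⁻¹`,
  and conjugation preserves `d0` and `ω k ·`.
-/

set_option autoImplicit false
set_option linter.unusedSectionVars false
set_option linter.unusedVariables false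

namespace Crest.Agent.R59

noncomputable section

variable {N : Type} [AddCommGroup N] [Alt N] {s s' : Finset N} [IsSeed s] [IsSeed s'] {k : N}

theorem mut_sand {M : AddSubmonoid N} [Good M] {x y : Gp M} {e : N}
    (hx : SuppIn (AddSubmonoid.multiples e) x) (hy : SuppIn (AddSubmonoid.multiples e) y)
    {p γ : N} (h : (x.1 * z M p * y.1) γ ≠ 0) : ∃ n : ℕ, γ = p + n • e := by
  have hz : SuppIn {p} (z M p) := fun a ha => by_contra fun hne => ha (zf_of_ne hne)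
  have h1 : SuppIn {a | ∃ n : ℕ, a = p + n • e} (x.1 * z M p : A M) := by
    refine SuppIn.mul hx hz ?_
    rintro a ⟨n, rfl⟩ b rfl
    exact ⟨n, add_comm _ _⟩
  refine SuppIn.mul (U := {a | ∃ n : ℕ, a = p + n • e}) h1 hy ?_ γ h
  rintro a ⟨n, rfl⟩ b ⟨m, rfl⟩
  exact ⟨n + m, by rw [add_nsmul, add_assoc]⟩

theorem mut_psi_supp {M : AddSubmonoid N} [Good M] (e : N) :
    SuppIn (AddSubmonoid.multiples e) (Psi M e) := E_supp _ _ _

theorem mut_psi_inv_supp {M : AddSubmonoid N} [Good M] (e : N) :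
    SuppIn (AddSubmonoid.multiples e) ((Psi M e)⁻¹ : Gp M) := Gp.inv_supp (E_supp _ _ _)

theorem mut_ω_add (k γ : N) (j : ℤ) : ω k (γ + j • k) = ω k γ := by
  rw [map_add, map_zsmul, ω_self, smul_zero, add_zero]

theorem mut_conj {M M' : AddSubmonoid N} [Good M] [Good M'] (hk : k ∈ M) (hk' : -k ∈ M')
    (h0 : k ≠ 0) {x : A M} {x' : A M'} {γ : N} (hω : 0 ≤ ω k γ)
    (h : ∀ j : ℤ, x (γ + j • k) = x' (Tk k (γ + j • k))) :
    (((Psi M k)⁻¹).1 * x * (Psi M k).1) γ = ((Psi M' (-k)).1 * x' * ((Psi M' (-k))⁻¹).1) γ := by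
  rw [(A.mul_mul_apply _ x _ γ).2, (A.mul_mul_apply _ x' _ γ).2]
  refine finsum_eq_of_bijective (Tk k) (Tk k).bijective fun p => ?_
  by_cases hp : ∃ j : ℤ, p = γ + j • k
  · obtain ⟨j, rfl⟩ := hp
    obtain ⟨m, hm⟩ := Int.eq_ofNat_of_zero_le hω
    have hm' : ω k (γ + j • k) = m := by rw [mut_ω_add, hm]
    have e1 : Tk k (γ + j • k) = γ + j • k + m • k := by rw [Tk_apply, hm', natCast_zsmul]
    rw [h j, e1, psi_conj_cj hk h0 hm', psi_conj_cj' hk' h0 hm']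
    rfl
  · have h1 : (((Psi M k)⁻¹).1 * z M p * (Psi M k).1) γ = 0 := by
      by_contra hne
      obtain ⟨n, hn⟩ := mut_sand (mut_psi_inv_supp k) (mut_psi_supp k) hne
      exact hp ⟨-n, by rw [hn, neg_smul, natCast_zsmul]; abel⟩
    have h2 : ((Psi M' (-k)).1 * z M' (Tk k p) * ((Psi M' (-k))⁻¹).1) γ = 0 := by
      by_contra hne
      obtain ⟨n, hn⟩ := mut_sand (mut_psi_supp (-k)) (mut_psi_inv_supp (-k)) hne
      exact hp ⟨n - ω k p, by rw [hn, Tk_apply, sub_smul, natCast_zsmul, smul_neg]; abel⟩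
    rw [h1, h2, mul_zero, mul_zero]

theorem mut_cj_shift {p γ : N} {m : ℕ} (hp : ω k p = -m) (hγ : ω k γ = -m) :
    cj (-k) (p + m • k) m γ = cj (-k) p m (Tk k γ) := by
  unfold cj
  generalize ((List.range m).map fun i : ℕ => 1 + vp (2 * i + 1) • z ⊥ (-k)).prod = Q
  change tmul (zf (p + m • k)) Q.1 γ = tmul (zf p) Q.1 (Tk k γ)
  rw [zf_tmul, zf_tmul, Tk_apply, hγ]
  congr 2
  · simp only [map_add, map_nsmul, map_zsmul, AddMonoidHom.add_apply, AddMonoidHom.smul_apply,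
      ω_swap p k, hp, hγ, smul_eq_mul, nsmul_eq_mul]
    ring
  · rw [neg_smul, natCast_zsmul]; abel_nf

theorem mut_conj' {M M' : AddSubmonoid N} [Good M] [Good M'] (hk : k ∈ M) (hk' : -k ∈ M')
    (h0 : k ≠ 0) {x : A M} {x' : A M'} {γ : N} (hω : ω k γ ≤ 0)
    (h : ∀ j : ℤ, x (γ + j • k) = x' (γ + j • k)) :
    ((Psi M k).1 * x * ((Psi M k)⁻¹).1) γ =
      (((Psi M' (-k))⁻¹).1 * x' * (Psi M' (-k)).1) (Tk k γ) := by
  rw [(A.mul_mul_apply _ x _ γ).2, (A.mul_mul_apply _ x' _ _).2]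
  refine finsum_congr fun p => ?_
  by_cases hp : ∃ j : ℤ, p = γ + j • k
  · obtain ⟨j, rfl⟩ := hp
    obtain ⟨m, hm⟩ := Int.eq_ofNat_of_zero_le (neg_nonneg.2 hω)
    have hγ : ω k γ = -m := by rw [← hm, neg_neg]
    have hp : ω k (γ + j • k) = -m := by rw [mut_ω_add, hγ]
    have hm1 : ω (-k) (γ + j • k) = m := by rw [map_neg, AddMonoidHom.neg_apply, hp, neg_neg]
    have hm2 : ω (-k) (γ + j • k + m • k) = m := by
      rw [map_neg, AddMonoidHom.neg_apply, ← natCast_zsmul, mut_ω_add, hp, neg_neg]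
    have h1 := psi_conj_cj' (M := M) (e := -k) (by rwa [neg_neg]) (neg_ne_zero.2 h0) hm2
    rw [neg_neg, smul_neg, add_neg_cancel_right] at h1
    rw [h j, h1, psi_conj_cj hk' (neg_ne_zero.2 h0) hm1]
    congr 1
    exact mut_cj_shift hp hγ
  · have h1 : ((Psi M k).1 * z M p * ((Psi M k)⁻¹).1) γ = 0 := by
      by_contra hne
      obtain ⟨n, hn⟩ := mut_sand (mut_psi_supp k) (mut_psi_inv_supp k) hne
      exact hp ⟨-n, by rw [hn, neg_smul, natCast_zsmul]; abel⟩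
    have h2 : (((Psi M' (-k))⁻¹).1 * z M' p * (Psi M' (-k)).1) (Tk k γ) = 0 := by
      by_contra hne
      obtain ⟨n, hn⟩ := mut_sand (mut_psi_inv_supp (-k)) (mut_psi_supp (-k)) hne
      refine hp ⟨ω k γ + n, ?_⟩
      rw [Tk_apply, smul_neg] at hn
      rw [add_smul, ← add_assoc, hn, natCast_zsmul]; abel
    rw [h1, h2, mul_zero, mul_zero]

/-- By `A.mul_mul_apply` both sides are finite sums over `p ∈ γ + ℤ k` (finite by `hfin`);
compare the terms with `psi_conj_cj`, `psi_conj_cj'`. -/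
theorem conj_step {M M' : AddSubmonoid N} [Good M] [Good M'] (hk : k ∈ M) (hk' : -k ∈ M')
    (h0 : k ≠ 0) {x : A M} {x' : A M'} {γ : N} (hω : 0 ≤ ω k γ)
    (h : ∀ j : ℤ, x (γ + j • k) = x' (Tk k (γ + j • k)))
    (hfin : {j : ℤ | x (γ + j • k) ≠ 0}.Finite) :
    (((Psi M k)⁻¹).1 * x * (Psi M k).1) γ = ((Psi M' (-k)).1 * x' * ((Psi M' (-k))⁻¹).1) γ := by
  exact mut_conj hk hk' h0 hω h

/-- The case `ω k γ ≤ 0`: here `Ψ z^p Ψ⁻¹` and `Ψ'⁻¹ z^p Ψ'` are polynomials related by `Tk k`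
(`psi_conj_cj` for `-k`, `psi_conj_cj'` for `e = -k`: with `m = -ω k p`,
`Ψ z^{p} Ψ⁻¹ = cj (-k) (p + m k) m` and `Ψ'⁻¹ z^p Ψ' = cj (-k) p m`). -/
theorem conj_step' {M M' : AddSubmonoid N} [Good M] [Good M'] (hk : k ∈ M) (hk' : -k ∈ M')
    (h0 : k ≠ 0) {x : A M} {x' : A M'} {γ : N} (hω : ω k γ ≤ 0)
    (h : ∀ j : ℤ, x (γ + j • k) = x' (γ + j • k))
    (hfin : {j : ℤ | x (γ + j • k) ≠ 0}.Finite) :
    ((Psi M k).1 * x * ((Psi M k)⁻¹).1) γ =
      (((Psi M' (-k))⁻¹).1 * x' * (Psi M' (-k)).1) (Tk k γ) := by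
  exact mut_conj' hk hk' h0 hω h

theorem mut_canon (s : Finset N) [IsSeed s] {γ : N} (h0 : γ ≠ 0) (ψ : N →+ ℤ) :
    J ψ (fW (attr γ) (can s)) γ = ∑ e ∈ s, J ψ (Psi (cone s) e) γ := by
  by_cases hγ : γ ∈ cone s
  · exact isCanon_can s γ hγ h0 ψ
  · have key : ∀ x : Gp (cone s), J ψ x γ = 0 := fun x =>
      by_contra fun hne => hγ (J_supp ψ x.supp γ hne)
    rw [key, Finset.sum_eq_zero fun e _ => key _]

omit [Alt N] in
theorem mut_good_map (M : AddSubmonoid N) [Good M] (T : N ≃+ N) :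
    Good (M.map T.toAddMonoidHom) := by
  refine ⟨⟨(dg M).comp T.symm.toAddMonoidHom, ?_, fun D => ?_⟩⟩
  · rintro _ ⟨a, ha, rfl⟩ h0
    simpa using dg_pos ha fun h => h0 (by simp [h])
  · refine ((dg_fin M D).image T).subset ?_
    rintro _ ⟨⟨a, ha, rfl⟩, h⟩
    exact ⟨a, ⟨ha, by simpa using h⟩, rfl⟩

theorem mut_attr (γ : N) : (attr γ).s γ = 0 := by rw [attr_s, ω_self, sign_zero]

theorem mut_ne (hk : k ∈ s) {γ : N} (hd : 0 < d0 s k γ) :
    γ ≠ 0 ∧ (∀ n : ℕ, γ ≠ n • k) ∧ ∀ n : ℕ, γ ≠ n • (-k) := by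
  refine ⟨?_, fun n => ?_, fun n => ?_⟩
  · rintro rfl; simp at hd
  · rintro rfl; simp [d0_k hk] at hd
  · rintro rfl; simp [d0_k hk] at hd

theorem mut_A (hk : k ∈ s) (hs : s' = mu s k) {γ : N} (hd : 0 < d0 s k γ) (hω : ω k γ ≤ 0)
    (ih : ∀ a, d0 s k a < d0 s k γ → ((Psi (cone s) k)⁻¹ * can s : Gp (cone s)) a =
      (can s' * (Psi (cone s') (-k))⁻¹ : Gp (cone s')) a) :
    ((Psi (cone s) k)⁻¹ * can s : Gp (cone s)) γ =
      (can s' * (Psi (cone s') (-k))⁻¹ : Gp (cone s')) γ := by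
  obtain ⟨h0, h1, h2⟩ := mut_ne hk hd
  refine compare_top (d0 s k) (strip_left hk) (strip_right' hk hs) hd ih (mut_attr γ) ?_
  rw [← J_strip_left _ hω h1, mul_inv_cancel_left, mut_canon s h0, target_neg hk hs hd hω,
    ← J_strip_right (e := -k) _ (by simpa using hω) h2, inv_mul_cancel_right, mut_canon s' h0]

theorem mut_B (hk : k ∈ s) (hs : s' = mu s k) {γ : N} (hd : 0 < d0 s k γ) (hω : 0 ≤ ω k γ)
    (ih : ∀ a, d0 s k a < d0 s k γ → (can s * (Psi (cone s) k)⁻¹ : Gp (cone s)) a =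
      ((Psi (cone s') (-k))⁻¹ * can s' : Gp (cone s')) (Tk k a)) :
    (can s * (Psi (cone s) k)⁻¹ : Gp (cone s)) γ =
      ((Psi (cone s') (-k))⁻¹ * can s' : Gp (cone s')) (Tk k γ) := by
  obtain ⟨h0, h1, -⟩ := mut_ne hk hd
  have hd' : 0 < d0 s k (Tk k γ) := by rwa [d0_Tk hk]
  obtain ⟨h0', -, h2'⟩ := mut_ne hk hd'
  have := mut_good_map (cone s) (Tk k)
  have hM : ∀ a ∈ cone s, Tk k a ∈ (cone s).map (Tk k).toAddMonoidHom := fun a ha => ⟨a, ha, rfl⟩
  rw [← Gp.map_apply (Tk k) (ω_Tk k) hM]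
  refine compare_top (d0 s k) ?_ (strip_left' hk hs) hd' ?_ (mut_attr _) ?_
  · intro a ha
    obtain ⟨b, rfl⟩ := (Tk k).surjective a
    rw [Gp.map_apply] at ha
    rcases strip_right hk b ha with h | h
    · exact Or.inl (by rw [h, map_zero])
    · exact Or.inr (by rwa [d0_Tk hk])
  · intro a ha
    obtain ⟨b, rfl⟩ := (Tk k).surjective a
    rw [d0_Tk hk, d0_Tk hk] at ha
    rw [Gp.map_apply, ih b ha]
  · have hω' : ω (-k) (Tk k γ) ≤ 0 := by
      rw [map_neg, AddMonoidHom.neg_apply, Tk_apply, mut_ω_add]; omega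
    rw [J_fW_map, ← J_strip_right _ hω h1, inv_mul_cancel_right, mut_canon s h0,
      target_pos hk hs hd hω, ← J_strip_left _ hω' h2', mul_inv_cancel_left, mut_canon s' h0']

theorem mut_both (hk : k ∈ s) (hs : s' = mu s k) (D : ℕ) : ∀ γ : N, d0 s k γ ≤ D →
    ((Psi (cone s) k)⁻¹ * can s : Gp (cone s)) γ =
      (can s' * (Psi (cone s') (-k))⁻¹ : Gp (cone s')) γ ∧
    (can s * (Psi (cone s) k)⁻¹ : Gp (cone s)) γ =
      ((Psi (cone s') (-k))⁻¹ * can s' : Gp (cone s')) (Tk k γ) := by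
  induction D with
  | zero =>
    intro γ hγ
    by_cases h0 : γ = 0
    · subst h0
      simp only [map_zero, Gp.zero, and_self]
    · have h1 : γ ∉ tr0 s k := by
        rintro (h | h)
        · exact h0 h
        · omega
      have h2 : Tk k γ ∉ tr0 s k := by
        rintro (h | h)
        · exact h0 ((Tk k).map_eq_zero_iff.1 h)
        · rw [d0_Tk hk] at h; omega
      constructor
      · rw [by_contra fun h => h1 (strip_left hk γ h), by_contra fun h => h1 (strip_right' hk hs γ h)]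
      · rw [by_contra fun h => h1 (strip_right hk γ h), by_contra fun h => h2 (strip_left' hk hs _ h)]
  | succ D ih =>
    intro γ hγ
    rcases hγ.lt_or_eq with hγ | hγ
    · exact ih γ (by omega)
    have hk1 : k ∈ cone s := mem_cone_of_mem hk
    have hk2 : -k ∈ cone s' := mem_cone_of_mem (hs ▸ mem_mu.2 (Or.inl rfl))
    have hk0 : k ≠ 0 := seed_ne_zero hk
    have hdj : ∀ j : ℤ, d0 s k (γ + j • k) = (D + 1 : ℕ) := fun j => by
      rw [map_add, map_zsmul, d0_k hk, smul_zero, add_zero, hγ]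
    rcases le_total (ω k γ) 0 with hω | hω
    · have hA : ∀ j : ℤ, _ := fun j => mut_A hk hs (γ := γ + j • k) (by rw [hdj]; omega)
        (by rwa [mut_ω_add]) fun a ha => (ih a (by rw [hdj] at ha; omega)).1
      refine ⟨by simpa using hA 0, ?_⟩
      have h1 := mut_conj' hk1 hk2 hk0 hω hA
      rw [← Gp.val_mul, ← Gp.val_mul, ← Gp.val_mul, ← Gp.val_mul, mul_inv_cancel_left, mul_assoc,
        inv_mul_cancel_right] at h1
      exact h1
    · have hB : ∀ j : ℤ, _ := fun j => mut_B hk hs (γ := γ + j • k) (by rw [hdj]; omega)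
        (by rwa [mut_ω_add]) fun a ha => (ih a (by rw [hdj] at ha; omega)).2
      refine ⟨?_, by simpa using hB 0⟩
      have h1 := mut_conj hk1 hk2 hk0 hω hB
      rw [← Gp.val_mul, ← Gp.val_mul, ← Gp.val_mul, ← Gp.val_mul, mul_inv_cancel_left, mul_assoc,
        inv_mul_cancel_right] at h1
      exact h1

theorem mut_main (hk : k ∈ s) (hs : s' = mu s k) (γ : N) :
    ((Psi (cone s) k)⁻¹ * can s : Gp (cone s)) γ =
      (can s' * (Psi (cone s') (-k))⁻¹ : Gp (cone s')) γ := by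
  exact (mut_both hk hs (d0 s k γ).toNat γ (Int.self_le_toNat _)).1

/-- If `h = P W Q` then `g = (Ψ P) W Q` and `g' = h Ψ' = P W (Q Ψ')` (`h` lives on both cones). -/
theorem mut_fP (hk : k ∈ s) (hs : s' = mu s k) {σ : Stab N} (hσ : σ.s k = -1) :
    ∃ P : Gp (cone s), fP σ (can s) = Psi (cone s) k * P ∧ ∀ γ, P γ = fP σ (can s') γ := by
  have h1 : SuppIn σ.ng (Psi (cone s) k) := fun a ha =>
    (AddSubmonoid.multiples_le.2 (Stab.mem_ng.2 (Or.inr hσ))) (mut_psi_supp k a ha)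
  have h2 : SuppIn σ.ps (Psi (cone s') (-k)) := fun a ha =>
    (AddSubmonoid.multiples_le.2 (Stab.mem_ps.2 (Or.inr (by rw [σ.neg, hσ, neg_neg]))))
      (mut_psi_supp (-k) a ha)
  have f := isFact σ ((Psi (cone s) k)⁻¹ * can s)
  have f' := isFact σ (can s' * (Psi (cone s') (-k))⁻¹)
  refine ⟨fP σ ((Psi (cone s) k)⁻¹ * can s), (IsFact.unique ⟨?_, Gp.mul_supp h1 f.hP, f.hW, f.hQ⟩).1,
    fun γ => ?_⟩
  · rw [mul_assoc, mul_assoc, ← mul_assoc (fP _ _), ← f.eq, mul_inv_cancel_left]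
  · rw [(fact_congr σ (mut_main hk hs) γ).1,
      (IsFact.unique (g := can s') ⟨?_, f'.hP, f'.hW, Gp.mul_supp f'.hQ h2⟩).1]
    rw [← mul_assoc, ← f'.eq, inv_mul_cancel_right]

/-- Charts are compatible with mutation. -/
theorem mut_chart (hk : k ∈ s) (hs : s' = mu s k) {σ : Stab N} (hσ : σ.s k = -1)
    {F F' : A (⊥ : AddSubmonoid N)}
    (h : fin (cone s) F * (Psi (cone s) k).1 = (Psi (cone s) k).1 * fin (cone s) F') (γ : N) :
    chart s σ (fin (cone s) F) γ = chart s' σ (fin (cone s') F') γ := by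
  obtain ⟨P, hP, hP'⟩ := mut_fP hk hs hσ
  have e1 : chart s σ (fin (cone s) F) = (P⁻¹).1 * fin (cone s) F' * P.1 := by
    unfold chart
    rw [hP, mul_inv_rev, Gp.val_mul, Gp.val_mul, mul_assoc, mul_assoc, ← mul_assoc (fin _ F), h,
      mul_assoc, ← mul_assoc ((Psi (cone s) k)⁻¹).1, Gp.inv_mul_val, one_mul, mul_assoc]
  have e2 : P.1.1 = (fP σ (can s')).1.1 := funext hP'
  have e3 : (P⁻¹).1.1 = ((fP σ (can s'))⁻¹).1.1 := funext (Gp.inv_congr hP')
  rw [e1]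
  unfold chart
  simp only [A.coe_mul, A.incl_coe, e2, e3]

end

end Crest.Agent.R59
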