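import Crest.Agent.R59.Seed

/-!
# R59/MutA: preparations for mutation invariance

`s' = mu s k`.  `d0 = ∑_{e ∈ s, e ≠ k} co s e` is non-negative on both cones and vanishes only on the
multiples of `±k`.  `Tk k γ = γ + ω k γ • k` preserves `ω`.
-/

set_option autoImplicit false
set_option linter.unusedSectionVars false
set_option linter.unusedVariables false

namespace Crest.Agent.R59

noncomputable section

variable {N : Type} [AddCommGroup N] [Alt N]

/-- The degree transverse to `k`. -/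
def d0 (s : Finset N) [IsSeed s] (k : N) : N →+ ℤ := by
  classical exact ∑ e ∈ s.erase k, co s e

/-- The transvection along `k`. -/
def Tk (k : N) : N ≃+ N where
  toFun γ := γ + ω k γ • k
  invFun γ := γ - ω k γ • k
  left_inv := by
    intro γ
    simp [ω_self]
  right_inv := by
    intro γ
    simp [ω_self]
  map_add' := by
    intro a b
    simp only [map_add, add_smul]
    abel

theorem Tk_apply (k γ : N) : Tk k γ = γ + ω k γ • k := rfl

theorem ω_Tk (k a b : N) : ω (Tk k a) (Tk k b) = ω a b := by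
  simp only [Tk_apply, map_add, map_zsmul, AddMonoidHom.add_apply, AddMonoidHom.smul_apply,
    AddMonoidHom.zsmul_apply, ω_self, smul_eq_mul, ω_swap a k]
  ring

theorem muta_ω_Tk (k γ : N) : ω k (Tk k γ) = ω k γ := by
  simp [Tk_apply, ω_self]

theorem muta_le {t : Finset N} {f g : N →+ ℤ} (h : ∀ a ∈ t, f a ≤ g a) {γ : N} (hγ : γ ∈ cone t) :
    f γ ≤ g γ := by
  induction hγ using AddSubmonoid.closure_induction with
  | mem a ha => exact h a ha
  | zero => simp
  | add a b _ _ ha hb => simpa using add_le_add ha hb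

theorem muta_cone {t : Finset N} {d : N →+ ℤ} {κ : N} (hκ : d κ = 0) (h : ∀ a ∈ t, a = κ ∨ d a = 1)
    {γ : N} (hγ : γ ∈ cone t) : 0 ≤ d γ ∧ (d γ = 0 → ∃ n : ℕ, γ = n • κ) := by
  induction hγ using AddSubmonoid.closure_induction with
  | mem a ha =>
    rcases h a ha with rfl | h1
    · exact ⟨hκ.ge, fun _ => ⟨1, by simp⟩⟩
    · exact ⟨by omega, fun h0 => by omega⟩
  | zero => exact ⟨by simp, fun _ => ⟨0, by simp⟩⟩
  | add a b _ _ ha hb =>
    rw [map_add]
    refine ⟨add_nonneg ha.1 hb.1, fun h0 => ?_⟩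
    obtain ⟨n, rfl⟩ := ha.2 (by omega)
    obtain ⟨m, rfl⟩ := hb.2 (by omega)
    exact ⟨n + m, (add_smul _ _ _).symm⟩

variable {s s' : Finset N} [IsSeed s] [IsSeed s'] {k : N}

theorem d0_k (hk : k ∈ s) : d0 s k k = 0 := by
  classical
  unfold d0
  rw [AddMonoidHom.finsetSum_apply]
  exact Finset.sum_eq_zero fun e he =>
    co_ne (Finset.mem_of_mem_erase he) hk (Finset.ne_of_mem_erase he)

theorem muta_d0_one {e : N} (he : e ∈ s) (hek : e ≠ k) : d0 s k e = 1 := by
  classical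
  unfold d0
  rw [AddMonoidHom.finsetSum_apply, Finset.sum_eq_single e, co_self he]
  · exact fun e' he' h => co_ne (Finset.mem_of_mem_erase he') he h
  · intro h
    exact absurd (by simp [he, hek]) h

theorem muta_d0_mu (hk : k ∈ s) {e : N} (he : e ∈ s) (hek : e ≠ k) (m : ℕ) :
    d0 s k (e + m • k) = 1 := by
  simp [muta_d0_one he hek, d0_k hk]

theorem d0_Tk (hk : k ∈ s) (γ : N) : d0 s k (Tk k γ) = d0 s k γ := by
  simp [Tk_apply, d0_k hk]

theorem d0_cone (hk : k ∈ s) {γ : N} (hγ : γ ∈ cone s) :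
    0 ≤ d0 s k γ ∧ (d0 s k γ = 0 → ∃ n : ℕ, γ = n • k) :=
  muta_cone (d0_k hk) (fun a ha => (eq_or_ne a k).imp id (muta_d0_one ha)) hγ

theorem muta_gen' (hk : k ∈ s) (hs : s' = mu s k) : ∀ a ∈ s', a = -k ∨ d0 s k a = 1 := by
  intro a ha
  rw [hs, mem_mu] at ha
  refine ha.imp id ?_
  rintro ⟨e, he, hek, rfl⟩
  exact muta_d0_mu hk he hek _

theorem d0_cone' (hk : k ∈ s) (hs : s' = mu s k) {γ : N} (hγ : γ ∈ cone s') :
    0 ≤ d0 s k γ ∧ (d0 s k γ = 0 → ∃ n : ℕ, γ = n • (-k)) :=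
  muta_cone (by simp [d0_k hk]) (muta_gen' hk hs) hγ

theorem muta_co_le (hk : k ∈ s) (hs : s' = mu s k) {γ : N} (hγ : γ ∈ cone s') :
    co s k γ ≤ (∑ e ∈ s, |ω k e|) * d0 s k γ := by
  refine muta_le (f := co s k) (g := (∑ e ∈ s, |ω k e|) • d0 s k) (fun a ha => ?_) hγ
  rw [hs, mem_mu] at ha
  rcases ha with rfl | ⟨e, he, hek, rfl⟩
  · simp [co_self hk, d0_k hk]
  · have h1 : |ω k e| ≤ ∑ e ∈ s, |ω k e| :=
      Finset.single_le_sum (f := fun e => |ω k e|) (fun _ _ => abs_nonneg _) he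
    have h2 := le_abs_self (ω k e)
    have h3 := abs_nonneg (ω k e)
    rw [AddMonoidHom.zsmul_apply, muta_d0_mu hk he hek]
    simp only [map_add, map_nsmul, co_self hk, co_ne hk he hek.symm, smul_eq_mul, nsmul_eq_mul]
    omega

theorem muta_fin (hk : k ∈ s) (D D' : ℤ) :
    {γ | γ ∈ cone s ∧ co s k γ ≤ D' ∧ d0 s k γ ≤ D}.Finite := by
  refine (dg_fin (cone s) ((∑ e ∈ s, |dg (cone s) e|) * (D' + D))).subset ?_
  rintro γ ⟨h1, h2, h3⟩
  refine ⟨h1, (muta_le (f := dg (cone s))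
    (g := (∑ e ∈ s, |dg (cone s) e|) • (co s k + d0 s k)) (fun a ha => ?_) h1).trans ?_⟩
  · have h4 : |dg (cone s) a| ≤ ∑ e ∈ s, |dg (cone s) e| :=
      Finset.single_le_sum (f := fun e => |dg (cone s) e|) (fun _ _ => abs_nonneg _) ha
    have h5 := le_abs_self (dg (cone s) a)
    rcases eq_or_ne a k with rfl | hak
    · simp only [AddMonoidHom.zsmul_apply, AddMonoidHom.add_apply, co_self hk, d0_k hk, smul_eq_mul]
      omega
    · simp only [AddMonoidHom.zsmul_apply, AddMonoidHom.add_apply, co_ne hk ha hak.symm,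
        muta_d0_one ha hak, smul_eq_mul]
      omega
  · simp only [AddMonoidHom.zsmul_apply, AddMonoidHom.add_apply, smul_eq_mul]
    exact mul_le_mul_of_nonneg_left (add_le_add h2 h3) (Finset.sum_nonneg fun _ _ => abs_nonneg _)

/-- The intersection of the two cones is finite in each transverse degree. -/
theorem d0_finite (hk : k ∈ s) (hs : s' = mu s k) (D : ℤ) :
    {γ | γ ∈ cone s ∧ γ ∈ cone s' ∧ d0 s k γ ≤ D}.Finite := by
  refine (muta_fin hk D ((∑ e ∈ s, |ω k e|) * D)).subset ?_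
  rintro γ ⟨h1, h2, h3⟩
  exact ⟨h1, (muta_co_le hk hs h2).trans
    (mul_le_mul_of_nonneg_left h3 (Finset.sum_nonneg fun _ _ => abs_nonneg _)), h3⟩

theorem d0_finite' (hk : k ∈ s) (hs : s' = mu s k) (D : ℤ) :
    {γ | γ ∈ cone s ∧ Tk k γ ∈ cone s' ∧ d0 s k γ ≤ D}.Finite := by
  refine (muta_fin hk D (2 * ((∑ e ∈ s, |ω k e|) * D))).subset ?_
  rintro γ ⟨h1, h2, h3⟩
  refine ⟨h1, ?_, h3⟩
  have h4 := muta_co_le hk hs h2
  have h5 : (-(ω k : N →+ ℤ)) γ ≤ ((∑ e ∈ s, |ω k e|) • d0 s k) γ := by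
    refine muta_le (fun a ha => ?_) h1
    rcases eq_or_ne a k with rfl | hak
    · simp [ω_self, d0_k hk]
    · have h6 : |ω k a| ≤ ∑ e ∈ s, |ω k e| :=
        Finset.single_le_sum (f := fun e => |ω k e|) (fun _ _ => abs_nonneg _) ha
      have h7 := neg_abs_le (ω k a)
      simp only [AddMonoidHom.zsmul_apply, AddMonoidHom.neg_apply, muta_d0_one ha hak, smul_eq_mul]
      omega
  have h6 := mul_le_mul_of_nonneg_left h3 (Finset.sum_nonneg fun e (_ : e ∈ s) => abs_nonneg (ω k e))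
  rw [d0_Tk hk, Tk_apply, map_add, map_zsmul, co_self hk] at h4
  simp only [AddMonoidHom.zsmul_apply, AddMonoidHom.neg_apply, smul_eq_mul] at h4 h5
  linarith

/-- The set of positive transverse degree together with `0`. -/
def tr0 (s : Finset N) [IsSeed s] (k : N) : Set N := {γ | γ = 0 ∨ 0 < d0 s k γ}

theorem muta_strip {t : Finset N} [IsSeed t] {d : N →+ ℤ} {κ : N} (hκ : κ ∈ t) (h0 : d κ = 0)
    (h : ∀ γ ∈ cone t, 0 ≤ d γ ∧ (d γ = 0 → ∃ n : ℕ, γ = n • κ)) :
    SuppIn {γ | γ = 0 ∨ 0 < d γ} ((Psi (cone t) κ)⁻¹ * can t : Gp (cone t)) ∧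
      SuppIn {γ | γ = 0 ∨ 0 < d γ} (can t * (Psi (cone t) κ)⁻¹ : Gp (cone t)) := by
  have hS : Lower (cone t) {γ | ∃ n : ℕ, γ = n • κ} := by
    rintro a ha b hb ⟨n, hn⟩
    have h1 := congrArg d hn
    rw [map_add, map_nsmul, h0, smul_zero] at h1
    have := (h a ha).1
    have := (h b hb).1
    exact (h a ha).2 (by omega)
  have hA : Agree {γ | ∃ n : ℕ, γ = n • κ} (can t) (Psi (cone t) κ) := by
    rintro _ ⟨n, rfl⟩
    rw [can_nsmul hκ, E_apply _ _ (mem_cone_of_mem hκ) (seed_ne_zero hκ),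
      Efn_nsmul _ _ (seed_ne_zero hκ)]
  have key : ∀ x : Gp (cone t), Agree {γ | ∃ n : ℕ, γ = n • κ} x (1 : Gp (cone t)) →
      SuppIn {γ | γ = 0 ∨ 0 < d γ} x := by
    intro x hx γ hγ
    have hm := x.supp γ hγ
    rcases (h γ hm).1.eq_or_lt with h1 | h1
    · left
      by_contra hne
      exact hγ ((hx γ ((h γ hm).2 h1.symm)).trans (zf_of_ne hne))
    · exact Or.inr h1
  constructor
  · refine key _ ?_
    have := Agree.mul hS (x := (Psi (cone t) κ)⁻¹) (x' := (Psi (cone t) κ)⁻¹) (fun _ _ => rfl) hA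
    rwa [inv_mul_cancel] at this
  · refine key _ ?_
    have := Agree.mul hS (y := (Psi (cone t) κ)⁻¹) (y' := (Psi (cone t) κ)⁻¹) hA (fun _ _ => rfl)
    rwa [mul_inv_cancel] at this

theorem muta_neg_mem (hs : s' = mu s k) : -k ∈ s' := by
  rw [hs, mem_mu]
  exact Or.inl rfl

/-- On the multiples of `k` (a lower set) `can s` agrees with `Psi k` (`can_nsmul`). -/
theorem strip_left (hk : k ∈ s) : SuppIn (tr0 s k) ((Psi (cone s) k)⁻¹ * can s : Gp (cone s)) :=
  (muta_strip hk (d0_k hk) fun _ => d0_cone hk).1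

theorem strip_right (hk : k ∈ s) :
    SuppIn (tr0 s k) (can s * (Psi (cone s) k)⁻¹ : Gp (cone s)) :=
  (muta_strip hk (d0_k hk) fun _ => d0_cone hk).2

theorem strip_left' (hk : k ∈ s) (hs : s' = mu s k) :
    SuppIn (tr0 s k) ((Psi (cone s') (-k))⁻¹ * can s' : Gp (cone s')) :=
  (muta_strip (muta_neg_mem hs) (by simp [d0_k hk]) fun _ => d0_cone' hk hs).1

theorem strip_right' (hk : k ∈ s) (hs : s' = mu s k) :
    SuppIn (tr0 s k) (can s' * (Psi (cone s') (-k))⁻¹ : Gp (cone s')) :=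
  (muta_strip (muta_neg_mem hs) (by simp [d0_k hk]) fun _ => d0_cone' hk hs).2

theorem muta_psi_supp {M : AddSubmonoid N} [Good M] {e : N} {M' : AddSubmonoid N} (he : e ∈ M') :
    SuppIn M' (Psi M e) := fun γ hγ => by
  obtain ⟨n, rfl⟩ := (AddSubmonoid.mem_multiples_iff _ _).1 (E_supp true 1 e γ hγ)
  exact M'.nsmul_mem he n

theorem muta_J_psi {M : AddSubmonoid N} [Good M] {e γ : N} (hγ : ∀ n : ℕ, γ ≠ n • e) (ψ : N →+ ℤ) :
    J ψ (Psi M e) γ = 0 := by
  by_contra h
  obtain ⟨n, hn⟩ := (AddSubmonoid.mem_multiples_iff _ _).1 (J_supp ψ (E_supp true 1 e) γ h)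
  exact hγ n hn.symm

/-- conjugation by an element of the wall preserves one-sided supports -/
theorem muta_conj {M : AddSubmonoid N} [Good M] {K : AddSubmonoid N} {S : Set N}
    (hl : ∀ a ∈ K, ∀ b ∈ S, a + b ∈ S) {u x : Gp M} (hu : SuppIn K u)
    (hx : SuppIn {a | a = 0 ∨ a ∈ S} x) : SuppIn {a | a = 0 ∨ a ∈ S} (u * x * u⁻¹ : Gp M) := by
  have h1 : SuppIn S (x.1 - 1 : A M) := by
    intro a ha
    by_cases h0 : a = 0
    · subst h0
      refine absurd ?_ ha
      change x 0 - zf 0 0 = 0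
      rw [x.zero, zf_self, sub_self]
    · have h2 : x a ≠ 0 := fun h => ha (by
        change x a - zf 0 a = 0
        rw [h, zf_of_ne h0, sub_self])
      exact (hx a h2).resolve_left h0
  have h2 : SuppIn S (u.1 * (x.1 - 1) * (u⁻¹).1 : A M) :=
    SuppIn.mul (SuppIn.mul hu h1 hl) (Gp.inv_supp hu) fun a ha b hb => add_comm b a ▸ hl b hb a ha
  have h3 : (u * x * u⁻¹ : Gp M).1 = u.1 * (x.1 - 1) * (u⁻¹).1 + 1 := by
    rw [mul_sub, sub_mul, mul_one, Gp.mul_inv_val, sub_add_cancel]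
    rfl
  intro a ha
  by_cases h0 : a = 0
  · exact Or.inl h0
  · refine Or.inr (h2 a fun h => ha ?_)
    change (u * x * u⁻¹ : Gp M).1 a = 0
    rw [h3, A.add_apply, h, zero_add]
    exact zf_of_ne h0

theorem muta_ker {M : AddSubmonoid N} [Good M] {γ : N} {x : Gp M} (hx : SuppIn (attr γ).ker x) :
    SuppIn {a | ω a γ = 0} x := fun a ha => by
  have := Stab.mem_ker.1 (hx a ha)
  rw [attr_s] at this
  exact sign_eq_zero_iff.1 this

/-- Removing a factor `Psi e` on the left when the attractor point is on the negative side of `e`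
(or on the wall): if `ω e γ < 0` then `Psi e * P` is the negative factor; if `ω e γ = 0` then
`Psi e * P * W * Q = (Psi e * P * (Psi e)⁻¹) * (Psi e * W) * Q` and `J` is additive. -/
theorem J_strip_left {M : AddSubmonoid N} [Good M] {e γ : N} (h : Gp M) (hω : ω e γ ≤ 0)
    (hγ : ∀ n : ℕ, γ ≠ n • e) (ψ : N →+ ℤ) :
    J ψ (fW (attr γ) (Psi M e * h)) γ = J ψ (fW (attr γ) h) γ := by
  obtain ⟨h1, hP, hW, hQ⟩ := isFact (attr γ) h
  rcases hω.lt_or_eq with hω | hω
  · have he : e ∈ (attr γ).ng := Or.inr (by rw [attr_s]; exact sign_neg hω)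
    have : IsFact (attr γ) (Psi M e * h) (Psi M e * fP (attr γ) h) (fW (attr γ) h) (fQ (attr γ) h) :=
      ⟨by conv_lhs => rw [h1]
          simp only [mul_assoc], Gp.mul_supp (muta_psi_supp he) hP, hW, hQ⟩
    rw [this.unique.2.1]
  · have he : e ∈ (attr γ).ker := by rw [Stab.mem_ker, attr_s, hω, sign_zero]
    have : IsFact (attr γ) (Psi M e * h) (Psi M e * fP (attr γ) h * (Psi M e)⁻¹)
        (Psi M e * fW (attr γ) h) (fQ (attr γ) h) :=
      ⟨by conv_lhs => rw [h1]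
          simp only [mul_assoc, inv_mul_cancel_left],
        muta_conj (K := (attr γ).ker) (S := {a | (attr γ).s a = -1})
          (fun a ha b hb => add_comm b a ▸ (attr γ).add_neg b a hb (le_of_eq ha)) (muta_psi_supp he) hP,
        Gp.mul_supp (muta_psi_supp he) hW, hQ⟩
    rw [this.unique.2.1, J_mul ψ (muta_ker hW), muta_J_psi hγ, zero_add]

theorem J_strip_right {M : AddSubmonoid N} [Good M] {e γ : N} (h : Gp M) (hω : 0 ≤ ω e γ)
    (hγ : ∀ n : ℕ, γ ≠ n • e) (ψ : N →+ ℤ) :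
    J ψ (fW (attr γ) (h * Psi M e)) γ = J ψ (fW (attr γ) h) γ := by
  obtain ⟨h1, hP, hW, hQ⟩ := isFact (attr γ) h
  rcases hω.lt_or_eq with hω | hω
  · have he : e ∈ (attr γ).ps := Or.inr (by rw [attr_s]; exact sign_pos hω)
    have : IsFact (attr γ) (h * Psi M e) (fP (attr γ) h) (fW (attr γ) h) (fQ (attr γ) h * Psi M e) :=
      ⟨by conv_lhs => rw [h1]
          simp only [mul_assoc], hP, hW, Gp.mul_supp hQ (muta_psi_supp he)⟩
    rw [this.unique.2.1]
  · have he : e ∈ (attr γ).ker := by rw [Stab.mem_ker, attr_s, ← hω, sign_zero]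
    have : IsFact (attr γ) (h * Psi M e) (fP (attr γ) h) (fW (attr γ) h * Psi M e)
        ((Psi M e)⁻¹ * fQ (attr γ) h * (Psi M e)⁻¹⁻¹) :=
      ⟨by conv_lhs => rw [h1]
          simp only [mul_assoc, mul_inv_cancel_left, inv_inv], hP,
        Gp.mul_supp hW (muta_psi_supp he),
        muta_conj (K := (attr γ).ker) (S := {a | (attr γ).s a = 1})
          (fun a ha b hb => add_comm b a ▸ (attr γ).add_pos hb (ge_of_eq ha))
          (Gp.inv_supp (muta_psi_supp he)) hQ⟩
    rw [this.unique.2.1, J_mul ψ (muta_ker (muta_psi_supp he)), muta_J_psi hγ, add_zero]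

theorem muta_sum (hk : k ∈ s) (hs : s' = mu s k) (f g : N → R) (hf : f k = 0) (hg : g (-k) = 0)
    (h : ∀ e ∈ s, e ≠ k → f e = g (e + (ω k e).toNat • k)) : ∑ e ∈ s, f e = ∑ e ∈ s', g e := by
  classical
  have e1 : s' = insert (-k) ((s.erase k).image fun e => e + (ω k e).toNat • k) := by
    ext a
    rw [hs, mem_mu]
    simp only [Finset.mem_insert, Finset.mem_image, Finset.mem_erase]
    refine or_congr_right ⟨?_, ?_⟩
    · rintro ⟨e, he, hek, rfl⟩
      exact ⟨e, ⟨hek, he⟩, rfl⟩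
    · rintro ⟨e, ⟨hek, he⟩, rfl⟩
      exact ⟨e, he, hek, rfl⟩
  rw [e1, Finset.sum_insert_of_eq_zero_if_notMem fun _ => hg, Finset.sum_image,
    ← Finset.sum_erase s hf]
  · exact Finset.sum_congr rfl fun e he =>
      h e (Finset.mem_of_mem_erase he) (Finset.ne_of_mem_erase he)
  · intro a ha b hb hab
    have ha' := Finset.mem_erase.1 ha
    have hb' := Finset.mem_erase.1 hb
    by_contra hne
    have h1 := congrArg (co s a) hab
    simp [co_self ha'.2, co_ne ha'.2 hk ha'.1, co_ne ha'.2 hb'.2 hne] at h1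

theorem muta_mem' (hs : s' = mu s k) {e : N} (he : e ∈ s) (hek : e ≠ k) :
    e + (ω k e).toNat • k ∈ s' := by
  rw [hs, mem_mu]
  exact Or.inr ⟨e, he, hek, rfl⟩

theorem muta_ne {d f : N →+ ℤ} {γ e : N} (hd : 0 < d γ) (h1 : f γ ≤ 0) (h2 : 0 < f e) (n : ℕ) :
    γ ≠ n • e := by
  rintro rfl
  rcases Nat.eq_zero_or_pos n with rfl | hn
  · simp at hd
  · rw [map_nsmul, nsmul_eq_mul] at h1
    have : (0 : ℤ) < n := by exact_mod_cast hn
    nlinarith

theorem muta_ne0 {d : N →+ ℤ} {γ e : N} (hd : 0 < d γ) (h : d e = 0) (n : ℕ) : γ ≠ n • e := by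
  rintro rfl
  simp [h] at hd

/-- The targets agree: seed vectors `e` with `ω k e ≤ 0` are not changed by the mutation. -/
theorem target_neg (hk : k ∈ s) (hs : s' = mu s k) {γ : N} (hd : 0 < d0 s k γ) (hω : ω k γ ≤ 0)
    (ψ : N →+ ℤ) :
    ∑ e ∈ s, J ψ (Psi (cone s) e) γ = ∑ e ∈ s', J ψ (Psi (cone s') e) γ := by
  refine muta_sum hk hs (fun e => J ψ (Psi (cone s) e) γ) (fun e => J ψ (Psi (cone s') e) γ)
    (muta_J_psi (muta_ne0 hd (d0_k hk)) ψ) (muta_J_psi (muta_ne0 hd (by simp [d0_k hk])) ψ)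
    fun e he hek => ?_
  rcases le_or_gt (ω k e) 0 with h | h
  · have h1 := muta_mem' hs he hek
    rw [Int.toNat_eq_zero.2 h, zero_smul, add_zero] at h1 ⊢
    refine J_congr ψ (fun a => ?_) γ
    rw [E_apply _ _ (mem_cone_of_mem he) (seed_ne_zero he),
      E_apply _ _ (mem_cone_of_mem h1) (seed_ne_zero he)]
  · rw [muta_J_psi (muta_ne (f := ω k) hd hω h), muta_J_psi (muta_ne (f := ω k) hd hω ?_)]
    simpa [ω_self] using h

/-- Seed vectors `e` with `ω k e ≥ 0` are mapped to `Tk k e`. -/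
theorem target_pos (hk : k ∈ s) (hs : s' = mu s k) {γ : N} (hd : 0 < d0 s k γ) (hω : 0 ≤ ω k γ)
    (ψ : N →+ ℤ) :
    ∑ e ∈ s, J (ψ.comp (Tk k).toAddMonoidHom) (Psi (cone s) e) γ =
      ∑ e ∈ s', J ψ (Psi (cone s') e) (Tk k γ) := by
  have hd' : 0 < d0 s k (Tk k γ) := by rwa [d0_Tk hk]
  refine muta_sum hk hs (fun e => J (ψ.comp (Tk k).toAddMonoidHom) (Psi (cone s) e) γ)
    (fun e => J ψ (Psi (cone s') e) (Tk k γ))
    (muta_J_psi (muta_ne0 hd (d0_k hk)) _) (muta_J_psi (muta_ne0 hd' (by simp [d0_k hk])) ψ)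
    fun e he hek => ?_
  rcases le_or_gt 0 (ω k e) with h | h
  · have h1 := muta_mem' hs he hek
    have h2 : e + (ω k e).toNat • k = Tk k e := by
      rw [Tk_apply, ← natCast_zsmul, Int.toNat_of_nonneg h]
    rw [h2] at h1 ⊢
    have hle : AddSubmonoid.multiples e ≤ cone s :=
      (AddSubmonoid.multiples_le).2 (mem_cone_of_mem he)
    have : Good (AddSubmonoid.multiples e) := Good.mono hle
    have hM : ∀ a ∈ AddSubmonoid.multiples e, Tk k a ∈ cone s' := by
      intro a ha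
      obtain ⟨n, rfl⟩ := (AddSubmonoid.mem_multiples_iff _ _).1 ha
      rw [map_nsmul]
      exact (cone s').nsmul_mem (mem_cone_of_mem h1) n
    have he0 := seed_ne_zero he
    have he1 := seed_ne_zero h1
    have h3 := J_map (Tk k) (ω_Tk k) hM (Psi (AddSubmonoid.multiples e) e) ψ γ
    refine Eq.trans (J_congr _ (fun a => ?_) γ) (h3.symm.trans (J_congr _ (fun a => ?_) _))
    · rw [E_apply _ _ (mem_cone_of_mem he) he0, E_apply _ _ (AddSubmonoid.mem_multiples e) he0]
    · obtain ⟨a, rfl⟩ := (Tk k).surjective a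
      rw [Gp.map_apply, E_apply _ _ (mem_cone_of_mem h1) he1,
        E_apply _ _ (AddSubmonoid.mem_multiples e) he0]
      by_cases ha : ∃ n : ℕ, a = n • e
      · obtain ⟨n, rfl⟩ := ha
        rw [map_nsmul, Efn_nsmul _ _ he0, Efn_nsmul _ _ he1]
      · have h4 : Efn true 1 e a = 0 := by
          by_contra h5
          exact ha (Efn_ne_zero h5)
        have h5 : Efn true 1 (Tk k e) (Tk k a) = 0 := by
          by_contra h6
          obtain ⟨n, hn⟩ := Efn_ne_zero h6
          exact ha ⟨n, (Tk k).injective (by rw [hn, map_nsmul])⟩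
        rw [h4, h5]
  · rw [Int.toNat_eq_zero.2 h.le, zero_smul, add_zero,
      muta_J_psi (muta_ne (f := -ω k) hd (by simpa using hω) (by simpa using h)),
      muta_J_psi (muta_ne (f := -ω k) hd' (by simpa [muta_ω_Tk] using hω) (by simpa using h))]

theorem muta_top {M : AddSubmonoid N} [Good M] (d : N →+ ℤ) (hM : ∀ a ∈ M, a = 0 ∨ 0 < d a)
    {x y : Gp M} {γ : N} (hlow : ∀ a, d a < d γ → x a = y a) {σ : Stab N} (hσ : σ.s γ = 0) :
    J d (fW σ x) γ - (d γ : R) * x γ = J d (fW σ y) γ - (d γ : R) * y γ := by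
  have hS : Lower M {a | d a < d γ} := by
    intro a _ b hb h
    have h' : d (a + b) < d γ := h
    rw [map_add] at h'
    change d a < d γ
    rcases hM b hb with rfl | h1
    · simpa using h'
    · omega
  have hT : Top M {a | d a < d γ} γ := by
    rintro a _ b hb h0 rfl
    change d a < d (a + b)
    have := (hM b hb).resolve_left h0
    rw [map_add]
    omega
  have h1 := fW_top hS hT hσ (x := x) (y := y) hlow
  have h2 := J_top d hS hT (fact_agree (σ := σ) hS (fun _ _ _ => rfl) (x := x) (y := y) hlow).2.1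
  linear_combination h2 + (d γ : R) * h1

/-- The comparison lemma.  Let `y` be the common truncation of `x` and `x'` to `d < d γ`; it lives in
`Gp (M ⊓ M')`.  By `fW_top`, `fact_agree`, `J_top` (lower sets `{a | d a < d γ}` intersected with
`{0} ∪ {d > 0}`: first restrict `x` to the monoid `M ⊓ ({0} ∪ {d > 0})`),
`J ψ (fW σ x) γ = ψ γ * x γ + J ψ (fW σ y) γ`, and the same for `x'` (`fact_congr`, `J_congr`).
If `γ ∉ M` then `x γ = 0`, `J ψ (fW σ y) γ = 0`. -/
theorem compare_top {M M' : AddSubmonoid N} [Good M] [Good M'] (d : N →+ ℤ) {x : Gp M} {x' : Gp M'}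
    (hx : SuppIn {a | a = 0 ∨ 0 < d a} x) (hx' : SuppIn {a | a = 0 ∨ 0 < d a} x') {γ : N}
    (hd : 0 < d γ) (hlow : ∀ a, d a < d γ → x a = x' a) {σ : Stab N} (hσ : σ.s γ = 0)
    (hJ : J d (fW σ x) γ = J d (fW σ x') γ) : x γ = x' γ := by
  classical
  let D : AddSubmonoid N :=
    { carrier := {a | a = 0 ∨ 0 < d a}
      zero_mem' := Or.inl rfl
      add_mem' := by
        rintro a b (rfl | ha) (rfl | hb)
        · simp
        · simpa using Or.inr hb
        · simpa using Or.inr ha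
        · exact Or.inr (by rw [map_add]; omega) }
  have h1 : SuppIn (M ⊓ D : AddSubmonoid N) x := fun a ha => ⟨x.supp a ha, hx a ha⟩
  have h1' : SuppIn (M' ⊓ D : AddSubmonoid N) x' := fun a ha => ⟨x'.supp a ha, hx' a ha⟩
  let f : N → R := fun a => if d a < d γ then x a else 0
  have f0 : f 0 = 1 := by simp [f, hd, x.zero]
  have hf : SuppIn (M ⊓ D : AddSubmonoid N) f := fun a ha => h1 a fun h => ha (by simp [f, h])
  have hf' : SuppIn (M' ⊓ D : AddSubmonoid N) f := fun a ha => by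
    by_cases h : d a < d γ
    · refine h1' a ?_
      rw [← hlow a h]
      simpa [f, h] using ha
    · simp [f, h] at ha
  have h2 := muta_top d (M := M ⊓ D) (fun a ha => ha.2) (x := Gp.res _ x h1) (y := Gp.mk' f f0 hf)
    (γ := γ) (fun a ha => (if_pos ha).symm) hσ
  have h2' := muta_top d (M := M' ⊓ D) (fun a ha => ha.2) (x := Gp.res _ x' h1') (y := Gp.mk' f f0 hf')
    (γ := γ) (fun a ha => (hlow a ha).symm.trans (if_pos ha).symm) hσ
  have h3 : J d (fW σ (Gp.res _ x h1)) γ = J d (fW σ x) γ :=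
    J_congr d (fun a => (fact_congr σ (Gp.res_apply _ x h1) a).2.1) γ
  have h3' : J d (fW σ (Gp.res _ x' h1')) γ = J d (fW σ x') γ :=
    J_congr d (fun a => (fact_congr σ (Gp.res_apply _ x' h1') a).2.1) γ
  have h4 : J d (fW σ (Gp.mk' f f0 hf)) γ = J d (fW σ (Gp.mk' f f0 hf')) γ :=
    J_congr d (fun a => (fact_congr σ (g := Gp.mk' f f0 hf) (g' := Gp.mk' f f0 hf')
      (fun _ => rfl) a).2.1) γ
  have h5 : (Gp.mk' f f0 hf) γ = (Gp.mk' f f0 hf') γ := rfl
  have : CharZero R := algebraRat.charZero R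
  have h6 : (d γ : R) ≠ 0 := Int.cast_ne_zero.2 hd.ne'
  rw [h3, Gp.res_apply] at h2
  rw [h3', Gp.res_apply] at h2'
  refine mul_left_cancel₀ h6 ?_
  linear_combination hJ - h2 + h2' - h4 + (d γ : R) * h5

end

end Crest.Agent.R59
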