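import Crest.Agent.R59.PbwTop

/-!
# R59/PbwSign: the action of `GS S` on PBW monomials
-/

set_option autoImplicit false
set_option linter.unusedSectionVars false
set_option linter.unusedVariables false

namespace Crest.Agent.R59

noncomputable section

open MvPolynomial

variable {J : Type} [Fintype J] [DecidableEq J] (D : Dat J) (θ : J → ℤ)

/-- the action on decorated blocks -/
def pbwsign_e {ι : Type} (g : Equiv.Perm (Pt J)) : DB J ι ≃ DB J ι where
  toFun y := (mv g y.1, y.2)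
  invFun y := (mv g⁻¹ y.1, y.2)
  left_inv y := by simp only [← mv_mul, inv_mul_cancel, mv_one]
  right_inv y := by simp only [← mv_mul, mul_inv_cancel, mv_one]

theorem pbwsign_mvD {ι : Type} (g : Equiv.Perm (Pt J)) (x : Finset (DB J ι)) :
    mvD g x = x.map (pbwsign_e g).toEmbedding := by
  classical
  ext y
  simp only [mvD, Finset.mem_image, Finset.mem_map]
  rfl

theorem pbwsign_mem {ι : Type} {g : Equiv.Perm (Pt J)} {x : Finset (DB J ι)} {y : DB J ι} :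
    y ∈ mvD g x ↔ (mv g⁻¹ y.1, y.2) ∈ x := by
  rw [pbwsign_mvD, Finset.mem_map_equiv]
  rfl

theorem pbwsign_mem' {ι : Type} {g : Equiv.Perm (Pt J)} {x : Finset (DB J ι)} {y : DB J ι} :
    (mv g y.1, y.2) ∈ mvD g x ↔ y ∈ x := by
  rw [pbwsign_mem]
  simp only [← mv_mul, inv_mul_cancel, mv_one]

theorem pbwsign_mul {ι : Type} (g h : Equiv.Perm (Pt J)) (x : Finset (DB J ι)) :
    mvD (g * h) x = mvD g (mvD h x) := by
  ext y
  simp only [pbwsign_mem, mul_inv_rev, mv_mul]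

theorem pbwsign_erase_mv {ι : Type} [DecidableEq (DB J ι)] (g : Equiv.Perm (Pt J))
    (x : Finset (DB J ι)) (y : DB J ι) :
    mvD g (x.erase y) = (mvD g x).erase (mv g y.1, y.2) := by
  rw [pbwsign_mvD, pbwsign_mvD, Finset.map_erase]
  rfl

section dec

variable {θ} {ι : Type} {dim : ι → J → ℕ} {S : Bk J} {x : Finset (DB J ι)}

theorem pbwsign_blk {y : DB J ι} (hy : y ∈ x) : y.1 ∈ blk x := Finset.mem_image_of_mem _ hy

theorem pbwsign_disj (hx : IsDec θ dim S x) {y y' : DB J ι} (hy : y ∈ x) (hy' : y' ∈ x)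
    (h : y ≠ y') : Disjoint y.1 y'.1 :=
  hx.part.disj _ (pbwsign_blk hy) _ (pbwsign_blk hy') fun e => h (hx.inj y hy y' hy' e)

theorem pbwsign_sub (hx : IsDec θ dim S x) {y : DB J ι} (hy : y ∈ x) : y.1 ⊆ S :=
  hx.part.sub _ (pbwsign_blk hy)

theorem pbwsign_cover (hx : IsDec θ dim S x) {s : Pt J} (hs : s ∈ S) : ∃ y ∈ x, s ∈ y.1 := by
  obtain ⟨B, hB, h⟩ := hx.part.cover s hs
  obtain ⟨y, hy, rfl⟩ := Finset.mem_image.1 hB
  exact ⟨y, hy, h⟩

theorem pbwsign_mk (h1 : ∀ y ∈ x, y.1.Nonempty) (h2 : ∀ y ∈ x, wt θ y.1 = 0)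
    (h3 : ∀ y ∈ x, y.1 ⊆ S) (h4 : ∀ s ∈ S, ∃ y ∈ x, s ∈ y.1)
    (h5 : ∀ y ∈ x, ∀ y' ∈ x, y ≠ y' → Disjoint y.1 y'.1) (h6 : ∀ y ∈ x, dim y.2.1 = ty y.1) :
    IsDec θ dim S x := by
  refine ⟨fun y hy y' hy' e => ?_, ⟨?_, ?_, ?_, fun s hs => ?_, ?_⟩, h6⟩
  · by_contra h
    have h7 := h5 y hy y' hy' h
    rw [← e, disjoint_self] at h7
    exact (h1 y hy).ne_empty h7
  · exact Finset.forall_mem_image.2 fun y hy => h1 y hy
  · exact Finset.forall_mem_image.2 fun y hy => h2 y hy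
  · exact Finset.forall_mem_image.2 fun y hy => h3 y hy
  · obtain ⟨y, hy, h⟩ := h4 s hs
    exact ⟨y.1, pbwsign_blk hy, h⟩
  · exact Finset.forall_mem_image.2 fun y hy => Finset.forall_mem_image.2 fun y' hy' h =>
      h5 y hy y' hy' fun e => h (by rw [e])

theorem pbwsign_empty (hx : IsDec θ dim S ∅) : S = ∅ := by
  refine Finset.eq_empty_of_forall_notMem fun s hs => ?_
  obtain ⟨y, hy, -⟩ := pbwsign_cover hx hs
  simp at hy

theorem pbwsign_erase [DecidableEq (DB J ι)] (hx : IsDec θ dim S x) {y : DB J ι} (hy : y ∈ x) :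
    IsDec θ dim (S \ y.1) (x.erase y) := by
  have hm : ∀ z ∈ x.erase y, z ∈ x := fun z hz => Finset.mem_of_mem_erase hz
  refine pbwsign_mk (fun z hz => hx.part.ne _ (pbwsign_blk (hm z hz)))
    (fun z hz => hx.part.null _ (pbwsign_blk (hm z hz))) (fun z hz => ?_) (fun s hs => ?_)
    (fun z hz z' hz' => pbwsign_disj hx (hm z hz) (hm z' hz')) fun z hz => hx.dim z (hm z hz)
  · exact Finset.subset_sdiff.2 ⟨pbwsign_sub hx (hm z hz),
      pbwsign_disj hx (hm z hz) hy (Finset.ne_of_mem_erase hz)⟩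
  · obtain ⟨hs1, hs2⟩ := Finset.mem_sdiff.1 hs
    obtain ⟨z, hz, h⟩ := pbwsign_cover hx hs1
    exact ⟨z, Finset.mem_erase.2 ⟨fun e => hs2 (e ▸ h), hz⟩, h⟩

theorem pbwsign_mv_dec (hx : IsDec θ dim S x) {g : Equiv.Perm (Pt J)} (hg : g ∈ CP J) :
    IsDec θ dim (mv g S) (mvD g x) := by
  classical
  refine ⟨fun y hy y' hy' e => ?_, ?_, fun y hy => ?_⟩
  · have h1 := hx.inj _ (pbwsign_mem.1 hy) _ (pbwsign_mem.1 hy') (by rw [e])
    exact Prod.ext e (Prod.ext_iff.1 h1).2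
  · have : blk (mvD g x) = (blk x).image (mv g) := by
      ext B
      simp only [blk, pbwsign_mvD, Finset.mem_image, Finset.mem_map]
      constructor
      · rintro ⟨_, ⟨y, hy, rfl⟩, rfl⟩
        exact ⟨_, ⟨y, hy, rfl⟩, rfl⟩
      · rintro ⟨_, ⟨y, hy, rfl⟩, rfl⟩
        exact ⟨_, ⟨y, hy, rfl⟩, rfl⟩
    rw [this]
    exact hx.part.image θ hg
  · have h1 := hx.dim _ (pbwsign_mem.1 hy)
    rwa [ty_mv ((CP J).inv_mem hg)] at h1

theorem pbwsign_Kt (hx : IsDec θ dim S x) (U : Bk J) : ∏ y ∈ x, D.Kt U y.1 = D.Kt U S := by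
  classical
  have hS : S = x.biUnion Prod.fst := by
    ext s
    rw [Finset.mem_biUnion]
    exact ⟨pbwsign_cover hx, fun ⟨y, hy, h⟩ => pbwsign_sub hx hy h⟩
  have hd : (x : Set (DB J ι)).PairwiseDisjoint Prod.fst :=
    fun y hy y' hy' h => pbwsign_disj hx hy hy' h
  unfold Dat.Kt Dat.sgn Dat.K
  rw [Finset.prod_smul, Finset.prod_comm (s := x), Finset.prod_comm (s := x), hS]
  simp only [Finset.prod_biUnion hd]

theorem pbwsign_bb_erase [DecidableEq (DB J ι)] (hx : IsDec θ dim S x) (u : ι → Bk J → PR J)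
    (r : DB J ι → DB J ι → Prop) [IsStrictTotalOrder (DB J ι) r] {y : DB J ι} (hy : y ∈ x)
    (hmin : ∀ z ∈ x, z ≠ y → r y z) :
    bb D u r x = D.Kt y.1 (S \ y.1) * (u y.2.1 y.1 * cm y.1 ^ y.2.2) * bb D u r (x.erase y) := by
  classical
  unfold bb KK
  rw [← Finset.mul_prod_erase x _ hy, ← Finset.mul_prod_erase x _ hy,
    ← pbwsign_Kt D (pbwsign_erase hx hy)]
  have h1 : x.filter (r y) = x.erase y := by
    ext z
    rw [Finset.mem_filter, Finset.mem_erase]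
    exact ⟨fun h => ⟨fun e => irrefl_of r y (e ▸ h.2), h.1⟩, fun h => ⟨h.2, hmin z h.2 h.1⟩⟩
  have h2 : ∀ z ∈ x.erase y, x.filter (r z) = (x.erase y).filter (r z) := by
    intro z hz
    ext w
    simp only [Finset.mem_filter, Finset.mem_erase] at hz ⊢
    exact ⟨fun h => ⟨⟨fun e => asymm_of r (hmin z hz.2 hz.1) (e ▸ h.2), h.1⟩, h.2⟩,
      fun h => ⟨h.1.2, h.2⟩⟩
  have h3 : ∏ z ∈ x.erase y, ∏ w ∈ x.filter (r z), D.Kt z.1 w.1 =
      ∏ z ∈ x.erase y, ∏ w ∈ (x.erase y).filter (r z), D.Kt z.1 w.1 :=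
    Finset.prod_congr rfl fun z hz => by rw [h2 z hz]
  rw [h1, h3]
  ring

end dec

theorem pbwsign_min {κ : Type} (r : κ → κ → Prop) [IsStrictTotalOrder κ r] {x : Finset κ}
    (hx : x.Nonempty) : ∃ y ∈ x, ∀ z ∈ x, z ≠ y → r y z := by
  classical
  let _ := linearOrderOfSTO r
  obtain ⟨y, hy, h⟩ := x.exists_min_image id hx
  exact ⟨y, hy, fun z hz hne => lt_of_le_of_ne (h z hz) hne.symm⟩

theorem pbwsign_sto {ι : Type} (g : Equiv.Perm (Pt J)) (r : DB J ι → DB J ι → Prop)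
    [IsStrictTotalOrder (DB J ι) r] :
    IsStrictTotalOrder (DB J ι) fun y y' => r (mv g⁻¹ y.1, y.2) (mv g⁻¹ y'.1, y'.2) :=
  (pbwsign_e g).symm.injective.isStrictTotalOrder_onFun r

theorem pbwsign_rename_cm (g : Equiv.Perm (Pt J)) (B : Bk J) : rename g (cm B) = cm (mv g B) := by
  unfold cm mv
  rw [map_smul, map_sum, Finset.card_map, Finset.sum_map]
  simp

theorem pbwsign_act {ι : Type} {dim : ι → J → ℕ} {u : ι → Bk J → PR J} {g : Equiv.Perm (Pt J)}
    (hg : g ∈ CP J) (r : DB J ι → DB J ι → Prop) [IsStrictTotalOrder (DB J ι) r] (n : ℕ) :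
    ∀ {S : Bk J} {x : Finset (DB J ι)}, x.card = n → IsDec θ dim S x →
      (∀ y ∈ x, D.act y.1 g (u y.2.1 y.1) = u y.2.1 (mv g y.1)) → D.act S g (bb D u r x) =
      bb D u (fun y y' => r (mv g⁻¹ y.1, y.2) (mv g⁻¹ y'.1, y'.2)) (mvD g x) := by
  classical
  induction n with
  | zero =>
    intro S x hn hx hu
    rw [Finset.card_eq_zero] at hn
    subst hn
    rw [pbwsign_empty hx, pbwsign_mvD]
    simp [bb, KK, Dat.act_apply, Dat.chi]
  | succ n ih =>
    intro S x hn hx hu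
    have := pbwsign_sto g r
    obtain ⟨y, hy, hmin⟩ := pbwsign_min r (Finset.card_pos.1 (by omega : 0 < x.card))
    have h1 := ih (by rw [Finset.card_erase_of_mem hy, hn]; rfl) (pbwsign_erase hx hy)
      fun z hz => hu z (Finset.mem_of_mem_erase hz)
    have h2 := D.act_Kt hg (U := y.1) (W := S \ y.1) Finset.disjoint_sdiff
      (u y.2.1 y.1 * cm y.1 ^ y.2.2) (bb D u r (x.erase y))
    rw [Finset.union_sdiff_of_subset (pbwsign_sub hx hy)] at h2
    have h3 : D.act y.1 g (u y.2.1 y.1 * cm y.1 ^ y.2.2) =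
        u y.2.1 (mv g y.1) * cm (mv g y.1) ^ y.2.2 := by
      rw [← hu y hy, Dat.act_apply, Dat.act_apply, map_mul, map_pow, pbwsign_rename_cm,
        smul_mul_assoc]
    rw [pbwsign_bb_erase D hx u r hy hmin, h2, h1, h3, mv_sdiff, pbwsign_erase_mv,
      pbwsign_bb_erase D (pbwsign_mv_dec hx hg) u _ (pbwsign_mem'.2 hy)]
    intro z hz hne
    simp only [← mv_mul, inv_mul_cancel, mv_one]
    refine hmin _ (pbwsign_mem.1 hz) fun e => hne ?_
    rw [← e]
    simp only [← mv_mul, mul_inv_cancel, mv_one]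

theorem pbwsign_gd {ι : Type} (β : ι → Bool) (x : Finset (DB J ι)) :
    Gd β (x.val.map Prod.snd) ↔
      ∀ y ∈ x, ∀ y' ∈ x, β y.2.1 = true → y.2 = y'.2 → y = y' := by
  unfold Gd
  rw [Multiset.filter_map, Multiset.nodup_map_iff_inj_on (x.nodup.filter _)]
  simp only [Multiset.mem_filter, Finset.mem_val, Function.comp]
  exact ⟨fun h y hy y' hy' hb e => h y ⟨hy, hb⟩ y' ⟨hy', e ▸ hb⟩ e,
    fun h y hy y' hy' e => h y hy.1 y' hy'.1 hy.2 e⟩

theorem pbwsign_inv {ι : Type} {y y' : DB J ι} {B B' : Bk J} (h : r0 (B, y.2) (B', y'.2))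
    (h' : r0 y' y) : y.2 = y'.2 := by
  rcases h with h | h
  · rcases h' with h' | h'
    · exact absurd h' (asymm_of WellOrderingRel h)
    · exact h'.1.symm
  · exact h.1

theorem pbwsign_L0 (T : TB D (sysL D θ)) {S : Bk J} {x : Finset (DB J T.ι)}
    (hx : IsDec θ T.dim S x) : ∀ y ∈ x, T.u y.2.1 y.1 ∈ L0 D θ y.1 :=
  fun y hy => ((T.hb y.1).mem ⟨y.2.1, hx.dim y hy⟩).2

theorem mvD_one {ι : Type} (x : Finset (DB J ι)) : mvD 1 x = x := by
  ext y
  rw [pbwsign_mem, inv_one, mv_one]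

theorem IsDec.mvD {ι : Type} {dim : ι → J → ℕ} {S : Bk J} {x : Finset (DB J ι)}
    (hx : IsDec θ dim S x) {g : Equiv.Perm (Pt J)} (hg : g ∈ GS S) : IsDec θ dim S (mvD g x) := by
  have := pbwsign_mv_dec hx hg.1
  rwa [mv_of_GS hg] at this

theorem mvD_val {ι : Type} (g : Equiv.Perm (Pt J)) (x : Finset (DB J ι)) :
    (mvD g x).val.map Prod.snd = x.val.map Prod.snd := by
  rw [pbwsign_mvD, Finset.map_val, Multiset.map_map]
  rfl

theorem mvD_card {ι : Type} (g : Equiv.Perm (Pt J)) (x : Finset (DB J ι)) :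
    (mvD g x).card = x.card ∧ mm (mvD g x) = mm x := by
  unfold mm
  rw [pbwsign_mvD, Finset.card_map, Finset.sum_map]
  exact ⟨rfl, rfl⟩

/-- Match the decorated blocks by a decoration-preserving bijection, then `exists_perm_of_fibers` for
`s ↦ (colour, block)`. -/
theorem exists_mvD {ι : Type} {dim : ι → J → ℕ} {S : Bk J} {x x' : Finset (DB J ι)}
    (hx : IsDec θ dim S x) (hx' : IsDec θ dim S x') (h : x.val.map Prod.snd = x'.val.map Prod.snd) :
    ∃ g ∈ GS S, mvD g x = x' := by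
  classical
  induction hn : x.card generalizing S x x' with
  | zero =>
    rw [Finset.card_eq_zero] at hn
    subst hn
    have h1 : x' = ∅ := by simpa using h.symm
    exact ⟨1, (GS S).one_mem, by rw [mvD_one, h1]⟩
  | succ n ih =>
    obtain ⟨y, hy⟩ := Finset.card_pos.1 (by omega : 0 < x.card)
    have h1 : y.2 ∈ x'.val.map Prod.snd := h ▸ Multiset.mem_map_of_mem _ hy
    obtain ⟨y', hy', e⟩ := Multiset.mem_map.1 h1
    obtain ⟨g, hg, hgy⟩ := exists_GS_mv (pbwsign_sub hx hy) (pbwsign_sub hx' hy')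
      (by rw [← hx.dim y hy, ← hx'.dim y' hy', e])
    have h2 : y' ∈ mvD g x := by
      have := (pbwsign_mem' (g := g)).2 hy
      rwa [hgy, ← e] at this
    have h3 : ∀ z : Finset (DB J ι), y' ∈ z →
        z.val.map Prod.snd = y'.2 ::ₘ (z.erase y').val.map Prod.snd := by
      intro z hz
      rw [← Multiset.map_cons, Finset.erase_val, Multiset.cons_erase hz]
    obtain ⟨k, hk, hkx⟩ := ih (pbwsign_erase (hx.mvD θ hg) h2) (pbwsign_erase hx' hy')
      (by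
        have h4 := (mvD_val g x).trans h
        rw [h3 _ h2, h3 _ hy'] at h4
        exact (Multiset.cons_inj_right _).1 h4)
      (by rw [Finset.card_erase_of_mem h2, (mvD_card g x).1, hn]; rfl)
    have h5 : mv k y'.1 = y'.1 := mv_of_disjoint hk Finset.sdiff_disjoint
    refine ⟨k * g, (GS S).mul_mem (GS_mono Finset.sdiff_subset hk) hg, ?_⟩
    rw [pbwsign_erase_mv, h5] at hkx
    have h6 : y' ∈ mvD k (mvD g x) := by
      have := (pbwsign_mem' (g := k)).2 h2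
      rwa [h5] at this
    rw [pbwsign_mul, ← Finset.insert_erase h6, hkx, Finset.insert_erase hy']

/-- Induction on the multiset: choose a subset of the right type (`exists_subset_ty`). -/
theorem exists_dec {ι : Type} {dim : ι → J → ℕ} (μ : Multiset (ι × ℕ))
    (hμ : ∀ y ∈ μ, dim y.1 ≠ 0 ∧ wd θ (dim y.1) = 0) {S : Bk J}
    (hS : (μ.map fun y => dim y.1).sum = ty S) : ∃ x, IsDec θ dim S x ∧ x.val.map Prod.snd = μ := by
  classical
  induction μ using Multiset.induction_on generalizing S with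
  | empty =>
    have h1 : S = ∅ := ty_eq_zero.1 (by simpa using hS.symm)
    exact ⟨∅, pbwsign_mk (by simp) (by simp) (by simp) (by simp [h1]) (by simp) (by simp), rfl⟩
  | cons c μ ih =>
    rw [Multiset.map_cons, Multiset.sum_cons] at hS
    obtain ⟨U, hU, hty⟩ := exists_subset_ty (S := S) (d := dim c.1) (hS ▸ le_self_add)
    obtain ⟨hc1, hc2⟩ := hμ c (Multiset.mem_cons_self _ _)
    obtain ⟨x, hx, rfl⟩ := ih (fun y hy => hμ y (Multiset.mem_cons_of_mem hy)) (S := S \ U)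
      (by rw [ty_sdiff hU, ← hS, hty, add_tsub_cancel_left])
    have hne : U.Nonempty := Finset.nonempty_iff_ne_empty.2 fun e => hc1 (by rw [← hty, e, ty_empty])
    have hd : ∀ y ∈ x, Disjoint y.1 U := fun y hy => (Finset.subset_sdiff.1 (pbwsign_sub hx hy)).2
    have hn : (U, c) ∉ x := fun h => hne.ne_empty (disjoint_self.1 (hd _ h))
    refine ⟨Finset.cons (U, c) x hn, pbwsign_mk ?_ ?_ ?_ (fun s hs => ?_) ?_ ?_,
      by rw [Finset.cons_val, Multiset.map_cons]⟩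
    · exact (Finset.forall_mem_cons _ _).2 ⟨hne, fun y hy => hx.part.ne _ (pbwsign_blk hy)⟩
    · exact (Finset.forall_mem_cons _ _).2 ⟨by rw [wt_eq_wd, hty, hc2],
        fun y hy => hx.part.null _ (pbwsign_blk hy)⟩
    · exact (Finset.forall_mem_cons _ _).2
        ⟨hU, fun y hy => (pbwsign_sub hx hy).trans Finset.sdiff_subset⟩
    · by_cases h : s ∈ U
      · exact ⟨_, Finset.mem_cons_self _ _, h⟩
      · obtain ⟨y, hy, h'⟩ := pbwsign_cover hx (Finset.mem_sdiff.2 ⟨hs, h⟩)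
        exact ⟨y, Finset.mem_cons_of_mem hy, h'⟩
    · exact (Finset.forall_mem_cons _ _).2 ⟨(Finset.forall_mem_cons _ _).2 ⟨fun h => absurd rfl h,
        fun y hy _ => (hd y hy).symm⟩, fun y hy => (Finset.forall_mem_cons _ _).2
          ⟨fun _ => hd y hy, fun y' hy' => pbwsign_disj hx hy hy'⟩⟩
    · exact (Finset.forall_mem_cons _ _).2 ⟨hty.symm, hx.dim⟩

/-- `chi S g = ∏_B chi B g * ∏_{r y y'} sgn B B' * sgn (g B) (g B')` (`chi_union`, induction). -/
theorem act_bb {ι : Type} {dim : ι → J → ℕ} {S : Bk J} {x : Finset (DB J ι)} (hx : IsDec θ dim S x)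
    {u : ι → Bk J → PR J} {g : Equiv.Perm (Pt J)} (hg : g ∈ GS S)
    (hu : ∀ y ∈ x, D.act y.1 g (u y.2.1 y.1) = u y.2.1 (mv g y.1)) (r : DB J ι → DB J ι → Prop)
    [IsStrictTotalOrder (DB J ι) r] :
    D.act S g (bb D u r x) =
      bb D u (fun y y' => r (mv g⁻¹ y.1, y.2) (mv g⁻¹ y'.1, y'.2)) (mvD g x) := by
  exact pbwsign_act D θ hg.1 r _ rfl hx hu

/-- Pairs inverted between the transported order and `r0` have equal decorations, which are bosonic. -/
theorem act_bb_good (hsym : SymNull D θ) (T : TB D (sysL D θ)) {S : Bk J} {x : Finset (DB J T.ι)}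
    (hx : IsDec θ T.dim S x) (hgood : Gd (fun c => stat D (T.dim c)) (x.val.map Prod.snd))
    {g : Equiv.Perm (Pt J)} (hg : g ∈ GS S) :
    D.act S g (bb D T.u r0 x) - bb D T.u r0 (mvD g x) ∈
      FF D θ S (mm x * (S.card + 1) + x.card) := by
  classical
  have := pbwsign_sto (ι := T.ι) g r0
  have hx' := hx.mvD θ hg
  have h1 := bb_change D θ hsym hx' (pbwsign_L0 D θ T hx')
    (fun y y' => r0 (mv g⁻¹ y.1, y.2) (mv g⁻¹ y'.1, y'.2)) r0
  rw [← mvD_val g x, pbwsign_gd] at hgood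
  rw [Finset.prod_eq_one, one_smul, (mvD_card g x).1, (mvD_card g x).2] at h1
  · rwa [act_bb D θ hx hg (fun y hy => T.eqv g hg.1 _ _ (hx.dim y hy)) r0]
  · refine fun y hy => Finset.prod_eq_one fun y' hy' => ?_
    obtain ⟨hy', h2, h3⟩ := Finset.mem_filter.1 hy'
    have h4 := pbwsign_inv h2 h3
    have h5 : ¬ stat D (T.dim y.2.1) = true := fun h => by
      rw [hgood y hy y' hy' h h4] at h3
      exact irrefl_of r0 _ h3
    rw [← hx'.dim y hy, ← hx'.dim y' hy', ← h4]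
    exact Even.neg_one_pow (by simpa [stat] using h5)

/-- Exchange the two `r0`-smallest blocks carrying a repeated fermionic decoration (a permutation in
`GS (B ∪ B')`): exactly one pair is inverted. -/
theorem act_bb_bad (hsym : SymNull D θ) (T : TB D (sysL D θ)) {S : Bk J} {x : Finset (DB J T.ι)}
    (hx : IsDec θ T.dim S x) (hbad : ¬Gd (fun c => stat D (T.dim c)) (x.val.map Prod.snd)) :
    ∃ g ∈ GS S, D.act S g (bb D T.u r0 x) + bb D T.u r0 x ∈
      FF D θ S (mm x * (S.card + 1) + x.card) := by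
  classical
  rw [pbwsign_gd] at hbad
  push Not at hbad
  obtain ⟨a, ha, a', ha', hst, haa, hne⟩ := hbad
  have hA : ∀ z, z ∈ x.filter (fun z => z.2 = a.2) ↔ z ∈ x ∧ z.2 = a.2 := fun z => Finset.mem_filter
  generalize x.filter (fun z => z.2 = a.2) = A at hA
  obtain ⟨y₁, hy₁, m₁⟩ := pbwsign_min r0 (x := A) ⟨a, (hA a).2 ⟨ha, rfl⟩⟩
  obtain ⟨y₂, hy₂, m₂⟩ := pbwsign_min r0 (x := A.erase y₁) (by
    by_cases h : a = y₁
    · exact ⟨a', Finset.mem_erase.2 ⟨fun e => hne (h.trans e.symm), (hA a').2 ⟨ha', haa.symm⟩⟩⟩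
    · exact ⟨a, Finset.mem_erase.2 ⟨h, (hA a).2 ⟨ha, rfl⟩⟩⟩)
  obtain ⟨n21, hy₂⟩ := Finset.mem_erase.1 hy₂
  obtain ⟨x₁, e₁⟩ := (hA _).1 hy₁
  obtain ⟨x₂, e₂⟩ := (hA _).1 hy₂
  have r12 := m₁ y₂ hy₂ n21
  have hd := pbwsign_disj hx x₂ x₁ n21
  have t₁ : ty y₁.1 = T.dim a.2.1 := by rw [← hx.dim _ x₁, e₁]
  have t₂ : ty y₂.1 = T.dim a.2.1 := by rw [← hx.dim _ x₂, e₂]
  obtain ⟨k, hk, k₁⟩ := exists_GS_mv (S := y₁.1 ∪ y₂.1) Finset.subset_union_left
    Finset.subset_union_right (t₁.trans t₂.symm)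
  have k₂ : mv k y₂.1 = y₁.1 := by
    have h1 := mv_sdiff k (y₁.1 ∪ y₂.1) y₁.1
    rwa [mv_of_GS hk, k₁, Finset.union_sdiff_cancel_left hd.symm,
      Finset.union_sdiff_cancel_right hd.symm] at h1
  have s₁ : (mv k y₁.1, y₁.2) = y₂ := by rw [k₁, e₁, ← e₂]
  have s₂ : (mv k y₂.1, y₂.2) = y₁ := by rw [k₂, e₂, ← e₁]
  have s₃ : ∀ z ∈ x, z ≠ y₁ → z ≠ y₂ → (mv k z.1, z.2) = z := fun z hz h1 h2 => by
    rw [mv_of_disjoint hk (Finset.disjoint_union_left.2
      ⟨pbwsign_disj hx x₁ hz h1.symm, pbwsign_disj hx x₂ hz h2.symm⟩)]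
  have hg : k⁻¹ ∈ GS S := (GS S).inv_mem
    (GS_mono (Finset.union_subset (pbwsign_sub hx x₁) (pbwsign_sub hx x₂)) hk)
  have hxx : mvD k⁻¹ x = x := by
    refine (Finset.eq_of_subset_of_card_le (fun z hz => ?_) (mvD_card _ x).1.le).symm
    rw [pbwsign_mem, inv_inv]
    by_cases h1 : z = y₁
    · rw [h1, s₁]; exact x₂
    by_cases h2 : z = y₂
    · rw [h2, s₂]; exact x₁
    rw [s₃ z hz h1 h2]; exact hz
  have key : ∀ y ∈ x, ∀ y' ∈ x, (r0 (mv k y.1, y.2) (mv k y'.1, y'.2) ∧ r0 y' y) ↔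
      (y = y₂ ∧ y' = y₁) := by
    intro y hy y' hy'
    refine ⟨fun ⟨h1, h2⟩ => ?_, ?_⟩
    · have h3 := pbwsign_inv h1 h2
      by_cases b1 : y = y₁
      · subst b1
        by_cases c1 : y' = y
        · exact absurd (c1 ▸ h2) (irrefl_of r0 _)
        · exact absurd h2 (asymm_of r0 (m₁ y' ((hA _).2 ⟨hy', h3.symm.trans e₁⟩) c1))
      by_cases b2 : y = y₂
      · subst b2
        by_cases c1 : y' = y₁
        · exact ⟨rfl, c1⟩
        by_cases c2 : y' = y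
        · exact absurd (c2 ▸ h2) (irrefl_of r0 _)
        · exact absurd h2 (asymm_of r0 (m₂ y'
            (Finset.mem_erase.2 ⟨c1, (hA _).2 ⟨hy', h3.symm.trans e₂⟩⟩) c2))
      rw [s₃ y hy b1 b2] at h1
      by_cases c1 : y' = y₁
      · subst c1
        rw [s₁] at h1
        exact absurd h1 (asymm_of r0 (m₂ y
          (Finset.mem_erase.2 ⟨b1, (hA _).2 ⟨hy, h3.trans e₁⟩⟩) b2))
      by_cases c2 : y' = y₂
      · subst c2
        rw [s₂] at h1
        exact absurd h1 (asymm_of r0 (m₁ y ((hA _).2 ⟨hy, h3.trans e₂⟩) b1))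
      rw [s₃ y' hy' c1 c2] at h1
      exact absurd h1 (asymm_of r0 h2)
    · rintro ⟨rfl, rfl⟩
      rw [s₁, s₂]
      exact ⟨r12, r12⟩
  refine ⟨k⁻¹, hg, ?_⟩
  have := pbwsign_sto (ι := T.ι) k⁻¹ r0
  have h1 := bb_change D θ hsym hx (pbwsign_L0 D θ T hx)
    (fun y y' => r0 (mv k⁻¹⁻¹ y.1, y.2) (mv k⁻¹⁻¹ y'.1, y'.2)) r0
  rw [Finset.prod_eq_single_of_mem y₂ x₂, Finset.prod_eq_single_of_mem y₁, t₁, t₂,
    Odd.neg_one_pow (by simpa [stat] using hst), neg_one_smul, sub_neg_eq_add] at h1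
  · rwa [act_bb D θ hx hg (fun y hy => T.eqv _ hg.1 _ _ (hx.dim y hy)) r0, hxx]
  · exact Finset.mem_filter.2 ⟨x₁, (key _ x₂ _ x₁).2 ⟨rfl, rfl⟩⟩
  · intro z hz h
    obtain ⟨hz, h'⟩ := Finset.mem_filter.1 hz
    exact absurd ((key _ x₂ _ hz).1 h').2 h
  · refine fun y hy h => Finset.prod_eq_one fun z hz => ?_
    obtain ⟨hz, h'⟩ := Finset.mem_filter.1 hz
    exact absurd ((key _ hy _ hz).1 h').1 h

end

end Crest.Agent.R59
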