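import Crest.Agent.R59.PbwSpan
import Crest.Agent.R59.PbwSign

/-!
# R59/Pbw: the PBW theorem on a slope
-/

set_option autoImplicit false
set_option linter.unusedSectionVars false
set_option linter.unusedVariables false

namespace Crest.Agent.R59

noncomputable section

open MvPolynomial

variable {J : Type} [Fintype J] [DecidableEq J] (D : Dat J) (θ : J → ℤ)

theorem pbw_dec {ι : Type} [Nonempty ι] {dim : ι → J → ℕ} {S : Bk J} {x : Finset (DB J ι)}
    (hx : IsDec θ dim S x) : ∃ φ : Bk J → ι × ℕ, ∀ y ∈ x, φ y.1 = y.2 := by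
  classical
  refine ⟨fun B => if h : ∃ y ∈ x, y.1 = B then h.choose.2 else Classical.arbitrary _,
    fun y hy => ?_⟩
  have h : ∃ y' ∈ x, y'.1 = y.1 := ⟨y, hy, rfl⟩
  simp only [dif_pos h]
  rw [hx.inj _ h.choose_spec.1 _ hy h.choose_spec.2]

theorem pbw_prod_blk {ι M : Type} [CommMonoid M] {dim : ι → J → ℕ} {S : Bk J}
    {x : Finset (DB J ι)} (hx : IsDec θ dim S x) {φ : Bk J → ι × ℕ} (hφ : ∀ y ∈ x, φ y.1 = y.2)
    (F : DB J ι → M) : ∏ y ∈ x, F y = ∏ B ∈ blk x, F (B, φ B) := by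
  rw [blk, Finset.prod_image fun y hy y' hy' h => hx.inj y hy y' hy' h]
  exact Finset.prod_congr rfl fun y hy => by rw [hφ y hy]

theorem pbw_sum_blk {ι M : Type} [AddCommMonoid M] {dim : ι → J → ℕ} {S : Bk J}
    {x : Finset (DB J ι)} (hx : IsDec θ dim S x) (F : Bk J → M) :
    ∑ B ∈ blk x, F B = ∑ y ∈ x, F y.1 := by
  rw [blk, Finset.sum_image fun y hy y' hy' h => hx.inj y hy y' hy' h]

theorem pbw_mem_blk {ι : Type} {x : Finset (DB J ι)} {y : DB J ι} (hy : y ∈ x) : y.1 ∈ blk x :=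
  Finset.mem_image_of_mem _ hy

theorem pbw_subset {ι : Type} {x x' : Finset (DB J ι)} {φ φ' : Bk J → ι × ℕ}
    (hφ : ∀ y ∈ x, φ y.1 = y.2) (hφ' : ∀ y ∈ x', φ' y.1 = y.2) (hb : blk x = blk x')
    (h : ∀ B ∈ blk x, φ B = φ' B) : x ⊆ x' := by
  intro y hy
  have h1 := pbw_mem_blk hy
  obtain ⟨y', hy', e⟩ := Finset.mem_image.1 (hb ▸ h1 : y.1 ∈ blk x')
  have : y' = y := Prod.ext e (by rw [← hφ' y' hy', e, ← h _ h1, hφ y hy])
  exact this ▸ hy'

theorem pbw_top_eq (hsym : SymNull D θ) (T : TB D (sysL D θ)) {S : Bk J} {x : Finset (DB J T.ι)}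
    (hx : IsDec θ T.dim S x) {φ : Bk J → T.ι × ℕ} (hφ : ∀ y ∈ x, φ y.1 = y.2) :
    ∃ ε : ℚ, ε ≠ 0 ∧ ∀ π, blk x = π → psTop π (Ip D θ π) (mm x + dK D π) (bb D T.u r0 x) =
      qm (Ip D θ π) (Kp D π) * ε • monomial (∑ B ∈ π, Finsupp.single B (φ B).2)
        (Ideal.Quotient.mk (Ip D θ π) (∏ k : π, T.u (φ k).1 k)) := by
  obtain ⟨ε, hε0, hε⟩ := Ktop_eq D θ hsym hx r0
  refine ⟨ε, hε0, ?_⟩
  rintro π rfl
  rw [psTop_apply, bb_top D θ hsym hx (u := T.u)
    (fun y hy => ((T.hb y.1).mem ⟨y.2.1, hx.dim y hy⟩).2) r0, hε,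
    pbw_prod_blk θ hx hφ (fun y => (X y.1 ^ y.2.2 : MvPolynomial (Bk J) ℚ)),
    pbw_prod_blk θ hx hφ (fun y => T.u y.2.1 y.1),
    Finset.prod_coe_sort (blk x) (fun B => T.u (φ B).1 B)]
  simp only [X_pow_eq_monomial]
  rw [← monomial_sum_one, smul_mul_assoc, ps_qm_smul, map_mul, smul_mul_assoc, mul_smul_comm,
    mul_assoc]
  congr 2
  rw [qm, map_monomial, map_one, mul_comm, C_mul_monomial, mul_one]

theorem pbw_lev {N m k m' k' : ℕ} (hk : k ≤ N) (hk' : k' ≤ N)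
    (h : m * (N + 1) + k = m' * (N + 1) + k') : m = m' ∧ k = k' := by
  have h1 : ∀ a b : ℕ, b ≤ N → (a * (N + 1) + b) / (N + 1) = a := fun a b hb => by
    rw [add_comm, Nat.add_mul_div_right _ _ (Nat.succ_pos N), Nat.div_eq_of_lt (by omega), zero_add]
  have h2 : m = m' := by rw [← h1 m k hk, h, h1 m' k' hk']
  subst h2
  exact ⟨rfl, by omega⟩

/-- Take leading forms at `π`: only the `x` with `blk x = π` survive (`bb_top_ne`); cancel `Kp`
(`Ktop_eq`, `Kp_regular`), compare coefficients of monomials in the block variables and use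
`tens_ind_multi`; `x` is determined by its blocks, generators and exponents. -/
theorem pbw_ind (hsym : SymNull D θ) (T : TB D (sysL D θ)) (S : Bk J) (n : ℕ) :
    LinearIndependent ℚ fun x : {x : Finset (DB J T.ι) //
      IsDec θ T.dim S x ∧ mm x * (S.card + 1) + x.card = n} => (FF D θ S n).mkQ (bb D T.u r0 x.1) := by
  classical
  have := ps_nonempty D θ T
  rw [linearIndependent_iff']
  intro s c hs x₀ hx₀
  choose φ hφ using fun x : {x : Finset (DB J T.ι) //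
      IsDec θ T.dim S x ∧ mm x * (S.card + 1) + x.card = n} => pbw_dec θ x.2.1
  choose ε hε0 hε using fun x : {x : Finset (DB J T.ι) //
      IsDec θ T.dim S x ∧ mm x * (S.card + 1) + x.card = n} => pbw_top_eq D θ hsym T x.2.1 (hφ x)
  have hcard : ∀ {x : Finset (DB J T.ι)}, IsDec θ T.dim S x → x.card ≤ S.card := fun hx =>
    hx.card_blk ▸ hx.part.card_le
  have hlev : ∀ x : {x : Finset (DB J T.ι) //
      IsDec θ T.dim S x ∧ mm x * (S.card + 1) + x.card = n},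
      mm x.1 = mm x₀.1 ∧ x.1.card = x₀.1.card := fun x =>
    pbw_lev (hcard x.2.1) (hcard x₀.2.1) (x.2.2.trans x₀.2.2.symm)
  have hu : ∀ {x}, IsDec θ T.dim S x → ∀ y ∈ x, T.u y.2.1 y.1 ∈ L0 D θ y.1 := fun hx y hy =>
    ((T.hb y.1).mem ⟨y.2.1, hx.dim y hy⟩).2
  obtain ⟨π, hπ0⟩ : ∃ π, blk x₀.1 = π := ⟨_, rfl⟩
  have hπ : IsPart θ S π := hπ0 ▸ x₀.2.1.part
  have hπc : π.card = x₀.1.card := hπ0 ▸ x₀.2.1.card_blk
  set I := Ip D θ π with hI
  have h0 : ∑ x ∈ s, c x • bb D T.u r0 x.1 ∈ FF D θ S (mm x₀.1 * (S.card + 1) + x₀.1.card) := by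
    rw [x₀.2.2, ← Submodule.Quotient.mk_eq_zero, ← Submodule.mkQ_apply, map_sum]
    simpa only [map_smul] using hs
  have h1 := top_eq_zero_of_mem_FF D θ h0 hπ hπc
  rw [← psTop_apply, map_sum, ← Finset.sum_filter_add_sum_filter_not s fun x => blk x.1 = π,
    Finset.sum_eq_zero (s := s.filter fun x => ¬blk x.1 = π) (fun x hx => by
      rw [map_smul, psTop_apply, ← (hlev x).1, bb_top_ne D θ hsym x.2.1 (hu x.2.1) r0 hπ
        (hπc.trans (hlev x).2.symm) (Ne.symm (Finset.mem_filter.1 hx).2), smul_zero]), add_zero,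
    Finset.sum_congr rfl (fun x hx => by
      rw [map_smul, ← (hlev x).1, hε x π (Finset.mem_filter.1 hx).2, ← mul_smul_comm]),
    ← Finset.mul_sum] at h1
  have h2 := Kp_regular D π I h1
  -- dual functionals
  let Cs := {c : π → T.ι // ∀ k : π, T.dim (c k) = ty k.1}
  let e : Cs → PR J := fun c => ∏ k : π, T.u (c.1 k) k
  have hind : LinearIndependent ℚ fun c : Cs => (IQ I).mkQ (e c) :=
    tens_ind_multi π id hπ.disj (IF D θ) (fun B _ => ps_genIn_IF D θ B) (fun B i => T.u i B)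
      (fun B i => T.dim i = ty B) (fun B _ i hi => ((T.hb B).mem ⟨i, hi⟩).1.1)
      fun B _ => (T.hb B).ind
  obtain ⟨l, hl0, hl⟩ := exists_dual hind
  let lb : Cs → (PR J ⧸ I) →ₗ[ℚ] ℚ := fun c =>
    ((IQ I).liftQ (l c) fun f hf => hl0 c f hf).comp
      (Submodule.Quotient.restrictScalarsEquiv ℚ I).symm.toLinearMap
  have hlb : ∀ c f, lb c (Ideal.Quotient.mk I f) = l c f := fun c f => rfl
  have hok : ∀ x : {x : Finset (DB J T.ι) //
      IsDec θ T.dim S x ∧ mm x * (S.card + 1) + x.card = n}, blk x.1 = π →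
      ∀ k : π, T.dim (φ x k).1 = ty k.1 := fun x hx k => by
    obtain ⟨y, hy, e⟩ := Finset.mem_image.1 (hx ▸ k.2 : k.1 ∈ blk x.1)
    rw [← e, hφ x y hy, x.2.1.dim y hy]
  have hμ : ∀ (ψ : Bk J → T.ι × ℕ), ∀ B ∈ π,
      (∑ B' ∈ π, Finsupp.single B' (ψ B').2 : Bk J →₀ ℕ) B = (ψ B).2 := fun ψ B hB => by
    rw [Finsupp.finsetSum_apply, Finset.sum_eq_single B, Finsupp.single_eq_same]
    · intro B' _ hne
      exact Finsupp.single_eq_of_ne (Ne.symm hne)
    · exact fun h => (h hB).elim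
  have h3 := congrArg (fun q => lb ⟨fun k => (φ x₀ k).1, hok x₀ hπ0⟩
    (coeff (∑ B ∈ π, Finsupp.single B (φ x₀ B).2) q)) h2
  simp only [coeff_sum, coeff_smul, map_sum, map_smul, coeff_zero, map_zero, coeff_monomial] at h3
  rw [Finset.sum_eq_single x₀, if_pos rfl, hlb] at h3
  · have h4 := hl ⟨fun k => (φ x₀ k).1, hok x₀ hπ0⟩ ⟨fun k => (φ x₀ k).1, hok x₀ hπ0⟩
    rw [if_pos rfl] at h4
    simp only [e] at h4
    rw [h4, smul_eq_mul, smul_eq_mul, mul_one] at h3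
    exact (mul_eq_zero.1 h3).resolve_right (hε0 x₀)
  · intro x hx hne
    have hx' := (Finset.mem_filter.1 hx).2
    split_ifs with hm
    · have h4 := hl ⟨fun k => (φ x₀ k).1, hok x₀ hπ0⟩ ⟨fun k => (φ x k).1, hok x hx'⟩
      rw [if_neg] at h4
      · simp only [e] at h4
        rw [hlb, h4, smul_zero, smul_zero]
      · intro h5
        apply hne
        have h6 : ∀ B ∈ π, φ x B = φ x₀ B := fun B hB => Prod.ext
          (congrFun (congrArg Subtype.val h5) ⟨B, hB⟩).symm (by rw [← hμ (φ x) B hB, hm, hμ _ B hB])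
        exact Subtype.ext (Finset.Subset.antisymm
          (pbw_subset (hφ x) (hφ x₀) (hx'.trans hπ0.symm) fun B hB => h6 B (hx' ▸ hB))
          (pbw_subset (hφ x₀) (hφ x) (hπ0.trans hx'.symm) fun B hB => (h6 B (hπ0 ▸ hB)).symm))
    · rw [map_zero, smul_zero, smul_zero]
  · exact fun h => (h (Finset.mem_filter.2 ⟨hx₀, hπ0⟩)).elim

/-- PBW configurations of dimension `d` and polynomial degree `k`. -/
def Cfg {ι : Type} (dim : ι → J → ℕ) (t : ι → ℕ) (β : ι → Bool) (d : J → ℕ) (k : ℕ) : Type :=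
  {μ : Multiset (ι × ℕ) // Gd β μ ∧ (μ.map fun y => dim y.1).sum = d ∧
    (μ.map fun y => 2 * ((t y.1 : ℤ) + y.2) - aa D.a (dim y.1) (dim y.1)).sum =
      2 * (k : ℤ) - aa D.a d d}

theorem pbw_inj {ι : Type} {p : ι → Prop} :
    Function.Injective fun y : Subtype p × ℕ => (y.1.1, y.2) := by
  intro y y' h
  simp only [Prod.mk.injEq] at h
  exact Prod.ext (Subtype.ext h.1) h.2

theorem pbw_gd_map {ι : Type} {p : ι → Prop} (β : ι → Bool) (μ : Multiset (Subtype p × ℕ)) :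
    Gd β (μ.map fun y => (y.1.1, y.2)) ↔ Gd (fun c : Subtype p => β c.1) μ := by
  unfold Gd
  rw [Multiset.filter_map, Multiset.nodup_map_iff_of_injective pbw_inj]
  rfl

theorem pbw_deg (hsym : SymNull D θ) {ι : Type} {dim : ι → J → ℕ} {S : Bk J} {x : Finset (DB J ι)}
    (hx : IsDec θ dim S x) (t : ι → ℕ) :
    ((x.val.map Prod.snd).map fun y => 2 * ((t y.1 : ℤ) + y.2) - aa D.a (dim y.1) (dim y.1)).sum =
      2 * ((dK D (blk x) + ∑ y ∈ x, (t y.2.1 + y.2.2) : ℕ) : ℤ) - aa D.a (ty S) (ty S) := by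
  have h := two_dK D θ hsym hx.part
  rw [pbw_sum_blk θ hx, Finset.sum_congr rfl
    (g := fun y => aa D.a (dim y.2.1) (dim y.2.1)) fun y hy => by rw [hx.dim y hy]] at h
  rw [Multiset.map_map, ← h]
  change ∑ y ∈ x, (2 * ((t y.2.1 : ℤ) + y.2.2) - aa D.a (dim y.2.1) (dim y.2.1)) = _
  rw [Finset.sum_sub_distrib, ← Finset.mul_sum]
  push_cast
  ring

/-- `HB_of_fb` with `Ω` the decorated partitions of `std d`, then `HB.gf`; the generators are the
`c : T.ι` with `dim c ≠ 0`, `wd θ (dim c) = 0`; degrees by `bb_hom`, `two_dK`. -/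
theorem pbw (hsym : SymNull D θ) :
    ∃ (ι : Type) (dim : ι → J → ℕ) (t : ι → ℕ) (β : ι → Bool),
      (∀ c, dim c ≠ 0 ∧ wd θ (dim c) = 0) ∧ ∀ d, wd θ d = 0 → ∀ k, Finite (Cfg D dim t β d k) ∧
        PowerSeries.coeff k ((sysI D θ fun _ x => x < 0).H D d) = Nat.card (Cfg D dim t β d k) := by
  classical
  obtain ⟨T⟩ := exists_TB D (sysL D θ)
  refine ⟨{c : T.ι // T.dim c ≠ 0 ∧ wd θ (T.dim c) = 0}, fun c => T.dim c.1, fun c => T.t c.1,
    fun c => stat D (T.dim c.1), fun c => c.2, fun d hd => ?_⟩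
  set S : Bk J := std d with hS
  have hSd : ty S = d := ty_std d
  have hS0 : wt θ S = 0 := by rw [wt_eq_wd, hSd, hd]
  have hu : ∀ {x}, IsDec θ T.dim S x → ∀ y ∈ x, T.u y.2.1 y.1 ∈ L0 D θ y.1 := fun hx y hy =>
    ((T.hb y.1).mem ⟨y.2.1, hx.dim y hy⟩).2
  let A := {μ : Multiset ({c : T.ι // T.dim c ≠ 0 ∧ wd θ (T.dim c) = 0} × ℕ) //
    Gd (fun c => stat D (T.dim c.1)) μ ∧ (μ.map fun y => T.dim y.1.1).sum = d}
  have hex : ∀ μ : A, ∃ x, IsDec θ T.dim S x ∧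
      x.val.map Prod.snd = μ.1.map fun y => (y.1.1, y.2) := fun μ =>
    exists_dec θ _ (fun y hy => by
      obtain ⟨y', -, rfl⟩ := Multiset.mem_map.1 hy
      exact y'.1.2) (by rw [Multiset.map_map, hSd]; exact μ.2.2)
  choose rep hrep hrepv using hex
  have hb := HB_of_fb D S (Ω := {x : Finset (DB J T.ι) // IsDec θ T.dim S x})
    (O := Multiset (T.ι × ℕ)) (FF D θ S) (FF_mono D θ S)
    (fun n g hg f hf => FF_rename D θ n hg hf) (FF_zero D θ hS0)
    (fun g x => ⟨mvD g.1 x.1, x.2.mvD θ g.2⟩) (fun x => Subtype.ext (mvD_one x.1))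
    (fun x => x.1.val.map Prod.snd) (fun x => mm x.1 * (S.card + 1) + x.1.card)
    (fun x => bb D T.u r0 x.1) (fun x => dK D (blk x.1) + ∑ y ∈ x.1, (T.t y.2.1 + y.2.2))
    (Gd fun c => stat D (T.dim c)) (fun x => bb_mem_RS D θ x.2 (hu x.2) r0)
    (fun x => bb_hom D θ hsym x.2 (fun y hy => (T.hb y.1).hom ⟨y.2.1, x.2.dim y hy⟩) r0)
    (fun g x => by simp only [(mvD_card g.1 x.1).1, (mvD_card g.1 x.1).2])
    (fun g x => mvD_val g.1 x.1)
    (fun x y h => by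
      obtain ⟨g, hg, e⟩ := exists_mvD θ x.2 y.2 h
      exact ⟨⟨g, hg⟩, Subtype.ext e⟩)
    (fun x => bb_mem_FF D θ hsym x.2 (hu x.2) r0)
    (fun g x hx => act_bb_good D θ hsym T x.2 hx g.2)
    (fun x hx => by
      obtain ⟨g, hg, e⟩ := act_bb_bad D θ hsym T x.2 hx
      exact ⟨⟨g, hg⟩, e⟩)
    (fun n => (pbw_ind D θ hsym T S n).comp
      (fun x : {x : {x : Finset (DB J T.ι) // IsDec θ T.dim S x} //
        mm x.1 * (S.card + 1) + x.1.card = n} => ⟨x.1.1, x.1.2, x.2⟩)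
      fun x y h => Subtype.ext (Subtype.ext (by simpa using h)))
    (fun n f hf hF => by
      refine (sup_le_sup_right (α := Submodule ℚ (PR J)) (Submodule.span_mono ?_) _ :)
        (pbw_span D θ hsym T n hf hF)
      rintro _ ⟨x, hx, h1, rfl⟩
      exact ⟨⟨x, hx⟩, h1, rfl⟩)
    (fun f _ => exists_mem_FF D θ S f) (ι := A) (fun μ => ⟨rep μ, hrep μ⟩)
    (fun μ => by
      simp only [hrepv]
      exact (pbw_gd_map _ _).2 μ.2.1)
    (fun μ ν h => by
      simp only [hrepv] at h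
      exact Subtype.ext (Multiset.map_injective pbw_inj h))
    (fun x hx => by
      have hok : ∀ y ∈ x.1.val, T.dim y.2.1 ≠ 0 ∧ wd θ (T.dim y.2.1) = 0 := fun y hy => by
        rw [x.2.dim y hy, ← wt_eq_wd]
        exact ⟨fun h => (x.2.part.ne _ (pbw_mem_blk hy)).ne_empty (ty_eq_zero.1 h),
          x.2.part.null _ (pbw_mem_blk hy)⟩
      have e : (x.1.val.attach.map fun y => ((⟨y.1.2.1, hok y.1 y.2⟩ :
          {c : T.ι // T.dim c ≠ 0 ∧ wd θ (T.dim c) = 0}), y.1.2.2)).map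
          (fun y => (y.1.1, y.2)) = x.1.val.map Prod.snd := by
        rw [Multiset.map_map]
        exact Multiset.attach_map_val' _ Prod.snd
      refine ⟨⟨_, (pbw_gd_map _ _).1 (e ▸ hx), ?_⟩, by simp only [hrepv]; exact e⟩
      rw [Multiset.map_map, ← hSd, x.2.part.ty_eq, pbw_sum_blk θ x.2,
        ← Finset.sum_congr rfl x.2.dim]
      exact congrArg Multiset.sum (Multiset.attach_map_val' _ fun y : DB J T.ι => T.dim y.2.1))
  obtain ⟨hfin, hgf⟩ := hb.gf ((sysL D θ).Ig S) (S := S)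
    fun f hf => hf.1
  have key : ∀ (μ : A) (k : ℕ), dK D (blk (rep μ)) + ∑ y ∈ rep μ, (T.t y.2.1 + y.2.2) = k ↔
      (μ.1.map fun y => 2 * ((T.t y.1.1 : ℤ) + y.2) - aa D.a (T.dim y.1.1) (T.dim y.1.1)).sum =
        2 * (k : ℤ) - aa D.a d d := fun μ k => by
    have := pbw_deg D θ hsym (hrep μ) T.t
    rw [hrepv, Multiset.map_map, hSd] at this
    rw [show (μ.1.map fun y => 2 * ((T.t y.1.1 : ℤ) + y.2) -
      aa D.a (T.dim y.1.1) (T.dim y.1.1)).sum = _ from this]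
    omega
  intro k
  let E : {μ : A // dK D (blk (rep μ)) + ∑ y ∈ rep μ, (T.t y.2.1 + y.2.2) = k} ≃
      Cfg D (fun c : {c : T.ι // T.dim c ≠ 0 ∧ wd θ (T.dim c) = 0} => T.dim c.1)
        (fun c => T.t c.1) (fun c => stat D (T.dim c.1)) d k :=
    { toFun := fun μ => ⟨μ.1.1, μ.1.2.1, μ.1.2.2, (key μ.1 k).1 μ.2⟩
      invFun := fun μ => ⟨⟨μ.1, μ.2.1, μ.2.2.1⟩, (key _ k).2 μ.2.2.2⟩
      left_inv := fun _ => rfl
      right_inv := fun _ => rfl }
  have := hfin k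
  refine ⟨Finite.of_equiv _ E, ?_⟩
  have hH : (sysI D θ fun _ x => x < 0).H D d = Hilb (IF D θ S) (D.Inv S) := by
    change Hilb (IF D θ S) (D.Inv S ⊓ RS S) = _
    rw [inf_eq_left.2 fun f hf => hf.1]
  rw [hH, hgf, GF, PowerSeries.coeff_mk, ← Nat.card_congr E]

end

end Crest.Agent.R59
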