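import Crest.Agent.R59.ShSign

/-!
# R59/ShTens: tensor product arguments in one polynomial ring; kernels are non-zero-divisors
-/

set_option autoImplicit false
set_option linter.unusedSectionVars false
set_option linter.unusedVariables false

namespace Crest.Agent.R59

noncomputable section

open MvPolynomial

variable {J : Type} [Fintype J] [DecidableEq J] (D : Dat J)

/-- `l ⊗ 1`: apply the functional `l` to the variables of `U`. -/
def lam (U : Finset (Pt J)) (l : PR J →ₗ[ℚ] ℚ) : PR J →ₗ[ℚ] PR J :=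
  (basisMonomials (Pt J) ℚ).constr ℚ fun m =>
    l (monomial (m.filter (· ∈ U)) 1) • monomial (m.filter (· ∉ U)) 1

/-- Polynomials not involving the variables of `U`. -/
def RC (U : Finset (Pt J)) : Submodule ℚ (PR J) :=
  Subalgebra.toSubmodule (supported ℚ ((U : Set (Pt J))ᶜ))

theorem RS_le_RC {U W : Finset (Pt J)} (h : Disjoint U W) : RS W ≤ RC U := by
  exact fun f hf => supported_mono (fun s hs hs' => Finset.disjoint_left.1 h hs' hs) hf

theorem shtens_ind {s : Set (Pt J)} {P : PR J → Prop} (h0 : P 0)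
    (hadd : ∀ f g, P f → P g → P (f + g))
    (hmon : ∀ (m : Pt J →₀ ℕ) (c : ℚ), (∀ x ∈ m.support, x ∈ s) → P (monomial m c)) {f : PR J}
    (hf : f ∈ supported ℚ s) : P f := by
  rw [f.as_sum]
  exact Finset.sum_induction _ P hadd h0 fun m hm => hmon m _ fun x hx =>
    mem_supported.1 hf ((mem_vars_iff_mem_support x).2 ⟨m, hm, hx⟩)

theorem shtens_mon {s : Set (Pt J)} {m : Pt J →₀ ℕ} (h : ∀ x ∈ m.support, x ∈ s) (c : ℚ) :
    (monomial m c : PR J) ∈ supported ℚ s := by
  by_cases hc : c = 0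
  · rw [hc, monomial_zero]
    exact Subalgebra.zero_mem _
  · rw [mem_supported, vars_monomial hc]
    exact h

theorem shtens_lam (U : Finset (Pt J)) (l : PR J →ₗ[ℚ] ℚ) (m : Pt J →₀ ℕ) (c : ℚ) :
    lam U l (monomial m c) =
      l (monomial (m.filter (· ∈ U)) 1) • monomial (m.filter (· ∉ U)) c := by
  have h : (monomial m c : PR J) = c • basisMonomials (Pt J) ℚ m := by
    rw [coe_basisMonomials, smul_monomial, smul_eq_mul, mul_one]
  rw [h, map_smul, lam, Module.Basis.constr_basis, smul_comm, smul_monomial, smul_eq_mul, mul_one]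

theorem shtens_mul_RC {U : Finset (Pt J)} (l : PR J →ₗ[ℚ] ℚ) (f : PR J) {g : PR J}
    (hg : g ∈ RC U) : lam U l (f * g) = lam U l f * g := by
  refine shtens_ind (P := fun g => lam U l (f * g) = lam U l f * g) (by simp)
    (fun a b ha hb => by rw [mul_add, map_add, ha, hb, mul_add]) (fun m' c' hm' => ?_) hg
  induction f using MvPolynomial.induction_on' with
  | add a b ha hb => rw [add_mul, map_add, ha, hb, map_add, add_mul]
  | monomial m c =>
    have h1 : m'.filter (· ∈ U) = 0 := (Finsupp.filter_eq_zero_iff _ _).2 fun x hx => by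
      by_contra h
      exact hm' x (Finsupp.mem_support_iff.2 h) hx
    have h2 : m'.filter (· ∉ U) = m' := (Finsupp.filter_eq_self_iff _ _).2 fun x hx =>
      hm' x (Finsupp.mem_support_iff.2 hx)
    rw [monomial_mul, shtens_lam, shtens_lam, Finsupp.filter_add, Finsupp.filter_add, h1, h2,
      add_zero, smul_mul_assoc, monomial_mul]

theorem shtens_RS {U : Finset (Pt J)} (l : PR J →ₗ[ℚ] ℚ) {f : PR J} (hf : f ∈ RS U) :
    lam U l f = l f • 1 := by
  refine shtens_ind (P := fun f => lam U l f = l f • 1) (by simp)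
    (fun a b ha hb => by rw [map_add, map_add, ha, hb, add_smul]) (fun m c hm => ?_) hf
  have h1 : m.filter (· ∉ U) = 0 := (Finsupp.filter_eq_zero_iff _ _).2 fun x hx => by
    by_contra h
    exact hx (hm x (Finsupp.mem_support_iff.2 h))
  have h2 : m.filter (· ∈ U) = m := (Finsupp.filter_eq_self_iff _ _).2 fun x hx =>
    hm x (Finsupp.mem_support_iff.2 hx)
  have h3 : ∀ n : Pt J →₀ ℕ, (monomial n c : PR J) = c • monomial n 1 := fun n => by
    rw [smul_monomial, smul_eq_mul, mul_one]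
  rw [shtens_lam, h1, h2, h3 m, h3 0, map_smul, smul_smul, smul_eq_mul, mul_comm]
  rfl

/-- Every polynomial is a sum of products of polynomials in `U` and outside `U`. -/
theorem shtens_ind2 (U : Finset (Pt J)) {P : PR J → Prop}
    (hadd : ∀ f g, P f → P g → P (f + g)) (hmul : ∀ a ∈ RS U, ∀ b ∈ RC U, P (a * b)) (f : PR J) :
    P f := by
  induction f using MvPolynomial.induction_on' with
  | add a b ha hb => exact hadd a b ha hb
  | monomial m c =>
    rw [← Finsupp.filter_add_filter_not m (· ∈ U), ← mul_one c, ← monomial_mul]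
    refine hmul _ (shtens_mon (fun x hx => ?_) _) _ (shtens_mon (fun x hx => ?_) _)
    · exact (Finset.mem_filter.1 hx).2
    · exact (Finset.mem_filter.1 hx).2

theorem lam_mul {U : Finset (Pt J)} (l : PR J →ₗ[ℚ] ℚ) {f g : PR J} (hf : f ∈ RS U) (hg : g ∈ RC U) :
    lam U l (f * g) = l f • g := by
  rw [shtens_mul_RC l f hg, shtens_RS l hf, smul_mul_assoc, one_mul]

theorem lam_mul_RC {U : Finset (Pt J)} (l : PR J →ₗ[ℚ] ℚ) (f : PR J) {g : PR J} (hg : g ∈ RC U) :
    lam U l (f * g) = lam U l f * g := by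
  exact shtens_mul_RC l f hg

theorem lam_mem_RS {U W : Finset (Pt J)} (h : Disjoint U W) (l : PR J →ₗ[ℚ] ℚ) {f : PR J}
    (hf : f ∈ RS (U ∪ W)) : lam U l f ∈ RS W := by
  refine shtens_ind (P := fun f => lam U l f ∈ RS W) (by simp)
    (fun a b ha hb => by rw [map_add]; exact add_mem ha hb) (fun m c hm => ?_) hf
  rw [shtens_lam]
  refine Submodule.smul_mem _ _ (shtens_mon (fun x hx => ?_) _)
  obtain ⟨h1, h2⟩ := Finset.mem_filter.1 hx
  exact (Finset.mem_union.1 (hm x h1)).resolve_left h2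

theorem shtens_gen {U : Finset (Pt J)} {I : Ideal (PR J)} (hI : GenIn I U) {V : Submodule ℚ (PR J)}
    (h : ∀ g ∈ I, g ∈ RS U → ∀ r, r * g ∈ V) {f : PR J} (hf : f ∈ I) : f ∈ V := by
  have key : ∀ f ∈ Ideal.span {f | f ∈ I ∧ f ∈ RS U}, ∀ r, r * f ∈ V := fun f hf => by
    induction hf using Submodule.span_induction with
    | mem g hg => exact h g hg.1 hg.2
    | zero => simp
    | add a b _ _ ha hb => exact fun r => by rw [mul_add]; exact add_mem (ha r) (hb r)
    | smul a b _ hb => exact fun r => by rw [smul_eq_mul, ← mul_assoc]; exact hb _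
  simpa using key f (hI hf) 1

theorem lam_eq_zero {U : Finset (Pt J)} {l : PR J →ₗ[ℚ] ℚ} {I : Ideal (PR J)} (hI : GenIn I U)
    (hl : ∀ f ∈ I, l f = 0) {f : PR J} (hf : f ∈ I) : lam U l f = 0 := by
  refine shtens_gen hI (V := LinearMap.ker (lam U l)) (fun g hg hg' r => ?_) hf
  induction r using shtens_ind2 U with
  | hadd a b ha hb => rw [add_mul]; exact add_mem ha hb
  | hmul a ha b hb =>
    rw [LinearMap.mem_ker, mul_right_comm, lam_mul l (RS_mul ha hg') hb, hl _ (I.mul_mem_left a hg),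
      zero_smul]

theorem lam_mem {U W : Finset (Pt J)} (h : Disjoint U W) (l : PR J →ₗ[ℚ] ℚ) {I : Ideal (PR J)}
    (hI : GenIn I W) {f : PR J} (hf : f ∈ I) : lam U l f ∈ I := by
  refine shtens_gen hI (V := (IQ I).comap (lam U l)) (fun g hg hg' r => ?_) hf
  rw [Submodule.mem_comap, lam_mul_RC l r (RS_le_RC h hg')]
  exact I.mul_mem_left _ hg

theorem GenIn.mono {I : Ideal (PR J)} {U W : Finset (Pt J)} (h : GenIn I U) (hUW : U ⊆ W) :
    GenIn I W := by
  exact h.trans (Ideal.span_mono fun f hf => ⟨hf.1, RS_mono hUW hf.2⟩)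

theorem GenIn.sup {I I' : Ideal (PR J)} {U : Finset (Pt J)} (h : GenIn I U) (h' : GenIn I' U) :
    GenIn (I ⊔ I') U := by
  exact sup_le (h.trans (Ideal.span_mono fun f hf => ⟨Ideal.mem_sup_left hf.1, hf.2⟩))
    (h'.trans (Ideal.span_mono fun f hf => ⟨Ideal.mem_sup_right hf.1, hf.2⟩))

theorem genIn_iSup {κ : Type} {P : Finset κ} {I : κ → Ideal (PR J)} {U : Finset (Pt J)}
    (h : ∀ k ∈ P, GenIn (I k) U) : GenIn (⨆ k ∈ P, I k) U := by
  exact iSup₂_le fun k hk => (h k hk).trans (Ideal.span_mono fun f hf =>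
    ⟨(le_iSup₂_of_le (f := fun k (_ : k ∈ P) => I k) k hk le_rfl : I k ≤ _) hf.1, hf.2⟩)

/-- Dual functionals of a family that is independent modulo `I`. -/
theorem exists_dual {I : Ideal (PR J)} {ι : Type} [DecidableEq ι] {u : ι → PR J}
    (h : LinearIndependent ℚ fun i => (IQ I).mkQ (u i)) :
    ∃ l : ι → PR J →ₗ[ℚ] ℚ, (∀ i, ∀ f ∈ I, l i f = 0) ∧ ∀ i j, l i (u j) = if i = j then 1 else 0 := by
  choose g hg using fun i => LinearMap.exists_extend ((Finsupp.lapply i).comp h.repr)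
  refine ⟨fun i => (g i).comp (IQ I).mkQ, fun i f hf => ?_, fun i j => ?_⟩
  · rw [LinearMap.comp_apply, Submodule.mkQ_apply, (Submodule.Quotient.mk_eq_zero (IQ I)).2 hf,
      map_zero]
  · have h1 := LinearMap.congr_fun (hg i) ⟨_, Submodule.subset_span ⟨j, rfl⟩⟩
    rw [LinearMap.comp_apply, LinearMap.comp_apply, h.repr_eq_single j _ rfl] at h1
    rw [LinearMap.comp_apply]
    refine h1.trans ?_
    simp only [Finsupp.lapply_apply, Finsupp.single_apply, eq_comm]

theorem shtens_of_dual {I : Ideal (PR J)} {ι : Type} [DecidableEq ι] {u : ι → PR J}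
    (h : ∀ i, ∃ l : PR J →ₗ[ℚ] ℚ, (∀ f ∈ I, l f = 0) ∧ ∀ j, l (u j) = if i = j then 1 else 0) :
    LinearIndependent ℚ fun i => (IQ I).mkQ (u i) := by
  refine linearIndependent_iff'.2 fun s g hg i hi => ?_
  obtain ⟨l, h1, h2⟩ := h i
  simp only [← map_smul, ← map_sum] at hg
  have h3 := h1 _ ((Submodule.Quotient.mk_eq_zero (IQ I)).1 hg)
  simpa [h2, hi] using h3

theorem tens_ind {U W : Finset (Pt J)} (h : Disjoint U W) {I I' : Ideal (PR J)} (hI : GenIn I U)
    (hI' : GenIn I' W) {ι κ : Type} {u : ι → PR J} {w : κ → PR J} (hu : ∀ i, u i ∈ RS U)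
    (hw : ∀ j, w j ∈ RS W) (iu : LinearIndependent ℚ fun i => (IQ I).mkQ (u i))
    (iw : LinearIndependent ℚ fun j => (IQ I').mkQ (w j)) :
    LinearIndependent ℚ fun p : ι × κ => (IQ (I ⊔ I')).mkQ (u p.1 * w p.2) := by
  classical
  obtain ⟨l, l1, l2⟩ := exists_dual iu
  obtain ⟨l', l1', l2'⟩ := exists_dual iw
  refine shtens_of_dual fun p => ⟨(l' p.2).comp (lam U (l p.1)), fun f hf => ?_, fun q => ?_⟩
  · obtain ⟨a, ha, b, hb, rfl⟩ := Submodule.mem_sup.1 hf
    rw [LinearMap.comp_apply, map_add, lam_eq_zero hI (l1 _) ha, zero_add,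
      l1' _ _ (lam_mem h _ hI' hb)]
  · rw [LinearMap.comp_apply, lam_mul _ (hu _) (RS_le_RC h (hw _)), map_smul, l2, l2', smul_eq_mul]
    simp only [Prod.ext_iff, ite_and, ite_mul, one_mul, zero_mul]

theorem shtens_multi {κ : Type} [DecidableEq κ] (P : Finset κ) (B : κ → Finset (Pt J))
    (hB : ∀ k ∈ P, ∀ k' ∈ P, k ≠ k' → Disjoint (B k) (B k')) (I : κ → Ideal (PR J))
    (hI : ∀ k ∈ P, GenIn (I k) (B k)) (l : κ → PR J →ₗ[ℚ] ℚ) (hl : ∀ k ∈ P, ∀ f ∈ I k, l k f = 0) :
    ∃ L : PR J →ₗ[ℚ] ℚ, (∀ f ∈ ⨆ k ∈ P, I k, L f = 0) ∧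
      ∀ f : κ → PR J, (∀ k ∈ P, f k ∈ RS (B k)) → L (∏ k ∈ P, f k) = ∏ k ∈ P, l k (f k) := by
  induction P using Finset.induction_on with
  | empty => exact ⟨lcoeff ℚ 0, fun f hf => by simp_all, fun f _ => by simp⟩
  | insert a P ha ih =>
    have hm : ∀ k ∈ P, k ∈ insert a P := fun k hk => Finset.mem_insert_of_mem hk
    have ha' := Finset.mem_insert_self a P
    obtain ⟨L, h1, h2⟩ := ih (fun k hk k' hk' => hB k (hm k hk) k' (hm k' hk'))
      (fun k hk => hI k (hm k hk)) fun k hk => hl k (hm k hk)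
    have hd : Disjoint (B a) (P.biUnion B) := (Finset.disjoint_biUnion_right _ _ _).2 fun k hk =>
      hB a ha' k (hm k hk) fun e => ha (e ▸ hk)
    have hs : ∀ k ∈ P, B k ⊆ P.biUnion B := fun k hk => Finset.subset_biUnion_of_mem B hk
    refine ⟨L.comp (lam (B a) (l a)), fun f hf => ?_, fun f hf => ?_⟩
    · rw [Finset.iSup_insert] at hf
      obtain ⟨x, hx, y, hy, rfl⟩ := Submodule.mem_sup.1 hf
      rw [LinearMap.comp_apply, map_add, lam_eq_zero (hI a ha') (hl a ha') hx, zero_add,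
        h1 _ (lam_mem hd _ (genIn_iSup fun k hk => (hI k (hm k hk)).mono (hs k hk)) hy)]
    · rw [Finset.prod_insert ha, Finset.prod_insert ha, LinearMap.comp_apply,
        lam_mul _ (hf a ha') (RS_le_RC hd (RS_prod fun k hk => RS_mono (hs k hk) (hf k (hm k hk)))),
        map_smul, h2 f fun k hk => hf k (hm k hk), smul_eq_mul]

/-- Several blocks (induction on `P`, or apply the dual functionals block by block). -/
theorem tens_ind_multi {κ ι : Type} [DecidableEq κ] (P : Finset κ) (B : κ → Finset (Pt J))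
    (hB : ∀ k ∈ P, ∀ k' ∈ P, k ≠ k' → Disjoint (B k) (B k')) (I : κ → Ideal (PR J))
    (hI : ∀ k ∈ P, GenIn (I k) (B k)) (u : κ → ι → PR J) (ok : κ → ι → Prop)
    (hu : ∀ k ∈ P, ∀ i, ok k i → u k i ∈ RS (B k))
    (iu : ∀ k ∈ P, LinearIndependent ℚ fun i : {i // ok k i} => (IQ (I k)).mkQ (u k i.1)) :
    LinearIndependent ℚ fun c : {c : P → ι // ∀ k : P, ok k (c k)} =>
      (IQ (⨆ k ∈ P, I k)).mkQ (∏ k : P, u k (c.1 k)) := by
  classical
  choose d d1 d2 using fun k : P => exists_dual (iu k.1 k.2)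
  refine shtens_of_dual fun c => ?_
  obtain ⟨L, h1, h2⟩ := shtens_multi (Finset.univ : Finset P) (fun k => B k)
    (fun k _ k' _ h => hB k k.2 k' k'.2 fun e => h (Subtype.ext e)) (fun k => I k)
    (fun k _ => hI k k.2) (fun k => d k ⟨c.1 k, c.2 k⟩) fun k _ => d1 k _
  refine ⟨L, fun f hf => h1 f ?_, fun c' => ?_⟩
  · exact (iSup₂_le fun k hk => le_iSup₂_of_le (f := fun (k : P) (_ : k ∈ Finset.univ) => I k)
      ⟨k, hk⟩ (Finset.mem_univ _) le_rfl : (⨆ k ∈ P, I k) ≤ _) hf
  · rw [h2 _ fun k _ => hu k k.2 _ (c'.2 k),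
      Finset.prod_congr rfl fun k _ => d2 k ⟨c.1 k, c.2 k⟩ ⟨c'.1 k, c'.2 k⟩, Fintype.prod_boole]
    simp only [Subtype.ext_iff, funext_iff]

/-- `f = Av U (Av W f)`-type argument: `D.Av U (f₁ * f₂) = D.Av U f₁ * f₂`. -/
theorem tens_span {U W : Finset (Pt J)} (h : Disjoint U W) {I I' : Ideal (PR J)} {ι κ : Type}
    {u : ι → PR J} {w : κ → PR J}
    (su : ∀ f ∈ D.Inv U, f ∈ Submodule.span ℚ (Set.range u) ⊔ IQ I)
    (sw : ∀ f ∈ D.Inv W, f ∈ Submodule.span ℚ (Set.range w) ⊔ IQ I') (f : PR J)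
    (hf : f ∈ RS (U ∪ W)) :
    D.Av U (D.Av W f) ∈ Submodule.span ℚ (Set.range fun p : ι × κ => u p.1 * w p.2) ⊔ IQ (I ⊔ I') := by
  refine RS_union_induction (P := fun f => D.Av U (D.Av W f) ∈
    Submodule.span ℚ (Set.range fun p : ι × κ => u p.1 * w p.2) ⊔ IQ (I ⊔ I')) (by simp)
    (fun a b ha hb => by rw [map_add, map_add]; exact add_mem ha hb) (fun a ha b hb => ?_) f hf
  have hb' := D.Av_mem hb
  rw [mul_comm a, D.Av_mul_right h.symm b ha, mul_comm, D.Av_mul_right h a hb'.1]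
  obtain ⟨x, hx, i, hi, e⟩ := Submodule.mem_sup.1 (su _ (D.Av_mem ha))
  obtain ⟨y, hy, j, hj, e'⟩ := Submodule.mem_sup.1 (sw _ hb')
  rw [← e, add_mul, ← e', mul_add x, add_assoc]
  refine Submodule.add_mem_sup ?_ (add_mem ?_ ?_)
  · have h1 := Submodule.mul_mem_mul hx hy
    rw [Submodule.span_mul_span] at h1
    refine Submodule.span_mono ?_ h1
    rintro _ ⟨_, ⟨p, rfl⟩, _, ⟨q, rfl⟩, rfl⟩
    exact ⟨(p, q), rfl⟩
  · exact Ideal.mem_sup_right (I'.mul_mem_left x hj)
  · exact Ideal.mem_sup_left (I.mul_mem_right _ hi)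

/-- Translation of the variables of `U`. -/
def trU (U : Finset (Pt J)) : PR J →ₐ[ℚ] Polynomial (PR J) :=
  aeval fun s => Polynomial.C (X s) + if s ∈ U then Polynomial.X else 0

/-- Ideals stable under the translation of the variables of `U`. -/
def TrInv (U : Finset (Pt J)) (I : Ideal (PR J)) : Prop := ∀ f ∈ I, ∀ n, (trU U f).coeff n ∈ I

theorem shtens_trX (U : Finset (Pt J)) (s : Pt J) :
    trU U (X s) = Polynomial.C (X s) + if s ∈ U then Polynomial.X else 0 := aeval_X _ _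

theorem shtens_trInv {U : Finset (Pt J)} {I : Ideal (PR J)} :
    TrInv U I ↔ I ≤ (I.map (Polynomial.C : PR J →+* Polynomial (PR J))).comap (trU U) :=
  forall₂_congr fun _ _ => Ideal.mem_map_C_iff.symm

theorem shtens_coeff (U : Finset (Pt J)) (f : PR J) : (trU U f).coeff 0 = f := by
  induction f using MvPolynomial.induction_on with
  | C c => rw [trU, aeval_C, Polynomial.algebraMap_apply, Polynomial.coeff_C_zero, algebraMap_eq]
  | add a b ha hb => rw [map_add, Polynomial.coeff_add, ha, hb]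
  | mul_X a s ha =>
    rw [map_mul, Polynomial.mul_coeff_zero, ha, shtens_trX]
    split_ifs <;> simp

theorem trU_K {U A B : Finset (Pt J)} (h : (A ⊆ U ∧ B ⊆ U) ∨ (Disjoint A U ∧ Disjoint B U)) :
    trU U (D.K A B) = Polynomial.C (D.K A B) := by
  simp only [Dat.K, map_prod, map_pow, map_sub, shtens_trX]
  refine Finset.prod_congr rfl fun s hs => Finset.prod_congr rfl fun t ht => ?_
  rcases h with h | h
  · rw [if_pos (h.1 hs), if_pos (h.2 ht), add_sub_add_right_eq_sub]
  · rw [if_neg (Finset.disjoint_left.1 h.1 hs), if_neg (Finset.disjoint_left.1 h.2 ht),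
      add_sub_add_right_eq_sub]

theorem trInv_span {U : Finset (Pt J)} {T : Set (PR J)} (h : ∀ f ∈ T, trU U f = Polynomial.C f) :
    TrInv U (Ideal.span T) := by
  refine shtens_trInv.2 (Ideal.span_le.2 fun f hf => ?_)
  rw [SetLike.mem_coe, Ideal.mem_comap, h f hf]
  exact Ideal.mem_map_of_mem _ (Ideal.subset_span hf)

theorem TrInv.sup {U : Finset (Pt J)} {I I' : Ideal (PR J)} (h : TrInv U I) (h' : TrInv U I') :
    TrInv U (I ⊔ I') := by
  exact shtens_trInv.2 (sup_le
    ((shtens_trInv.1 h).trans (Ideal.comap_mono (Ideal.map_mono le_sup_left)))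
    ((shtens_trInv.1 h').trans (Ideal.comap_mono (Ideal.map_mono le_sup_right))))

theorem shtens_nzd {R : Type} [CommRing R] {I : Ideal R} {κ : Type} (P : Finset κ) (r : κ → R)
    (e : κ → ℕ) {g : Polynomial R}
    (h : ∀ n, ((∏ k ∈ P, (Polynomial.C (r k) - Polynomial.X) ^ e k) * g).coeff n ∈ I) :
    g.coeff 0 ∈ I := by
  have h1 : (∏ k ∈ P, (Polynomial.C (Ideal.Quotient.mk I (r k)) - Polynomial.X) ^ e k) *
      g.map (Ideal.Quotient.mk I) = 0 := by
    ext n
    have := Ideal.Quotient.eq_zero_iff_mem.2 (h n)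
    rw [← Polynomial.coeff_map] at this
    simpa [Polynomial.map_prod] using this
  have h2 : ∏ k ∈ P, (Polynomial.C (Ideal.Quotient.mk I (r k)) - Polynomial.X) ^ e k ∈
      nonZeroDivisors (Polynomial (R ⧸ I)) := by
    refine prod_mem fun k _ => pow_mem ?_ _
    rw [← neg_sub, ← neg_one_mul]
    exact mul_mem isUnit_one.neg.mem_nonZeroDivisors (Polynomial.monic_X_sub_C _).mem_nonZeroDivisors
  have h3 := congrArg (Polynomial.coeff · 0) ((mul_left_mem_nonZeroDivisors_eq_zero_iff h2).1 h1)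
  simp only [Polynomial.coeff_map, Polynomial.coeff_zero] at h3
  exact Ideal.Quotient.eq_zero_iff_mem.1 h3

/-- Modulo `I`, `trU U (K U W)` is a polynomial with leading coefficient `±1`, so
`trU U f ≡ 0`, and the constant coefficient of `trU U f` is `f`. -/
theorem K_nzd {U W : Finset (Pt J)} (h : Disjoint U W) {I : Ideal (PR J)} (hI : TrInv U I)
    {f : PR J} (hf : D.K U W * f ∈ I) : f ∈ I := by
  rw [← shtens_coeff U f]
  refine shtens_nzd (U ×ˢ W) (fun p => X p.2 - X p.1) (fun p => D.a p.1.1 p.2.1) fun n => ?_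
  have h1 := hI _ hf n
  rw [map_mul] at h1
  refine (congrArg (fun q => (q * trU U f).coeff n ∈ I) ?_).mpr h1
  simp only [Dat.K, map_prod, map_pow, map_sub, shtens_trX, Finset.prod_product]
  refine Finset.prod_congr rfl fun s hs => Finset.prod_congr rfl fun t ht => ?_
  rw [if_pos hs, if_neg (Finset.disjoint_right.1 h ht), add_zero, sub_sub]

end

end Crest.Agent.R59
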