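import Crest.Agent.R59.ShHB
import Crest.Agent.R59.ShTens

/-!
# R59/PbwDef: definitions for the PBW theorem on a slope

`θ : J → ℤ`; `I0 B = IF θ B`.  A *partition* `π` of `S` has non-empty blocks of weight `0`.
`tau π` translates the variables of each block `B` by `t * z_B`; `tb π` is its reduction modulo
`Ip π = ⨆ I0 B`.  `L0 B` (the BPS space) consists of the polynomials whose `t`-degree is smaller than the
degree `dK π` of the kernel for every non-trivial partition and `0` for the trivial one.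
-/

set_option autoImplicit false
set_option linter.unusedSectionVars false
set_option linter.unusedVariables false

namespace Crest.Agent.R59

noncomputable section

open MvPolynomial

variable {J : Type} [Fintype J] [DecidableEq J] (D : Dat J) (θ : J → ℤ)

/-- Blocks. -/
abbrev Bk (J : Type) : Type := Finset (Pt J)

/-- The arrow form is symmetric on dimension vectors of weight zero. -/
def SymNull : Prop := ∀ d d', wd θ d = 0 → wd θ d' = 0 → aa D.a d d' = aa D.a d' d

/-- Partitions into blocks of weight zero. -/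
structure IsPart (S : Bk J) (π : Finset (Bk J)) : Prop where
  ne : ∀ B ∈ π, B.Nonempty
  null : ∀ B ∈ π, wt θ B = 0
  sub : ∀ B ∈ π, B ⊆ S
  cover : ∀ s ∈ S, ∃ B ∈ π, s ∈ B
  disj : ∀ B ∈ π, ∀ B' ∈ π, B ≠ B' → Disjoint B B'

/-- The ideal of a partition. -/
def Ip (π : Finset (Bk J)) : Ideal (PR J) := ⨆ B ∈ π, IF D θ B

/-- Translation of the blocks. -/
def tau (π : Finset (Bk J)) : PR J →ₐ[ℚ] Polynomial (MvPolynomial (Bk J) (PR J)) :=
  aeval fun s => Polynomial.C (C (X s)) +
    Polynomial.C (∑ B ∈ π.filter (s ∈ ·), X B) * Polynomial.X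

/-- The coefficient of `t^n z^μ`. -/
def cf (π : Finset (Bk J)) (f : PR J) (n : ℕ) (μ : Bk J →₀ ℕ) : PR J := coeff μ ((tau π f).coeff n)

theorem pbwdef_cf_zero (π : Finset (Bk J)) (n : ℕ) (μ : Bk J →₀ ℕ) : cf π 0 n μ = 0 := by
  simp [cf]

theorem pbwdef_cf_add (π : Finset (Bk J)) (f g : PR J) (n : ℕ) (μ : Bk J →₀ ℕ) :
    cf π (f + g) n μ = cf π f n μ + cf π g n μ := by
  simp [cf]

theorem pbwdef_cf_smul (π : Finset (Bk J)) (c : ℚ) (f : PR J) (n : ℕ) (μ : Bk J →₀ ℕ) :
    cf π (c • f) n μ = c • cf π f n μ := by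
  simp [cf]

/-- Translation followed by reduction modulo an ideal. -/
def tb (π : Finset (Bk J)) (I : Ideal (PR J)) :
    PR J →+* Polynomial (MvPolynomial (Bk J) (PR J ⧸ I)) :=
  (Polynomial.mapRingHom (MvPolynomial.map (Ideal.Quotient.mk I))).comp (tau π).toRingHom

/-- The `t`-degree modulo `I` is less than `n`. -/
def ZLt (π : Finset (Bk J)) (I : Ideal (PR J)) (n : ℕ) (f : PR J) : Prop :=
  ∀ i, n ≤ i → ∀ μ, cf π f i μ ∈ I

/-- The degree of the kernel of a partition. -/
def dK (π : Finset (Bk J)) : ℕ := (∑ B ∈ π, ∑ B' ∈ π.erase B, aa D.a (ty B) (ty B')) / 2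

/-- The bound defining `L0`. -/
def bd0 (π : Finset (Bk J)) : ℕ := dK D π + if π.card ≤ 1 then 1 else 0

/-- The BPS space. -/
def L0 (B : Bk J) : Submodule ℚ (PR J) where
  carrier := {f | f ∈ RS B ∧ ∀ π, IsPart θ B π → ZLt π (Ip D θ π) (bd0 D π) f}
  zero_mem' := ⟨(RS B).zero_mem, fun π _ i _ μ => by rw [pbwdef_cf_zero]; exact zero_mem _⟩
  add_mem' := fun ha hb => ⟨(RS B).add_mem ha.1 hb.1, fun π hπ i hi μ => by
    rw [pbwdef_cf_add]; exact add_mem (ha.2 π hπ i hi μ) (hb.2 π hπ i hi μ)⟩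
  smul_mem' := fun c _ ha => ⟨(RS B).smul_mem c ha.1, fun π hπ i hi μ => by
    rw [pbwdef_cf_smul]; exact Submodule.smul_of_tower_mem _ c (ha.2 π hπ i hi μ)⟩

/-- The filtration: `t^i` for the partition `π` has level `(i - dK π) (|S| + 1) + |π|`. -/
def FF (S : Bk J) (n : ℕ) : Submodule ℚ (PR J) where
  carrier := {f | ∀ π, IsPart θ S π → ∀ (i : ℕ) μ, cf π f i μ ∉ Ip D θ π →
    ((i : ℤ) - dK D π) * (S.card + 1) + π.card < n}
  zero_mem' := fun π _ i μ h => absurd (by rw [pbwdef_cf_zero]; exact zero_mem _) h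
  add_mem' := fun {a b} ha hb π hπ i μ h => by
    by_cases h1 : cf π a i μ ∈ Ip D θ π
    · exact hb π hπ i μ fun h2 => h (by rw [pbwdef_cf_add]; exact add_mem h1 h2)
    · exact ha π hπ i μ h1
  smul_mem' := fun c _ ha π hπ i μ h => ha π hπ i μ fun h1 =>
    h (by rw [pbwdef_cf_smul]; exact Submodule.smul_of_tower_mem _ c h1)

/-- Centre of mass. -/
def cm (B : Bk J) : PR J := (B.card : ℚ)⁻¹ • ∑ s ∈ B, X s

/-- Decorated blocks. -/
abbrev DB (J ι : Type) : Type := Bk J × ι × ℕ

/-- The blocks of a set of decorated blocks. -/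
def blk {ι : Type} (x : Finset (DB J ι)) : Finset (Bk J) := x.image Prod.fst

/-- Decorated partitions. -/
structure IsDec {ι : Type} (dim : ι → J → ℕ) (S : Bk J) (x : Finset (DB J ι)) : Prop where
  inj : ∀ y ∈ x, ∀ y' ∈ x, y.1 = y'.1 → y = y'
  part : IsPart θ S (blk x)
  dim : ∀ y ∈ x, dim y.2.1 = ty y.1

/-- Total exponent of the centres of mass. -/
def mm {ι : Type} (x : Finset (DB J ι)) : ℕ := ∑ y ∈ x, y.2.2

open Classical in
/-- The product of the signed kernels for an order `r` of the blocks. -/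
def KK {ι : Type} (r : DB J ι → DB J ι → Prop) (x : Finset (DB J ι)) : PR J :=
  ∏ y ∈ x, ∏ y' ∈ x.filter (r y), D.Kt y.1 y'.1

/-- The PBW monomial. -/
def bb {ι : Type} (u : ι → Bk J → PR J) (r : DB J ι → DB J ι → Prop) (x : Finset (DB J ι)) : PR J :=
  KK D r x * ∏ y ∈ x, (u y.2.1 y.1 * cm y.1 ^ y.2.2)

open Classical in
/-- The leading form of the kernel. -/
def Ktop {ι : Type} (r : DB J ι → DB J ι → Prop) (x : Finset (DB J ι)) : MvPolynomial (Bk J) ℚ :=
  ∏ y ∈ x, ∏ y' ∈ x.filter (r y), D.sgn y.1 y'.1 • (X y'.1 - X y.1) ^ aa D.a (ty y.1) (ty y'.1)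

open Classical in
/-- The leading form of the kernel of a partition for a fixed order of the blocks. -/
def Kp (π : Finset (Bk J)) : MvPolynomial (Bk J) ℚ :=
  ∏ B ∈ π, ∏ B' ∈ π.filter (WellOrderingRel B), (X B' - X B) ^ aa D.a (ty B) (ty B')

/-- Rational polynomials in the block variables, with coefficients in a quotient. -/
def qm (I : Ideal (PR J)) : MvPolynomial (Bk J) ℚ →+* MvPolynomial (Bk J) (PR J ⧸ I) :=
  MvPolynomial.map (algebraMap ℚ (PR J ⧸ I))

/-- The standard order of decorated blocks: first the decoration, then the block. -/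
def r0 {ι : Type} (y y' : DB J ι) : Prop :=
  WellOrderingRel y.2 y'.2 ∨ (y.2 = y'.2 ∧ WellOrderingRel y.1 y'.1)

/-- The action on decorated partitions. -/
def mvD {ι : Type} (g : Equiv.Perm (Pt J)) (x : Finset (DB J ι)) : Finset (DB J ι) := by
  classical exact x.image fun y => (mv g y.1, y.2)

/-- The statistics of a generator of dimension `d`. -/
def stat (d : J → ℕ) : Bool := decide (Odd (ff D.b d d + aa D.a d d))

end

end Crest.Agent.R59
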