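import Crest.Agent.R59.PbwTau

/-!
# R59/PbwProd: the translation degree of a PBW monomial

Let `π = blk x`, ordered by `r`, and let `π'` be another partition.
* If some `B ∩ B'` (`B ∈ π`, `B' ∈ π'`) has non-zero weight then `KK r x ∈ Ip π'`: for an initial segment
  `P` of `x` (`P = {y | r y y₀}` or `P ∪ {y₀}`) and `W = B' ∩ ⋃ P`, `K W (B' \ W) ∣ KK r x`; if no such `W`
  has negative weight, all have weight `0` because `∑_{B'} wt W = 0`.
* Otherwise `π'_B = {B ∩ B' ≠ ∅}` is a partition of `B`.  Let `Jm = ⨆_B Ip π'_B`, `Kin` (resp. `Kout`) the part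
  of `KK` over pairs of particles in the same (resp. different) blocks of `π'`.  Then
  `Kin * Jm ≤ Ip π'`, `tau π' Kin = C (C Kin)`, `deg (tau π' Kout) ≤ out`, modulo `Jm` the degree of
  `tau π' (u c B)` is `< bd0 π'_B` (on `RS B`, `tau π'` is `tau π'_B` followed by `z_{B ∩ B'} ↦ z_{B'}`), and
  `out + ∑_B dK π'_B = dK π'`.  If all `π'_B` are trivial then `π'` is coarser than `π`.
-/

set_option autoImplicit false
set_option linter.unusedSectionVars false
set_option linter.unusedVariables false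

namespace Crest.Agent.R59

noncomputable section

open MvPolynomial

variable {J : Type} [Fintype J] [DecidableEq J] (D : Dat J) (θ : J → ℤ)

/-- Kernel over a set of pairs of particles. -/
def ppKP (R : Finset (Pt J × Pt J)) : PR J := ∏ p ∈ R, (X p.2 - X p.1) ^ D.a p.1.1 p.2.1

theorem pp_K_eq (U W : Bk J) : D.K U W = ppKP D (U ×ˢ W) := by
  rw [Dat.K, ppKP, Finset.prod_product]

theorem pp_KP_dvd {R R' : Finset (Pt J × Pt J)} (h : R ⊆ R') : ppKP D R ∣ ppKP D R' :=
  Finset.prod_dvd_prod_of_subset _ _ _ h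

theorem pp_KP_dvd_mul {R R1 R2 : Finset (Pt J × Pt J)} (h : R ⊆ R1 ∪ R2) :
    ppKP D R ∣ ppKP D R1 * ppKP D R2 := by
  refine (pp_KP_dvd D h).trans ?_
  unfold ppKP
  rw [← Finset.prod_union_inter]
  exact Dvd.intro _ rfl

/-- Block functions. -/
theorem pp_exists_bp {κ : Type} [Nonempty κ] {S : Bk J} {x : Finset κ} {B : κ → Bk J}
    (cover : ∀ s ∈ S, ∃ y ∈ x, s ∈ B y)
    (disj : ∀ y ∈ x, ∀ y' ∈ x, y ≠ y' → Disjoint (B y) (B y')) :
    ∃ c : Pt J → κ, (∀ s ∈ S, c s ∈ x ∧ s ∈ B (c s)) ∧ ∀ y ∈ x, ∀ s ∈ B y, c s = y := by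
  classical
  refine ⟨fun s => Classical.epsilon fun y => y ∈ x ∧ s ∈ B y, fun s hs => ?_, fun y hy s hs => ?_⟩
  · obtain ⟨y, hy, hsy⟩ := cover s hs
    exact Classical.epsilon_spec (p := fun y => y ∈ x ∧ s ∈ B y) ⟨y, hy, hsy⟩
  · have := Classical.epsilon_spec (p := fun y => y ∈ x ∧ s ∈ B y) ⟨y, hy, hs⟩
    by_contra hne
    exact Finset.disjoint_left.1 (disj _ this.1 _ hy hne) this.2 hs

theorem pp_aa_fib {κ : Type} [DecidableEq κ] (S : Bk J) (c : Pt J → κ) (Q : κ → κ → Prop)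
    [DecidableRel Q] (a : J → J → ℕ) :
    ∑ s ∈ S, ∑ t ∈ S, (if Q (c s) (c t) then a s.1 t.1 else 0) =
      ∑ k ∈ S.image c, ∑ k' ∈ S.image c, if Q k k' then
        aa a (ty (S.filter fun s => c s = k)) (ty (S.filter fun s => c s = k')) else 0 := by
  rw [← Finset.sum_fiberwise_of_maps_to (s := S) (t := S.image c) (g := c)
    (fun s hs => Finset.mem_image_of_mem c hs)]
  refine Finset.sum_congr rfl fun k _ => ?_
  simp_rw [aa_ty]
  have : ∀ s ∈ S.filter (fun s => c s = k), (∑ t ∈ S, if Q (c s) (c t) then a s.1 t.1 else 0) =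
      ∑ k' ∈ S.image c, if Q k k' then ∑ t ∈ S.filter (fun s => c s = k'), a s.1 t.1 else 0 := by
    intro s hs
    rw [← Finset.sum_fiberwise_of_maps_to (s := S) (t := S.image c) (g := c)
      (fun s hs => Finset.mem_image_of_mem c hs)]
    refine Finset.sum_congr rfl fun k' _ => ?_
    have hs' := (Finset.mem_filter.1 hs).2
    split_ifs with hq
    · refine Finset.sum_congr rfl fun t ht => ?_
      rw [hs', (Finset.mem_filter.1 ht).2, if_pos hq]
    · refine Finset.sum_eq_zero fun t ht => ?_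
      rw [hs', (Finset.mem_filter.1 ht).2, if_neg hq]
  rw [Finset.sum_congr rfl this, Finset.sum_comm]
  refine Finset.sum_congr rfl fun k' _ => ?_
  split_ifs <;> simp

theorem pp_sum_sym (hsym : SymNull D θ) {κ : Type} [DecidableEq κ] (S : Bk J) (c : Pt J → κ)
    (h : ∀ k, wt θ (S.filter fun s => c s = k) = 0) (Q : κ → κ → Prop) [DecidableRel Q] :
    ∑ s ∈ S, ∑ t ∈ S, (if Q (c s) (c t) then D.a s.1 t.1 else 0) =
      ∑ s ∈ S, ∑ t ∈ S, (if Q (c t) (c s) then D.a s.1 t.1 else 0) := by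
  rw [pp_aa_fib S c Q, pp_aa_fib S c (fun k k' => Q k' k), Finset.sum_comm]
  refine Finset.sum_congr rfl fun k _ => Finset.sum_congr rfl fun k' _ => ?_
  rw [hsym _ _ (by rw [← wt_eq_wd]; exact h _) (by rw [← wt_eq_wd]; exact h _)]

theorem pp_fib_eq {κ : Type} [DecidableEq κ] {S : Bk J} {x : Finset κ} {B : κ → Bk J} {c : Pt J → κ}
    (hsub : ∀ y ∈ x, B y ⊆ S) (h1 : ∀ s ∈ S, c s ∈ x ∧ s ∈ B (c s))
    (h2 : ∀ y ∈ x, ∀ s ∈ B y, c s = y) {y : κ} (hy : y ∈ x) : S.filter (fun s => c s = y) = B y := by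
  ext s
  simp only [Finset.mem_filter]
  exact ⟨fun h => h.2 ▸ (h1 s h.1).2, fun h => ⟨hsub y hy h, h2 y hy s h⟩⟩

theorem pp_two_dK (hsym : SymNull D θ) {S : Bk J} {π : Finset (Bk J)} (h : IsPart θ S π)
    {c : Pt J → Bk J} (h1 : ∀ s ∈ S, c s ∈ π ∧ s ∈ c s) (h2 : ∀ B ∈ π, ∀ s ∈ B, c s = B) :
    2 * dK D π = ∑ s ∈ S, ∑ t ∈ S, if c s ≠ c t then D.a s.1 t.1 else 0 := by
  classical
  have him : S.image c = π := by
    ext B
    simp only [Finset.mem_image]
    refine ⟨fun ⟨s, hs, e⟩ => e ▸ (h1 s hs).1, fun hB => ?_⟩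
    obtain ⟨s, hs⟩ := h.ne B hB
    exact ⟨s, h.sub B hB hs, h2 B hB s hs⟩
  have hfib : ∀ B ∈ π, S.filter (fun s => c s = B) = B := fun B hB =>
    pp_fib_eq (B := id) h.sub h1 h2 hB
  have hw : ∀ k, wt θ (S.filter fun s => c s = k) = 0 := by
    intro k
    by_cases hk : k ∈ π
    · rw [hfib k hk]; exact h.null k hk
    · rw [Finset.filter_false_of_mem (p := fun s => c s = k) fun s hs e => hk (e ▸ (h1 s hs).1)]
      simp [wt]
  have e1 : ∑ B ∈ π, ∑ B' ∈ π.erase B, aa D.a (ty B) (ty B') =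
      ∑ s ∈ S, ∑ t ∈ S, if c s ≠ c t then D.a s.1 t.1 else 0 := by
    rw [pp_aa_fib S c (fun k k' => k ≠ k'), him]
    refine Finset.sum_congr rfl fun B hB => ?_
    rw [← Finset.sum_filter, Finset.filter_ne]
    refine Finset.sum_congr rfl fun B' hB' => ?_
    rw [hfib B hB, hfib B' (Finset.mem_of_mem_erase hB')]
  have e2 : (∑ s ∈ S, ∑ t ∈ S, if c s ≠ c t then D.a s.1 t.1 else 0) =
      2 * ∑ s ∈ S, ∑ t ∈ S, if WellOrderingRel (c s) (c t) then D.a s.1 t.1 else 0 := by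
    rw [two_mul]
    nth_rewrite 2 [pp_sum_sym D θ hsym S c hw WellOrderingRel]
    rw [← Finset.sum_add_distrib]
    refine Finset.sum_congr rfl fun s _ => ?_
    rw [← Finset.sum_add_distrib]
    refine Finset.sum_congr rfl fun t _ => ?_
    rcases trichotomous_of WellOrderingRel (c s) (c t) with h | h | h
    · have : c s ≠ c t := fun e => irrefl_of WellOrderingRel _ (e ▸ h)
      simp [h, this, asymm_of WellOrderingRel h]
    · simp [h, irrefl_of WellOrderingRel]
    · have : c s ≠ c t := fun e => irrefl_of WellOrderingRel _ (e ▸ h)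
      simp [h, this, asymm_of WellOrderingRel h]
  rw [dK, e1, e2]
  omega

theorem pp_filter_mem {S : Bk J} {π : Finset (Bk J)}
    {c : Pt J → Bk J} (h1 : ∀ s ∈ S, c s ∈ π ∧ s ∈ c s) (h2 : ∀ B ∈ π, ∀ s ∈ B, c s = B) {s : Pt J}
    (hs : s ∈ S) : π.filter (s ∈ ·) = {c s} := by
  ext B
  simp only [Finset.mem_filter, Finset.mem_singleton]
  exact ⟨fun h => (h2 B h.1 s h.2).symm, fun h => h ▸ h1 s hs⟩

theorem pp_tau_X (π : Finset (Bk J)) (s : Pt J) : tau π (X s : PR J) = Polynomial.C (C (X s)) +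
    Polynomial.C (∑ B ∈ π.filter (s ∈ ·), X B) * Polynomial.X := by
  simp [tau]

theorem tau_cm {S : Bk J} {π : Finset (Bk J)} (h : IsPart θ S π) {B : Bk J} (hB : B ∈ π) :
    tau π (cm B) = Polynomial.C (C (cm B)) + Polynomial.C (X B) * Polynomial.X := by
  have hf : ∀ s ∈ B, π.filter (s ∈ ·) = {B} := by
    intro s hs
    ext B'
    simp only [Finset.mem_filter, Finset.mem_singleton]
    refine ⟨fun h' => ?_, fun h' => h' ▸ ⟨hB, hs⟩⟩
    by_contra hne
    exact Finset.disjoint_left.1 (h.disj _ h'.1 _ hB hne) h'.2 hs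
  have hc : (B.card : ℚ) ≠ 0 := by
    have := (h.ne B hB).card_pos
    positivity
  rw [cm, map_smul, map_sum]
  rw [Finset.sum_congr rfl fun s hs => by rw [pp_tau_X, hf s hs, Finset.sum_singleton]]
  rw [Finset.sum_add_distrib, smul_add, Finset.sum_const, ← Nat.cast_smul_eq_nsmul ℚ, smul_smul,
    inv_mul_cancel₀ hc, one_smul, ← map_sum, ← map_sum]
  congr 1
  rw [Polynomial.smul_C]
  congr 1
  ext1 μ
  simp only [coeff_smul, coeff_C]
  split_ifs <;> simp

theorem pp_natDegree_X (π : Finset (Bk J)) (s : Pt J) : (tau π (X s : PR J)).natDegree ≤ 1 := by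
  rw [pp_tau_X]
  compute_degree

theorem pp_natDegree_KP (π : Finset (Bk J)) (R : Finset (Pt J × Pt J)) :
    (tau π (ppKP D R)).natDegree ≤ ∑ p ∈ R, D.a p.1.1 p.2.1 := by
  rw [ppKP, map_prod]
  refine (Polynomial.natDegree_prod_le _ _).trans (Finset.sum_le_sum fun p _ => ?_)
  rw [map_pow, map_sub]
  refine Polynomial.natDegree_pow_le.trans ?_
  have := (Polynomial.natDegree_sub_le (tau π (X p.2 : PR J)) (tau π (X p.1 : PR J))).trans
    (max_le (pp_natDegree_X π _) (pp_natDegree_X π _))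
  simpa using Nat.mul_le_mul_left (D.a p.1.1 p.2.1) this

theorem pp_natDegree_cm (π : Finset (Bk J)) (B : Bk J) : (tau π (cm B)).natDegree ≤ 1 := by
  rw [cm, map_smul, map_sum]
  refine (Polynomial.natDegree_smul_le _ _).trans ?_
  exact Polynomial.natDegree_sum_le_of_forall_le _ _ fun s _ => pp_natDegree_X π s

theorem pp_tau_KP (π : Finset (Bk J)) {R : Finset (Pt J × Pt J)}
    (h : ∀ p ∈ R, π.filter (p.1 ∈ ·) = π.filter (p.2 ∈ ·)) :
    tau π (ppKP D R) = Polynomial.C (C (ppKP D R)) := by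
  rw [ppKP, map_prod, map_prod, map_prod]
  refine Finset.prod_congr rfl fun p hp => ?_
  rw [map_pow, map_pow, map_pow, map_sub, map_sub, map_sub, pp_tau_X, pp_tau_X, h p hp]
  ring

theorem pp_natDegree_tb (π : Finset (Bk J)) (I : Ideal (PR J)) (f : PR J) :
    (tb π I f).natDegree ≤ (tau π f).natDegree := Polynomial.natDegree_map_le

/-- Coarsening the block variables. -/
theorem pp_zlt_coarse {B : Bk J} {π π₀ : Finset (Bk J)} (φ : Bk J → Bk J)
    (h : ∀ s ∈ B, (∑ C ∈ π.filter (s ∈ ·), X C : MvPolynomial (Bk J) (PR J)) =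
      ∑ C ∈ π₀.filter (s ∈ ·), X (φ C)) {f : PR J} (hf : f ∈ RS B) {I : Ideal (PR J)} {n : ℕ}
    (hz : ZLt π₀ I n f) : ZLt π I n f := by
  have key : tau π f = Polynomial.map (rename φ : MvPolynomial (Bk J) (PR J) →ₐ[PR J] _).toRingHom
      (tau π₀ f) := by
    change f ∈ supported ℚ (B : Set (Pt J)) at hf
    rw [supported_eq_adjoin_X] at hf
    clear hz
    induction hf using Algebra.adjoin_induction with
    | mem g hg =>
      obtain ⟨s, hs, rfl⟩ := hg
      rw [pp_tau_X, pp_tau_X, h s hs]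
      simp [map_sum, Polynomial.map_sum]
    | algebraMap r =>
      rw [AlgHom.commutes, AlgHom.commutes]
      simp [Polynomial.algebraMap_apply, MvPolynomial.algebraMap_apply]
    | add f g _ _ hf hg => rw [map_add, map_add, Polynomial.map_add, hf, hg]
    | mul f g _ _ hf hg => rw [map_mul, map_mul, Polynomial.map_mul, hf, hg]
  have key2 : tb π I f = Polynomial.map
      (rename φ : MvPolynomial (Bk J) (PR J ⧸ I) →ₐ[PR J ⧸ I] _).toRingHom (tb π₀ I f) := by
    change Polynomial.map _ (tau π f) = Polynomial.map _ (Polynomial.map _ (tau π₀ f))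
    rw [key, Polynomial.map_map, Polynomial.map_map]
    congr 1
    refine MvPolynomial.ringHom_ext (fun a => ?_) fun a => ?_ <;> simp
  rw [zlt_iff] at hz ⊢
  rw [key2]
  exact Polynomial.degree_map_le.trans_lt hz

theorem pp_cf_C_mul (π : Finset (Bk J)) {k : PR J} (hk : tau π k = Polynomial.C (C k)) (f : PR J)
    (n : ℕ) (μ : Bk J →₀ ℕ) : cf π (k * f) n μ = k * cf π f n μ := by
  rw [cf, map_mul, hk, Polynomial.coeff_C_mul, coeff_C_mul, cf]

open Classical in
theorem pp_KK_eq {ι : Type} {S : Bk J} {x : Finset (DB J ι)} (r : DB J ι → DB J ι → Prop)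
    {c : Pt J → DB J ι} (hsub : ∀ y ∈ x, y.1 ⊆ S) (h1 : ∀ s ∈ S, c s ∈ x ∧ s ∈ (c s).1)
    (h2 : ∀ y ∈ x, ∀ s ∈ y.1, c s = y) :
    ∃ ε : ℚ, KK D r x = ε • ppKP D ((S ×ˢ S).filter fun p => r (c p.1) (c p.2)) := by
  refine ⟨∏ y ∈ x, ∏ y' ∈ x.filter (r y), D.sgn y.1 y'.1, ?_⟩
  simp only [KK, Dat.Kt, Finset.prod_smul]
  congr 1
  rw [ppKP, ← Finset.prod_fiberwise_of_maps_to (s := (S ×ˢ S).filter fun p => r (c p.1) (c p.2))
    (t := (x ×ˢ x).filter fun q => r q.1 q.2) (g := fun p => (c p.1, c p.2))]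
  · rw [Finset.prod_filter, Finset.prod_product]
    refine Finset.prod_congr rfl fun y hy => ?_
    rw [Finset.prod_filter]
    refine Finset.prod_congr rfl fun y' hy' => ?_
    split_ifs with hr
    · rw [pp_K_eq, ppKP]
      congr 1
      ext p
      simp only [Finset.mem_product, Finset.mem_filter, Prod.mk.injEq]
      constructor
      · rintro ⟨hp1, hp2⟩
        have e1 := h2 y hy _ hp1
        have e2 := h2 y' hy' _ hp2
        exact ⟨⟨⟨hsub y hy hp1, hsub y' hy' hp2⟩, by rw [e1, e2]; exact hr⟩, e1, e2⟩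
      · rintro ⟨⟨⟨hp1, hp2⟩, -⟩, e1, e2⟩
        exact ⟨e1 ▸ (h1 _ hp1).2, e2 ▸ (h1 _ hp2).2⟩
    · rfl
  · intro p hp
    simp only [Finset.mem_product, Finset.mem_filter] at hp ⊢
    exact ⟨⟨(h1 _ hp.1.1).1, (h1 _ hp.1.2).1⟩, hp.2⟩

theorem pp_wt_fib {κ : Type} [DecidableEq κ] {W : Bk J} {x : Finset κ} {c : Pt J → κ}
    (h : ∀ s ∈ W, c s ∈ x) : wt θ W = ∑ y ∈ x, wt θ (W.filter fun s => c s = y) :=
  (Finset.sum_fiberwise_of_maps_to h _).symm

theorem pp_mem_IF {B W : Bk J} (hW : W ⊆ B) (h : wt θ W < 0) : D.K W (B \ W) ∈ IF D θ B :=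
  Ideal.subset_span ⟨W, hW, h, rfl⟩

theorem pp_IF_le {π : Finset (Bk J)} {B : Bk J} (hB : B ∈ π) : IF D θ B ≤ Ip D θ π :=
  le_iSup₂_of_le (f := fun B (_ : B ∈ π) => IF D θ B) B hB le_rfl

/-- Case A. -/
theorem pp_caseA {κ : Type} [DecidableEq κ] {S : Bk J} {x : Finset κ} (r : κ → κ → Prop)
    [DecidableRel r] [IsStrictTotalOrder κ r]
    {c : Pt J → κ} (hc : ∀ s ∈ S, c s ∈ x) (hw : ∀ y ∈ x, wt θ (S.filter fun s => c s = y) = 0)
    {π : Finset (Bk J)} (hπ : IsPart θ S π)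
    (hK : ppKP D ((S ×ˢ S).filter fun p => r (c p.1) (c p.2)) ∉ Ip D θ π) {B : Bk J} (hB : B ∈ π)
    (y : κ) : wt θ (B.filter fun s => c s = y) = 0 := by
  have main : ∀ (P : κ → Prop) [DecidablePred P], (∀ a b, P a → ¬P b → r a b) → ∀ B ∈ π,
      wt θ (B.filter fun s => P (c s)) = 0 := by
    intro P _ hP
    have h0 : ∀ B ∈ π, 0 ≤ wt θ (B.filter fun s => P (c s)) := by
      intro B hB
      by_contra hneg
      refine hK (Ideal.mem_of_dvd _ ?_ (pp_IF_le D θ hB
        (pp_mem_IF D θ (Finset.filter_subset _ _) (not_le.1 hneg))))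
      rw [pp_K_eq]
      refine pp_KP_dvd D fun p hp => ?_
      simp only [Finset.mem_product, Finset.mem_filter, Finset.mem_sdiff, not_and] at hp ⊢
      exact ⟨⟨hπ.sub B hB hp.1.1, hπ.sub B hB hp.2.1⟩, hP _ _ hp.1.2 (hp.2.2 hp.2.1)⟩
    have h1 : ∑ B ∈ π, wt θ (B.filter fun s => P (c s)) = 0 := by
      have e1 := hπ.wt_eq θ (W := S.filter fun s => P (c s)) (Finset.filter_subset _ _)
      have e2 : wt θ (S.filter fun s => P (c s)) = 0 := by
        rw [pp_wt_fib θ (x := x) (c := c) fun s hs => hc s (Finset.mem_filter.1 hs).1]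
        refine Finset.sum_eq_zero fun y hy => ?_
        by_cases hPy : P y
        · rw [← hw y hy, Finset.filter_filter]
          congr 1
          exact Finset.filter_congr fun s _ => ⟨fun h => h.2, fun h => ⟨h ▸ hPy, h⟩⟩
        · rw [Finset.filter_filter, Finset.filter_false_of_mem]
          · simp [wt]
          · exact fun s _ h => hPy (h.2 ▸ h.1)
      rw [← e2, e1]
      refine Finset.sum_congr rfl fun B hB => ?_
      congr 1
      ext s
      simp only [Finset.mem_filter, Finset.mem_inter]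
      exact ⟨fun h => ⟨⟨hπ.sub B hB h.1, h.2⟩, h.1⟩, fun h => ⟨h.2, h.1.2⟩⟩
    exact (Finset.sum_eq_zero_iff_of_nonneg h0).1 h1
  have e1 := main (fun a => r a y) (fun a b ha hb => by
    rcases trichotomous_of r b y with h | h | h
    · exact (hb h).elim
    · exact h ▸ ha
    · exact trans_of r ha h) B hB
  have e2 := main (fun a => r a y ∨ a = y) (fun a b ha hb => by
    rw [not_or] at hb
    rcases trichotomous_of r b y with h | h | h
    · exact (hb.1 h).elim
    · exact (hb.2 h).elim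
    · rcases ha with ha | ha
      · exact trans_of r ha h
      · exact ha ▸ h) B hB
  simp only [wt, Finset.sum_filter] at e1 e2 ⊢
  refine Eq.trans ?_ (sub_eq_zero.2 (e2.trans e1.symm))
  rw [← Finset.sum_sub_distrib]
  refine Finset.sum_congr rfl fun s _ => ?_
  by_cases h : c s = y
  · simp [h, irrefl_of r y]
  · by_cases h' : r (c s) y <;> simp [h, h']

/-- `Kin * Jm ≤ Ip π`. -/
theorem pp_Kin_mul {κ : Type} [DecidableEq κ] {S : Bk J} (r : κ → κ → Prop) [DecidableRel r]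
    [IsStrictTotalOrder κ r]
    {c : Pt J → κ} {π : Finset (Bk J)} (hπ : IsPart θ S π) {bp : Pt J → Bk J}
    (h2 : ∀ B ∈ π, ∀ s ∈ B, bp s = B)
    (hw : ∀ B ∈ π, ∀ y, wt θ (B.filter fun s => c s = y) = 0) {B : Bk J} (hB : B ∈ π) (y : κ)
    {f : PR J} (hf : f ∈ IF D θ (B.filter fun s => c s = y)) :
    ppKP D (((S ×ˢ S).filter fun p => r (c p.1) (c p.2)).filter fun p => bp p.1 = bp p.2) * f ∈
      Ip D θ π := by
  refine pp_IF_le D θ hB ?_
  induction hf using Submodule.span_induction with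
  | zero => simp
  | add a b _ _ ha hb => rw [mul_add]; exact add_mem ha hb
  | smul a b _ hb => rw [smul_eq_mul, mul_left_comm]; exact Ideal.mul_mem_left _ _ hb
  | mem g hg =>
    obtain ⟨W, hW, hneg, rfl⟩ := hg
    have hWB : ∀ s ∈ W, s ∈ B ∧ c s = y := fun s hs => Finset.mem_filter.1 (hW hs)
    have hlow : wt θ (B.filter fun s => r (c s) y) = 0 := by
      rw [pp_wt_fib θ (x := B.image c) (c := c) fun s hs =>
        Finset.mem_image_of_mem c (Finset.mem_filter.1 hs).1]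
      refine Finset.sum_eq_zero fun y' _ => ?_
      by_cases hy : r y' y
      · rw [← hw B hB y', Finset.filter_filter]
        congr 1
        exact Finset.filter_congr fun s _ => ⟨fun h => h.2, fun h => ⟨h ▸ hy, h⟩⟩
      · rw [Finset.filter_filter, Finset.filter_false_of_mem]
        · simp [wt]
        · exact fun s _ h => hy (h.2 ▸ h.1)
    have hsub : (B.filter fun s => r (c s) y) ∪ W ⊆ B :=
      Finset.union_subset (Finset.filter_subset _ _) fun s hs => (hWB s hs).1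
    have hwt : wt θ ((B.filter fun s => r (c s) y) ∪ W) < 0 := by
      rw [wt, Finset.sum_union, ← wt, ← wt, hlow, zero_add]
      · exact hneg
      · rw [Finset.disjoint_left]
        intro s hs hs'
        exact irrefl_of r y ((hWB s hs').2 ▸ (Finset.mem_filter.1 hs).2)
    refine Ideal.mem_of_dvd _ ?_ (pp_mem_IF D θ hsub hwt)
    rw [pp_K_eq, pp_K_eq]
    refine pp_KP_dvd_mul D fun p hp => ?_
    simp only [Finset.mem_product, Finset.mem_filter, Finset.mem_sdiff, Finset.mem_union, not_or,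
      not_and] at hp ⊢
    obtain ⟨hp1, hp2, hp3, hp4⟩ := hp
    have hp1B : p.1 ∈ B := hp1.elim (fun h => h.1) fun h => (hWB _ h).1
    have hbp : bp p.1 = bp p.2 := by rw [h2 B hB _ hp1B, h2 B hB _ hp2]
    have hS : p.1 ∈ S ∧ p.2 ∈ S := ⟨hπ.sub B hB hp1B, hπ.sub B hB hp2⟩
    rcases trichotomous_of r (c p.2) y with h | h | h
    · exact (hp3 hp2 h).elim
    · rcases hp1 with hp1 | hp1
      · exact Or.inl ⟨⟨hS, h ▸ hp1.2⟩, hbp⟩
      · exact Or.inr ⟨hp1, ⟨hp2, h⟩, hp4⟩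
    · rcases hp1 with hp1 | hp1
      · exact Or.inl ⟨⟨hS, trans_of r hp1.2 h⟩, hbp⟩
      · exact Or.inl ⟨⟨hS, (hWB _ hp1).2 ▸ h⟩, hbp⟩

theorem pp_card {κ : Type} [DecidableEq κ] {S : Bk J} {x : Finset κ} {Bl : κ → Bk J} {c : Pt J → κ}
    (hne : ∀ y ∈ x, (Bl y).Nonempty) (hsub : ∀ y ∈ x, Bl y ⊆ S)
    (h1 : ∀ s ∈ S, c s ∈ x ∧ s ∈ Bl (c s)) {π : Finset (Bk J)} (hπ : IsPart θ S π)
    {bp : Pt J → Bk J} (hb1 : ∀ s ∈ S, bp s ∈ π ∧ s ∈ bp s) (hb2 : ∀ B ∈ π, ∀ s ∈ B, bp s = B)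
    (h : ∀ y ∈ x, ∀ s ∈ Bl y, ∀ t ∈ Bl y, bp s = bp t) : π.card < x.card ∨ π = x.image Bl := by
  classical
  by_cases hc : π.card < x.card
  · exact Or.inl hc
  right
  obtain ⟨φ, hφ⟩ : ∃ φ : κ → Bk J, ∀ y ∈ x, ∀ s ∈ Bl y, φ y = bp s :=
    ⟨fun y => if h : (Bl y).Nonempty then bp h.choose else ∅, fun y hy s hs => by
      simp only [dif_pos (hne y hy)]
      exact h y hy _ (hne y hy).choose_spec s hs⟩
  have hmaps : ∀ y ∈ x, φ y ∈ π := fun y hy => by
    obtain ⟨s, hs⟩ := hne y hy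
    rw [hφ y hy s hs]
    exact (hb1 s (hsub y hy hs)).1
  have hsurj : Set.SurjOn φ x π := by
    intro B hB
    obtain ⟨s, hs⟩ := hπ.ne B hB
    have hsS := hπ.sub B hB hs
    exact ⟨c s, (h1 s hsS).1, by rw [hφ _ (h1 s hsS).1 s (h1 s hsS).2, hb2 B hB s hs]⟩
  have hinj : Set.InjOn φ x := Finset.injOn_of_surjOn_of_card_le _ hmaps hsurj (not_lt.1 hc)
  have key : ∀ y ∈ x, φ y = Bl y := by
    intro y hy
    have hB := hmaps y hy
    ext s
    constructor
    · intro hs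
      have hsS := hπ.sub _ hB hs
      have : c s = y := hinj (h1 s hsS).1 hy (by
        rw [hφ _ (h1 s hsS).1 s (h1 s hsS).2, hb2 _ hB s hs])
      exact this ▸ (h1 s hsS).2
    · intro hs
      rw [hφ y hy s hs]
      exact (hb1 s (hsub y hy hs)).2
  ext B
  simp only [Finset.mem_image]
  constructor
  · intro hB
    obtain ⟨y, hy, e⟩ := hsurj hB
    exact ⟨y, hy, (key y hy).symm.trans e⟩
  · rintro ⟨y, hy, rfl⟩
    exact key y hy ▸ hmaps y hy

theorem bb_zlt (hsym : SymNull D θ) {ι : Type} {dim : ι → J → ℕ} {S : Bk J} {x : Finset (DB J ι)}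
    (hx : IsDec θ dim S x) {u : ι → Bk J → PR J} (hu : ∀ y ∈ x, u y.2.1 y.1 ∈ L0 D θ y.1)
    (r : DB J ι → DB J ι → Prop) [IsStrictTotalOrder (DB J ι) r] {π : Finset (Bk J)}
    (hπ : IsPart θ S π) :
    ZLt π (Ip D θ π) (mm x + dK D π + if π.card < x.card ∨ π = blk x then 1 else 0) (bb D u r x) := by
  classical
  have hmem : ∀ y ∈ x, y.1 ∈ blk x := fun y hy => Finset.mem_image_of_mem _ hy
  rcases x.eq_empty_or_nonempty with rfl | ⟨y0, hy0⟩
  · have hS : S = ∅ := Finset.eq_empty_of_forall_notMem fun s hs => by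
      simpa [blk] using hx.part.cover s hs
    have hπ0 : π = blk (∅ : Finset (DB J ι)) := by
      refine Finset.eq_empty_of_forall_notMem fun B hB => ?_
      obtain ⟨s, hs⟩ := hπ.ne B hB
      simpa [hS] using hπ.sub B hB hs
    rw [if_pos (Or.inr hπ0), zlt_iff]
    have : bb D u r ∅ = 1 := by simp [bb, KK]
    rw [this, map_one]
    exact Polynomial.degree_one_le.trans_lt (by exact_mod_cast Nat.succ_pos _)
  have : Nonempty (DB J ι) := ⟨y0⟩
  have hsub : ∀ y ∈ x, y.1 ⊆ S := fun y hy => hx.part.sub _ (hmem y hy)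
  obtain ⟨c, h1, h2⟩ := pp_exists_bp (S := S) (x := x) (B := Prod.fst) (fun s hs => by
    obtain ⟨B, hB, hs⟩ := hx.part.cover s hs
    obtain ⟨y, hy, rfl⟩ := Finset.mem_image.1 hB
    exact ⟨y, hy, hs⟩) fun y hy y' hy' hne =>
      hx.part.disj _ (hmem y hy) _ (hmem y' hy') fun e => hne (hx.inj y hy y' hy' e)
  obtain ⟨bp, hb1, hb2⟩ := pp_exists_bp (S := S) (x := π) (B := id) hπ.cover hπ.disj
  simp only [id] at hb1 hb2
  have hfib : ∀ y ∈ x, S.filter (fun s => c s = y) = y.1 := fun y hy => pp_fib_eq hsub h1 h2 hy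
  obtain ⟨ε, hε⟩ := pp_KK_eq D r hsub h1 h2
  set R := (S ×ˢ S).filter fun p => r (c p.1) (c p.2) with hR
  by_cases hK : ppKP D R ∈ Ip D θ π
  · intro i _ μ
    refine cf_mem_Ip D θ hπ ?_ i μ
    rw [bb, hε]
    exact Ideal.mul_mem_right _ _ (Submodule.smul_of_tower_mem _ _ hK)
  have hw : ∀ B ∈ π, ∀ y, wt θ (B.filter fun s => c s = y) = 0 := fun B hB y =>
    pp_caseA D θ r (fun s hs => (h1 s hs).1)
      (fun y hy => by rw [hfib y hy]; exact hx.part.null _ (hmem y hy)) hπ hK hB y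
  -- the induced partitions
  let q : Pt J → Bk J := fun s => (bp s).filter fun t => c t = c s
  let πy : DB J ι → Finset (Bk J) := fun y => y.1.image q
  have hq1 : ∀ s ∈ S, s ∈ q s := fun s hs => Finset.mem_filter.2 ⟨(hb1 s hs).2, rfl⟩
  have hq2 : ∀ s ∈ S, ∀ t ∈ q s, bp t = bp s ∧ c t = c s := fun s hs t ht =>
    ⟨hb2 _ (hb1 s hs).1 t (Finset.mem_filter.1 ht).1, (Finset.mem_filter.1 ht).2⟩
  have hq3 : ∀ s ∈ S, ∀ t ∈ q s, q t = q s := fun s hs t ht => by
    simp only [q, (hq2 s hs t ht).1, (hq2 s hs t ht).2]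
  have hy1 : ∀ y ∈ x, ∀ s ∈ y.1, q s ∈ πy y ∧ s ∈ q s := fun y hy s hs =>
    ⟨Finset.mem_image_of_mem _ hs, hq1 s (hsub y hy hs)⟩
  have hy2 : ∀ y ∈ x, ∀ B ∈ πy y, ∀ s ∈ B, q s = B := fun y hy B hB s hs => by
    obtain ⟨t, ht, rfl⟩ := Finset.mem_image.1 hB
    exact hq3 t (hsub y hy ht) s hs
  have hpart : ∀ y ∈ x, IsPart θ y.1 (πy y) := by
    intro y hy
    refine ⟨fun B hB => ?_, fun B hB => ?_, fun B hB => ?_, fun s hs => ⟨q s, hy1 y hy s hs⟩,
      fun B hB B' hB' hne => ?_⟩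
    · obtain ⟨t, ht, rfl⟩ := Finset.mem_image.1 hB
      exact ⟨t, hq1 t (hsub y hy ht)⟩
    · obtain ⟨t, ht, rfl⟩ := Finset.mem_image.1 hB
      exact hw _ (hb1 t (hsub y hy ht)).1 _
    · obtain ⟨t, ht, rfl⟩ := Finset.mem_image.1 hB
      intro s hs
      have hsS : s ∈ S := hπ.sub _ (hb1 t (hsub y hy ht)).1 (Finset.mem_filter.1 hs).1
      have := (h1 s hsS).2
      rwa [(hq2 t (hsub y hy ht) s hs).2, h2 y hy t ht] at this
    · rw [Finset.disjoint_left]
      intro s hs hs'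
      exact hne ((hy2 y hy B hB s hs).symm.trans (hy2 y hy B' hB' s hs'))
  set Jm : Ideal (PR J) := ⨆ y ∈ x, Ip D θ (πy y) with hJm
  set Kin := ppKP D (R.filter fun p => bp p.1 = bp p.2) with hKin
  set Kout := ppKP D (R.filter fun p => ¬bp p.1 = bp p.2) with hKout
  have hsplit : ppKP D R = Kin * Kout := (Finset.prod_filter_mul_prod_filter_not _ _ _).symm
  have hKinJ : ∀ f ∈ Jm, Kin * f ∈ Ip D θ π := by
    have : Jm ≤ Submodule.comap (LinearMap.mulLeft (PR J) Kin) (Ip D θ π) := by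
      refine iSup₂_le fun y hy => iSup₂_le fun B hB => fun f hf => ?_
      obtain ⟨t, ht, rfl⟩ := Finset.mem_image.1 hB
      exact pp_Kin_mul D θ r hπ hb2 hw (hb1 t (hsub y hy ht)).1 (c t) hf
    exact fun f hf => this hf
  have htauK : tau π Kin = Polynomial.C (C Kin) := by
    refine pp_tau_KP D π fun p hp => ?_
    simp only [hR, Finset.mem_filter, Finset.mem_product] at hp
    rw [pp_filter_mem hb1 hb2 hp.1.1.1, pp_filter_mem hb1 hb2 hp.1.1.2, hp.2]
  -- degrees of the generators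
  have hzu : ∀ y ∈ x, ZLt π Jm (bd0 D (πy y)) (u y.2.1 y.1) := by
    intro y hy
    refine pp_zlt_coarse (fun C => if h : C.Nonempty then bp h.choose else ∅) (fun s hs => ?_)
      (hu y hy).1 (((hu y hy).2 _ (hpart y hy)).mono
        (le_iSup₂_of_le (f := fun y (_ : y ∈ x) => Ip D θ (πy y)) y hy le_rfl) le_rfl)
    have hsS := hsub y hy hs
    rw [pp_filter_mem hb1 hb2 hsS, pp_filter_mem (hy1 y hy) (hy2 y hy) hs, Finset.sum_singleton,
      Finset.sum_singleton]
    have hn : (q s).Nonempty := ⟨s, hq1 s hsS⟩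
    simp only [dif_pos hn]
    rw [(hq2 s hsS _ hn.choose_spec).1]
  -- the count of arrows
  have hcount : (∑ p ∈ R.filter fun p => ¬bp p.1 = bp p.2, D.a p.1.1 p.2.1) +
      ∑ y ∈ x, dK D (πy y) = dK D π := by
    have e0 := pp_two_dK D θ hsym hπ hb1 hb2
    have e1 : 2 * ∑ y ∈ x, dK D (πy y) =
        ∑ s ∈ S, ∑ t ∈ S, if bp s ≠ bp t ∧ c s = c t then D.a s.1 t.1 else 0 := by
      rw [Finset.mul_sum, ← Finset.sum_fiberwise_of_maps_to (s := S) (t := x) (g := c)
        fun s hs => (h1 s hs).1]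
      refine Finset.sum_congr rfl fun y hy => ?_
      rw [pp_two_dK D θ hsym (hpart y hy) (hy1 y hy) (hy2 y hy), hfib y hy]
      refine Finset.sum_congr rfl fun s hs => ?_
      rw [← hfib y hy, Finset.sum_filter]
      refine Finset.sum_congr rfl fun t ht => ?_
      have hsS := hsub y hy hs
      rw [h2 y hy s hs]
      by_cases hct : c t = y
      · have : q s ≠ q t ↔ bp s ≠ bp t := by
          refine not_congr ⟨fun e => ?_, fun e => ?_⟩
          · exact (hq2 t ht s (e ▸ hq1 s hsS)).1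
          · simp only [q, e, hct, h2 y hy s hs]
        simp [hct, this]
      · simp [hct, Ne.symm hct]
    have e2 : (∑ p ∈ R.filter fun p => ¬bp p.1 = bp p.2, D.a p.1.1 p.2.1) =
        ∑ s ∈ S, ∑ t ∈ S, if bp s ≠ bp t ∧ r (c s) (c t) then D.a s.1 t.1 else 0 := by
      rw [hR, Finset.filter_filter, Finset.sum_filter, Finset.sum_product]
      refine Finset.sum_congr rfl fun s _ => Finset.sum_congr rfl fun t _ => ?_
      simp only [and_comm]
    have e3 := pp_sum_sym D θ hsym S (fun s => (bp s, c s)) (fun k => by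
      by_cases hk : k.1 ∈ π
      · rw [← hw k.1 hk k.2]
        congr 1
        ext s
        simp only [Finset.mem_filter, Prod.ext_iff]
        exact ⟨fun h => ⟨h.2.1 ▸ (hb1 s h.1).2, h.2.2⟩,
          fun h => ⟨hπ.sub _ hk h.1, hb2 _ hk s h.1, h.2⟩⟩
      · rw [Finset.filter_false_of_mem]
        · simp [wt]
        · rintro s hs rfl
          exact hk (hb1 s hs).1) (fun k k' => k.1 ≠ k'.1 ∧ r k.2 k'.2)
    simp only at e3
    have e4 : (∑ s ∈ S, ∑ t ∈ S, if bp s ≠ bp t then D.a s.1 t.1 else 0) =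
        (∑ s ∈ S, ∑ t ∈ S, if bp s ≠ bp t ∧ c s = c t then D.a s.1 t.1 else 0) +
        (∑ s ∈ S, ∑ t ∈ S, if bp s ≠ bp t ∧ r (c s) (c t) then D.a s.1 t.1 else 0) +
        (∑ s ∈ S, ∑ t ∈ S, if bp t ≠ bp s ∧ r (c t) (c s) then D.a s.1 t.1 else 0) := by
      simp only [← Finset.sum_add_distrib]
      refine Finset.sum_congr rfl fun s _ => Finset.sum_congr rfl fun t _ => ?_
      by_cases hb : bp s = bp t
      · simp [hb]
      rcases trichotomous_of r (c s) (c t) with h | h | h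
      · have : c s ≠ c t := fun e => irrefl_of r _ (e ▸ h)
        simp [hb, h, this, asymm_of r h]
      · simp [hb, h, irrefl_of r]
      · have : c s ≠ c t := fun e => irrefl_of r _ (e ▸ h)
        simp [hb, Ne.symm hb, h, this, asymm_of r h]
    omega
  -- conclusion
  have hmain : ZLt π Jm (mm x + dK D π + if π.card < x.card ∨ π = blk x then 1 else 0)
      (Kout * ∏ y ∈ x, (u y.2.1 y.1 * cm y.1 ^ y.2.2)) := by
    rw [zlt_iff, map_mul, map_prod]
    by_cases h0 : ∃ y ∈ x, bd0 D (πy y) = 0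
    · obtain ⟨y, hy, h0⟩ := h0
      have := zlt_iff.1 (hzu y hy)
      rw [h0, Nat.cast_zero, Nat.WithBot.lt_zero_iff, Polynomial.degree_eq_bot] at this
      rw [Finset.prod_eq_zero hy (by rw [map_mul, this, zero_mul]), mul_zero, Polynomial.degree_zero]
      exact WithBot.bot_lt_coe _
    push Not at h0
    refine Polynomial.degree_le_natDegree.trans_lt (Nat.cast_lt.2 ?_)
    have hd : ∀ y ∈ x, (tb π Jm (u y.2.1 y.1 * cm y.1 ^ y.2.2)).natDegree + 1 ≤
        bd0 D (πy y) + y.2.2 := by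
      intro y hy
      rw [map_mul, map_pow]
      have a1 : (tb π Jm (u y.2.1 y.1)).natDegree < bd0 D (πy y) := by
        by_cases hz : tb π Jm (u y.2.1 y.1) = 0
        · rw [hz, Polynomial.natDegree_zero]
          exact Nat.pos_of_ne_zero (h0 y hy)
        · exact (Polynomial.natDegree_lt_iff_degree_lt hz).2 (zlt_iff.1 (hzu y hy))
      have a2 := (pp_natDegree_tb π Jm _).trans (pp_natDegree_cm π y.1)
      have a3 := Polynomial.natDegree_mul_le (p := tb π Jm (u y.2.1 y.1))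
        (q := tb π Jm (cm y.1) ^ y.2.2)
      have a4 := Polynomial.natDegree_pow_le (p := tb π Jm (cm y.1)) (n := y.2.2)
      have a5 := Nat.mul_le_mul_left y.2.2 a2
      omega
    have b1 := Finset.sum_le_sum hd
    have b2 := Polynomial.natDegree_prod_le x fun y => tb π Jm (u y.2.1 y.1 * cm y.1 ^ y.2.2)
    have b3 := Polynomial.natDegree_mul_le (p := tb π Jm Kout)
      (q := ∏ y ∈ x, tb π Jm (u y.2.1 y.1 * cm y.1 ^ y.2.2))
    have b4 := (pp_natDegree_tb π Jm _).trans (pp_natDegree_KP D π (R.filter fun p => ¬bp p.1 = bp p.2))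
    rw [← hKout] at b4
    simp only [bd0, Finset.sum_add_distrib, Finset.sum_const, smul_eq_mul, mul_one] at b1
    have b5 : mm x = ∑ y ∈ x, y.2.2 := rfl
    by_cases hall : ∀ y ∈ x, (πy y).card ≤ 1
    · have : π.card < x.card ∨ π = blk x := pp_card θ (fun y hy => hx.part.ne _ (hmem y hy)) hsub h1 hπ hb1 hb2
        fun y hy s hs t ht => by
          have e := Finset.card_le_one.1 (hall y hy) _ (hy1 y hy s hs).1 _ (hy1 y hy t ht).1
          exact (hq2 t (hsub y hy ht) s (e ▸ (hy1 y hy s hs).2)).1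
      rw [if_pos this]
      have b6 : (∑ y ∈ x, if (πy y).card ≤ 1 then 1 else 0) ≤ x.card := by
        rw [Finset.card_eq_sum_ones]
        exact Finset.sum_le_sum fun y _ => by split_ifs <;> simp
      omega
    · push Not at hall
      obtain ⟨y, hy, hlt⟩ := hall
      have b6 : (∑ y ∈ x, if (πy y).card ≤ 1 then 1 else 0) < x.card := by
        rw [Finset.card_eq_sum_ones]
        exact Finset.sum_lt_sum (fun y _ => by split_ifs <;> simp) ⟨y, hy, by simp [hlt]⟩
      omega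
  intro i hi μ
  rw [bb, hε, hsplit, smul_mul_assoc, mul_assoc, cf_smul, pp_cf_C_mul π htauK]
  exact Submodule.smul_of_tower_mem _ _ (hKinJ _ (hmain i hi μ))

end

end Crest.Agent.R59
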