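import Crest.Agent.R59.PbwTop

/-!
# R59/PbwSpan: the PBW monomials span the graded pieces
-/

set_option autoImplicit false
set_option linter.unusedSectionVars false
set_option linter.unusedVariables false

namespace Crest.Agent.R59

noncomputable section

open MvPolynomial

variable {J : Type} [Fintype J] [DecidableEq J] (D : Dat J) (θ : J → ℤ)

/-- Condition "`ψ ∈ L0 B₀ ⊗ (rest)`" modulo the ideals of the blocks of `P`. -/
def CondL (P : Finset (Bk J)) (ψ : PR J) : Prop :=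
  ∀ B₀ ∈ P, ∀ π₀, IsPart θ B₀ π₀ → ZLt π₀ (Ip D θ (P.erase B₀ ∪ π₀)) (bd0 D π₀) ψ

theorem ps_split (U : Bk J) {P : PR J → Prop} (h0 : P 0) (hadd : ∀ f g, P f → P g → P (f + g))
    (hmul : ∀ W, Disjoint U W → ∀ f ∈ RS U, ∀ g ∈ RS W, P (f * g)) (f : PR J) : P f := by
  refine RS_union_induction (U := U) (W := f.vars \ U) h0 hadd (hmul _ Finset.disjoint_sdiff) f ?_
  change f ∈ supported ℚ _
  rw [mem_supported]
  intro s hs
  simp only [Finset.coe_union, Finset.coe_sdiff, Set.mem_union, Set.mem_sdiff, Finset.mem_coe]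
  by_cases h : s ∈ U
  · exact Or.inl h
  · exact Or.inr ⟨hs, h⟩

theorem ps_tau_const {U : Bk J} {π₀ : Finset (Bk J)} (h : ∀ B' ∈ π₀, Disjoint U B') {f : PR J}
    (hf : f ∈ RS U) : tau π₀ f = Polynomial.C (C f) := by
  change f ∈ supported ℚ (U : Set (Pt J)) at hf
  rw [supported_eq_adjoin_X] at hf
  induction hf using Algebra.adjoin_induction with
  | mem g hg =>
    obtain ⟨s, hs, rfl⟩ := hg
    rw [pp_tau_X, Finset.filter_false_of_mem fun B hB => Finset.disjoint_left.1 (h B hB) hs]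
    simp
  | algebraMap r =>
    rw [AlgHom.commutes]
    simp [Polynomial.algebraMap_apply, MvPolynomial.algebraMap_apply]
  | add f g _ _ hf hg => rw [map_add, map_add, map_add, hf, hg]
  | mul f g _ _ hf hg => rw [map_mul, map_mul, map_mul, hf, hg]

theorem cf_lam {U B : Bk J} (h : Disjoint U B) {π₀ : Finset (Bk J)} (h₀ : ∀ B' ∈ π₀, B' ⊆ B)
    (l : PR J →ₗ[ℚ] ℚ) (f : PR J) (n : ℕ) (μ : Bk J →₀ ℕ) :
    cf π₀ (lam U l f) n μ = lam U l (cf π₀ f n μ) := by
  induction f using ps_split U with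
  | h0 => simp [cf]
  | hadd f g hf hg => rw [map_add, cf_add, cf_add, map_add, hf, hg]
  | hmul W hW f hf g hg =>
    rw [lam_mul l hf (RS_le_RC hW hg), cf_smul, pp_cf_C_mul π₀
      (ps_tau_const (fun B' hB' => h.mono_right (h₀ B' hB')) hf),
      lam_mul l hf (RS_le_RC hW (cf_mem_RS π₀ hg n μ))]

theorem ps_rename_lam {U B : Bk J} (h : Disjoint U B) {g : Equiv.Perm (Pt J)} (hg : g ∈ GS B)
    (l : PR J →ₗ[ℚ] ℚ) (f : PR J) : rename g (lam U l f) = lam U l (rename g f) := by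
  induction f using ps_split U with
  | h0 => simp
  | hadd f g hf hg => rw [map_add, map_add, map_add, map_add, hf, hg]
  | hmul W hW f hf f' hf' =>
    have e : rename g f = f := by
      rw [rename_congr_RS hf (g' := id) fun s hs => hg.2 s (Finset.disjoint_left.1 h hs)]
      simp
    have hd : Disjoint U (mv g W) := by
      rw [Finset.disjoint_left]
      intro s hs hs'
      rw [mem_mv, ((GS B).inv_mem hg).2 s (Finset.disjoint_left.1 h hs)] at hs'
      exact Finset.disjoint_left.1 hW hs hs'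
    rw [lam_mul l hf (RS_le_RC hW hf'), map_mul, e, lam_mul l hf (RS_le_RC hd (RS_rename hf' g)),
      map_smul]

theorem ps_act_lam {U B : Bk J} (h : Disjoint U B) {g : Equiv.Perm (Pt J)} (hg : g ∈ GS B)
    (l : PR J →ₗ[ℚ] ℚ) (f : PR J) : D.act B g (lam U l f) = lam U l (D.act B g f) := by
  rw [Dat.act_apply, Dat.act_apply, map_smul, ps_rename_lam h hg]

theorem ps_lam_sup {U W : Bk J} (h : Disjoint W U) {I I' : Ideal (PR J)} (hI : GenIn I W)
    (hI' : GenIn I' U) {l : PR J →ₗ[ℚ] ℚ} (hl : ∀ f ∈ I, l f = 0) {f : PR J} (hf : f ∈ I ⊔ I') :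
    lam W l f ∈ I' := by
  obtain ⟨a, ha, b, hb, rfl⟩ := Submodule.mem_sup.1 hf
  rw [map_add, lam_eq_zero hI hl ha, zero_add]
  exact lam_mem h l hI' hb

theorem ps_rep {U W : Bk J} (h : Disjoint W U) {I I' : Ideal (PR J)} (hI : GenIn I W)
    (hI' : GenIn I' U) {ι : Type} [DecidableEq ι] {w : ι → PR J} (hw : ∀ j, w j ∈ RS W)
    {l : ι → PR J →ₗ[ℚ] ℚ} (hl0 : ∀ j, ∀ f ∈ I, l j f = 0)
    (hl : ∀ i j, l i (w j) = if i = j then 1 else 0) {ψ : PR J}
    (hψ : ψ ∈ (⨆ j, (RS U).map (LinearMap.mulLeft ℚ (w j))) ⊔ IQ (I ⊔ I')) :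
    ∃ t : Finset ι, ψ - ∑ j ∈ t, w j * lam W (l j) ψ ∈ I ⊔ I' := by
  obtain ⟨a, ha, r, hr, rfl⟩ := Submodule.mem_sup.1 hψ
  obtain ⟨F, hF, rfl⟩ := (Submodule.mem_iSup_iff_exists_finsupp _ _).1 ha
  choose f hf hfF using fun j => Submodule.mem_map.1 (hF j)
  simp only [LinearMap.mulLeft_apply] at hfF
  refine ⟨F.support, ?_⟩
  have e : (F.sum fun _ x => x) = ∑ j ∈ F.support, w j * f j :=
    Finset.sum_congr rfl fun j _ => (hfF j).symm
  have e2 : ∀ k ∈ F.support, lam W (l k) ((F.sum fun _ x => x) + r) = f k + lam W (l k) r := by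
    intro k hk
    rw [map_add, e, map_sum, Finset.sum_eq_single k]
    · rw [lam_mul _ (hw k) (RS_le_RC h (hf k)), hl, if_pos rfl, one_smul]
    · intro j _ hj
      rw [lam_mul _ (hw j) (RS_le_RC h (hf j)), hl, if_neg (Ne.symm hj), zero_smul]
    · exact fun h' => (h' hk).elim
  rw [Finset.sum_congr rfl fun k hk => by rw [e2 k hk, mul_add], Finset.sum_add_distrib, ← e,
    add_sub_add_left_eq_sub]
  exact sub_mem hr (Submodule.sum_mem _ fun k _ => Ideal.mul_mem_left _ _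
    (Ideal.mem_sup_right (ps_lam_sup h hI hI' (hl0 k) hr)))

theorem ps_mul_mem {U : Bk J} {I : Ideal (PR J)} {ι : Type} {w : ι → PR J} {f g : PR J}
    (hg : g ∈ Submodule.span ℚ (Set.range w) ⊔ IQ I) (hf : f ∈ RS U) :
    g * f ∈ (⨆ j, (RS U).map (LinearMap.mulLeft ℚ (w j))) ⊔ IQ I := by
  obtain ⟨a, ha, b, hb, rfl⟩ := Submodule.mem_sup.1 hg
  rw [add_mul]
  refine Submodule.add_mem_sup ?_ (Ideal.mul_mem_right _ _ hb)
  clear hg
  induction ha using Submodule.span_induction with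
  | mem x hx =>
    obtain ⟨j, rfl⟩ := hx
    exact Submodule.mem_iSup_of_mem j ⟨f, hf, rfl⟩
  | zero => simp
  | add a b _ _ ha hb => rw [add_mul]; exact add_mem ha hb
  | smul c a _ ha => rw [smul_mul_assoc]; exact Submodule.smul_mem _ _ ha

theorem ps_genIn_IF (B : Bk J) : GenIn (IF D θ B) B := (sysL D θ).gen B

theorem ps_genIn_Ip {P : Finset (Bk J)} {W : Bk J} (h : ∀ B ∈ P, B ⊆ W) : GenIn (Ip D θ P) W :=
  genIn_iSup fun B hB => (ps_genIn_IF D θ B).mono (h B hB)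

theorem ps_Ip_union (P P' : Finset (Bk J)) : Ip D θ (P ∪ P') = Ip D θ P ⊔ Ip D θ P' :=
  Finset.iSup_union

theorem ps_Ip_insert (B : Bk J) (P : Finset (Bk J)) : Ip D θ (insert B P) = IF D θ B ⊔ Ip D θ P :=
  Finset.iSup_insert _ _ _

theorem ps_part_empty {π : Finset (Bk J)} (h : IsPart θ ∅ π) : π = ∅ :=
  Finset.eq_empty_of_forall_notMem fun B hB => by
    obtain ⟨s, hs⟩ := h.ne B hB
    simpa using h.sub B hB hs

theorem ps_nonempty (T : TB D (sysL D θ)) : Nonempty T.ι := by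
  by_contra hne
  have hE : IsEmpty {c // T.dim c = ty (∅ : Bk J)} := ⟨fun c => hne ⟨c.1⟩⟩
  have h1 : (1 : PR J) ∈ D.Inv ∅ ⊓ (sysL D θ).L ∅ := by
    refine ⟨⟨RS_one _, fun g hg => ?_⟩, RS_one _, fun π hπ => ?_⟩
    · rw [Dat.act_apply, map_one]
      simp [Dat.chi]
    · rw [ps_part_empty θ hπ, zlt_iff, map_one]
      exact Polynomial.degree_one_le.trans_lt (by exact_mod_cast (by simp [bd0] : 0 < bd0 D ∅))
  have h2 := (T.hb ∅).span 1 h1
  rw [Set.range_eq_empty, Submodule.span_empty, bot_sup_eq] at h2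
  have h3 : (sysL D θ).I ∅ = ⊥ := by
    change Ideal.span _ = ⊥
    rw [Ideal.span_eq_bot]
    rintro f ⟨U, hU, hw, -⟩
    rw [Finset.subset_empty.1 hU] at hw
    simp [wt] at hw
  rw [h3] at h2
  exact one_ne_zero ((Submodule.mem_bot (PR J)).1 h2)

theorem tensL_span (T : TB D (sysL D θ)) (P : Finset (Bk J))
    (hP : ∀ B ∈ P, ∀ B' ∈ P, B ≠ B' → Disjoint B B') (hne : ∀ B ∈ P, B.Nonempty) {ψ : PR J}
    (hψ : ψ ∈ RS (P.biUnion id)) (hinv : ∀ B ∈ P, ∀ g ∈ GS B, D.act B g ψ = ψ)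
    (hc : CondL D θ P ψ) :
    ψ ∈ Submodule.span ℚ {p | ∃ c : Bk J → T.ι, (∀ B ∈ P, T.dim (c B) = ty B) ∧
      p = ∏ B ∈ P, T.u (c B) B} ⊔ IQ (Ip D θ P) := by
  classical
  induction P using Finset.induction_on generalizing ψ with
  | empty =>
    obtain ⟨c0⟩ := ps_nonempty D θ T
    refine Submodule.mem_sup_left ?_
    change ψ ∈ supported ℚ _ at hψ
    simp only [Finset.biUnion_empty, Finset.coe_empty, supported_empty, Algebra.mem_bot] at hψ
    obtain ⟨a, rfl⟩ := hψ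
    rw [Algebra.algebraMap_eq_smul_one]
    exact Submodule.smul_mem _ _ (Submodule.subset_span ⟨fun _ => c0, by simp, by simp⟩)
  | insert B₀ P' hB₀ ih =>
    set W := P'.biUnion id with hW
    have hsubW : ∀ B ∈ P', B ⊆ W := fun B hB => Finset.subset_biUnion_of_mem id hB
    have hdis : ∀ B ∈ P', Disjoint B₀ B := fun B hB =>
      hP _ (Finset.mem_insert_self _ _) _ (Finset.mem_insert_of_mem hB) fun e => hB₀ (e ▸ hB)
    have hd : Disjoint B₀ W := (Finset.disjoint_biUnion_right _ _ _).2 hdis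
    have hn : ∀ B ∈ P', B ≠ B₀ := fun B hB e => hB₀ (e ▸ hB)
    rw [Finset.biUnion_insert, id] at hψ
    have hgW : GenIn (Ip D θ P') W := ps_genIn_Ip D θ hsubW
    obtain ⟨κ, w, t, hw⟩ := exists_HB (Ip_graded D θ P') (RS_graded W) le_rfl
    obtain ⟨l, hl0, hl⟩ := exists_dual hw.ind
    obtain ⟨m, hm0, hm⟩ := exists_dual (T.hb B₀).ind
    have h1 : ψ ∈ (⨆ j, (RS B₀).map (LinearMap.mulLeft ℚ (w j))) ⊔ IQ (Ip D θ P' ⊔ ⊥) := by
      rw [sup_bot_eq]
      refine RS_union_induction (zero_mem _) (fun f g => add_mem) (fun f hf g hg => ?_) ψ hψ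
      rw [mul_comm]
      exact ps_mul_mem (hw.span g hg) hf
    obtain ⟨t1, ht1⟩ := ps_rep hd.symm hgW (I' := ⊥) bot_le hw.mem hl0 hl h1
    rw [sup_bot_eq] at ht1
    have h2 : ∀ j, lam W (l j) ψ ∈ D.Inv B₀ ⊓ (sysL D θ).L B₀ := by
      intro j
      have hR : lam W (l j) ψ ∈ RS B₀ := lam_mem_RS hd.symm _ (by rwa [Finset.union_comm])
      refine ⟨⟨hR, fun g hg => ?_⟩, hR, fun π₀ h₀ i hi μ => ?_⟩
      · rw [ps_act_lam D hd.symm hg, hinv _ (Finset.mem_insert_self _ _) g hg]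
      · rw [cf_lam hd.symm h₀.sub]
        have := hc _ (Finset.mem_insert_self _ _) π₀ h₀ i hi μ
        rw [Finset.erase_insert hB₀, ps_Ip_union] at this
        exact ps_lam_sup hd.symm hgW (ps_genIn_Ip D θ h₀.sub) (hl0 j) this
    have h3 : ψ ∈ (⨆ c : {c // T.dim c = ty B₀}, (RS W).map (LinearMap.mulLeft ℚ (T.u c.1 B₀))) ⊔
        IQ (IF D θ B₀ ⊔ Ip D θ P') := by
      rw [← sub_add_cancel ψ (∑ j ∈ t1, w j * lam W (l j) ψ)]
      refine add_mem (Submodule.mem_sup_right (Ideal.mem_sup_right ht1))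
        (Submodule.sum_mem _ fun j _ => ?_)
      rw [mul_comm]
      exact sup_le_sup_left (show IQ (IF D θ B₀) ≤ IQ (IF D θ B₀ ⊔ Ip D θ P') from
        fun f hf => Ideal.mem_sup_left hf) _ (ps_mul_mem ((T.hb B₀).span _ (h2 j)) (hw.mem j))
    obtain ⟨t2, ht2⟩ := ps_rep hd (ps_genIn_IF D θ B₀) hgW (fun c => ((T.hb B₀).mem c).1.1) hm0 hm h3
    rw [← ps_Ip_insert] at ht2
    rw [← sub_add_cancel ψ (∑ c ∈ t2, T.u c.1 B₀ * lam B₀ (m c) ψ)]
    refine add_mem (Submodule.mem_sup_right ht2) (Submodule.sum_mem _ fun c _ => ?_)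
    have h4 := ih (fun B hB B' hB' => hP B (Finset.mem_insert_of_mem hB) B' (Finset.mem_insert_of_mem hB'))
      (fun B hB => hne B (Finset.mem_insert_of_mem hB)) (ψ := lam B₀ (m c) ψ) (lam_mem_RS hd _ hψ)
      (fun B hB g hg => by rw [ps_act_lam D (hdis B hB) hg, hinv B (Finset.mem_insert_of_mem hB) g hg])
      (fun B₁ hB₁ π₁ h₁ i hi μ => by
        rw [cf_lam (hdis B₁ hB₁) h₁.sub]
        have := hc _ (Finset.mem_insert_of_mem hB₁) π₁ h₁ i hi μ
        rw [Finset.erase_insert_of_ne (hn _ hB₁).symm, Finset.insert_union, ps_Ip_insert] at this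
        refine ps_lam_sup hd (ps_genIn_IF D θ B₀) (ps_genIn_Ip D θ fun B hB => ?_) (hm0 c) this
        rcases Finset.mem_union.1 hB with hB | hB
        · exact hsubW B (Finset.mem_of_mem_erase hB)
        · exact (h₁.sub B hB).trans (hsubW B₁ hB₁))
    obtain ⟨a, ha, b, hb, e⟩ := Submodule.mem_sup.1 h4
    rw [← e, mul_add]
    refine Submodule.add_mem_sup ?_ (Ideal.mul_mem_left _ _ (by
      rw [ps_Ip_insert]; exact Ideal.mem_sup_right hb))
    clear e
    induction ha using Submodule.span_induction with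
    | mem x hx =>
      obtain ⟨c', hc', rfl⟩ := hx
      refine Submodule.subset_span ⟨Function.update c' B₀ c.1, fun B hB => ?_, ?_⟩
      · rcases Finset.mem_insert.1 hB with rfl | hB
        · rw [Function.update_self]; exact c.2
        · rw [Function.update_of_ne (hn _ hB)]; exact hc' B hB
      · rw [Finset.prod_insert hB₀, Function.update_self]
        congr 1
        exact Finset.prod_congr rfl fun B hB => by rw [Function.update_of_ne (hn _ hB)]
    | zero => simp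
    | add a b _ _ ha hb => rw [mul_add]; exact add_mem ha hb
    | smul r a _ ha => rw [mul_smul_comm]; exact Submodule.smul_mem _ _ ha

/-- Apply a functional to the coefficients. -/
def psLam {A : Type} [CommRing A] [Algebra ℚ A] (l : A →ₗ[ℚ] ℚ) (p : MvPolynomial (Bk J) A) :
    MvPolynomial (Bk J) ℚ := ∑ μ ∈ p.support, monomial μ (l (coeff μ p))

theorem ps_coeff_Lam {A : Type} [CommRing A] [Algebra ℚ A] (l : A →ₗ[ℚ] ℚ) (p : MvPolynomial (Bk J) A)
    (μ : Bk J →₀ ℕ) : coeff μ (psLam l p) = l (coeff μ p) := by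
  classical
  rw [psLam, coeff_sum]
  simp only [coeff_monomial]
  rw [Finset.sum_ite_eq']
  split_ifs with h
  · rfl
  · rw [notMem_support_iff.1 h, map_zero]

theorem ps_Lam_mul {A : Type} [CommRing A] [Algebra ℚ A] (l : A →ₗ[ℚ] ℚ) (q : MvPolynomial (Bk J) ℚ)
    (p : MvPolynomial (Bk J) A) : psLam l (map (algebraMap ℚ A) q * p) = q * psLam l p := by
  classical
  ext μ
  rw [ps_coeff_Lam, coeff_mul, coeff_mul, map_sum]
  refine Finset.sum_congr rfl fun x _ => ?_
  rw [coeff_map, ps_coeff_Lam, ← Algebra.smul_def, map_smul, smul_eq_mul]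

theorem ps_dual_expand {V ι : Type} [AddCommGroup V] [Module ℚ V] [DecidableEq ι] {e : ι → V}
    {l : ι → V →ₗ[ℚ] ℚ} (hl : ∀ i j, l i (e j) = if i = j then 1 else 0) {v : V}
    (hv : v ∈ Submodule.span ℚ (Set.range e)) :
    ∃ t0 : Finset ι, ∀ t, t0 ⊆ t → v = ∑ c ∈ t, l c v • e c := by
  obtain ⟨a, rfl⟩ := Finsupp.mem_span_range_iff_exists_finsupp.1 hv
  refine ⟨a.support, fun t ht => ?_⟩
  have : ∀ c, l c (a.sum fun i r => r • e i) = a c := by
    intro c
    rw [Finsupp.sum, map_sum]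
    simp only [map_smul, hl, smul_eq_mul, mul_ite, mul_one, mul_zero, Finset.sum_ite_eq]
    split_ifs with h
    · rfl
    · exact (Finsupp.notMem_support_iff.1 h).symm
  simp only [this]
  exact Finsupp.sum_of_support_subset a ht _ fun _ _ => zero_smul _ _

theorem ps_good_quot {σ : Type} [DecidableEq σ] {π : Finset σ} {K q : MvPolynomial σ ℚ} {d m : ℕ}
    (hK : ∀ μ, coeff μ K ≠ 0 → μ.support ⊆ π ∧ μ.degree = d)
    (hp : ∀ μ, coeff μ (K * q) ≠ 0 → μ.support ⊆ π ∧ μ.degree = m + d) :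
    K * q = K * ∑ μ ∈ q.support.filter (fun μ => μ.support ⊆ π ∧ μ.degree = m),
      monomial μ (coeff μ q) := by
  have hc : ∀ μ, coeff μ (∑ μ ∈ q.support.filter (fun μ => μ.support ⊆ π ∧ μ.degree = m),
      monomial μ (coeff μ q)) = if μ.support ⊆ π ∧ μ.degree = m then coeff μ q else 0 := by
    intro μ
    rw [coeff_sum]
    simp only [coeff_monomial]
    rw [Finset.sum_ite_eq']
    simp only [Finset.mem_filter, mem_support_iff]
    by_cases h0 : coeff μ q = 0 <;> simp [h0]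
  ext μ
  by_cases hμ : μ.support ⊆ π ∧ μ.degree = m + d
  · rw [coeff_mul, coeff_mul]
    refine Finset.sum_congr rfl fun x hx => ?_
    by_cases h0 : coeff x.1 K = 0
    · simp [h0]
    rw [hc, if_pos]
    rw [Finset.HasAntidiagonal.mem_antidiagonal] at hx
    have h1 := (hK _ h0).2
    have h2 := hμ.2
    rw [← hx, map_add] at h2
    refine ⟨fun a ha => hμ.1 ?_, by omega⟩
    rw [← hx]
    simp only [Finsupp.mem_support_iff, Finsupp.add_apply] at ha ⊢
    omega
  · rw [by_contra fun h => hμ (hp μ h), coeff_mul]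
    refine (Finset.sum_eq_zero fun x hx => ?_).symm
    by_contra hne
    have h1 := hK _ (left_ne_zero_of_mul hne)
    have h2 := right_ne_zero_of_mul hne
    rw [hc] at h2
    have h3 : x.2.support ⊆ π ∧ x.2.degree = m := by
      by_contra h
      exact h2 (if_neg h)
    rw [Finset.HasAntidiagonal.mem_antidiagonal] at hx
    refine hμ ⟨?_, by rw [← hx, map_add]; omega⟩
    rw [← hx]
    exact Finsupp.support_add.trans (Finset.union_subset h1.1 h3.1)

theorem ps_Kp_supp (π : Finset (Bk J)) {μ : Bk J →₀ ℕ} (h : coeff μ (Kp D π) ≠ 0) : μ.support ⊆ π := by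
  classical
  have : Kp D π ∈ supported ℚ (π : Set (Bk J)) := by
    refine Subalgebra.prod_mem _ fun B hB => Subalgebra.prod_mem _ fun B' hB' =>
      Subalgebra.pow_mem _ (Subalgebra.sub_mem _ ?_ ?_) _
    · exact X_mem_supported.2 (Finset.mem_filter.1 hB').1
    · exact X_mem_supported.2 hB
  rw [mem_supported] at this
  intro B hB
  exact this ((mem_vars_iff_mem_support B).2 ⟨μ, mem_support_iff.2 h, hB⟩)

theorem ps_chi_sub {S B : Bk J} (hB : B ⊆ S) {g : Equiv.Perm (Pt J)} (hg : g ∈ GS B) :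
    D.chi S g = D.chi B g := by
  have e := D.chi_union hg.1 (U := B) (W := S \ B) Finset.disjoint_sdiff
  rw [Finset.union_sdiff_of_subset hB, mv_of_GS hg, mv_of_disjoint hg Finset.disjoint_sdiff,
    D.sgn_mul_self, D.chi_congr (S := S \ B) (g' := 1) fun s hs => hg.2 s (Finset.mem_sdiff.1 hs).2,
    D.chi_one, mul_one, mul_one] at e
  exact e

theorem ps_qm_smul (I : Ideal (PR J)) (a : ℚ) (x : MvPolynomial (Bk J) ℚ) :
    qm I (a • x) = a • qm I x := map_rat_smul (qm I).toAddMonoidHom a x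

/-- The leading coefficient as a linear map. -/
def psTop (π : Finset (Bk J)) (I : Ideal (PR J)) (n : ℕ) :
    PR J →ₗ[ℚ] MvPolynomial (Bk J) (PR J ⧸ I) :=
  AddMonoidHom.toRatLinearMap
    { toFun := fun f => (tb π I f).coeff n
      map_zero' := by simp
      map_add' := fun f g => by simp }

theorem psTop_apply (π : Finset (Bk J)) (I : Ideal (PR J)) (n : ℕ) (f : PR J) :
    psTop π I n f = (tb π I f).coeff n := rfl

theorem top_mem_span (hsym : SymNull D θ) (T : TB D (sysL D θ)) {S : Bk J} {m : ℕ}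
    {π : Finset (Bk J)} (hπ : IsPart θ S π) {f : PR J} (hf : f ∈ D.Inv S)
    (hF : f ∈ FF D θ S (m * (S.card + 1) + π.card + 1)) :
    ∃ g ∈ Submodule.span ℚ {p | ∃ x, IsDec θ T.dim S x ∧ blk x = π ∧ mm x = m ∧ p = bb D T.u r0 x},
      (tb π (Ip D θ π) g).coeff (m + dK D π) = (tb π (Ip D θ π) f).coeff (m + dK D π) := by
  classical
  obtain ⟨c0⟩ := ps_nonempty D θ T
  rw [mem_FF_succ_iff D θ hπ.card_le] at hF
  set I := Ip D θ π with hI
  set n := m + dK D π with hn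
  set p := (tb π I f).coeff n with hp
  have hS : π.biUnion id = S := by
    ext s
    simp only [Finset.mem_biUnion, id]
    exact ⟨fun ⟨B, hB, hs⟩ => hπ.sub B hB hs, hπ.cover s⟩
  -- Step 1
  have step1 : ∀ μ, cf π f n μ ∈ Submodule.span ℚ {p | ∃ c : Bk J → T.ι,
      (∀ B ∈ π, T.dim (c B) = ty B) ∧ p = ∏ B ∈ π, T.u (c B) B} ⊔ IQ I := by
    intro μ
    refine tensL_span D θ T π hπ.disj hπ.ne (hS ▸ cf_mem_RS π hf.1 n μ) (fun B hB g hg => ?_)
      fun B₀ hB₀ π₀ h₀ => ?_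
    · by_cases h0 : cf π f n μ = 0
      · rw [h0, map_zero]
      have hmv : ∀ B' ∈ π, mv g B' = B' := fun B' hB' => by
        by_cases e : B' = B
        · rw [e, mv_of_GS hg]
        · exact mv_of_disjoint hg (hπ.disj _ hB _ hB' (Ne.symm e))
      have e := cf_rename g π f n μ
      rw [Finset.image_congr (g := id) (fun B' hB' => hmv B' hB'), Finset.image_id,
        Finsupp.mapDomain_congr (g := id) (fun B' hB' => hmv B' (cf_support h0 hB')),
        Finsupp.mapDomain_id] at e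
      rw [Dat.act_apply, ← e, ← cf_smul, ← ps_chi_sub D (hπ.sub B hB) hg, ← Dat.act_apply,
        hf.2 g (GS_mono (hπ.sub B hB) hg)]
    · refine refine_top θ hπ hB₀ h₀ ?_ μ
      have := hF _ (hπ.refine θ hB₀ h₀)
      rw [dK_refine D θ hsym hπ hB₀ h₀] at this
      have hc := card_refine θ hπ hB₀ h₀
      convert this using 1
      rw [bd0, hn]
      split_ifs <;> omega
  -- Step 2
  let Cs := {c : π → T.ι // ∀ k : π, T.dim (c k) = ty k.1}
  let e : Cs → PR J := fun c => ∏ k : π, T.u (c.1 k) k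
  have hind : LinearIndependent ℚ fun c : Cs => (IQ I).mkQ (e c) :=
    tens_ind_multi π id hπ.disj (IF D θ) (fun B _ => ps_genIn_IF D θ B) (fun B i => T.u i B)
      (fun B i => T.dim i = ty B) (fun B _ i hi => ((T.hb B).mem ⟨i, hi⟩).1.1)
      fun B _ => (T.hb B).ind
  obtain ⟨l, hl0, hl⟩ := exists_dual hind
  let lb : Cs → (PR J ⧸ I) →ₗ[ℚ] ℚ := fun c =>
    ((IQ I).liftQ (l c) fun f hf => hl0 c f hf).comp
      (Submodule.Quotient.restrictScalarsEquiv ℚ I).symm.toLinearMap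
  have hlb : ∀ c f, lb c (Ideal.Quotient.mk I f) = l c f := fun c f => rfl
  have step2 : ∀ μ, ∃ t0 : Finset Cs, ∀ t, t0 ⊆ t →
      coeff μ p = ∑ c ∈ t, lb c (coeff μ p) • Ideal.Quotient.mk I (e c) := by
    intro μ
    refine ps_dual_expand (fun i j => by rw [hlb, hl]) ?_
    rw [hp, coeff_tb]
    obtain ⟨a, ha, b, hb, hab⟩ := Submodule.mem_sup.1 (step1 μ)
    rw [← hab, map_add, Ideal.Quotient.eq_zero_iff_mem.2 hb, add_zero]
    clear hab
    induction ha using Submodule.span_induction with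
    | mem x hx =>
      obtain ⟨c, hc, rfl⟩ := hx
      refine Submodule.subset_span ⟨⟨fun k => c k, fun k => hc k k.2⟩, ?_⟩
      simp only [e]
      rw [Finset.prod_coe_sort π fun B => T.u (c B) B]
    | zero => simp
    | add a b _ _ ha hb => rw [map_add]; exact add_mem ha hb
    | smul r a _ ha =>
      rw [← Ideal.Quotient.mkₐ_eq_mk ℚ, map_smul]
      exact Submodule.smul_mem _ _ ha
  choose t0 ht0 using step2
  have step3 : p = ∑ c ∈ p.support.biUnion t0,
      qm I (psLam (lb c) p) * C (Ideal.Quotient.mk I (e c)) := by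
    ext μ
    rw [coeff_sum]
    simp only [mul_comm _ (C _), coeff_C_mul, qm, coeff_map, ps_coeff_Lam]
    by_cases hμ : μ ∈ p.support
    · refine (ht0 μ _ (Finset.subset_biUnion_of_mem t0 hμ)).trans ?_
      exact Finset.sum_congr rfl fun c _ =>
        (Algebra.smul_def (R := ℚ) (A := PR J ⧸ I) _ _).trans (mul_comm _ _)
    · simp [notMem_support_iff.1 hμ]
  -- Step 3: divisibility
  have hdvd : ∀ c, Kp D π ∣ psLam (lb c) p := by
    intro c
    refine Kp_dvd D π fun B₁ h₁ B₂ h₂ hne => ?_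
    have h1 := hF _ (hπ.merge θ h₁ h₂ hne)
    have h2 := dK_merge D θ hsym hπ h₁ h₂ hne
    have h3 : (insert (B₁ ∪ B₂) ((π.erase B₁).erase B₂)).card ≤ π.card := by
      refine (Finset.card_insert_le _ _).trans ?_
      have := Finset.card_erase_le (s := π.erase B₁) (a := B₂)
      have := Finset.card_erase_lt_of_mem h₁
      omega
    rw [if_pos h3] at h1
    obtain ⟨p', hp'⟩ := merge_dvd θ hπ h₁ h₂ hne (trInv_Ip D θ hπ h₂)
      (h1.mono (Ip_merge D θ hπ h₁ h₂ hne) le_rfl) (aa D.a (ty B₁) (ty B₂))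
    rw [add_assoc, h2] at hp'
    refine ⟨psLam (lb c) p', ?_⟩
    rw [← ps_Lam_mul, hp, hn, hp']
    simp
  have hgood : ∀ c μ, coeff μ (psLam (lb c) p) ≠ 0 → μ.support ⊆ π ∧ μ.degree = m + dK D π := by
    intro c μ h
    rw [ps_coeff_Lam, hp, coeff_tb] at h
    have h0 : cf π f n μ ≠ 0 := fun h0 => h (by rw [h0, map_zero, map_zero])
    refine ⟨cf_support h0, ?_⟩
    rw [Finsupp.degree_eq_weight_one]
    exact tau_coeff_hom π f n h0
  -- Step 4
  change p ∈ (Submodule.span ℚ {p | ∃ x, IsDec θ T.dim S x ∧ blk x = π ∧ mm x = m ∧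
    p = bb D T.u r0 x}).map (psTop π I n)
  rw [step3]
  refine Submodule.sum_mem _ fun c _ => ?_
  obtain ⟨q, hq⟩ := hdvd c
  have hq' := ps_good_quot (π := π) (K := Kp D π) (q := q) (d := dK D π) (m := m)
    (fun μ h => ⟨ps_Kp_supp D π h, by
      rw [Finsupp.degree_eq_weight_one]
      exact Kp_hom D θ hsym hπ h⟩) (fun μ h => hgood c μ (hq ▸ h))
  rw [hq, hq', Finset.mul_sum, map_sum, Finset.sum_mul]
  refine Submodule.sum_mem _ fun μ hμ => ?_
  obtain ⟨-, hμ1, hμ2⟩ := Finset.mem_filter.1 hμ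
  let c' : Bk J → T.ι := fun B => if h : B ∈ π then c.1 ⟨B, h⟩ else c0
  let φ : Bk J → DB J T.ι := fun B => (B, c' B, μ B)
  have hφ : Set.InjOn φ π := fun B _ B' _ h => congrArg Prod.fst h
  have hblk : blk (π.image φ) = π := by
    rw [blk, Finset.image_image]
    exact Finset.image_id
  have hx : IsDec θ T.dim S (π.image φ) := by
    refine ⟨fun y hy y' hy' h => ?_, hblk.symm ▸ hπ, fun y hy => ?_⟩
    · obtain ⟨B, -, rfl⟩ := Finset.mem_image.1 hy
      obtain ⟨B', -, rfl⟩ := Finset.mem_image.1 hy'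
      exact congrArg φ h
    · obtain ⟨B, hB, rfl⟩ := Finset.mem_image.1 hy
      simp only [φ, c', dif_pos hB]
      exact c.2 ⟨B, hB⟩
  have hmm : mm (π.image φ) = m := by
    rw [mm, Finset.sum_image hφ, ← hμ2, Finsupp.degree_apply]
    exact (Finset.sum_subset hμ1 fun B _ hB => Finsupp.notMem_support_iff.1 hB).symm
  have htop := bb_top D θ hsym hx (u := T.u)
    (fun y hy => ((T.hb y.1).mem ⟨y.2.1, hx.dim y hy⟩).2) r0
  obtain ⟨ε, hε0, hε⟩ := Ktop_eq D θ hsym hx r0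
  rw [hε, hblk, hmm, Finset.prod_image hφ, Finset.prod_image hφ] at htop
  have e1 : ∏ B ∈ π, T.u (φ B).2.1 (φ B).1 = e c := by
    simp only [e]
    rw [← Finset.prod_coe_sort π]
    exact Finset.prod_congr rfl fun k _ => by simp only [φ, c', dif_pos k.2]
  have e2 : (∏ B ∈ π, X (φ B).1 ^ (φ B).2.2 : MvPolynomial (Bk J) ℚ) = monomial μ 1 := by
    rw [monomial_eq, C_1, one_mul, Finsupp.prod_of_support_subset μ hμ1 _ fun _ _ => pow_zero _]
  rw [e1, e2] at htop
  refine ⟨(coeff μ q / ε) • bb D T.u r0 (π.image φ), Submodule.smul_mem _ _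
    (Submodule.subset_span ⟨_, hx, hblk, hmm, rfl⟩), ?_⟩
  rw [map_smul, psTop_apply, htop, ← smul_mul_assoc]
  congr 1
  refine (ps_qm_smul I _ _).symm.trans (congrArg (qm I) ?_)
  rw [smul_mul_assoc, smul_smul, div_mul_cancel₀ _ hε0, ← mul_smul_comm, smul_monomial, smul_eq_mul,
    mul_one]

theorem pbw_span (hsym : SymNull D θ) (T : TB D (sysL D θ)) {S : Bk J} (n : ℕ) {f : PR J}
    (hf : f ∈ D.Inv S) (hF : f ∈ FF D θ S (n + 1)) :
    f ∈ Submodule.span ℚ {p | ∃ x, IsDec θ T.dim S x ∧ mm x * (S.card + 1) + x.card = n ∧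
      p = bb D T.u r0 x} ⊔ FF D θ S n := by
  classical
  obtain ⟨m, k, hk, rfl⟩ : ∃ m k, k ≤ S.card ∧ n = m * (S.card + 1) + k :=
    ⟨n / (S.card + 1), n % (S.card + 1), Nat.lt_succ_iff.1 (Nat.mod_lt _ (Nat.succ_pos _)),
      (Nat.div_add_mod' _ _).symm⟩
  have hu : ∀ {x}, IsDec θ T.dim S x → ∀ y ∈ x, T.u y.2.1 y.1 ∈ L0 D θ y.1 := fun hx y hy =>
    ((T.hb y.1).mem ⟨y.2.1, hx.dim y hy⟩).2
  let P := S.powerset.powerset.filter fun π => IsPart θ S π ∧ π.card = k
  have hP : ∀ π, π ∈ P ↔ IsPart θ S π ∧ π.card = k := fun π =>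
    ⟨fun h => (Finset.mem_filter.1 h).2, fun h => Finset.mem_filter.2
      ⟨Finset.mem_powerset.2 fun B hB => Finset.mem_powerset.2 (h.1.sub B hB), h⟩⟩
  have := fun π (hπ : π ∈ P) => top_mem_span D θ hsym T (m := m) ((hP π).1 hπ).1 hf
    (((hP π).1 hπ).2.symm ▸ hF)
  choose! g hg hgt using this
  have hle : ∀ π ∈ P, Submodule.span ℚ {p | ∃ x, IsDec θ T.dim S x ∧ blk x = π ∧ mm x = m ∧
      p = bb D T.u r0 x} ≤ Submodule.span ℚ {p | ∃ x, IsDec θ T.dim S x ∧
        mm x * (S.card + 1) + x.card = m * (S.card + 1) + k ∧ p = bb D T.u r0 x} := by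
    intro π hπ
    refine Submodule.span_mono ?_
    rintro _ ⟨x, hx, h1, h2, rfl⟩
    exact ⟨x, hx, by rw [h2, ← hx.card_blk, h1, ((hP π).1 hπ).2], rfl⟩
  have hle2 : Submodule.span ℚ {p | ∃ x, IsDec θ T.dim S x ∧
      mm x * (S.card + 1) + x.card = m * (S.card + 1) + k ∧ p = bb D T.u r0 x} ≤
      FF D θ S (m * (S.card + 1) + k + 1) := by
    rw [Submodule.span_le]
    rintro _ ⟨x, hx, h1, rfl⟩
    exact h1 ▸ bb_mem_FF D θ hsym hx (hu hx) r0
  have hsum := Submodule.sum_mem _ fun π hπ => hle π hπ (hg π hπ)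
  rw [← add_sub_cancel (∑ π ∈ P, g π) f]
  refine Submodule.add_mem_sup hsum (mem_FF_of_top D θ hk (sub_mem hF (hle2 hsum)) fun π hπ hc => ?_)
  have hπP := (hP π).2 ⟨hπ, hc⟩
  rw [← psTop_apply, map_sub, map_sum, Finset.sum_eq_single π, psTop_apply, psTop_apply, hgt π hπP,
    sub_self]
  · intro π' hπ' hne
    have : Submodule.span ℚ {p | ∃ x, IsDec θ T.dim S x ∧ blk x = π' ∧ mm x = m ∧
        p = bb D T.u r0 x} ≤ LinearMap.ker (psTop π (Ip D θ π) (m + dK D π)) := by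
      rw [Submodule.span_le]
      rintro _ ⟨x, hx, h1, h2, rfl⟩
      exact h2 ▸ bb_top_ne D θ hsym hx (hu hx) r0 hπ
        (by rw [← hx.card_blk, h1, ((hP π').1 hπ').2, hc]) (h1 ▸ hne.symm)
    exact this (hg π' hπ')
  · exact fun h => (h hπP).elim

end

end Crest.Agent.R59
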