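import Crest.Agent.R59.PbwDef

/-!
# R59/PbwTau: basic properties of the block translations; the system `L0`; the filtration `FF`
-/

set_option autoImplicit false
set_option linter.unusedSectionVars false
set_option linter.unusedVariables false

namespace Crest.Agent.R59

noncomputable section

open MvPolynomial

variable {J : Type} [Fintype J] [DecidableEq J] (D : Dat J) (θ : J → ℤ)

theorem cf_add (π : Finset (Bk J)) (f g : PR J) (n : ℕ) (μ : Bk J →₀ ℕ) :
    cf π (f + g) n μ = cf π f n μ + cf π g n μ := by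
  exact pbwdef_cf_add π f g n μ

theorem cf_smul (π : Finset (Bk J)) (c : ℚ) (f : PR J) (n : ℕ) (μ : Bk J →₀ ℕ) :
    cf π (c • f) n μ = c • cf π f n μ := by
  exact pbwdef_cf_smul π c f n μ

theorem pbwtau_X (π : Finset (Bk J)) (s : Pt J) : tau π (X s) = Polynomial.C (C (X s)) +
    Polynomial.C (∑ B ∈ π.filter (s ∈ ·), X B) * Polynomial.X := by
  simp [tau]

theorem pbwtau_C (π : Finset (Bk J)) (a : ℚ) : tau π (C a) = Polynomial.C (C (C a)) := by
  simp [tau]

theorem pbwtau_coeff_zero (π : Finset (Bk J)) (f : PR J) : (tau π f).coeff 0 = C f := by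
  induction f using MvPolynomial.induction_on with
  | C a => simp
  | add p q hp hq => simp [hp, hq]
  | mul_X p s hp => simp [pbwtau_X, hp]

theorem pbwtau_coeff_succ (π : Finset (Bk J)) (f : PR J) (s : Pt J) (n : ℕ) :
    (tau π (f * X s)).coeff (n + 1) = (tau π f).coeff (n + 1) * C (X s) +
      (tau π f).coeff n * ∑ B ∈ π.filter (s ∈ ·), X B := by
  rw [map_mul, pbwtau_X, mul_add, ← mul_assoc, Polynomial.coeff_add, Polynomial.coeff_mul_X,
    Polynomial.coeff_mul_C, Polynomial.coeff_mul_C]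

theorem pbwtau_cf_mul (π : Finset (Bk J)) (f g : PR J) (n : ℕ) (μ : Bk J →₀ ℕ) :
    cf π (f * g) n μ = ∑ p ∈ Finset.HasAntidiagonal.antidiagonal n,
      ∑ q ∈ Finset.HasAntidiagonal.antidiagonal μ,
      cf π f p.1 q.1 * cf π g p.2 q.2 := by
  simp only [cf, map_mul, Polynomial.coeff_mul, coeff_sum, coeff_mul]

theorem pbwtau_cf_const {π : Finset (Bk J)} {f : PR J} (h : tau π f = Polynomial.C (C f)) (n : ℕ)
    (μ : Bk J →₀ ℕ) : cf π f n μ = if n = 0 ∧ 0 = μ then f else 0 := by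
  rw [cf, h, Polynomial.coeff_C]
  by_cases hn : n = 0
  · simp [hn, coeff_C]
  · simp [hn]

theorem pbwtau_cf_X (π : Finset (Bk J)) (s : Pt J) (n : ℕ) (μ : Bk J →₀ ℕ) : ∃ c : ℚ,
    cf π (X s) n μ = (if n = 0 ∧ 0 = μ then X s else 0) + if n = 1 then C c else 0 := by
  refine ⟨∑ B ∈ π.filter (s ∈ ·), if Finsupp.single B 1 = μ then 1 else 0, ?_⟩
  rw [cf, pbwtau_X, Polynomial.coeff_add, coeff_add, Polynomial.coeff_C, Polynomial.coeff_C_mul_X]
  congr 1
  · by_cases hn : n = 0
    · simp [hn, coeff_C]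
    · simp [hn]
  · by_cases hn : n = 1
    · simp only [hn, if_true, coeff_sum, coeff_X, map_sum]
      exact Finset.sum_congr rfl fun B _ => by split_ifs <;> simp
    · simp [hn]

theorem cf_zero_zero (π : Finset (Bk J)) (f : PR J) : cf π f 0 0 = f := by
  simp [cf, pbwtau_coeff_zero]

theorem coeff_tb (π : Finset (Bk J)) (I : Ideal (PR J)) (f : PR J) (n : ℕ) (μ : Bk J →₀ ℕ) :
    coeff μ ((tb π I f).coeff n) = Ideal.Quotient.mk I (cf π f n μ) := by
  simp [tb, cf, Polynomial.coeff_map, coeff_map]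

theorem zlt_iff {π : Finset (Bk J)} {I : Ideal (PR J)} {n : ℕ} {f : PR J} :
    ZLt π I n f ↔ (tb π I f).degree < n := by
  rw [Polynomial.degree_lt_iff_coeff_zero]
  refine forall₂_congr fun i _ => ⟨fun h => ?_, fun h μ => ?_⟩
  · ext μ
    rw [coeff_tb, coeff_zero, Ideal.Quotient.eq_zero_iff_mem]
    exact h μ
  · rw [← Ideal.Quotient.eq_zero_iff_mem, ← coeff_tb, h, coeff_zero]

theorem ZLt.mono {π : Finset (Bk J)} {I I' : Ideal (PR J)} {n n' : ℕ} {f : PR J} (h : ZLt π I n f)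
    (hI : I ≤ I') (hn : n ≤ n') : ZLt π I' n' f := by
  exact fun i hi μ => hI (h i (hn.trans hi) μ)

/-- The coefficient of `t^n` is homogeneous of degree `n` in the block variables. -/
theorem tau_coeff_hom (π : Finset (Bk J)) (f : PR J) (n : ℕ) :
    ((tau π f).coeff n).IsHomogeneous n := by
  induction f using MvPolynomial.induction_on generalizing n with
  | C a =>
    rw [pbwtau_C, Polynomial.coeff_C]
    split_ifs with h
    · exact h ▸ isHomogeneous_C _ _
    · exact isHomogeneous_zero _ _ _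
  | add p q hp hq => simpa using (hp n).add (hq n)
  | mul_X p s hp =>
    cases n with
    | zero => rw [pbwtau_coeff_zero]; exact isHomogeneous_C _ _
    | succ n =>
      rw [pbwtau_coeff_succ]
      exact ((hp (n + 1)).mul (isHomogeneous_C _ _)).add
        ((hp n).mul (IsHomogeneous.sum _ _ _ fun B _ => isHomogeneous_X _ _))

theorem pbwtau_supp (π : Finset (Bk J)) (f : PR J) (n : ℕ) :
    (tau π f).coeff n ∈ supported (PR J) (π : Set (Bk J)) := by
  have hC : ∀ p : PR J, (C p : MvPolynomial (Bk J) (PR J)) ∈ supported (PR J) (π : Set (Bk J)) :=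
    fun p => Subalgebra.algebraMap_mem _ p
  induction f using MvPolynomial.induction_on generalizing n with
  | C a =>
    rw [pbwtau_C, Polynomial.coeff_C]
    split_ifs with h
    · exact hC _
    · exact zero_mem _
  | add p q hp hq => simpa using add_mem (hp n) (hq n)
  | mul_X p s hp =>
    cases n with
    | zero => rw [pbwtau_coeff_zero]; exact hC _
    | succ n =>
      rw [pbwtau_coeff_succ]
      exact add_mem (mul_mem (hp _) (hC _)) (mul_mem (hp _) (sum_mem fun B hB =>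
        X_mem_supported.2 (Finset.mem_filter.1 hB).1))

theorem cf_support {π : Finset (Bk J)} {f : PR J} {n : ℕ} {μ : Bk J →₀ ℕ} (h : cf π f n μ ≠ 0) :
    μ.support ⊆ π := by
  intro B hB
  exact mem_supported.1 (pbwtau_supp π f n)
    (support_subset_vars_of_mem_support (mem_support_iff.2 h) hB)

theorem cf_mem_RS (π : Finset (Bk J)) {S : Bk J} {f : PR J} (hf : f ∈ RS S) (n : ℕ)
    (μ : Bk J →₀ ℕ) : cf π f n μ ∈ RS S := by
  have hC : ∀ c : ℚ, (C c : PR J) ∈ RS S := fun c =>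
    Subalgebra.algebraMap_mem (supported ℚ (S : Set (Pt J))) c
  change f ∈ Algebra.adjoin ℚ (X '' (S : Set (Pt J))) at hf
  induction hf using Algebra.adjoin_induction generalizing n μ with
  | mem x hx =>
    obtain ⟨s, hs, rfl⟩ := hx
    obtain ⟨c, hc⟩ := pbwtau_cf_X π s n μ
    rw [hc]
    refine add_mem ?_ ?_
    · split_ifs
      · exact RS_X hs
      · exact zero_mem _
    · split_ifs
      · exact hC c
      · exact zero_mem _
  | algebraMap r =>
    rw [algebraMap_eq, pbwtau_cf_const (pbwtau_C π r)]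
    split_ifs
    · exact hC r
    · exact zero_mem _
  | add x y _ _ hx hy => rw [cf_add]; exact add_mem (hx n μ) (hy n μ)
  | mul x y _ _ hx hy =>
    rw [pbwtau_cf_mul]
    exact sum_mem fun p _ => sum_mem fun q _ => RS_mul (hx _ _) (hy _ _)

/-- all coefficients are homogeneous of the expected degree -/
def pbwtau_Hm (π : Finset (Bk J)) (d : ℕ) (f : PR J) : Prop :=
  ∀ (n : ℕ) μ, (cf π f n μ).IsWeightedHomogeneous (fun _ => (1 : ℤ)) ((d : ℤ) - n)

theorem pbwtau_Hm_mul {π : Finset (Bk J)} {d e : ℕ} {f g : PR J} (hf : pbwtau_Hm π d f)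
    (hg : pbwtau_Hm π e g) : pbwtau_Hm π (d + e) (f * g) := by
  intro n μ
  rw [pbwtau_cf_mul]
  refine IsWeightedHomogeneous.sum _ _ _ fun p hp => IsWeightedHomogeneous.sum _ _ _ fun q _ => ?_
  have := (hf p.1 q.1).mul (hg p.2 q.2)
  rwa [show (d : ℤ) - p.1 + (e - p.2) = (d + e : ℕ) - n by
    rw [← Finset.HasAntidiagonal.mem_antidiagonal.1 hp]; push_cast; ring] at this

theorem pbwtau_Hm_C (π : Finset (Bk J)) (a : ℚ) : pbwtau_Hm π 0 (C a) := by
  intro n μ
  rw [pbwtau_cf_const (pbwtau_C π a)]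
  split_ifs with h
  · simpa [h.1] using isWeightedHomogeneous_C _ a
  · exact isWeightedHomogeneous_zero _ _ _

theorem pbwtau_Hm_X (π : Finset (Bk J)) (s : Pt J) : pbwtau_Hm π 1 (X s) := by
  intro n μ
  obtain ⟨c, hc⟩ := pbwtau_cf_X π s n μ
  rw [hc]
  refine IsWeightedHomogeneous.add ?_ ?_
  · split_ifs with h
    · simpa [h.1] using isWeightedHomogeneous_X ℚ (fun _ => (1 : ℤ)) s
    · exact isWeightedHomogeneous_zero _ _ _
  · split_ifs with h
    · simpa [h] using isWeightedHomogeneous_C _ c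
    · exact isWeightedHomogeneous_zero _ _ _

theorem pbwtau_Hm_monomial (π : Finset (Bk J)) (ν : Pt J →₀ ℕ) (a : ℚ) :
    pbwtau_Hm π ν.degree (monomial ν a) := by
  have h1 : ∀ (s : Pt J) (k : ℕ), pbwtau_Hm π k (X s ^ k) := fun s k => by
    induction k with
    | zero => simpa using pbwtau_Hm_C π 1
    | succ k ih => rw [pow_succ]; exact pbwtau_Hm_mul ih (pbwtau_Hm_X π s)
  have h2 : ∀ T : Finset (Pt J), pbwtau_Hm π (∑ s ∈ T, ν s) (∏ s ∈ T, X s ^ ν s) := fun T => by
    induction T using Finset.induction_on with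
    | empty => simpa using pbwtau_Hm_C π 1
    | insert s T hs ih =>
      rw [Finset.sum_insert hs, Finset.prod_insert hs]
      exact pbwtau_Hm_mul (h1 s _) ih
  have := pbwtau_Hm_mul (pbwtau_Hm_C π a) (h2 ν.support)
  rwa [zero_add, ← Finsupp.degree_apply, ← Finsupp.prod, ← monomial_eq] at this

theorem pbwtau_deg {π : Finset (Bk J)} {ν ν' : Pt J →₀ ℕ} {a : ℚ} {n : ℕ} {μ : Bk J →₀ ℕ}
    (h : coeff ν' (cf π (monomial ν a) n μ) ≠ 0) : ν'.degree + n = ν.degree := by
  have h1 := pbwtau_Hm_monomial π ν a n μ h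
  have h2 : Finsupp.weight (fun _ : Pt J => (1 : ℤ)) ν' = ν'.degree := by
    simp [Finsupp.weight_apply, Finsupp.degree_apply, Finsupp.sum]
  omega

theorem cf_homogeneousComponent (π : Finset (Bk J)) (f : PR J) (k n : ℕ) (μ : Bk J →₀ ℕ) :
    cf π (homogeneousComponent (k + n) f) n μ = homogeneousComponent k (cf π f n μ) := by
  induction f using MvPolynomial.induction_on' with
  | monomial ν a =>
    rw [homogeneousComponent_of_mem (isHomogeneous_monomial a rfl)]
    ext ν'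
    rw [coeff_homogeneousComponent]
    by_cases h : coeff ν' (cf π (monomial ν a) n μ) = 0
    · split_ifs <;> simp [h, pbwdef_cf_zero]
    · have := pbwtau_deg h
      by_cases h' : ν'.degree = k
      · rw [if_pos h', if_pos (by omega)]
      · rw [if_neg h', if_neg (by omega), pbwdef_cf_zero, coeff_zero]
  | add p q hp hq => rw [map_add, cf_add, cf_add, map_add, hp, hq]

theorem pbwtau_cf_sum {κ : Type} (π : Finset (Bk J)) (T : Finset κ) (f : κ → PR J) (n : ℕ)
    (μ : Bk J →₀ ℕ) : cf π (∑ k ∈ T, f k) n μ = ∑ k ∈ T, cf π (f k) n μ := by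
  simp only [cf, map_sum, Polynomial.finsetSum_coeff, coeff_sum]

theorem cf_eq_zero_of_lt (π : Finset (Bk J)) {f : PR J} {n : ℕ} (h : f.totalDegree < n)
    (μ : Bk J →₀ ℕ) : cf π f n μ = 0 := by
  rw [f.as_sum, pbwtau_cf_sum]
  refine Finset.sum_eq_zero fun ν hν => ?_
  ext ν'
  by_contra h'
  have h1 := pbwtau_deg h'
  have h2 : ν.degree ≤ f.totalDegree := le_totalDegree hν
  omega

theorem pbwtau_mv_inj (g : Equiv.Perm (Pt J)) : Function.Injective (mv g : Bk J → Bk J) :=
  Finset.map_injective _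

theorem pbwtau_rename (g : Equiv.Perm (Pt J)) (π : Finset (Bk J)) (f : PR J) :
    tau (π.image (mv g)) (rename g f) = (tau π f).map
      ((rename (mv g) : MvPolynomial (Bk J) (PR J) →ₐ[PR J] MvPolynomial (Bk J) (PR J)).toRingHom.comp
        (MvPolynomial.map (rename g : PR J →ₐ[ℚ] PR J).toRingHom)) := by
  induction f using MvPolynomial.induction_on with
  | C a => simp
  | add p q hp hq => simp only [map_add, hp, hq, Polynomial.map_add]
  | mul_X p s hp =>
    rw [map_mul, map_mul, map_mul, hp, Polynomial.map_mul, rename_X, pbwtau_X, pbwtau_X]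
    congr 1
    rw [Finset.filter_image, Finset.sum_image fun _ _ _ _ h => pbwtau_mv_inj g h]
    simp [mem_mv, Polynomial.map_sum]

theorem cf_rename (g : Equiv.Perm (Pt J)) (π : Finset (Bk J)) (f : PR J) (n : ℕ) (μ : Bk J →₀ ℕ) :
    cf (π.image (mv g)) (rename g f) n (μ.mapDomain (mv g)) = rename g (cf π f n μ) := by
  rw [cf, pbwtau_rename, Polynomial.coeff_map]
  change coeff _ (rename (mv g) _) = _
  rw [coeff_rename_mapDomain _ (pbwtau_mv_inj g), coeff_map]
  rfl

theorem IsPart.card_le {S : Bk J} {π : Finset (Bk J)} (h : IsPart θ S π) : π.card ≤ S.card := by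
  calc π.card = ∑ B ∈ π, 1 := Finset.card_eq_sum_ones π
    _ ≤ ∑ B ∈ π, B.card := Finset.sum_le_sum fun B hB => Finset.card_pos.2 (h.ne B hB)
    _ = (π.biUnion id).card := (Finset.card_biUnion fun B hB B' hB' => h.disj B hB B' hB').symm
    _ ≤ S.card := Finset.card_le_card (Finset.biUnion_subset.2 h.sub)

theorem IsPart.image {S : Bk J} {π : Finset (Bk J)} (h : IsPart θ S π) {g : Equiv.Perm (Pt J)}
    (hg : g ∈ CP J) : IsPart θ (mv g S) (π.image (mv g)) := by
  refine ⟨?_, ?_, ?_, fun s hs => ?_, ?_⟩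
  · simp only [Finset.forall_mem_image]
    exact fun B hB => (h.ne B hB).map
  · simp only [Finset.forall_mem_image]
    exact fun B hB => by rw [wt_eq_wd, ty_mv hg, ← wt_eq_wd, h.null B hB]
  · simp only [Finset.forall_mem_image]
    exact fun B hB => Finset.map_subset_map.2 (h.sub B hB)
  · obtain ⟨B, hB, hs'⟩ := h.cover _ (mem_mv.1 hs)
    exact ⟨mv g B, Finset.mem_image_of_mem _ hB, mem_mv.2 hs'⟩
  · simp only [Finset.forall_mem_image]
    exact fun B hB B' hB' hne => (Finset.disjoint_map _).2 (h.disj B hB B' hB' fun e => hne (e ▸ rfl))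

theorem pbwtau_sum_part {M : Type} [AddCommMonoid M] {S : Bk J} {π : Finset (Bk J)}
    (h : IsPart θ S π) {W : Bk J} (hW : W ⊆ S) (F : Pt J → M) :
    ∑ s ∈ W, F s = ∑ B ∈ π, ∑ s ∈ W ∩ B, F s := by
  rw [← Finset.sum_biUnion fun B hB B' hB' hne => (h.disj B hB B' hB' hne).mono
    Finset.inter_subset_right Finset.inter_subset_right]
  refine Finset.sum_congr ?_ fun _ _ => rfl
  ext s
  simp only [Finset.mem_biUnion, Finset.mem_inter]
  exact ⟨fun hs => (h.cover s (hW hs)).imp fun B hB => ⟨hB.1, hs, hB.2⟩, fun ⟨_, _, hs, _⟩ => hs⟩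

theorem IsPart.wt_eq {S : Bk J} {π : Finset (Bk J)} (h : IsPart θ S π) {W : Bk J} (hW : W ⊆ S) :
    wt θ W = ∑ B ∈ π, wt θ (W ∩ B) := by
  exact pbwtau_sum_part θ h hW _

theorem IsPart.ty_eq {S : Bk J} {π : Finset (Bk J)} (h : IsPart θ S π) : ty S = ∑ B ∈ π, ty B := by
  funext j
  simp only [ty, Finset.sum_apply, Finset.card_filter]
  rw [pbwtau_sum_part θ h subset_rfl]
  exact Finset.sum_congr rfl fun B hB => by rw [Finset.inter_eq_right.2 (h.sub B hB)]

theorem isPart_single {S : Bk J} (h : S.Nonempty) (h0 : wt θ S = 0) : IsPart θ S {S} := by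
  refine ⟨?_, ?_, ?_, fun s hs => ⟨S, Finset.mem_singleton_self S, hs⟩, ?_⟩ <;> simp [h, h0]

theorem isPart_empty : IsPart θ (∅ : Bk J) ∅ := by
  refine ⟨?_, ?_, ?_, ?_, ?_⟩ <;> simp

theorem dK_image {g : Equiv.Perm (Pt J)} (hg : g ∈ CP J) (π : Finset (Bk J)) :
    dK D (π.image (mv g)) = dK D π := by
  have hi := pbwtau_mv_inj g
  unfold dK
  rw [Finset.sum_image fun _ _ _ _ h => hi h]
  refine congrArg (· / 2) (Finset.sum_congr rfl fun B _ => ?_)
  rw [← Finset.image_erase hi, Finset.sum_image fun _ _ _ _ h => hi h]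
  simp only [ty_mv hg]

theorem Ip_rename {g : Equiv.Perm (Pt J)} (hg : g ∈ CP J) {π : Finset (Bk J)} {f : PR J}
    (hf : f ∈ Ip D θ π) : rename g f ∈ Ip D θ (π.image (mv g)) := by
  have : Ip D θ π ≤ (Ip D θ (π.image (mv g))).comap (rename g : PR J →ₐ[ℚ] PR J) :=
    iSup₂_le fun B hB f hf => (le_iSup₂ (f := fun B (_ : B ∈ π.image (mv g)) => IF D θ B) (mv g B)
      (Finset.mem_image_of_mem _ hB)) ((sysI D θ fun _ x => x < 0).Ie g hg B f hf)
  exact this hf

theorem pbwtau_le_Ip {π : Finset (Bk J)} {B : Bk J} (hB : B ∈ π) : IF D θ B ≤ Ip D θ π :=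
  le_iSup₂ (f := fun B (_ : B ∈ π) => IF D θ B) B hB

theorem Ip_graded (π : Finset (Bk J)) : Graded (IQ (Ip D θ π)) := by
  intro f hf n
  change f ∈ Ip D θ π at hf
  change _ ∈ Ip D θ π
  unfold Ip at hf
  rw [iSup_subtype'] at hf
  induction hf using Submodule.iSup_induction' with
  | mem B x hx => exact pbwtau_le_Ip D θ B.2 ((sysI D θ fun _ x => x < 0).Ig B.1 x hx n)
  | zero => rw [map_zero]; exact zero_mem _
  | add x y _ _ hx hy => rw [map_add]; exact add_mem hx hy

theorem IF_le_Ip {S : Bk J} {π : Finset (Bk J)} (h : IsPart θ S π) : IF D θ S ≤ Ip D θ π := by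
  refine Ideal.span_le.2 ?_
  rintro _ ⟨U, hU, hw, rfl⟩
  rw [h.wt_eq θ hU] at hw
  obtain ⟨B, hB, hlt⟩ : ∃ B ∈ π, wt θ (U ∩ B) < 0 := by
    by_contra hc
    push Not at hc
    exact absurd hw (not_lt.2 (Finset.sum_nonneg hc))
  have h1 : D.K (U ∩ B) (B \ (U ∩ B)) ∈ IF D θ B :=
    Ideal.subset_span ⟨U ∩ B, Finset.inter_subset_right, hlt, rfl⟩
  refine Ideal.mem_of_dvd _ (D.K_dvd Finset.inter_subset_left fun s hs => ?_)
    (pbwtau_le_Ip D θ hB h1)
  obtain ⟨h2, h3⟩ := Finset.mem_sdiff.1 hs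
  exact Finset.mem_sdiff.2 ⟨h.sub B hB h2, fun h4 => h3 (Finset.mem_inter.2 ⟨h4, h2⟩)⟩

/-- Kernels inside one block are invariant. -/
theorem tau_K_in {S : Bk J} {π : Finset (Bk J)} (h : IsPart θ S π) {B U W : Bk J} (hB : B ∈ π)
    (hU : U ⊆ B) (hW : W ⊆ B) : tau π (D.K U W) = Polynomial.C (C (D.K U W)) := by
  have key : ∀ s ∈ B, π.filter (s ∈ ·) = {B} := fun s hs => by
    ext B'
    simp only [Finset.mem_filter, Finset.mem_singleton]
    refine ⟨fun h' => by_contra fun hne => ?_, fun e => e ▸ ⟨hB, hs⟩⟩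
    exact Finset.disjoint_left.1 (h.disj B' h'.1 B hB hne) h'.2 hs
  simp only [Dat.K, map_prod, map_pow]
  refine Finset.prod_congr rfl fun s hs => Finset.prod_congr rfl fun t ht => ?_
  rw [map_sub, pbwtau_X, pbwtau_X, key s (hU hs), key t (hW ht), map_sub, map_sub]
  ring

/-- the polynomials all of whose coefficients lie in `I` -/
def pbwtau_St (π : Finset (Bk J)) (I : Ideal (PR J)) : Ideal (PR J) where
  carrier := {f | ∀ n μ, cf π f n μ ∈ I}
  zero_mem' := fun n μ => by rw [pbwdef_cf_zero]; exact zero_mem _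
  add_mem' := fun ha hb n μ => by rw [cf_add]; exact add_mem (ha n μ) (hb n μ)
  smul_mem' := fun c f hf n μ => by
    rw [smul_eq_mul, pbwtau_cf_mul]
    exact sum_mem fun p _ => sum_mem fun q _ => I.mul_mem_left _ (hf _ _)

theorem pbwtau_mem_St {π : Finset (Bk J)} {I : Ideal (PR J)} {f : PR J}
    (h : tau π f = Polynomial.C (C f)) (hf : f ∈ I) : f ∈ pbwtau_St π I := fun n μ => by
  rw [pbwtau_cf_const h]
  split_ifs
  · exact hf
  · exact zero_mem _

/-- An ideal generated by invariant elements is stable. -/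
theorem cf_mem_of_span {π : Finset (Bk J)} {T : Set (PR J)}
    (h : ∀ f ∈ T, tau π f = Polynomial.C (C f)) {f : PR J} (hf : f ∈ Ideal.span T) (n : ℕ)
    (μ : Bk J →₀ ℕ) : cf π f n μ ∈ Ideal.span T := by
  have : Ideal.span T ≤ pbwtau_St π (Ideal.span T) :=
    Ideal.span_le.2 fun f hf => pbwtau_mem_St (h f hf) (Ideal.subset_span hf)
  exact this hf n μ

theorem cf_mem_Ip {S : Bk J} {π : Finset (Bk J)} (h : IsPart θ S π) {f : PR J} (hf : f ∈ Ip D θ π)
    (n : ℕ) (μ : Bk J →₀ ℕ) : cf π f n μ ∈ Ip D θ π := by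
  have : Ip D θ π ≤ pbwtau_St π (Ip D θ π) := by
    refine iSup₂_le fun B hB => Ideal.span_le.2 ?_
    rintro _ ⟨U, hU, hw, rfl⟩
    exact pbwtau_mem_St (tau_K_in D θ h hB hU Finset.sdiff_subset)
      (pbwtau_le_Ip D θ hB (Ideal.subset_span ⟨U, hU, hw, rfl⟩))
  exact this hf n μ

/-- For any strict total order on the blocks, the ordered sum of the arrow numbers is `dK`. -/
theorem sum_order_eq_dK (hsym : SymNull D θ) {κ : Type} (x : Finset κ) (B : κ → Bk J)
    (hinj : ∀ y ∈ x, ∀ y' ∈ x, B y = B y' → y = y') (hnull : ∀ y ∈ x, wt θ (B y) = 0)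
    (r : κ → κ → Prop) [IsStrictTotalOrder κ r] [DecidableRel r] :
    ∑ y ∈ x, ∑ y' ∈ x.filter (r y), aa D.a (ty (B y)) (ty (B y')) = dK D (x.image B) := by
  classical
  have h1 : ∀ y ∈ x, ∑ B' ∈ (x.image B).erase (B y), aa D.a (ty (B y)) (ty B') =
      ∑ y' ∈ x.filter (r y), aa D.a (ty (B y)) (ty (B y')) +
        ∑ y' ∈ x.filter (r · y), aa D.a (ty (B y')) (ty (B y)) := by
    intro y hy
    have e1 : (x.image B).erase (B y) = (x.filter (r y) ∪ x.filter (r · y)).image B := by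
      ext B'
      simp only [Finset.mem_erase, Finset.mem_image, Finset.mem_union, Finset.mem_filter]
      constructor
      · rintro ⟨hne, y', hy', rfl⟩
        refine ⟨y', ?_, rfl⟩
        rcases trichotomous_of r y y' with h | h | h
        · exact Or.inl ⟨hy', h⟩
        · exact absurd (h ▸ rfl) hne
        · exact Or.inr ⟨hy', h⟩
      · rintro ⟨y', h, rfl⟩
        have hy' : y' ∈ x := h.elim And.left And.left
        refine ⟨fun e => ?_, y', hy', rfl⟩
        obtain rfl := hinj _ hy' _ hy e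
        exact irrefl_of r y' (h.elim And.right And.right)
    have hsub : ∀ z ∈ x.filter (r y) ∪ x.filter (r · y), z ∈ x := fun z hz =>
      (Finset.mem_union.1 hz).elim (fun h => (Finset.mem_filter.1 h).1)
        fun h => (Finset.mem_filter.1 h).1
    rw [e1, Finset.sum_image fun a ha b hb => hinj a (hsub a ha) b (hsub b hb), Finset.sum_union]
    · congr 1
      refine Finset.sum_congr rfl fun y' hy' => hsym _ _ ?_ ?_
      · rw [← wt_eq_wd, hnull y hy]
      · rw [← wt_eq_wd, hnull y' (Finset.mem_filter.1 hy').1]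
    · exact Finset.disjoint_filter.2 fun z _ h h' => asymm_of r h h'
  have h2 : ∑ y ∈ x, ∑ y' ∈ x.filter (r · y), aa D.a (ty (B y')) (ty (B y)) =
      ∑ y ∈ x, ∑ y' ∈ x.filter (r y), aa D.a (ty (B y)) (ty (B y')) := by
    simp only [Finset.sum_filter]
    exact Finset.sum_comm
  unfold dK
  rw [Finset.sum_image hinj, Finset.sum_congr rfl h1, Finset.sum_add_distrib, h2]
  omega

theorem pbwtau_cf_hc {π : Finset (Bk J)} {f : PR J} {i : ℕ} {μ : Bk J →₀ ℕ}
    (h : cf π f i μ ∈ Ip D θ π) (n : ℕ) : cf π (homogeneousComponent n f) i μ ∈ Ip D θ π := by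
  rcases lt_or_ge n i with hn | hn
  · rw [cf_eq_zero_of_lt π ((homogeneousComponent_isHomogeneous n f).totalDegree_le.trans_lt hn)]
    exact zero_mem _
  · obtain ⟨k, rfl⟩ := Nat.exists_eq_add_of_le' hn
    rw [cf_homogeneousComponent]
    exact Ip_graded D θ π _ h k

theorem pbwtau_pull {g : Equiv.Perm (Pt J)} (hg : g ∈ CP J) {S : Bk J} {π' : Finset (Bk J)}
    (h : IsPart θ (mv g S) π') : ∃ π, IsPart θ S π ∧ π' = π.image (mv g) := by
  refine ⟨π'.image (mv g⁻¹), ?_, ?_⟩
  · have := h.image θ ((CP J).inv_mem hg)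
    rwa [← mv_mul, inv_mul_cancel, mv_one] at this
  · rw [Finset.image_image]
    refine (Finset.image_id.symm.trans (Finset.image_congr fun B _ => ?_))
    simp [← mv_mul, mv_one]

theorem pbwtau_pull' (g : Equiv.Perm (Pt J)) (μ' : Bk J →₀ ℕ) :
    ∃ μ : Bk J →₀ ℕ, μ' = μ.mapDomain (mv g) := by
  refine ⟨μ'.mapDomain (mv g⁻¹), ?_⟩
  rw [← Finsupp.mapDomain_comp]
  refine Finsupp.mapDomain_id.symm.trans (Finsupp.mapDomain_congr fun B _ => ?_)
  simp [← mv_mul, mv_one]

/-- The system of BPS spaces. -/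
def sysL : Sys J where
  I := IF D θ
  L := L0 D θ
  gen := (sysI D θ fun _ x => x < 0).gen
  Ig := (sysI D θ fun _ x => x < 0).Ig
  Lg S f hf n := ⟨RS_graded S f hf.1 n, fun π hπ i hi μ => pbwtau_cf_hc D θ (hf.2 π hπ i hi μ) n⟩
  Lle _ _ hf := hf.1
  Ie := (sysI D θ fun _ x => x < 0).Ie
  Le g hg S f hf := ⟨RS_rename hf.1 g, fun π' hπ i hi μ' => by
    obtain ⟨π, h1, rfl⟩ := pbwtau_pull θ hg hπ
    obtain ⟨μ, rfl⟩ := pbwtau_pull' g μ'
    rw [bd0, dK_image D hg, Finset.card_image_of_injective _ (pbwtau_mv_inj g)] at hi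
    rw [cf_rename]
    exact Ip_rename D θ hg (hf.2 π h1 i hi μ)⟩

theorem FF_mono (S : Bk J) : Monotone (FF D θ S) := by
  intro n m h f hf π hπ i μ h'
  exact (hf π hπ i μ h').trans_le (by exact_mod_cast h)

theorem FF_rename {S : Bk J} (n : ℕ) {g : Equiv.Perm (Pt J)} (hg : g ∈ GS S) {f : PR J}
    (hf : f ∈ FF D θ S n) : rename g f ∈ FF D θ S n := by
  intro π' hπ i μ' h
  rw [← mv_of_GS hg] at hπ
  obtain ⟨π, h1, rfl⟩ := pbwtau_pull θ hg.1 hπ
  obtain ⟨μ, rfl⟩ := pbwtau_pull' g μ'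
  rw [dK_image D hg.1, Finset.card_image_of_injective _ (pbwtau_mv_inj g)]
  rw [cf_rename] at h
  exact hf π h1 i μ fun h2 => h (Ip_rename D θ hg.1 h2)

/-- `FF S 0 ⊆ IF S` by the trivial partition (`dK = 0`).  Conversely `IF S ≤ Ip π` and `cf_mem_Ip`. -/
theorem FF_zero {S : Bk J} (h0 : wt θ S = 0) : FF D θ S 0 = IQ (IF D θ S) := by
  ext f
  refine ⟨fun hf => ?_, fun hf π hπ i μ h => absurd (cf_mem_Ip D θ hπ (IF_le_Ip D θ hπ hf) i μ) h⟩
  by_contra hc
  rcases S.eq_empty_or_nonempty with rfl | hS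
  · have := hf ∅ (isPart_empty θ) 0 0 (by
      rw [cf_zero_zero]
      intro h
      have h' : f = 0 := by simpa [Ip] using h
      exact hc (h' ▸ zero_mem _))
    simp [dK] at this
  · have := hf {S} (isPart_single θ hS h0) 0 0 (by
      rw [cf_zero_zero]
      intro h
      exact hc (by simpa [Ip] using h))
    simp [dK] at this

theorem exists_mem_FF (S : Bk J) (f : PR J) : ∃ n, f ∈ FF D θ S n := by
  refine ⟨(f.totalDegree + 1) * (S.card + 1), fun π hπ i μ h => ?_⟩
  have h1 : i ≤ f.totalDegree := not_lt.1 fun h' => h (by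
    rw [cf_eq_zero_of_lt π h']; exact zero_mem _)
  have h2 : (π.card : ℤ) ≤ S.card := by exact_mod_cast hπ.card_le θ
  have h3 : (i : ℤ) - dK D π ≤ f.totalDegree := by omega
  have h4 := mul_le_mul_of_nonneg_right h3 (show (0 : ℤ) ≤ S.card + 1 by positivity)
  push_cast
  linarith

theorem pbwtau_arith {i d m c p k : ℕ} (hp : p ≤ c) (hk : k ≤ c) :
    ((i : ℤ) - d) * (c + 1) + p < (m * (c + 1) + k + 1 : ℕ) ↔ i < m + d + if p ≤ k then 1 else 0 := by
  push_cast
  have hc : (0 : ℤ) ≤ c + 1 := by positivity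
  rcases lt_trichotomy i (m + d) with h | h | h
  · have h1 := mul_le_mul_of_nonneg_right (show (i : ℤ) - d ≤ m - 1 by omega) hc
    exact iff_of_true (by linarith [show (p : ℤ) ≤ c by omega, show (0 : ℤ) ≤ k by omega]) (by omega)
  · rw [show (i : ℤ) - d = m by omega]
    split_ifs <;> omega
  · have h1 := mul_le_mul_of_nonneg_right (show (m : ℤ) + 1 ≤ i - d by omega) hc
    exact iff_of_false
      (not_lt.2 (by linarith [show (k : ℤ) ≤ c by omega, show (0 : ℤ) ≤ p by omega]))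
      (by split_ifs <;> omega)

theorem mem_FF_succ_iff {S : Bk J} {m k : ℕ} (hk : k ≤ S.card) {f : PR J} :
    f ∈ FF D θ S (m * (S.card + 1) + k + 1) ↔ ∀ π, IsPart θ S π →
      ZLt π (Ip D θ π) (m + dK D π + if π.card ≤ k then 1 else 0) f := by
  refine forall₂_congr fun π hπ => forall_congr' fun i => ?_
  rw [← not_lt, ← pbwtau_arith (hπ.card_le θ) hk]
  exact ⟨fun h h' μ => by_contra fun h'' => h' (h μ h''), fun h μ h' => by_contra fun h'' => h' (h h'' μ)⟩

theorem mem_FF_of_top {S : Bk J} {m k : ℕ} (hk : k ≤ S.card) {f : PR J}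
    (hf : f ∈ FF D θ S (m * (S.card + 1) + k + 1))
    (h : ∀ π, IsPart θ S π → π.card = k → (tb π (Ip D θ π) f).coeff (m + dK D π) = 0) :
    f ∈ FF D θ S (m * (S.card + 1) + k) := by
  intro π hπ i μ h'
  have h1 := hf π hπ i μ h'
  have h2 := (pbwtau_arith (hπ.card_le θ) hk).1 h1
  have hp := hπ.card_le θ
  refine lt_of_le_of_ne (by push_cast at h1 ⊢; omega) fun e => h' ?_
  push_cast at e
  have hi : i = m + dK D π := by
    by_contra hne
    have h3 := mul_le_mul_of_nonneg_right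
      (show (i : ℤ) - dK D π ≤ m - 1 by split_ifs at h2 <;> omega)
      (show (0 : ℤ) ≤ S.card + 1 by positivity)
    linarith [show (π.card : ℤ) ≤ S.card by omega, show (0 : ℤ) ≤ k by omega]
  rw [show (i : ℤ) - dK D π = m by omega] at e
  rw [← Ideal.Quotient.eq_zero_iff_mem, ← coeff_tb, hi, h π hπ (by omega), coeff_zero]

theorem top_eq_zero_of_mem_FF {S : Bk J} {m k : ℕ} {f : PR J}
    (hf : f ∈ FF D θ S (m * (S.card + 1) + k)) {π : Finset (Bk J)} (hπ : IsPart θ S π)
    (hk : π.card = k) : (tb π (Ip D θ π) f).coeff (m + dK D π) = 0 := by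
  ext μ
  rw [coeff_tb, coeff_zero, Ideal.Quotient.eq_zero_iff_mem]
  by_contra h
  have := hf π hπ _ μ h
  push_cast at this
  rw [add_sub_cancel_right, hk] at this
  exact lt_irrefl _ this

end

end Crest.Agent.R59
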