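import Crest.Agent.R59.PbwTau

/-!
# R59/PbwTwo: translating in two steps (refinement and coarsening)

Both statements compare two ring homomorphisms out of `PR J` that agree on the variables.
-/

set_option autoImplicit false
set_option linter.unusedSectionVars false
set_option linter.unusedVariables false

namespace Crest.Agent.R59

noncomputable section

open MvPolynomial

variable {J : Type} [Fintype J] [DecidableEq J] (D : Dat J) (θ : J → ℤ)

theorem IsPart.refine {S : Bk J} {π π₀ : Finset (Bk J)} (h : IsPart θ S π) {B₀ : Bk J} (hB : B₀ ∈ π)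
    (h₀ : IsPart θ B₀ π₀) : IsPart θ S (π.erase B₀ ∪ π₀) := by
  refine ⟨fun B hB' => ?_, fun B hB' => ?_, fun B hB' => ?_, fun s hs => ?_,
    fun B hB1 B' hB2 hne => ?_⟩
  · rcases Finset.mem_union.1 hB' with h1 | h1
    · exact h.ne B (Finset.mem_of_mem_erase h1)
    · exact h₀.ne B h1
  · rcases Finset.mem_union.1 hB' with h1 | h1
    · exact h.null B (Finset.mem_of_mem_erase h1)
    · exact h₀.null B h1
  · rcases Finset.mem_union.1 hB' with h1 | h1
    · exact h.sub B (Finset.mem_of_mem_erase h1)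
    · exact (h₀.sub B h1).trans (h.sub B₀ hB)
  · obtain ⟨B, hB1, hs1⟩ := h.cover s hs
    by_cases h1 : B = B₀
    · obtain ⟨B', hB2, hs2⟩ := h₀.cover s (h1 ▸ hs1)
      exact ⟨B', Finset.mem_union_right _ hB2, hs2⟩
    · exact ⟨B, Finset.mem_union_left _ (Finset.mem_erase.2 ⟨h1, hB1⟩), hs1⟩
  · rcases Finset.mem_union.1 hB1 with h1 | h1 <;> rcases Finset.mem_union.1 hB2 with h2 | h2
    · exact h.disj B (Finset.mem_of_mem_erase h1) B' (Finset.mem_of_mem_erase h2) hne
    · exact (h.disj B (Finset.mem_of_mem_erase h1) B₀ hB (Finset.ne_of_mem_erase h1)).mono_right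
        (h₀.sub B' h2)
    · exact (h.disj B' (Finset.mem_of_mem_erase h2) B₀ hB
        (Finset.ne_of_mem_erase h2)).symm.mono_left (h₀.sub B h1)
    · exact h₀.disj B h1 B' h2 hne

theorem pbwtwo_disj {S : Bk J} {π π₀ : Finset (Bk J)} (h : IsPart θ S π) {B₀ : Bk J} (hB : B₀ ∈ π)
    (h₀ : IsPart θ B₀ π₀) : Disjoint (π.erase B₀) π₀ := by
  refine Finset.disjoint_left.2 fun B h1 h2 => ?_
  obtain ⟨s, hs⟩ := h₀.ne B h2
  exact Finset.disjoint_left.1
    (h.disj B (Finset.mem_of_mem_erase h1) B₀ hB (Finset.ne_of_mem_erase h1)) hs (h₀.sub B h2 hs)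

theorem card_refine {S : Bk J} {π π₀ : Finset (Bk J)} (h : IsPart θ S π) {B₀ : Bk J} (hB : B₀ ∈ π)
    (h₀ : IsPart θ B₀ π₀) : (π.erase B₀ ∪ π₀).card + 1 = π.card + π₀.card := by
  rw [Finset.card_union_of_disjoint (pbwtwo_disj θ h hB h₀), ← Finset.card_erase_add_one hB]
  omega

/-- twice `dK` -/
def pbwtwo_T (π : Finset (Bk J)) : ℕ := ∑ B ∈ π, ∑ B' ∈ π.erase B, aa D.a (ty B) (ty B')

theorem pbwtwo_T_union {a b : Finset (Bk J)} (h : Disjoint a b) :
    pbwtwo_T D (a ∪ b) = pbwtwo_T D a + pbwtwo_T D b +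
      ∑ B ∈ a, ∑ B' ∈ b, (aa D.a (ty B) (ty B') + aa D.a (ty B') (ty B)) := by
  unfold pbwtwo_T
  have h1 : ∀ B ∈ a, ∑ B' ∈ (a ∪ b).erase B, aa D.a (ty B) (ty B') =
      ∑ B' ∈ a.erase B, aa D.a (ty B) (ty B') + ∑ B' ∈ b, aa D.a (ty B) (ty B') := fun B hB => by
    rw [Finset.erase_union_distrib, Finset.erase_eq_of_notMem (Finset.disjoint_left.1 h hB),
      Finset.sum_union (h.mono_left (Finset.erase_subset _ _))]
  have h2 : ∀ B ∈ b, ∑ B' ∈ (a ∪ b).erase B, aa D.a (ty B) (ty B') =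
      ∑ B' ∈ a, aa D.a (ty B) (ty B') + ∑ B' ∈ b.erase B, aa D.a (ty B) (ty B') := fun B hB => by
    rw [Finset.erase_union_distrib, Finset.erase_eq_of_notMem (Finset.disjoint_right.1 h hB),
      Finset.sum_union (h.mono_right (Finset.erase_subset _ _))]
  rw [Finset.sum_union h, Finset.sum_congr rfl h1, Finset.sum_congr rfl h2]
  simp only [Finset.sum_add_distrib]
  rw [Finset.sum_comm (s := b) (t := a)]
  ring

theorem pbwtwo_T_single (B : Bk J) : pbwtwo_T D {B} = 0 := by simp [pbwtwo_T]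

theorem pbwtwo_sym (hsym : SymNull D θ) {B B' : Bk J} (h : wt θ B = 0) (h' : wt θ B' = 0) :
    aa D.a (ty B) (ty B') = aa D.a (ty B') (ty B) :=
  hsym _ _ (by rw [← wt_eq_wd, h]) (by rw [← wt_eq_wd, h'])

theorem pbwtwo_even (hsym : SymNull D θ) (π : Finset (Bk J)) (h : ∀ B ∈ π, wt θ B = 0) :
    Even (pbwtwo_T D π) := by
  induction π using Finset.induction_on with
  | empty => simp [pbwtwo_T]
  | insert B π hB ih =>
    rw [Finset.insert_eq, pbwtwo_T_union D (Finset.disjoint_singleton_left.2 hB), pbwtwo_T_single,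
      zero_add, Finset.sum_singleton]
    refine (ih fun B' h' => h B' (Finset.mem_insert_of_mem h')).add
      (Finset.even_sum _ fun B' h' => ?_)
    rw [pbwtwo_sym D θ hsym (h B (Finset.mem_insert_self _ _)) (h B' (Finset.mem_insert_of_mem h'))]
    exact ⟨_, rfl⟩

theorem pbwtwo_aa_sum (a : J → J → ℕ) (d : J → ℕ) (π : Finset (Bk J)) :
    aa a d (∑ B ∈ π, ty B) + aa a (∑ B ∈ π, ty B) d =
      ∑ B ∈ π, (aa a d (ty B) + aa a (ty B) d) := by
  induction π using Finset.induction_on with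
  | empty => simp [aa]
  | insert B π hB ih =>
    rw [Finset.sum_insert hB, Finset.sum_insert hB, aa_add_left, aa_add_right, ← ih]
    ring

theorem dK_refine (hsym : SymNull D θ) {S : Bk J} {π π₀ : Finset (Bk J)} (h : IsPart θ S π)
    {B₀ : Bk J} (hB : B₀ ∈ π) (h₀ : IsPart θ B₀ π₀) :
    dK D (π.erase B₀ ∪ π₀) = dK D π + dK D π₀ := by
  have h1 := pbwtwo_T_union D (pbwtwo_disj θ h hB h₀)
  have h2 := pbwtwo_T_union D (a := π.erase B₀) (b := {B₀}) (by simp)
  rw [Finset.union_comm, ← Finset.insert_eq, Finset.insert_erase hB, pbwtwo_T_single] at h2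
  simp only [Finset.sum_singleton, h₀.ty_eq, pbwtwo_aa_sum] at h2
  obtain ⟨k, hk⟩ := pbwtwo_even D θ hsym π₀ h₀.null
  change pbwtwo_T D _ / 2 = pbwtwo_T D _ / 2 + pbwtwo_T D _ / 2
  omega

theorem pbwtwo_sum_ite {S : Bk J} {π : Finset (Bk J)} (h : IsPart θ S π) {M : Type}
    [AddCommMonoid M] (s : Pt J) (c : M) :
    (∑ B ∈ π, if s ∈ B then c else 0) = if s ∈ S then c else 0 := by
  by_cases hs : s ∈ S
  · obtain ⟨B, hB, hsB⟩ := h.cover s hs
    rw [if_pos hs, Finset.sum_eq_single_of_mem B hB, if_pos hsB]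
    intro B' hB' hne
    exact if_neg (Finset.disjoint_right.1 (h.disj B' hB' B hB hne) hsB)
  · rw [if_neg hs]
    exact Finset.sum_eq_zero fun B hB => if_neg fun h1 => hs (h.sub B hB h1)

theorem pbwtwo_tau_X (π : Finset (Bk J)) (s : Pt J) : tau π (X s : PR J) =
    Polynomial.C (C (X s)) + Polynomial.C (∑ B ∈ π, if s ∈ B then X B else 0) * Polynomial.X := by
  rw [tau, aeval_X, Finset.sum_filter]

theorem pbwtwo_tb_X (π : Finset (Bk J)) (I : Ideal (PR J)) (s : Pt J) : tb π I (X s : PR J) =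
    Polynomial.C (C (Ideal.Quotient.mk I (X s))) +
      Polynomial.C (∑ B ∈ π, if s ∈ B then X B else 0) * Polynomial.X := by
  change Polynomial.map _ (tau π (X s)) = _
  rw [pbwtwo_tau_X, Polynomial.map_add, Polynomial.map_mul, Polynomial.map_C, Polynomial.map_C,
    Polynomial.map_X, map_C, map_sum]
  congr 3
  refine Finset.sum_congr rfl fun B _ => ?_
  split_ifs <;> simp

theorem pbwtwo_coeff {σ Z Z' : Type} [CommRing Z] [CommRing Z']
    (l : Z' →+* Polynomial (MvPolynomial σ Z)) {p : Polynomial Z'} {N j : ℕ} (hp : p.degree < N)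
    (hj : N ≤ j) (n : ℕ) (μ : σ →₀ ℕ) :
    (coeff μ ((p.eval₂ ((Polynomial.mapRingHom (MvPolynomial.map Polynomial.C)).comp l)
      (Polynomial.C (C Polynomial.X))).coeff n)).coeff j = 0 := by
  rw [Polynomial.eval₂_eq_sum, Polynomial.sum, Polynomial.finsetSum_coeff, coeff_sum,
    Polynomial.finsetSum_coeff]
  refine Finset.sum_eq_zero fun k hk => ?_
  have h1 : k < N := by exact_mod_cast (Polynomial.le_degree_of_mem_supp k hk).trans_lt hp
  rw [← map_pow, ← map_pow, Polynomial.coeff_mul_C, mul_comm, coeff_C_mul, RingHom.comp_apply,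
    Polynomial.coe_mapRingHom, Polynomial.coeff_map, coeff_map, mul_comm,
    Polynomial.coeff_C_mul_X_pow, if_neg (by omega)]

/-- the substitution of the block variables for a refinement -/
def pbwtwo_l (A : Type) [CommRing A] (B₀ : Bk J) (π₀ : Finset (Bk J)) : MvPolynomial (Bk J) A →+*
    Polynomial (MvPolynomial (Bk J) (MvPolynomial (Bk J) A)) :=
  eval₂Hom (Polynomial.C.comp (C.comp C)) fun B =>
    if B ∈ π₀ then Polynomial.C (X B₀) * Polynomial.X + Polynomial.C (C (X B))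
    else Polynomial.C (X B) * Polynomial.X

theorem pbwtwo_l_C (A : Type) [CommRing A] (B₀ : Bk J) (π₀ : Finset (Bk J)) (c : A) :
    pbwtwo_l A B₀ π₀ (C c) = Polynomial.C (C (C c)) := by simp [pbwtwo_l]

theorem pbwtwo_l_sum (A : Type) [CommRing A] {S : Bk J} {π π₀ : Finset (Bk J)} (h : IsPart θ S π)
    {B₀ : Bk J} (hB : B₀ ∈ π) (h₀ : IsPart θ B₀ π₀) (s : Pt J) :
    pbwtwo_l A B₀ π₀ (∑ B ∈ π.erase B₀ ∪ π₀, if s ∈ B then X B else 0) =
      Polynomial.C (∑ B ∈ π, if s ∈ B then X B else 0) * Polynomial.X +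
        Polynomial.C (C (∑ B ∈ π₀, if s ∈ B then X B else 0)) := by
  have e1 : ∀ B ∈ π.erase B₀, pbwtwo_l A B₀ π₀ (if s ∈ B then X B else 0) =
      Polynomial.C (if s ∈ B then X B else 0) * Polynomial.X := fun B hB' => by
    have : B ∉ π₀ := Finset.disjoint_left.1 (pbwtwo_disj θ h hB h₀) hB'
    split_ifs <;> simp [pbwtwo_l, this]
  have e2 : ∀ B ∈ π₀, pbwtwo_l A B₀ π₀ (if s ∈ B then X B else 0) =
      Polynomial.C (if s ∈ B then X B₀ else 0) * Polynomial.X +
        Polynomial.C (C (if s ∈ B then X B else 0)) := fun B hB' => by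
    split_ifs <;> simp [pbwtwo_l, hB']
  rw [map_sum, Finset.sum_union (pbwtwo_disj θ h hB h₀), Finset.sum_congr rfl e1,
    Finset.sum_congr rfl e2, Finset.sum_add_distrib, ← Finset.sum_mul, ← Finset.sum_mul,
    ← map_sum, ← map_sum, ← map_sum, ← map_sum, pbwtwo_sum_ite θ h₀,
    ← Finset.add_sum_erase π _ hB, map_add]
  ring

theorem pbwtwo_map_sum {A A' : Type} [CommSemiring A] [CommSemiring A'] (φ : A →+* A') (π : Finset (Bk J))
    (s : Pt J) : MvPolynomial.map φ (∑ B ∈ π, if s ∈ B then X B else 0) =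
      ∑ B ∈ π, if s ∈ B then X B else 0 := by
  rw [map_sum]
  refine Finset.sum_congr rfl fun B _ => ?_
  split_ifs <;> simp

theorem pbwtwo_keyX {S : Bk J} {π π₀ : Finset (Bk J)} (h : IsPart θ S π) {B₀ : Bk J} (hB : B₀ ∈ π)
    (h₀ : IsPart θ B₀ π₀) (I : Ideal (PR J)) (s : Pt J) :
    (tb (π.erase B₀ ∪ π₀) I (X s)).eval₂
      ((Polynomial.mapRingHom (MvPolynomial.map Polynomial.C)).comp (pbwtwo_l (PR J ⧸ I) B₀ π₀))
        (Polynomial.C (C Polynomial.X)) =
      ((tau π (X s)).map (MvPolynomial.map (tb π₀ I))).comp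
        (Polynomial.C (C Polynomial.X) * Polynomial.X) := by
  rw [pbwtwo_tb_X, pbwtwo_tau_X, Polynomial.eval₂_add, Polynomial.eval₂_mul, Polynomial.eval₂_C,
    Polynomial.eval₂_C, Polynomial.eval₂_X, RingHom.comp_apply, RingHom.comp_apply,
    pbwtwo_l_sum θ _ h hB h₀, pbwtwo_l_C, Polynomial.coe_mapRingHom, Polynomial.map_add,
    Polynomial.map_add, Polynomial.map_mul, Polynomial.map_mul, Polynomial.map_C,
    Polynomial.map_C, Polynomial.map_C, Polynomial.map_C, Polynomial.map_C, Polynomial.map_X,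
    Polynomial.map_X, map_C, map_C, map_C, pbwtwo_map_sum, pbwtwo_map_sum, pbwtwo_tb_X,
    Polynomial.add_comp, Polynomial.mul_comp, Polynomial.C_comp, Polynomial.C_comp,
    Polynomial.X_comp, map_add, map_add, map_mul, map_mul]
  ring

theorem pbwtwo_key {S : Bk J} {π π₀ : Finset (Bk J)} (h : IsPart θ S π) {B₀ : Bk J} (hB : B₀ ∈ π)
    (h₀ : IsPart θ B₀ π₀) (I : Ideal (PR J)) (f : PR J) :
    (tb (π.erase B₀ ∪ π₀) I f).eval₂
      ((Polynomial.mapRingHom (MvPolynomial.map Polynomial.C)).comp (pbwtwo_l (PR J ⧸ I) B₀ π₀))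
        (Polynomial.C (C Polynomial.X)) =
      ((tau π f).map (MvPolynomial.map (tb π₀ I))).comp
        (Polynomial.C (C Polynomial.X) * Polynomial.X) := by
  induction f using MvPolynomial.induction_on with
  | C q =>
    have e1 : tau π (C q) = Polynomial.C (C (C q)) := by
      rw [tau, aeval_C]; rfl
    have e2 : ∀ π', tb π' I (C q) = Polynomial.C (C (Ideal.Quotient.mk I (C q))) := fun π' => by
      change Polynomial.map _ (tau π' (C q)) = _
      rw [tau, aeval_C, Polynomial.algebraMap_apply, Polynomial.map_C,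
        MvPolynomial.algebraMap_apply, map_C]
      rfl
    rw [e1, e2, Polynomial.eval₂_C, RingHom.comp_apply, pbwtwo_l_C, Polynomial.coe_mapRingHom,
      Polynomial.map_C, Polynomial.map_C, map_C, map_C, e2, Polynomial.C_comp]
  | add p q hp hq =>
    rw [map_add, map_add, Polynomial.eval₂_add, Polynomial.map_add, Polynomial.add_comp, hp, hq]
  | mul_X p s hp =>
    rw [map_mul (tb _ I), map_mul (tau π), Polynomial.eval₂_mul, Polynomial.map_mul,
      Polynomial.mul_comp, hp, pbwtwo_keyX θ h hB h₀]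

/-- Let `π' = π.erase B₀ ∪ π₀`.  Substituting `z_{B'} ↦ t y_B + t' w_{B'}` (for `B' ∈ π₀`, `B = B₀`) and
`z_B ↦ t y_B` (other blocks), `t ↦ 1`, in `tau π' f` gives `tau π₀` applied to the coefficients of
`tau π f`.  The coefficient of `t^i` in `tau π' f` is homogeneous of degree `i` in `z`
(`tau_coeff_hom`), so it only contributes to `t^n t'^{n'}` with `n + n' = i`. -/
theorem refine_top {S : Bk J} {π π₀ : Finset (Bk J)} (h : IsPart θ S π) {B₀ : Bk J} (hB : B₀ ∈ π)
    (h₀ : IsPart θ B₀ π₀) {I : Ideal (PR J)} {f : PR J} {n e : ℕ}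
    (hf : ZLt (π.erase B₀ ∪ π₀) I (n + e) f) (μ : Bk J →₀ ℕ) : ZLt π₀ I e (cf π f n μ) := by
  intro i hi ν
  have h1 := pbwtwo_coeff (pbwtwo_l (PR J ⧸ I) B₀ π₀) (zlt_iff.1 hf) (Nat.add_le_add_left hi n) n μ
  rw [pbwtwo_key θ h hB h₀, Polynomial.comp_C_mul_X_coeff, ← map_pow, mul_comm, coeff_C_mul,
    Polynomial.coeff_map, coeff_map, add_comm, Polynomial.coeff_X_pow_mul] at h1
  have h3 := coeff_tb π₀ I (cf π f n μ) i ν
  rw [cf, h1, coeff_zero] at h3
  exact Ideal.Quotient.eq_zero_iff_mem.1 h3.symm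

theorem IsPart.merge {S : Bk J} {π : Finset (Bk J)} (h : IsPart θ S π) {B₁ B₂ : Bk J} (h₁ : B₁ ∈ π)
    (h₂ : B₂ ∈ π) (hne : B₁ ≠ B₂) : IsPart θ S (insert (B₁ ∪ B₂) ((π.erase B₁).erase B₂)) := by
  have hm : ∀ B ∈ (π.erase B₁).erase B₂, B ∈ π ∧ Disjoint B (B₁ ∪ B₂) := fun B hB => by
    have a1 := Finset.mem_erase.1 hB
    have a2 := Finset.mem_erase.1 a1.2
    exact ⟨a2.2, Finset.disjoint_union_right.2 ⟨h.disj B a2.2 B₁ h₁ a2.1, h.disj B a2.2 B₂ h₂ a1.1⟩⟩
  refine ⟨fun B hB => ?_, fun B hB => ?_, fun B hB => ?_, fun s hs => ?_,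
    fun B hB B' hB' hne' => ?_⟩
  · rcases Finset.mem_insert.1 hB with rfl | h1
    · exact (h.ne B₁ h₁).mono Finset.subset_union_left
    · exact h.ne B (hm B h1).1
  · rcases Finset.mem_insert.1 hB with rfl | h1
    · have a1 := h.null B₁ h₁
      have a2 := h.null B₂ h₂
      unfold wt at a1 a2 ⊢
      rw [Finset.sum_union (h.disj B₁ h₁ B₂ h₂ hne), a1, a2, add_zero]
    · exact h.null B (hm B h1).1
  · rcases Finset.mem_insert.1 hB with rfl | h1
    · exact Finset.union_subset (h.sub B₁ h₁) (h.sub B₂ h₂)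
    · exact h.sub B (hm B h1).1
  · obtain ⟨B, hB, hsB⟩ := h.cover s hs
    by_cases a1 : B = B₁
    · exact ⟨_, Finset.mem_insert_self _ _, Finset.mem_union_left _ (a1 ▸ hsB)⟩
    by_cases a2 : B = B₂
    · exact ⟨_, Finset.mem_insert_self _ _, Finset.mem_union_right _ (a2 ▸ hsB)⟩
    exact ⟨B, Finset.mem_insert_of_mem
      (Finset.mem_erase.2 ⟨a2, Finset.mem_erase.2 ⟨a1, hB⟩⟩), hsB⟩
  · rcases Finset.mem_insert.1 hB with rfl | h1 <;> rcases Finset.mem_insert.1 hB' with rfl | h2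
    · exact absurd rfl hne'
    · exact (hm B' h2).2.symm
    · exact (hm B h1).2
    · exact h.disj B (hm B h1).1 B' (hm B' h2).1 hne'

theorem pbwtwo_notMem {S : Bk J} {π : Finset (Bk J)} (h : IsPart θ S π) {B₁ B₂ : Bk J}
    (h₁ : B₁ ∈ π) : B₁ ∪ B₂ ∉ (π.erase B₁).erase B₂ := fun hB => by
  have a2 := Finset.mem_erase.1 (Finset.mem_of_mem_erase hB)
  obtain ⟨s, hs⟩ := h.ne B₁ h₁
  exact Finset.disjoint_left.1 (h.disj _ a2.2 B₁ h₁ a2.1) (Finset.mem_union_left _ hs) hs

theorem pbwtwo_pair {S : Bk J} {π : Finset (Bk J)} (h : IsPart θ S π) {B₁ B₂ : Bk J}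
    (h₁ : B₁ ∈ π) (h₂ : B₂ ∈ π) : IsPart θ (B₁ ∪ B₂) {B₁, B₂} := by
  have hs : ∀ B ∈ ({B₁, B₂} : Finset (Bk J)), B ∈ π := by simp [h₁, h₂]
  refine ⟨fun B hB => h.ne B (hs B hB), fun B hB => h.null B (hs B hB), by simp, fun s hs => ?_,
    fun B hB B' hB' => h.disj B (hs B hB) B' (hs B' hB')⟩
  simpa using hs

theorem dK_merge (hsym : SymNull D θ) {S : Bk J} {π : Finset (Bk J)} (h : IsPart θ S π)
    {B₁ B₂ : Bk J} (h₁ : B₁ ∈ π) (h₂ : B₂ ∈ π) (hne : B₁ ≠ B₂) :
    dK D (insert (B₁ ∪ B₂) ((π.erase B₁).erase B₂)) + aa D.a (ty B₁) (ty B₂) = dK D π := by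
  have h1 := dK_refine D θ hsym (h.merge θ h₁ h₂ hne) (Finset.mem_insert_self _ _)
    (pbwtwo_pair θ h h₁ h₂)
  have h2 : (π.erase B₁).erase B₂ ∪ {B₁, B₂} = π := by
    ext B
    simp only [Finset.mem_union, Finset.mem_erase, Finset.mem_insert, Finset.mem_singleton]
    constructor
    · rintro (a | rfl | rfl)
      exacts [a.2.2, h₁, h₂]
    · intro a
      by_cases a1 : B = B₁
      · exact Or.inr (Or.inl a1)
      by_cases a2 : B = B₂
      · exact Or.inr (Or.inr a2)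
      exact Or.inl ⟨a2, a1, a⟩
  have h3 : dK D {B₁, B₂} = aa D.a (ty B₁) (ty B₂) := by
    change pbwtwo_T D _ / 2 = _
    rw [Finset.insert_eq, pbwtwo_T_union D (Finset.disjoint_singleton.2 hne), pbwtwo_T_single,
      pbwtwo_T_single, Finset.sum_singleton, Finset.sum_singleton,
      ← pbwtwo_sym D θ hsym (h.null B₁ h₁) (h.null B₂ h₂)]
    omega
  rw [Finset.erase_insert (pbwtwo_notMem θ h h₁), h2, h3] at h1
  exact h1.symm

theorem Ip_merge {S : Bk J} {π : Finset (Bk J)} (h : IsPart θ S π) {B₁ B₂ : Bk J} (h₁ : B₁ ∈ π)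
    (h₂ : B₂ ∈ π) (hne : B₁ ≠ B₂) :
    Ip D θ (insert (B₁ ∪ B₂) ((π.erase B₁).erase B₂)) ≤ Ip D θ π := by
  have hle : ∀ B ∈ π, IF D θ B ≤ Ip D θ π := fun B hB =>
    le_iSup₂ (f := fun B (_ : B ∈ π) => IF D θ B) B hB
  refine iSup₂_le fun B hB => ?_
  rcases Finset.mem_insert.1 hB with rfl | h1
  · refine (IF_le_Ip D θ (pbwtwo_pair θ h h₁ h₂)).trans (iSup₂_le fun B hB => hle B ?_)
    rcases Finset.mem_insert.1 hB with rfl | h2
    · exact h₁
    · exact Finset.mem_singleton.1 h2 ▸ h₂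
  · exact hle B (Finset.mem_of_mem_erase (Finset.mem_of_mem_erase h1))

/-- polynomials in `η t` -/
def pbwtwo_S {A : Type} [CommRing A] (η : A) : Subring (Polynomial A) where
  carrier := {q | ∀ m, η ^ m ∣ q.coeff m}
  mul_mem' := fun {p q} hp hq m => by
    rw [Polynomial.coeff_mul]
    refine Finset.dvd_sum fun x hx => ?_
    rw [← Finset.HasAntidiagonal.mem_antidiagonal.1 hx, pow_add]
    exact mul_dvd_mul (hp _) (hq _)
  one_mem' := fun m => by
    rw [Polynomial.coeff_one]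
    split_ifs with h
    · rw [h, pow_zero]
    · exact dvd_zero _
  add_mem' := fun {p q} hp hq m => by
    rw [Polynomial.coeff_add]; exact dvd_add (hp m) (hq m)
  zero_mem' := fun m => by rw [Polynomial.coeff_zero]; exact dvd_zero _
  neg_mem' := fun {p} hp m => by rw [Polynomial.coeff_neg]; exact (hp m).neg_right

theorem pbwtwo_S_C {A : Type} [CommRing A] (η c : A) : Polynomial.C c ∈ pbwtwo_S η := fun m => by
  rw [Polynomial.coeff_C]
  split_ifs with h
  · rw [h, pow_zero]; exact one_dvd _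
  · exact dvd_zero _

theorem pbwtwo_S_X {A : Type} [CommRing A] (η : A) :
    Polynomial.C η * Polynomial.X ∈ pbwtwo_S η := fun m => by
  rw [Polynomial.coeff_C_mul_X]
  split_ifs with h
  · rw [h, pow_one]
  · exact dvd_zero _

/-- Let `σ` be the substitution `z_{B₂} ↦ z_{B₁} + η`.  Then `σ (tb π I f)` is obtained from `tau π'' f`
(`π''` the merged partition, `z_{B₁ ∪ B₂} ↦ z_{B₁}`) by translating the variables of `B₂` in the
coefficients by `t η` (`trU B₂`, which preserves `I`).  Only `t^j`, `j ≤ n`, survive in `tau π'' f`, so the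
coefficient of `t^{n+a}` is divisible by `η^a`; substitute back `η = z_{B₂} - z_{B₁}`. -/
theorem merge_dvd {S : Bk J} {π : Finset (Bk J)} (h : IsPart θ S π) {B₁ B₂ : Bk J} (h₁ : B₁ ∈ π)
    (h₂ : B₂ ∈ π) (hne : B₁ ≠ B₂) {I : Ideal (PR J)} (hI : TrInv B₂ I) {f : PR J} {n : ℕ}
    (hf : ZLt (insert (B₁ ∪ B₂) ((π.erase B₁).erase B₂)) I (n + 1) f) (a : ℕ) :
    (X B₂ - X B₁) ^ a ∣ (tb π I f).coeff (n + a) := by
  let η : MvPolynomial (Bk J) (PR J ⧸ I) := X B₂ - X B₁
  let Θ : PR J →+* Polynomial (MvPolynomial (Bk J) (PR J ⧸ I)) :=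
    (Polynomial.eval₂RingHom (Polynomial.C.comp (C.comp (Ideal.Quotient.mk I)))
      (Polynomial.C η * Polynomial.X)).comp (trU B₂).toRingHom
  let l : MvPolynomial (Bk J) (PR J) →+* Polynomial (MvPolynomial (Bk J) (PR J ⧸ I)) :=
    eval₂Hom Θ fun B => Polynomial.C (X (if B = B₁ ∪ B₂ then B₁ else B))
  have hΘ : ∀ g, Θ g = ∑ k ∈ (trU B₂ g).support,
      Polynomial.C (C (Ideal.Quotient.mk I ((trU B₂ g).coeff k))) *
        (Polynomial.C η * Polynomial.X) ^ k := fun g => Polynomial.eval₂_eq_sum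
  have hΘS : ∀ g, Θ g ∈ pbwtwo_S η := fun g => by
    rw [hΘ]
    exact sum_mem fun k _ => mul_mem (pbwtwo_S_C _ _) (pow_mem (pbwtwo_S_X η) k)
  have hΘI : ∀ g ∈ I, Θ g = 0 := fun g hg => by
    rw [hΘ]
    refine Finset.sum_eq_zero fun k _ => ?_
    rw [Ideal.Quotient.eq_zero_iff_mem.2 (hI g hg k), map_zero, map_zero, zero_mul]
  have hlS : ∀ c, l c ∈ pbwtwo_S η := fun c => by
    rw [coe_eval₂Hom, eval₂_eq]
    exact sum_mem fun d _ => mul_mem (hΘS _) (prod_mem fun B _ => pow_mem (pbwtwo_S_C _ _) _)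
  have hlI : ∀ c : MvPolynomial (Bk J) (PR J), (∀ μ, coeff μ c ∈ I) → l c = 0 := fun c hc => by
    rw [coe_eval₂Hom, eval₂_eq]
    exact Finset.sum_eq_zero fun d _ => by rw [hΘI _ (hc d), zero_mul]
  have hm := pbwtwo_notMem θ h (B₂ := B₂) h₁
  have key : tb π I = (Polynomial.eval₂RingHom l Polynomial.X).comp
      (tau (insert (B₁ ∪ B₂) ((π.erase B₁).erase B₂))).toRingHom := by
    refine ringHom_ext' (Subsingleton.elim _ _) fun s => ?_
    have e1 : l (C (X s)) = Polynomial.C (C (Ideal.Quotient.mk I (X s))) +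
        Polynomial.C (if s ∈ B₂ then η else 0) * Polynomial.X := by
      by_cases hs : s ∈ B₂ <;> simp [l, Θ, trU, hs]
    have e2 : ∀ B ∈ (π.erase B₁).erase B₂, l (if s ∈ B then X B else 0) =
        Polynomial.C (if s ∈ B then X B else 0) := fun B hB => by
      have : B ≠ B₁ ∪ B₂ := fun h0 => hm (h0 ▸ hB)
      split_ifs <;> simp [l, this]
    have e3 : l (if s ∈ B₁ ∪ B₂ then X (B₁ ∪ B₂) else 0) =
        Polynomial.C (if s ∈ B₁ ∪ B₂ then X B₁ else 0) := by
      split_ifs <;> simp [l]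
    have e4 : ((if s ∈ B₁ then X B₁ else 0) + if s ∈ B₂ then X B₂ else 0) =
        (if s ∈ B₂ then η else 0) + if s ∈ B₁ ∪ B₂ then X B₁ else 0 := by
      by_cases a1 : s ∈ B₁
      · have a2 : s ∉ B₂ := Finset.disjoint_left.1 (h.disj B₁ h₁ B₂ h₂ hne) a1
        simp [a1, a2]
      · by_cases a2 : s ∈ B₂ <;> simp [a1, a2, η]
    simp only [RingHom.comp_apply, AlgHom.toRingHom_eq_coe, RingHom.coe_coe, pbwtwo_tb_X,
      pbwtwo_tau_X, Polynomial.coe_eval₂RingHom, Polynomial.eval₂_add, Polynomial.eval₂_mul,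
      Polynomial.eval₂_C, Polynomial.eval₂_X]
    rw [e1, Finset.sum_insert hm, map_add l, map_sum l, Finset.sum_congr rfl e2, e3, ← map_sum,
      ← Finset.add_sum_erase π _ h₁,
      ← Finset.add_sum_erase (π.erase B₁) _ (Finset.mem_erase.2 ⟨hne.symm, h₂⟩), ← add_assoc, e4]
    simp only [map_add]
    ring
  rw [key]
  simp only [RingHom.comp_apply, Polynomial.coe_eval₂RingHom, AlgHom.toRingHom_eq_coe,
    RingHom.coe_coe]
  rw [Polynomial.eval₂_eq_sum, Polynomial.sum, Polynomial.finsetSum_coeff]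
  refine Finset.dvd_sum fun k _ => ?_
  by_cases hk : n + 1 ≤ k
  · rw [hlI _ (hf k hk), zero_mul, Polynomial.coeff_zero]
    exact dvd_zero _
  · rw [Polynomial.coeff_mul_X_pow', if_pos (by omega)]
    exact (pow_dvd_pow η (by omega)).trans (hlS _ _)

theorem trInv_Ip {S : Bk J} {π : Finset (Bk J)} (h : IsPart θ S π) {B : Bk J} (hB : B ∈ π) :
    TrInv B (Ip D θ π) := by
  have key : Ip D θ π ≤ RingHom.ker ((Polynomial.mapRingHom
      (Ideal.Quotient.mk (Ip D θ π))).comp (trU B).toRingHom) := by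
    refine iSup₂_le fun B' hB' f hf => ?_
    have h1 : TrInv B (IF D θ B') := trInv_span (by
      rintro _ ⟨U, hU, -, rfl⟩
      refine trU_K D ?_
      by_cases h0 : B' = B
      · exact Or.inl ⟨h0 ▸ hU, h0 ▸ Finset.sdiff_subset⟩
      · have := h.disj B' hB' B hB h0
        exact Or.inr ⟨this.mono_left hU, this.mono_left Finset.sdiff_subset⟩)
    refine Polynomial.ext fun n => ?_
    rw [RingHom.comp_apply, Polynomial.coe_mapRingHom, Polynomial.coeff_map, Polynomial.coeff_zero,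
      Ideal.Quotient.eq_zero_iff_mem]
    exact le_iSup₂ (f := fun B (_ : B ∈ π) => IF D θ B) B' hB' (h1 f hf n)
  intro f hf n
  have h1 := congrArg (Polynomial.coeff · n) (RingHom.mem_ker.1 (key hf))
  simp only [RingHom.comp_apply, Polynomial.coe_mapRingHom, Polynomial.coeff_map,
    Polynomial.coeff_zero] at h1
  exact Ideal.Quotient.eq_zero_iff_mem.1 h1

/-- the shear `X i ↦ X i + X j` -/
def pbwtwo_shear {σ : Type} [DecidableEq σ] (A : Type) [CommRing A] {i j : σ} (h : j ≠ i) :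
    MvPolynomial σ A ≃ₐ[A] MvPolynomial σ A :=
  AlgEquiv.ofAlgHom (aeval fun k => if k = i then X i + X j else X k)
    (aeval fun k => if k = i then X i - X j else X k)
    (by ext1 k; by_cases hk : k = i <;> simp [hk, h])
    (by ext1 k; by_cases hk : k = i <;> simp [hk, h])

theorem pbwtwo_shear_X {σ : Type} [DecidableEq σ] (A : Type) [CommRing A] {i j : σ} (h : j ≠ i) :
    pbwtwo_shear A h (X i - X j) = X i := by
  simp [pbwtwo_shear, h]

theorem pbwtwo_ne {σ : Type} {i j : σ} (h : WellOrderingRel j i) : j ≠ i := fun h0 =>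
  irrefl_of WellOrderingRel i (h0 ▸ h)

/-- The linear forms `X B' - X B` are pairwise non-associated primes. -/
theorem Kp_dvd (π : Finset (Bk J)) {p : MvPolynomial (Bk J) ℚ}
    (h : ∀ B ∈ π, ∀ B' ∈ π, B ≠ B' → (X B' - X B) ^ aa D.a (ty B) (ty B') ∣ p) : Kp D π ∣ p := by
  classical
  unfold Kp
  rw [Finset.prod_sigma']
  refine Finset.prod_dvd_of_isRelPrime ?_ fun x hx => ?_
  · rintro ⟨B, B'⟩ hx ⟨C, C'⟩ hy hne
    have r1 : WellOrderingRel B B' := (Finset.mem_filter.1 (Finset.mem_sigma.1 hx).2).2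
    have r2 : WellOrderingRel C C' := (Finset.mem_filter.1 (Finset.mem_sigma.1 hy).2).2
    have hp : Prime (X B' - X B : MvPolynomial (Bk J) ℚ) :=
      (MulEquiv.prime_iff (pbwtwo_shear ℚ (pbwtwo_ne r1))).1
        (by rw [pbwtwo_shear_X]; exact X_prime)
    refine IsRelPrime.pow (hp.irreducible.isRelPrime_iff_not_dvd.2 fun hd => ?_)
    have h1 : ∀ E, E ≠ B → E ≠ B' → (C' = E ↔ C = E) := fun E e1 e2 => by
      have := map_dvd (eval fun k => if k = E then (1 : ℚ) else 0) hd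
      simp only [map_sub, eval_X, if_neg e1.symm, if_neg e2.symm, sub_self, zero_dvd_iff] at this
      by_cases a1 : C' = E <;> by_cases a2 : C = E <;> simp_all
    have hC := pbwtwo_ne r2
    have h2 : C = B ∨ C = B' := by
      by_contra hc
      rw [not_or] at hc
      exact hC ((h1 C hc.1 hc.2).2 rfl).symm
    have h3 : C' = B ∨ C' = B' := by
      by_contra hc
      rw [not_or] at hc
      exact hC ((h1 C' hc.1 hc.2).1 rfl)
    rcases h2 with rfl | rfl <;> rcases h3 with rfl | rfl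
    · exact hC rfl
    · exact hne rfl
    · exact asymm_of WellOrderingRel r1 r2
    · exact hC rfl
  · have h1 := Finset.mem_sigma.1 hx
    have h2 := Finset.mem_filter.1 h1.2
    exact h _ h1.1 _ h2.1 (pbwtwo_ne h2.2)

theorem Kp_hom (hsym : SymNull D θ) {S : Bk J} {π : Finset (Bk J)} (h : IsPart θ S π) :
    (Kp D π).IsHomogeneous (dK D π) := by
  classical
  have h1 := sum_order_eq_dK D θ hsym π id (fun _ _ _ _ h => h) h.null WellOrderingRel
  rw [Finset.image_id] at h1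
  rw [← h1]
  unfold Kp
  refine IsHomogeneous.prod _ _ _ fun B _ => IsHomogeneous.prod _ _ _ fun B' _ => ?_
  simpa using ((isHomogeneous_X ℚ B').sub (isHomogeneous_X ℚ B)).pow (aa D.a (ty B) (ty B'))

/-- `X B' - X B` is monic in `X B'`, hence regular over any coefficient ring. -/
theorem Kp_regular (π : Finset (Bk J)) (I : Ideal (PR J)) {p : MvPolynomial (Bk J) (PR J ⧸ I)}
    (h : qm I (Kp D π) * p = 0) : p = 0 := by
  classical
  have h1 : IsRegular (qm I (Kp D π)) := by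
    unfold Kp
    rw [map_prod]
    refine IsRegular.prod fun B _ => ?_
    rw [map_prod]
    refine IsRegular.prod fun B' hB' => ?_
    rw [map_pow, map_sub, qm, map_X, map_X]
    refine IsRegular.pow _ ?_
    have hne := pbwtwo_ne (Finset.mem_filter.1 hB').2
    have h3 : IsLeftRegular (X B' - X B : MvPolynomial (Bk J) (PR J ⧸ I)) :=
      isLeftRegular_iff_right_eq_zero_of_mul.2 fun q hq => by
        have h2 := congrArg (pbwtwo_shear (PR J ⧸ I) hne) hq
        rw [map_mul, pbwtwo_shear_X, map_zero, isRegular_X.left.mul_left_eq_zero_iff] at h2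
        exact (map_eq_zero_iff _ (pbwtwo_shear (PR J ⧸ I) hne).injective).1 h2
    exact ⟨h3, h3.right_of_commute fun _ => Commute.all _ _⟩
  exact h1.left.mul_left_eq_zero_iff.1 h

end

end Crest.Agent.R59
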