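import Crest.Agent.R59.PbwProd
import Crest.Agent.R59.PbwTwo

/-!
# R59/PbwTop: leading forms of PBW monomials, signs
-/

set_option autoImplicit false
set_option linter.unusedSectionVars false
set_option linter.unusedVariables false

namespace Crest.Agent.R59

noncomputable section

open MvPolynomial

variable {J : Type} [Fintype J] [DecidableEq J] (D : Dat J) (θ : J → ℤ)

/-- Degree at most `n` with coefficient `c` in degree `n`. -/
def pbwtop_Ld {R : Type} [Semiring R] (p : Polynomial R) (n : ℕ) (c : R) : Prop :=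
  p.natDegree ≤ n ∧ p.coeff n = c

theorem pbwtop_Ld.mul {R : Type} [Semiring R] {p q : Polynomial R} {n m : ℕ} {c d : R}
    (h : pbwtop_Ld p n c) (h' : pbwtop_Ld q m d) : pbwtop_Ld (p * q) (n + m) (c * d) :=
  ⟨Polynomial.natDegree_mul_le_of_le h.1 h'.1, by
    rw [Polynomial.coeff_mul_add_eq_of_natDegree_le h.1 h'.1, h.2, h'.2]⟩

theorem pbwtop_Ld.pow {R : Type} [Semiring R] {p : Polynomial R} {c : R}
    (h : pbwtop_Ld p 1 c) (k : ℕ) : pbwtop_Ld (p ^ k) k (c ^ k) := by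
  refine ⟨(Polynomial.natDegree_pow_le_of_le k h.1).trans (by omega), ?_⟩
  have := Polynomial.coeff_pow_of_natDegree_le (m := k) h.1
  rwa [mul_one, h.2] at this

theorem pbwtop_Ld.sub {R : Type} [Ring R] {p q : Polynomial R} {n : ℕ} {c d : R}
    (h : pbwtop_Ld p n c) (h' : pbwtop_Ld q n d) : pbwtop_Ld (p - q) n (c - d) :=
  ⟨(Polynomial.natDegree_sub_le _ _).trans (max_le h.1 h'.1), by
    rw [Polynomial.coeff_sub, h.2, h'.2]⟩

theorem pbwtop_Ld_prod {R κ : Type} [CommSemiring R] (s : Finset κ) {p : κ → Polynomial R} {n : κ → ℕ}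
    {c : κ → R} (h : ∀ i ∈ s, pbwtop_Ld (p i) (n i) (c i)) :
    pbwtop_Ld (∏ i ∈ s, p i) (∑ i ∈ s, n i) (∏ i ∈ s, c i) := by
  classical
  induction s using Finset.induction_on with
  | empty => exact ⟨by simp, by simp⟩
  | insert a s ha ih =>
    rw [Finset.prod_insert ha, Finset.sum_insert ha, Finset.prod_insert ha]
    exact (h a (Finset.mem_insert_self _ _)).mul (ih fun i hi => h i (Finset.mem_insert_of_mem hi))

theorem pbwtop_Ld_C {R : Type} [Semiring R] (c : R) : pbwtop_Ld (Polynomial.C c) 0 c :=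
  ⟨by simp, by simp⟩

theorem pbwtop_Ld.map {R R' : Type} [Semiring R] [Semiring R'] {p : Polynomial R} {n : ℕ} {c : R}
    (h : pbwtop_Ld p n c) (φ : R →+* R') : pbwtop_Ld (p.map φ) n (φ c) :=
  ⟨Polynomial.natDegree_map_le.trans h.1, by rw [Polynomial.coeff_map, h.2]⟩

theorem pbwtop_Ld_lin {R : Type} [Semiring R] (a c : R) :
    pbwtop_Ld (Polynomial.C a + Polynomial.C c * Polynomial.X) 1 c :=
  ⟨by compute_degree, by simp [Polynomial.coeff_C]⟩

/-- Comparison of the ordered products for two orders. -/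
theorem pbwtop_order {M κ : Type} [CommMonoid M] (x : Finset κ) (r r' : κ → κ → Prop)
    [DecidableRel r] [DecidableRel r'] (g e : κ → κ → M)
    (h1 : ∀ y ∈ x, ∀ y' ∈ x, r y y' → (r' y y' ↔ ¬r' y' y))
    (h2 : ∀ y ∈ x, ∀ y' ∈ x, r' y y' → (r y y' ↔ ¬r y' y))
    (hg : ∀ y ∈ x, ∀ y' ∈ x, r y y' → g y y' = e y y' * g y' y) :
    ∏ y ∈ x, ∏ y' ∈ x.filter (r y), g y y' =
      (∏ y ∈ x, ∏ y' ∈ x.filter (fun y' => r y y' ∧ r' y' y), e y y') *
        ∏ y ∈ x, ∏ y' ∈ x.filter (r' y), g y y' := by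
  simp only [Finset.prod_filter]
  have a1 : ∏ y ∈ x, ∏ y' ∈ x, (if r y y' then g y y' else 1) =
      (∏ y ∈ x, ∏ y' ∈ x, if r y y' ∧ r' y' y then e y y' else 1) *
        ((∏ y ∈ x, ∏ y' ∈ x, if r y y' ∧ r' y y' then g y y' else 1) *
          ∏ y ∈ x, ∏ y' ∈ x, if r y y' ∧ r' y' y then g y' y else 1) := by
    simp only [← Finset.prod_mul_distrib]
    refine Finset.prod_congr rfl fun y hy => Finset.prod_congr rfl fun y' hy' => ?_
    by_cases h : r y y'
    · by_cases h' : r' y' y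
      · have h3 : ¬r' y y' := fun h3 => (h1 y hy y' hy' h).1 h3 h'
        simp [h, h', h3, hg y hy y' hy' h]
      · have h3 : r' y y' := (h1 y hy y' hy' h).2 h'
        simp [h, h', h3]
    · simp [h]
  have a2 : ∏ y ∈ x, ∏ y' ∈ x, (if r' y y' then g y y' else 1) =
      (∏ y ∈ x, ∏ y' ∈ x, if r y y' ∧ r' y y' then g y y' else 1) *
        ∏ y ∈ x, ∏ y' ∈ x, if r y y' ∧ r' y' y then g y' y else 1 := by
    rw [Finset.prod_comm (f := fun y y' => if r y y' ∧ r' y' y then g y' y else 1)]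
    simp only [← Finset.prod_mul_distrib]
    refine Finset.prod_congr rfl fun y hy => Finset.prod_congr rfl fun y' hy' => ?_
    by_cases h : r' y y'
    · by_cases h' : r y' y
      · have h3 : ¬r y y' := fun h3 => (h2 y hy y' hy' h).1 h3 h'
        simp [h, h', h3]
      · have h3 : r y y' := (h2 y hy y' hy' h).2 h'
        simp [h, h', h3]
    · simp [h]
  rw [a1, a2]

theorem pbwtop_tot {κ : Type} (r : κ → κ → Prop) [IsStrictTotalOrder κ r] {y y' : κ} (h : y ≠ y') :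
    r y y' ↔ ¬r y' y :=
  ⟨fun h1 h2 => irrefl_of r y (trans_of r h1 h2), fun h1 =>
    ((trichotomous_of r y y').resolve_right (not_or.2 ⟨h, h1⟩))⟩

theorem pbwtop_ne {κ : Type} (r : κ → κ → Prop) [IsStrictTotalOrder κ r] {y y' : κ} (h : r y y') :
    y ≠ y' := fun e => irrefl_of r y (e ▸ h)

theorem pbwtop_mem {ι : Type} {x : Finset (DB J ι)} {y : DB J ι} (hy : y ∈ x) : y.1 ∈ blk x :=
  Finset.mem_image_of_mem _ hy

theorem pbwtop_null {ι : Type} {dim : ι → J → ℕ} {S : Bk J} {x : Finset (DB J ι)}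
    (hx : IsDec θ dim S x) {y : DB J ι} (hy : y ∈ x) : wd θ (ty y.1) = 0 := by
  rw [← wt_eq_wd]
  exact hx.part.null _ (pbwtop_mem hy)

open Classical in
theorem pbwtop_sum_dK (hsym : SymNull D θ) {ι : Type} {dim : ι → J → ℕ} {S : Bk J}
    {x : Finset (DB J ι)} (hx : IsDec θ dim S x) (r : DB J ι → DB J ι → Prop)
    [IsStrictTotalOrder (DB J ι) r] :
    ∑ y ∈ x, ∑ y' ∈ x.filter (r y), aa D.a (ty y.1) (ty y'.1) = dK D (blk x) :=
  sum_order_eq_dK D θ hsym x Prod.fst hx.inj (fun y hy => hx.part.null _ (pbwtop_mem hy)) r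

theorem pbwtop_filter {S : Bk J} {π : Finset (Bk J)} (h : IsPart θ S π) {B : Bk J} (hB : B ∈ π)
    {s : Pt J} (hs : s ∈ B) : π.filter (s ∈ ·) = {B} := by
  ext B'
  simp only [Finset.mem_filter, Finset.mem_singleton]
  refine ⟨fun h' => ?_, fun h' => h' ▸ ⟨hB, hs⟩⟩
  by_contra hne
  exact Finset.disjoint_left.1 (h.disj _ h'.1 _ hB hne) h'.2 hs

theorem pbwtop_tb (π : Finset (Bk J)) (I : Ideal (PR J)) (f : PR J) :
    tb π I f = (tau π f).map (MvPolynomial.map (Ideal.Quotient.mk I)) := rfl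

theorem pbwtop_tb_smul (π : Finset (Bk J)) (I : Ideal (PR J)) (c : ℚ) (f : PR J) :
    tb π I (c • f) = Polynomial.C (qm I (C c)) * tb π I f := by
  rw [smul_eq_C_mul, map_mul]
  congr 1
  have e : tau π (C c : PR J) = Polynomial.C (C (C c)) := (tau π).commutes c
  rw [pbwtop_tb, e, Polynomial.map_C, map_C, qm, map_C]
  rfl

theorem pbwtop_Ld_X {S : Bk J} {π : Finset (Bk J)} (h : IsPart θ S π) {B : Bk J}
    (hB : B ∈ π) {s : Pt J} (hs : s ∈ B) : pbwtop_Ld (tau π (X s)) 1 (X B) := by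
  rw [pp_tau_X, pbwtop_filter θ h hB hs, Finset.sum_singleton]
  exact pbwtop_Ld_lin _ _

theorem pbwtop_Ld_cm {S : Bk J} {π : Finset (Bk J)} (h : IsPart θ S π) (I : Ideal (PR J)) {B : Bk J}
    (hB : B ∈ π) : pbwtop_Ld (tb π I (cm B)) 1 (X B) := by
  rw [pbwtop_tb, tau_cm θ h hB, Polynomial.map_add,
    Polynomial.map_mul, Polynomial.map_C, Polynomial.map_C, Polynomial.map_X, map_X]
  exact pbwtop_Ld_lin _ _

theorem pbwtop_Ld_Kt {S : Bk J} {π : Finset (Bk J)} (h : IsPart θ S π) (I : Ideal (PR J))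
    {B B' : Bk J} (hB : B ∈ π) (hB' : B' ∈ π) :
    pbwtop_Ld (tb π I (D.Kt B B')) (aa D.a (ty B) (ty B'))
      (qm I (D.sgn B B' • (X B' - X B) ^ aa D.a (ty B) (ty B'))) := by
  have h1 : pbwtop_Ld (tau π (D.K B B')) (aa D.a (ty B) (ty B'))
      ((X B' - X B) ^ aa D.a (ty B) (ty B')) := by
    rw [Dat.K, aa_ty]
    simp only [map_prod, map_pow, map_sub, ← Finset.prod_pow_eq_pow_sum]
    exact pbwtop_Ld_prod _ fun s hs => pbwtop_Ld_prod _ fun t ht =>
      ((pbwtop_Ld_X θ h hB' ht).sub (pbwtop_Ld_X θ h hB hs)).pow _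
  have h2 := (pbwtop_Ld_C (qm I (C (D.sgn B B')))).mul
    (h1.map (MvPolynomial.map (Ideal.Quotient.mk I)))
  rw [zero_add, map_pow, map_sub, map_X, map_X] at h2
  rw [Dat.Kt, pbwtop_tb_smul, smul_eq_C_mul, map_mul, map_pow, map_sub]
  simpa only [qm, map_X, pbwtop_tb] using h2

theorem pbwtop_Ld_u {S : Bk J} {π : Finset (Bk J)} (h : IsPart θ S π) {B : Bk J} (hB : B ∈ π)
    {f : PR J} (hf : f ∈ L0 D θ B) :
    pbwtop_Ld (tb π (Ip D θ π) f) 0 (C (Ideal.Quotient.mk _ f)) := by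
  constructor
  · have h1 := hf.2 {B} (isPart_single θ (h.ne B hB) (h.null B hB))
    have h2 : ZLt {B} (Ip D θ π) 1 f := by
      refine h1.mono ?_ ?_
      · unfold Ip
        refine iSup₂_le fun B' hB' => ?_
        rw [Finset.mem_singleton.1 hB']
        exact pp_IF_le D θ hB
      · simp [bd0, dK]
    have h3 : ZLt π (Ip D θ π) 1 f := by
      refine pp_zlt_coarse id (fun s hs => ?_) hf.1 h2
      rw [pbwtop_filter θ h hB hs, Finset.filter_singleton, if_pos hs]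
      rfl
    have h4 := zlt_iff.1 h3
    rw [Polynomial.natDegree_le_iff_degree_le]
    exact Nat.WithBot.lt_one_iff_le_zero.1 h4
  · have h1 := totalDegree_eq_zero_iff_eq_C.1 (Nat.le_zero.1 (tau_coeff_hom π f 0).totalDegree_le)
    have h2 : coeff 0 ((tau π f).coeff 0) = f := cf_zero_zero π f
    rw [pbwtop_tb, Polynomial.coeff_map, h1, h2, map_C]

theorem pbwtop_swap (hsym : SymNull D θ) {B B' : Bk J} (h : Disjoint B B') (h0 : wd θ (ty B) = 0)
    (h0' : wd θ (ty B') = 0) :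
    (D.sgn B B' • (X B' - X B) ^ aa D.a (ty B) (ty B') : MvPolynomial (Bk J) ℚ) =
      C ((-1 : ℚ) ^ (ff D.b (ty B) (ty B') + aa D.a (ty B) (ty B'))) *
        D.sgn B' B • (X B - X B') ^ aa D.a (ty B') (ty B) := by
  have h1 : D.sgn B B' = (-1) ^ ff D.b (ty B) (ty B') * D.sgn B' B := by
    rw [← D.sgn_swap h, mul_assoc, D.sgn_mul_self, mul_one]
  rw [h1, hsym _ _ h0' h0, ← neg_sub (X B) (X B'), neg_pow (X B - X B'), smul_eq_C_mul,
    smul_eq_C_mul, pow_add]
  simp only [map_mul, map_pow, map_neg, map_one]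
  ring

open Classical in
theorem pbwtop_change (hsym : SymNull D θ) {ι : Type} {dim : ι → J → ℕ} {S : Bk J}
    {x : Finset (DB J ι)} (hx : IsDec θ dim S x) (r r' : DB J ι → DB J ι → Prop)
    [IsStrictTotalOrder (DB J ι) r] (h1 : ∀ y ∈ x, ∀ y' ∈ x, y ≠ y' → (r' y y' ↔ ¬r' y' y))
    (h2 : ∀ y y', r' y y' → y ≠ y') :
    Ktop D r x = (∏ y ∈ x, ∏ y' ∈ x.filter (fun y' => r y y' ∧ r' y' y),
      (-1 : ℚ) ^ (ff D.b (ty y.1) (ty y'.1) + aa D.a (ty y.1) (ty y'.1))) • Ktop D r' x := by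
  rw [smul_eq_C_mul, map_prod]
  simp only [map_prod]
  unfold Ktop
  convert pbwtop_order x r r'
    (fun y y' => (D.sgn y.1 y'.1 • (X y'.1 - X y.1) ^ aa D.a (ty y.1) (ty y'.1) : MvPolynomial (Bk J) ℚ))
    (fun y y' => C ((-1 : ℚ) ^ (ff D.b (ty y.1) (ty y'.1) + aa D.a (ty y.1) (ty y'.1))))
    (fun y hy y' hy' h => h1 y hy y' hy' (pbwtop_ne r h))
    (fun y hy y' hy' h => pbwtop_tot r (h2 y y' h)) (fun y hy y' hy' h => ?_)
  exact pbwtop_swap D θ hsym (hx.part.disj _ (pbwtop_mem hy) _ (pbwtop_mem hy')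
    fun e => pbwtop_ne r h (hx.inj y hy y' hy' e)) (pbwtop_null θ hx hy) (pbwtop_null θ hx hy')

instance {ι : Type} : IsStrictTotalOrder (DB J ι) r0 := by
  refine { trichotomous := fun a b h1 h2 => ?_, irrefl := fun a h => ?_,
           trans := fun a b c h1 h2 => ?_ }
  · unfold r0 at h1 h2
    rw [not_or, not_and] at h1 h2
    have e2 : a.2 = b.2 := Std.Trichotomous.trichotomous (r := WellOrderingRel) _ _ h1.1 h2.1
    exact Prod.ext (Std.Trichotomous.trichotomous (r := WellOrderingRel) _ _ (h1.2 e2)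
      (h2.2 e2.symm)) e2
  · rcases h with h | ⟨-, h⟩
    · exact irrefl_of WellOrderingRel _ h
    · exact irrefl_of WellOrderingRel _ h
  · rcases h1 with h1 | ⟨e1, h1⟩ <;> rcases h2 with h2 | ⟨e2, h2⟩
    · exact Or.inl (trans_of WellOrderingRel h1 h2)
    · exact Or.inl (e2 ▸ h1)
    · exact Or.inl (e1 ▸ h2)
    · exact Or.inr ⟨e1.trans e2, trans_of WellOrderingRel h1 h2⟩

theorem IsDec.card_blk {ι : Type} {dim : ι → J → ℕ} {S : Bk J} {x : Finset (DB J ι)}
    (hx : IsDec θ dim S x) : (blk x).card = x.card := by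
  exact Finset.card_image_of_injOn fun y hy y' hy' h => hx.inj y hy y' hy' h

theorem bb_mem_RS {ι : Type} {dim : ι → J → ℕ} {S : Bk J} {x : Finset (DB J ι)}
    (hx : IsDec θ dim S x) {u : ι → Bk J → PR J} (hu : ∀ y ∈ x, u y.2.1 y.1 ∈ L0 D θ y.1)
    (r : DB J ι → DB J ι → Prop) : bb D u r x ∈ RS S := by
  classical
  have hs : ∀ y ∈ x, y.1 ⊆ S := fun y hy => hx.part.sub _ (pbwtop_mem hy)
  refine RS_mul (RS_prod fun y hy => RS_prod fun y' hy' => (RS S).smul_mem _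
    (D.K_mem (hs y hy) (hs y' (Finset.mem_filter.1 hy').1)))
    (RS_prod fun y hy => RS_mul (RS_mono (hs y hy) (hu y hy).1) ?_)
  have h1 : cm y.1 ∈ RS S :=
    (RS S).smul_mem _ ((RS S).sum_mem fun s hs' => RS_X (hs y hy hs'))
  exact Subalgebra.pow_mem (supported ℚ (S : Set (Pt J))) h1 _

theorem bb_hom (hsym : SymNull D θ) {ι : Type} {dim : ι → J → ℕ} {S : Bk J} {x : Finset (DB J ι)}
    (hx : IsDec θ dim S x) {u : ι → Bk J → PR J} {t : ι → ℕ}
    (hu : ∀ y ∈ x, (u y.2.1 y.1).IsHomogeneous (t y.2.1)) (r : DB J ι → DB J ι → Prop)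
    [IsStrictTotalOrder (DB J ι) r] :
    (bb D u r x).IsHomogeneous (dK D (blk x) + ∑ y ∈ x, (t y.2.1 + y.2.2)) := by
  classical
  rw [← pbwtop_sum_dK D θ hsym hx r]
  refine IsHomogeneous.mul (IsHomogeneous.prod _ _ _ fun y hy => IsHomogeneous.prod _ _ _
    fun y' hy' => (homogeneousSubmodule _ ℚ _).smul_mem _ (D.K_hom _ _))
    (IsHomogeneous.prod _ _ _ fun y hy => (hu y hy).mul ?_)
  have h1 : (cm y.1).IsHomogeneous 1 := (homogeneousSubmodule _ ℚ 1).smul_mem _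
    ((homogeneousSubmodule _ ℚ 1).sum_mem fun s _ => isHomogeneous_X ℚ s)
  simpa using h1.pow y.2.2

theorem two_dK (hsym : SymNull D θ) {S : Bk J} {π : Finset (Bk J)} (h : IsPart θ S π) :
    2 * dK D π + ∑ B ∈ π, aa D.a (ty B) (ty B) = aa D.a (ty S) (ty S) := by
  classical
  have hl : ∀ (P : Finset (Bk J)) (e : J → ℕ),
      aa D.a (∑ B ∈ P, ty B) e = ∑ B ∈ P, aa D.a (ty B) e := by
    intro P e
    induction P using Finset.induction_on with
    | empty => simp [aa]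
    | insert B P hB ih => rw [Finset.sum_insert hB, Finset.sum_insert hB, aa_add_left, ih]
  have hr : ∀ (P : Finset (Bk J)) (e : J → ℕ),
      aa D.a e (∑ B ∈ P, ty B) = ∑ B ∈ P, aa D.a e (ty B) := by
    intro P e
    induction P using Finset.induction_on with
    | empty => simp [aa]
    | insert B P hB ih => rw [Finset.sum_insert hB, Finset.sum_insert hB, aa_add_right, ih]
  have h1 := sum_order_eq_dK D θ hsym π id (fun _ _ _ _ e => e) h.null WellOrderingRel
  rw [Finset.image_id] at h1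
  simp only [id, Finset.sum_filter] at h1
  have h2 := h1
  rw [Finset.sum_comm] at h2
  rw [h.ty_eq θ, hl, two_mul]
  nth_rewrite 1 [← h1]
  rw [← h2, ← Finset.sum_add_distrib, ← Finset.sum_add_distrib]
  refine Finset.sum_congr rfl fun B hB => ?_
  have h3 : aa D.a (ty B) (ty B) = ∑ B' ∈ π, if B = B' then aa D.a (ty B) (ty B') else 0 := by
    rw [Finset.sum_ite_eq, if_pos hB]
  rw [hr, h3, ← Finset.sum_add_distrib, ← Finset.sum_add_distrib]
  refine Finset.sum_congr rfl fun B' hB' => ?_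
  by_cases e : B = B'
  · subst e
    simp [irrefl_of WellOrderingRel B]
  · have h4 := hsym (ty B') (ty B) (by rw [← wt_eq_wd]; exact h.null _ hB')
      (by rw [← wt_eq_wd]; exact h.null _ hB)
    by_cases h5 : WellOrderingRel B B'
    · simp [e, h5, (pbwtop_tot WellOrderingRel e).1 h5]
    · have h6 : WellOrderingRel B' B := by
        by_contra h6
        exact h5 ((pbwtop_tot WellOrderingRel e).2 h6)
      simp [e, h5, h6, h4]

/-- Multiply leading coefficients: `tb π (u c B)` is the constant `u c B`,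
`tb π (K B B')` has degree `≤ aa` and coefficient `(X B' - X B) ^ aa`, `tau_cm`. -/
theorem bb_top (hsym : SymNull D θ) {ι : Type} {dim : ι → J → ℕ} {S : Bk J} {x : Finset (DB J ι)}
    (hx : IsDec θ dim S x) {u : ι → Bk J → PR J} (hu : ∀ y ∈ x, u y.2.1 y.1 ∈ L0 D θ y.1)
    (r : DB J ι → DB J ι → Prop) [IsStrictTotalOrder (DB J ι) r] :
    (tb (blk x) (Ip D θ (blk x)) (bb D u r x)).coeff (mm x + dK D (blk x)) =
      qm (Ip D θ (blk x)) (Ktop D r x * ∏ y ∈ x, X y.1 ^ y.2.2) *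
        C (Ideal.Quotient.mk _ (∏ y ∈ x, u y.2.1 y.1)) := by
  classical
  have h1 := pbwtop_Ld_prod x (fun y hy => pbwtop_Ld_prod
    (@Finset.filter _ (r y) (fun _ => Classical.propDecidable _) x) fun y' hy' =>
      pbwtop_Ld_Kt D θ hx.part (Ip D θ (blk x)) (pbwtop_mem hy)
        (pbwtop_mem (@Finset.mem_of_mem_filter _ _ (fun _ => Classical.propDecidable _) _ _ hy')))
  have h2 := pbwtop_Ld_prod x (fun y hy => (pbwtop_Ld_u D θ hx.part (pbwtop_mem hy) (hu y hy)).mul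
    ((pbwtop_Ld_cm θ hx.part (Ip D θ (blk x)) (pbwtop_mem hy)).pow y.2.2))
  have h3 := (h1.mul h2).2
  rw [pbwtop_sum_dK D θ hsym hx r] at h3
  simp only [zero_add] at h3
  rw [add_comm (mm x)]
  unfold bb KK Ktop mm
  simp only [map_mul, map_prod, map_pow]
  rw [h3, Finset.prod_mul_distrib]
  simp only [qm, map_X]
  ring

theorem bb_mem_FF (hsym : SymNull D θ) {ι : Type} {dim : ι → J → ℕ} {S : Bk J}
    {x : Finset (DB J ι)} (hx : IsDec θ dim S x) {u : ι → Bk J → PR J}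
    (hu : ∀ y ∈ x, u y.2.1 y.1 ∈ L0 D θ y.1) (r : DB J ι → DB J ι → Prop)
    [IsStrictTotalOrder (DB J ι) r] : bb D u r x ∈ FF D θ S (mm x * (S.card + 1) + x.card + 1) := by
  have hc := hx.card_blk θ
  refine (mem_FF_succ_iff D θ (hc ▸ hx.part.card_le θ)).2 fun π hπ =>
    (bb_zlt D θ hsym hx hu r hπ).mono le_rfl ?_
  split_ifs with h1 h2
  · exact le_rfl
  · refine absurd ?_ h2
    rcases h1 with h1 | rfl
    · exact h1.le
    · exact hc.le
  · omega
  · exact le_rfl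

theorem bb_top_ne (hsym : SymNull D θ) {ι : Type} {dim : ι → J → ℕ} {S : Bk J}
    {x : Finset (DB J ι)} (hx : IsDec θ dim S x) {u : ι → Bk J → PR J}
    (hu : ∀ y ∈ x, u y.2.1 y.1 ∈ L0 D θ y.1) (r : DB J ι → DB J ι → Prop)
    [IsStrictTotalOrder (DB J ι) r] {π : Finset (Bk J)} (hπ : IsPart θ S π) (hc : π.card = x.card)
    (hne : π ≠ blk x) : (tb π (Ip D θ π) (bb D u r x)).coeff (mm x + dK D π) = 0 := by
  have h1 := bb_zlt D θ hsym hx hu r hπ
  rw [if_neg (not_or.2 ⟨by omega, hne⟩), add_zero] at h1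
  exact Polynomial.coeff_eq_zero_of_degree_lt (zlt_iff.1 h1)

open Classical in
/-- Changing the order: each inverted pair contributes `sgn B B' * sgn B' B * (-1)^aa`. -/
theorem Ktop_change (hsym : SymNull D θ) {ι : Type} {dim : ι → J → ℕ} {S : Bk J}
    {x : Finset (DB J ι)} (hx : IsDec θ dim S x) (r r' : DB J ι → DB J ι → Prop)
    [IsStrictTotalOrder (DB J ι) r] [IsStrictTotalOrder (DB J ι) r'] :
    Ktop D r x = (∏ y ∈ x, ∏ y' ∈ x.filter (fun y' => r y y' ∧ r' y' y),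
      (-1 : ℚ) ^ (ff D.b (ty y.1) (ty y'.1) + aa D.a (ty y.1) (ty y'.1))) • Ktop D r' x := by
  exact pbwtop_change D θ hsym hx r r' (fun y _ y' _ h => pbwtop_tot r' h) (fun y y' h => pbwtop_ne r' h)

theorem Ktop_eq (hsym : SymNull D θ) {ι : Type} {dim : ι → J → ℕ} {S : Bk J} {x : Finset (DB J ι)}
    (hx : IsDec θ dim S x) (r : DB J ι → DB J ι → Prop) [IsStrictTotalOrder (DB J ι) r] :
    ∃ ε : ℚ, ε ≠ 0 ∧ Ktop D r x = ε • Kp D (blk x) := by
  classical
  have h1 := pbwtop_change D θ hsym hx r (fun y y' => WellOrderingRel y.1 y'.1)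
    (fun y hy y' hy' h => pbwtop_tot WellOrderingRel fun e => h (hx.inj y hy y' hy' e))
    (fun y y' h e => pbwtop_ne WellOrderingRel h (congrArg Prod.fst e))
  have h2 : Ktop D (fun y y' : DB J ι => WellOrderingRel y.1 y'.1) x =
      (∏ y ∈ x, ∏ y' ∈ x.filter (fun y' => WellOrderingRel y.1 y'.1), D.sgn y.1 y'.1) •
        Kp D (blk x) := by
    unfold Ktop Kp blk
    rw [Finset.prod_image hx.inj, smul_eq_C_mul, map_prod, ← Finset.prod_mul_distrib]
    refine Finset.prod_congr rfl fun y hy => ?_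
    rw [Finset.filter_image, Finset.prod_image (fun a ha b hb e =>
      hx.inj a (Finset.mem_filter.1 ha).1 b (Finset.mem_filter.1 hb).1 e), map_prod,
      ← Finset.prod_mul_distrib]
    refine Finset.prod_congr (by congr) fun y' _ => smul_eq_C_mul _ _
  rw [h2, smul_smul] at h1
  refine ⟨_, mul_ne_zero ?_ ?_, h1⟩
  · exact Finset.prod_ne_zero_iff.2 fun y _ => Finset.prod_ne_zero_iff.2 fun y' _ =>
      pow_ne_zero _ (by norm_num)
  · exact Finset.prod_ne_zero_iff.2 fun y _ => Finset.prod_ne_zero_iff.2 fun y' _ =>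
      left_ne_zero_of_mul_eq_one (D.sgn_mul_self _ _)

open Classical in
theorem bb_change (hsym : SymNull D θ) {ι : Type} {dim : ι → J → ℕ} {S : Bk J}
    {x : Finset (DB J ι)} (hx : IsDec θ dim S x) {u : ι → Bk J → PR J}
    (hu : ∀ y ∈ x, u y.2.1 y.1 ∈ L0 D θ y.1) (r r' : DB J ι → DB J ι → Prop)
    [IsStrictTotalOrder (DB J ι) r] [IsStrictTotalOrder (DB J ι) r'] :
    bb D u r x - (∏ y ∈ x, ∏ y' ∈ x.filter (fun y' => r y y' ∧ r' y' y),
      (-1 : ℚ) ^ (ff D.b (ty y.1) (ty y'.1) + aa D.a (ty y.1) (ty y'.1))) • bb D u r' x ∈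
      FF D θ S (mm x * (S.card + 1) + x.card) := by
  have hc := hx.card_blk θ
  refine mem_FF_of_top D θ (hc ▸ hx.part.card_le θ) (sub_mem (bb_mem_FF D θ hsym hx hu r)
    (Submodule.smul_mem _ _ (bb_mem_FF D θ hsym hx hu r'))) fun π hπ hk => ?_
  rw [sub_eq_add_neg, ← neg_smul, map_add, pbwtop_tb_smul, Polynomial.coeff_add,
    Polynomial.coeff_C_mul]
  by_cases e : π = blk x
  · subst e
    rw [bb_top D θ hsym hx hu r, bb_top D θ hsym hx hu r', Ktop_change D θ hsym hx r r',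
      smul_eq_C_mul, ← mul_assoc, ← map_mul, ← add_mul, ← map_add, map_neg, neg_mul, mul_assoc,
      add_neg_cancel, map_zero, zero_mul]
  · rw [bb_top_ne D θ hsym hx hu r hπ hk e, bb_top_ne D θ hsym hx hu r' hπ hk e, mul_zero, add_zero]

end

end Crest.Agent.R59
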