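import Crest.Agent.R59.GF

/-!
# R59/ShDef: the labelled shuffle model

Particles `s : J × ℕ` have colour `s.1` and a variable `X s`.  For disjoint finite sets `U, W` the kernel
is `K U W = ∏ (X t - X s) ^ a s.1 t.1`.  Colour-preserving permutations act with the sign `chi` of
the fermionic particles.  A *system* attaches to every finite set of particles an ideal and a
subspace; `Hilb` is the Hilbert series of the invariant part of the subspace modulo the ideal.
-/

set_option autoImplicit false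
set_option linter.unusedSectionVars false
set_option linter.unusedVariables false

namespace Crest.Agent.R59

noncomputable section

open MvPolynomial

/-- Particles. -/
abbrev Pt (J : Type) : Type := J × ℕ
/-- Polynomials in the particle variables. -/
abbrev PR (J : Type) : Type := MvPolynomial (Pt J) ℚ

/-- Arrows and statistics. -/
structure Dat (J : Type) where
  a : J → J → ℕ
  a0 : ∀ j, a j j = 0
  b : J → Bool

variable {J : Type} [Fintype J] [DecidableEq J]

/-- The bilinear form counting arrows. -/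
def aa (a : J → J → ℕ) (d d' : J → ℕ) : ℕ := ∑ i, ∑ j, a i j * d i * d' j

/-- The bilinear form counting pairs of equal fermions. -/
def ff (b : J → Bool) (d d' : J → ℕ) : ℕ := ∑ j, if b j = true then d j * d' j else 0

/-- The dimension vector of a set of particles. -/
def ty (S : Finset (Pt J)) : J → ℕ := fun j => (S.filter fun s => s.1 = j).card

/-- The standard set of particles of a given dimension vector. -/
def std (d : J → ℕ) : Finset (Pt J) :=
  Finset.univ.biUnion fun j => (Finset.range (d j)).image fun i => (j, i)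

/-- Weight of a dimension vector. -/
def wd {Λ : Type} [AddCommGroup Λ] (φ : J → Λ) (d : J → ℕ) : Λ := ∑ j, d j • φ j

/-- Weight of a set of particles. -/
def wt {Λ : Type} [AddCommGroup Λ] (φ : J → Λ) (S : Finset (Pt J)) : Λ := ∑ s ∈ S, φ s.1

namespace Dat

variable (D : Dat J)

/-- The kernel. -/
def K (U W : Finset (Pt J)) : PR J := ∏ s ∈ U, ∏ t ∈ W, (X t - X s) ^ D.a s.1 t.1

/-- `-1` for equal fermions in decreasing order. -/
def sg (s t : Pt J) : ℚ := if s.1 = t.1 ∧ D.b s.1 = true ∧ t.2 < s.2 then -1 else 1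

/-- The shuffle sign. -/
def sgn (U W : Finset (Pt J)) : ℚ := ∏ s ∈ U, ∏ t ∈ W, D.sg s t

/-- The signed kernel. -/
def Kt (U W : Finset (Pt J)) : PR J := D.sgn U W • D.K U W

/-- The sign of `g` on the fermions of `S`. -/
def chi (S : Finset (Pt J)) (g : Equiv.Perm (Pt J)) : ℚ :=
  ∏ s ∈ S, ∏ t ∈ S, if s.1 = t.1 ∧ s.2 < t.2 then D.sg (g s) (g t) else 1

/-- The twisted action. -/
def act (S : Finset (Pt J)) (g : Equiv.Perm (Pt J)) : PR J →ₗ[ℚ] PR J :=
  D.chi S g • (rename g : PR J →ₐ[ℚ] PR J).toLinearMap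

end Dat

/-- Colour-preserving permutations. -/
def CP (J : Type) : Subgroup (Equiv.Perm (Pt J)) where
  carrier := {g | ∀ s, (g s).1 = s.1}
  one_mem' := fun _ => rfl
  mul_mem' := fun {g h} hg hh s => by
    rw [Equiv.Perm.mul_apply, hg, hh]
  inv_mem' := fun {g} hg s => by
    have := hg (g⁻¹ s)
    simpa using this.symm

/-- Colour-preserving permutations fixing the complement of `S`. -/
def GS (S : Finset (Pt J)) : Subgroup (Equiv.Perm (Pt J)) where
  carrier := {g | g ∈ CP J ∧ ∀ s, s ∉ S → g s = s}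
  one_mem' := ⟨(CP J).one_mem, fun _ _ => rfl⟩
  mul_mem' := fun {g h} hg hh => ⟨(CP J).mul_mem hg.1 hh.1, fun s hs => by
    rw [Equiv.Perm.mul_apply, hh.2 s hs, hg.2 s hs]⟩
  inv_mem' := fun {g} hg => ⟨(CP J).inv_mem hg.1, fun s hs => by
    rw [Equiv.Perm.inv_eq_iff_eq, hg.2 s hs]⟩

/-- The image of a set of particles. -/
def mv (g : Equiv.Perm (Pt J)) (S : Finset (Pt J)) : Finset (Pt J) := S.map g.toEmbedding

/-- Polynomials in the variables of `S`. -/
def RS (S : Finset (Pt J)) : Submodule ℚ (PR J) :=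
  Subalgebra.toSubmodule (supported ℚ (S : Set (Pt J)))

/-- Invariant polynomials in the variables of `S`. -/
def Dat.Inv (D : Dat J) (S : Finset (Pt J)) : Submodule ℚ (PR J) where
  carrier := {f | f ∈ RS S ∧ ∀ g ∈ GS S, D.act S g f = f}
  zero_mem' := ⟨(RS S).zero_mem, fun _ _ => map_zero _⟩
  add_mem' := fun ha hb => ⟨(RS S).add_mem ha.1 hb.1, fun g hg => by
    rw [map_add, ha.2 g hg, hb.2 g hg]⟩
  smul_mem' := fun c _ ha => ⟨(RS S).smul_mem c ha.1, fun g hg => by rw [map_smul, ha.2 g hg]⟩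

/-- Subspaces closed under taking homogeneous components. -/
def Graded (V : Submodule ℚ (PR J)) : Prop := ∀ f ∈ V, ∀ n, homogeneousComponent n f ∈ V

/-- An ideal as a `ℚ`-subspace. -/
abbrev IQ (I : Ideal (PR J)) : Submodule ℚ (PR J) := I.restrictScalars ℚ

/-- Hilbert series of `V` modulo `I`. -/
def Hilb (I : Ideal (PR J)) (V : Submodule ℚ (PR J)) : PowerSeries ℚ :=
  PowerSeries.mk fun n =>
    (Module.finrank ℚ ((V ⊓ homogeneousSubmodule (Pt J) ℚ n).map (IQ I).mkQ) : ℚ)

/-- Homogeneous bases of `V` modulo `I`. -/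
structure HB (I : Ideal (PR J)) (V : Submodule ℚ (PR J)) {ι : Type} (u : ι → PR J) (t : ι → ℕ) :
    Prop where
  mem : ∀ i, u i ∈ V
  hom : ∀ i, (u i).IsHomogeneous (t i)
  ind : LinearIndependent ℚ fun i => (IQ I).mkQ (u i)
  span : ∀ f ∈ V, f ∈ Submodule.span ℚ (Set.range u) ⊔ IQ I

/-- The ideal is generated by polynomials in the variables of `S`. -/
def GenIn (I : Ideal (PR J)) (S : Finset (Pt J)) : Prop :=
  I ≤ Ideal.span {f | f ∈ I ∧ f ∈ RS S}

/-- Equivariant systems of ideals and subspaces. -/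
structure Sys (J : Type) [Fintype J] [DecidableEq J] where
  I : Finset (Pt J) → Ideal (PR J)
  L : Finset (Pt J) → Submodule ℚ (PR J)
  gen : ∀ S, GenIn (I S) S
  Ig : ∀ S, Graded (IQ (I S))
  Lg : ∀ S, Graded (L S)
  Lle : ∀ S, L S ≤ RS S
  Ie : ∀ g ∈ CP J, ∀ S, ∀ f ∈ I S, rename g f ∈ I (mv g S)
  Le : ∀ g ∈ CP J, ∀ S, ∀ f ∈ L S, rename g f ∈ L (mv g S)

/-- The Hilbert series of a system. -/
def Sys.H (D : Dat J) (Y : Sys J) (d : J → ℕ) : PowerSeries ℚ :=
  Hilb (Y.I (std d)) (D.Inv (std d) ⊓ Y.L (std d))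

/-- Equivariant bases of a system. -/
structure TB (D : Dat J) (Y : Sys J) where
  ι : Type
  dim : ι → J → ℕ
  t : ι → ℕ
  u : ι → Finset (Pt J) → PR J
  hb : ∀ S, HB (Y.I S) (D.Inv S ⊓ Y.L S) (fun c : {c // dim c = ty S} => u c.1 S) fun c => t c.1
  eqv : ∀ g ∈ CP J, ∀ S c, dim c = ty S → D.act S g (u c S) = u c (mv g S)

section ideals

variable {Λ : Type} [AddCommGroup Λ] [LinearOrder Λ] (D : Dat J) (φ : J → Λ)

/-- The ideal generated by the kernels `K U (S \ U)` with `p (wt U)`. -/
def Ib (p : Λ → Prop) (S : Finset (Pt J)) : Ideal (PR J) :=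
  Ideal.span {f | ∃ U, U ⊆ S ∧ p (wt φ U) ∧ f = D.K U (S \ U)}

/-- No subobject of negative weight. -/
def IF (S : Finset (Pt J)) : Ideal (PR J) := Ib D φ (fun x => x < 0) S

/-- No quotient of positive weight. -/
def IT (S : Finset (Pt J)) : Ideal (PR J) := Ib D φ (fun x => x < wt φ S) S

end ideals

end

end Crest.Agent.R59
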