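import Crest.Agent.R59.Efun
import Crest.Agent.R59.ShDef

/-!
# R59/Quiv: group elements attached to quivers

A quiver has vertices `j` with classes `γ j ∈ M \ 0`, statistics `b j`, shifts `s j`, and
`[ω (γ i) (γ j)]₊` arrows from `i` to `j`.
-/

set_option autoImplicit false
set_option linter.unusedSectionVars false
set_option linter.unusedVariables false

namespace Crest.Agent.R59

noncomputable section

variable {N : Type} [AddCommGroup N] [Alt N] {M : AddSubmonoid N} [Good M]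

/-- Quivers. -/
structure Quiv (M : AddSubmonoid N) where
  J : Type
  [fin : Fintype J]
  [dec : DecidableEq J]
  γ : J → N
  mem : ∀ j, γ j ∈ M
  ne : ∀ j, γ j ≠ 0
  b : J → Bool
  s : J → ℤ

attribute [instance] Quiv.fin Quiv.dec

namespace Quiv

variable (Q : Quiv M)

/-- The shuffle data. -/
def dat : Dat Q.J := ⟨fun i j => (ω (Q.γ i) (Q.γ j)).toNat, fun j => by simp [ω_self], Q.b⟩

/-- The class of a dimension vector. -/
def cl (d : Q.J → ℕ) : N := ∑ j, d j • Q.γ j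

/-- The exponent of the normalising power of `v`. -/
def ex (d : Q.J → ℕ) : ℤ := ∑ j, Q.s j * d j - aa Q.dat.a d d

open Classical in
/-- The generating series of a family of Hilbert series. -/
def Xf (H : (Q.J → ℕ) → PowerSeries ℚ) : N → R :=
  fun γ => ∑ᶠ d, if Q.cl d = γ then vp (Q.ex d) * iq (H d) else 0

theorem cl_mem (d : Q.J → ℕ) : Q.cl d ∈ M := by
  exact M.sum_mem fun j _ => M.nsmul_mem (Q.mem j) _

theorem cl_add (d d' : Q.J → ℕ) : Q.cl (d + d') = Q.cl d + Q.cl d' := by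
  simp [cl, add_smul, Finset.sum_add_distrib]

theorem quiv_le_dg (d : Q.J → ℕ) (j : Q.J) : (d j : ℤ) ≤ dg M (Q.cl d) := by
  have h1 : dg M (Q.cl d) = ∑ i, (d i : ℤ) * dg M (Q.γ i) := by
    simp [cl, map_sum]
  have h2 : (d j : ℤ) * dg M (Q.γ j) ≤ ∑ i, (d i : ℤ) * dg M (Q.γ i) :=
    Finset.single_le_sum (f := fun i => (d i : ℤ) * dg M (Q.γ i))
      (fun i _ => mul_nonneg (Nat.cast_nonneg _) (dg_nonneg (Q.mem i))) (Finset.mem_univ j)
  have h3 := dg_pos (Q.mem j) (Q.ne j)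
  have h4 : (0 : ℤ) ≤ d j := Nat.cast_nonneg _
  nlinarith

theorem cl_eq_zero {d : Q.J → ℕ} : Q.cl d = 0 ↔ d = 0 := by
  constructor
  · intro h
    funext j
    have := Q.quiv_le_dg d j
    rw [h, map_zero] at this
    simp only [Pi.zero_apply]
    omega
  · rintro rfl
    simp [cl]

theorem cl_finite (D : ℤ) : {d | dg M (Q.cl d) ≤ D}.Finite := by
  refine (Set.finite_Iic (fun _ : Q.J => D.toNat)).subset fun d hd j => ?_
  have h1 := Q.quiv_le_dg d j
  have h2 : dg M (Q.cl d) ≤ D := hd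
  simp only
  omega

theorem ω_cl (d d' : Q.J → ℕ) : ω (Q.cl d) (Q.cl d') = (aa Q.dat.a d d' : ℤ) - aa Q.dat.a d' d := by
  have h1 : ω (Q.cl d) (Q.cl d') = ∑ i, ∑ j, ω (Q.γ i) (Q.γ j) * d i * d' j := by
    simp only [cl, map_sum, AddMonoidHom.finsetSum_apply, map_nsmul, AddMonoidHom.nsmul_apply,
      nsmul_eq_mul, Finset.mul_sum]
    rw [Finset.sum_comm]
    exact Finset.sum_congr rfl fun i _ => Finset.sum_congr rfl fun j _ => by ring
  rw [h1]
  simp only [aa, dat]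
  push_cast
  rw [Finset.sum_comm (f := fun i j => ((ω (Q.γ i) (Q.γ j)).toNat : ℤ) * d' i * d j),
    ← Finset.sum_sub_distrib]
  refine Finset.sum_congr rfl fun i _ => ?_
  rw [← Finset.sum_sub_distrib]
  refine Finset.sum_congr rfl fun j _ => ?_
  have h2 := Int.toNat_sub_toNat_neg (ω (Q.γ i) (Q.γ j))
  rw [← ω_swap] at h2
  rw [← h2]
  simp only [h2]
  linear_combination (-(d i : ℤ) * d' j) * h2

theorem Xf_ne_zero {H : (Q.J → ℕ) → PowerSeries ℚ} {γ : N} (h : Q.Xf H γ ≠ 0) :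
    ∃ d, Q.cl d = γ ∧ H d ≠ 0 := by
  by_contra hc
  refine h (finsum_eq_zero_of_forall_eq_zero fun d => ?_)
  split_ifs with hd
  · have : H d = 0 := by_contra fun h0 => hc ⟨d, hd, h0⟩
    rw [this, map_zero, mul_zero]
  · rfl

theorem Xf_eq_sum (H : (Q.J → ℕ) → PowerSeries ℚ) {γ : N} {B : Finset (Q.J → ℕ)}
    (hB : ∀ d, d ∈ B ↔ Q.cl d = γ) : Q.Xf H γ = ∑ d ∈ B, vp (Q.ex d) * iq (H d) := by
  unfold Xf
  rw [finsum_eq_sum_of_support_subset (s := B) _ fun d hd => (hB d).2 (by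
    by_contra h0
    exact hd (if_neg h0))]
  exact Finset.sum_congr rfl fun d hd => if_pos ((hB d).1 hd)

theorem Xf_zero (H : (Q.J → ℕ) → PowerSeries ℚ) : Q.Xf H 0 = iq (H 0) := by
  rw [Q.Xf_eq_sum H (B := {0}) fun d => by rw [Finset.mem_singleton, cl_eq_zero],
    Finset.sum_singleton]
  simp [ex, aa]

/-- As an element of `A M`. -/
def XA (H : (Q.J → ℕ) → PowerSeries ℚ) : A M :=
  ⟨Q.Xf H, Sm.of_suppIn (p := 0) fun γ h => by
    obtain ⟨d, rfl, -⟩ := Q.Xf_ne_zero h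
    simpa using Q.cl_mem d⟩

/-- As an element of `Gp M`. -/
def XG (H : (Q.J → ℕ) → PowerSeries ℚ) (h : H 0 = 1) : Gp M :=
  ⟨Q.XA H, by
    change Q.Xf H 0 = 1
    rw [Xf_zero, h, map_one], fun γ hγ => by
    obtain ⟨d, rfl, -⟩ := Q.Xf_ne_zero hγ
    exact Q.cl_mem d⟩

/-- The dimension vectors of a given class. -/
def quiv_fib (γ : N) : Finset (Q.J → ℕ) := by
  classical exact (Q.cl_finite (dg M γ)).toFinset.filter fun d => Q.cl d = γ

theorem quiv_mem_fib (γ : N) (d : Q.J → ℕ) : d ∈ Q.quiv_fib γ ↔ Q.cl d = γ := by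
  simp only [quiv_fib, Finset.mem_filter, Set.Finite.mem_toFinset, Set.mem_ofPred_eq]
  exact ⟨fun h => h.2, fun h => ⟨by rw [h], h⟩⟩

theorem quiv_aa_add {J : Type} [Fintype J] (a : J → J → ℕ) (d d' : J → ℕ) :
    aa a (d + d') (d + d') = aa a d d + aa a d d' + aa a d' d + aa a d' d' := by
  simp only [aa, Pi.add_apply, ← Finset.sum_add_distrib]
  exact Finset.sum_congr rfl fun i _ => Finset.sum_congr rfl fun j _ => by ring

/-- `ex (d' + d'') + 2 aa d' d'' = ex d' + ex d'' + ω (cl d') (cl d'')`. -/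
theorem XA_mul {H H' H'' : (Q.J → ℕ) → PowerSeries ℚ}
    (h : ∀ d, H d = ∑ d' ∈ Finset.Iic d, PowerSeries.X ^ aa Q.dat.a d' (d - d') * (H' d' * H'' (d - d'))) :
    Q.XA H = Q.XA H' * Q.XA H'' := by
  classical
  have hs : ∀ H : (Q.J → ℕ) → PowerSeries ℚ, SuppIn M (Q.XA H) := fun H γ hγ => by
    obtain ⟨d, rfl, -⟩ := Q.Xf_ne_zero hγ
    exact Q.cl_mem d
  ext1 γ
  rw [A.mul_apply_ad (hs H') (hs H'')]
  change Q.Xf H γ = ∑ a ∈ ad M γ, vp (ω a γ) * (Q.Xf H' a * Q.Xf H'' (γ - a))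
  simp only [Q.Xf_eq_sum _ (Q.quiv_mem_fib _), Finset.sum_mul_sum, ← Finset.sum_product']
  simp only [h, map_sum, Finset.mul_sum]
  rw [Finset.sum_sigma', Finset.sum_sigma']
  refine Finset.sum_nbij' (fun x => ⟨Q.cl x.2, (x.2, x.1 - x.2)⟩) (fun y => ⟨y.2.1 + y.2.2, y.2.1⟩)
    ?_ ?_ ?_ ?_ ?_
  · rintro ⟨d, d'⟩ hx
    simp only [Finset.mem_sigma, quiv_mem_fib, Finset.mem_Iic] at hx
    obtain ⟨rfl, hle⟩ := hx
    have e : Q.cl d - Q.cl d' = Q.cl (d - d') := by
      rw [sub_eq_iff_eq_add, ← cl_add, tsub_add_cancel_of_le hle]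
    simp only [Finset.mem_sigma, Finset.mem_product, quiv_mem_fib, mem_ad, e, Q.cl_mem, and_self]
  · rintro ⟨a, d', d''⟩ hy
    simp only [Finset.mem_sigma, Finset.mem_product, quiv_mem_fib, mem_ad] at hy
    simp only [Finset.mem_sigma, quiv_mem_fib, Finset.mem_Iic, cl_add, hy.2.1, hy.2.2]
    exact ⟨by abel, le_self_add⟩
  · rintro ⟨d, d'⟩ hx
    simp only [Finset.mem_sigma, quiv_mem_fib, Finset.mem_Iic] at hx
    simp only [add_tsub_cancel_of_le hx.2]
  · rintro ⟨a, d', d''⟩ hy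
    simp only [Finset.mem_sigma, Finset.mem_product, quiv_mem_fib, mem_ad] at hy
    simp only [hy.2.1, add_tsub_cancel_left]
  · rintro ⟨d, d'⟩ hx
    simp only [Finset.mem_sigma, quiv_mem_fib, Finset.mem_Iic] at hx
    obtain ⟨rfl, hle⟩ := hx
    obtain ⟨d'', rfl⟩ := exists_add_of_le hle
    simp only [add_tsub_cancel_left, map_mul, map_pow, iq_X, vp_pow]
    have e : Q.ex (d' + d'') + 2 * (aa Q.dat.a d' d'' : ℤ) =
        ω (Q.cl d') (Q.cl (d' + d'')) + (Q.ex d' + Q.ex d'') := by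
      rw [cl_add, map_add, ω_self, ω_cl]
      simp only [ex, quiv_aa_add, Pi.add_apply, Nat.cast_add, mul_add, Finset.sum_add_distrib]
      ring
    rw [← mul_assoc, ← vp_add, e, vp_add, vp_add]
    ring

/-- The Hilbert series of all representations. -/
def full (d : Q.J → ℕ) : PowerSeries ℚ := ∏ j, hE (Q.b j) (d j)

theorem full_zero : Q.full 0 = 1 := by simp [full, hE]

/-- The group element of the quiver. -/
def x : Gp M := Q.XG Q.full Q.full_zero

theorem x_apply (γ : N) : Q.x γ = Q.Xf Q.full γ := rfl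

theorem x_supp {M' : AddSubmonoid N} (h : ∀ j, Q.γ j ∈ M') : SuppIn M' Q.x := by
  intro γ hγ
  obtain ⟨d, rfl, -⟩ := Q.Xf_ne_zero hγ
  exact M'.sum_mem fun j _ => M'.nsmul_mem (h j) _

/-- Full subquivers. -/
def sub (p : Q.J → Prop) [DecidablePred p] : Quiv M where
  J := {j // p j}
  γ j := Q.γ j.1
  mem j := Q.mem j.1
  ne j := Q.ne j.1
  b j := Q.b j.1
  s j := Q.s j.1

/-- Embeddings of quivers. -/
theorem quiv_Xf_emb {Q Q' : Quiv M} (e : Q.J → Q'.J) (he : Function.Injective e)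
    (hγ : ∀ j, Q'.γ (e j) = Q.γ j) (hb : ∀ j, Q'.b (e j) = Q.b j) (hs : ∀ j, Q'.s (e j) = Q.s j)
    (H : (Q'.J → ℕ) → PowerSeries ℚ) (h0 : ∀ d, H d ≠ 0 → ∀ j, j ∉ Set.range e → d j = 0)
    (h1 : ∀ d, (∀ j, j ∉ Set.range e → d j = 0) → H d = Q'.full d) :
    Q.Xf Q.full = Q'.Xf H := by
  classical
  funext γ
  let ε : (Q.J → ℕ) → Q'.J → ℕ := fun d => Function.extend e d 0
  have hε : ∀ d j, ε d (e j) = d j := fun d j => he.extend_apply d 0 j
  have hε0 : ∀ d j, j ∉ Set.range e → ε d j = 0 := fun d j hj =>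
    Function.extend_apply' d (0 : Q'.J → ℕ) j hj
  have hcl : ∀ d, Q'.cl (ε d) = Q.cl d := fun d =>
    (Fintype.sum_of_injective e he _ _ (fun j hj => by rw [hε0 d j hj, zero_smul])
      (fun j => by rw [hε, hγ])).symm
  have hex : ∀ d, Q'.ex (ε d) = Q.ex d := fun d => by
    unfold ex aa
    congr 1
    · exact (Fintype.sum_of_injective e he _ _ (fun j hj => by simp [hε0 d j hj])
        (fun j => by rw [hε, hs])).symm
    · congr 1
      refine (Fintype.sum_of_injective e he _ _ (fun j hj => by simp [hε0 d j hj])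
        (fun i => ?_)).symm
      refine Fintype.sum_of_injective e he _ _ (fun j hj => by simp [hε0 d j hj]) (fun j => ?_)
      simp only [hε, dat, hγ]
  have hfull : ∀ d, Q'.full (ε d) = Q.full d := fun d =>
    (Fintype.prod_of_injective e he _ _ (fun j hj => by rw [hε0 d j hj]; rfl)
      (fun j => by rw [hε, hb])).symm
  rw [Q.Xf_eq_sum _ (Q.quiv_mem_fib γ), Q'.Xf_eq_sum _ (Q'.quiv_mem_fib γ)]
  refine Finset.sum_of_injOn ε ?_ ?_ ?_ ?_
  · intro d _ d' _ h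
    funext j
    rw [← hε d j, ← hε d' j, h]
  · intro d hd
    rw [Finset.mem_coe, quiv_mem_fib] at hd ⊢
    rw [hcl, hd]
  · intro d hd hn
    by_contra hne
    have hH : H d ≠ 0 := fun h => hne (by rw [h, map_zero, mul_zero])
    have hd' : ε (d ∘ e) = d := by
      funext j
      by_cases hj : j ∈ Set.range e
      · obtain ⟨i, rfl⟩ := hj
        exact hε _ _
      · rw [hε0 _ _ hj, h0 d hH j hj]
    refine hn ⟨d ∘ e, ?_, hd'⟩
    rw [Finset.mem_coe, quiv_mem_fib, ← hcl, hd']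
    exact (Q'.quiv_mem_fib γ d).1 hd
  · intro d _
    rw [hex, h1 _ (hε0 d), hfull]

open Classical in
/-- Representations supported on `p`. -/
def quiv_res (p : Q.J → Prop) (d : Q.J → ℕ) : PowerSeries ℚ :=
  if ∀ j, ¬p j → d j = 0 then Q.full d else 0

theorem quiv_XA_sub (p : Q.J → Prop) [DecidablePred p] :
    (Q.sub p).x.1 = Q.XA (Q.quiv_res p) := by
  have hr : ∀ j, j ∉ Set.range (Subtype.val : {j // p j} → Q.J) ↔ ¬p j := fun j => by simp
  refine Subtype.ext (quiv_Xf_emb (Q := Q.sub p) (Q' := Q) Subtype.val Subtype.val_injective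
    (fun _ => rfl) (fun _ => rfl) (fun _ => rfl) _ ?_ ?_)
  · intro d hd j hj
    have : ∀ j, ¬p j → d j = 0 := by_contra fun h => hd (if_neg h)
    exact this j ((hr j).1 hj)
  · intro d hd
    exact if_pos fun j hj => hd j ((hr j).2 hj)

theorem x_congr {Q Q' : Quiv M} (e : Q.J ≃ Q'.J) (hγ : ∀ j, Q'.γ (e j) = Q.γ j)
    (hb : ∀ j, Q'.b (e j) = Q.b j) (hs : ∀ j, Q'.s (e j) = Q.s j) : Q.x = Q'.x := by
  ext1 γ
  have hr : ∀ j, j ∈ Set.range e := fun j => e.surjective j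
  rw [x_apply, x_apply, quiv_Xf_emb e e.injective hγ hb hs Q'.full
    (fun d _ j hj => (hj (hr j)).elim) (fun d _ => rfl)]

/-- No arrows from `p` to `¬ p`: the series factorises (dimension vectors split as pairs). -/
theorem x_split (p : Q.J → Prop) [DecidablePred p]
    (h : ∀ i j, p i → ¬p j → ω (Q.γ i) (Q.γ j) ≤ 0) :
    Q.x = (Q.sub p).x * (Q.sub fun j => ¬p j).x := by
  refine Subtype.ext ?_
  rw [Gp.val_mul, quiv_XA_sub, quiv_XA_sub]
  refine Q.XA_mul fun d => ?_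
  let d1 : Q.J → ℕ := fun j => if p j then d j else 0
  have hd1 : d1 ≤ d := fun j => by
    simp only [d1]
    split_ifs <;> simp
  have hd2 : ∀ j, (d - d1) j = if p j then 0 else d j := fun j => by
    simp only [d1, Pi.sub_apply]
    split_ifs <;> simp
  rw [Finset.sum_eq_single d1]
  · have e1 : aa Q.dat.a d1 (d - d1) = 0 := by
      refine Finset.sum_eq_zero fun i _ => Finset.sum_eq_zero fun j _ => ?_
      by_cases hi : p i
      · by_cases hj : p j
        · rw [hd2, if_pos hj, mul_zero]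
        · have : Q.dat.a i j = 0 := Int.toNat_eq_zero.2 (h i j hi hj)
          rw [this, zero_mul, zero_mul]
      · simp only [d1, if_neg hi, mul_zero, zero_mul]
    rw [e1, pow_zero, one_mul, quiv_res, quiv_res, if_pos fun j hj => if_neg hj,
      if_pos fun j hj => by rw [hd2, if_pos (not_not.1 hj)]]
    unfold full
    rw [← Finset.prod_mul_distrib]
    refine Finset.prod_congr rfl fun j _ => ?_
    rw [hd2]
    simp only [d1]
    split_ifs <;> simp [hE]
  · intro d' hd' hne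
    by_contra h0
    have h1 : Q.quiv_res p d' ≠ 0 := fun h => h0 (by rw [h, zero_mul, mul_zero])
    have h2 : Q.quiv_res (fun j => ¬p j) (d - d') ≠ 0 := fun h => h0 (by rw [h, mul_zero, mul_zero])
    have h3 : ∀ j, ¬p j → d' j = 0 := by_contra fun h => h1 (if_neg h)
    have h4 : ∀ j, ¬¬p j → (d - d') j = 0 := by_contra fun h => h2 (if_neg h)
    refine hne (funext fun j => ?_)
    have h5 : d' j ≤ d j := Finset.mem_Iic.1 hd' j
    simp only [d1]
    split_ifs with hj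
    · have := h4 j (not_not.2 hj)
      simp only [Pi.sub_apply] at this
      omega
    · exact h3 j hj
  · intro hn
    exact absurd (Finset.mem_Iic.2 hd1) hn

theorem x_empty [IsEmpty Q.J] : Q.x = 1 := by
  ext1 γ
  by_cases hγ : γ = 0
  · rw [hγ, Gp.zero, Gp.zero]
  · have h1 : (1 : Gp M) γ = 0 := zf_of_ne hγ
    rw [h1]
    by_contra h
    obtain ⟨d, rfl, -⟩ := Q.Xf_ne_zero h
    exact hγ (by simp [cl])

theorem x_unique [Unique Q.J] : Q.x = E M (Q.b default) (Q.s default) (Q.γ default) := by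
  ext1 γ
  rw [E_apply _ _ (Q.mem _) (Q.ne _), x_apply]
  unfold Xf Efn
  refine finsum_eq_of_bijective (Equiv.funUnique Q.J ℕ) (Equiv.bijective _) fun d => ?_
  have e1 : Q.cl d = d default • Q.γ default := by simp [cl]
  have e2 : Q.ex d = Q.s default * d default := by simp [ex, aa, Q.dat.a0]
  have e3 : Q.full d = hE (Q.b default) (d default) := by simp [full]
  rw [e1, e2, e3]
  rfl

/-- Disjoint unions. -/
def sigma {τ : Type} [Fintype τ] [DecidableEq τ] (Q : τ → Quiv M) : Quiv M where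
  J := Σ i, (Q i).J
  γ j := (Q j.1).γ j.2
  mem j := (Q j.1).mem j.2
  ne j := (Q j.1).ne j.2
  b j := (Q j.1).b j.2
  s j := (Q j.1).s j.2

/-- The empty quiver. -/
def empty (M : AddSubmonoid N) : Quiv M where
  J := Empty
  γ := Empty.elim
  mem j := j.elim
  ne j := j.elim
  b := Empty.elim
  s := Empty.elim

/-- One vertex. -/
def single (b : Bool) (s : ℤ) {e : N} (he : e ∈ M) (h0 : e ≠ 0) : Quiv M where
  J := Unit
  γ _ := e
  mem _ := he
  ne _ := h0
  b _ := b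
  s _ := s

end Quiv

/-- Parallel classes. -/
def Par (M : AddSubmonoid N) [Good M] (a b : N) : Prop := dg M b • a = dg M a • b

theorem Par.refl (a : N) : Par M a a := rfl

theorem Par.symm {a b : N} (h : Par M a b) : Par M b a := Eq.symm h

theorem Par.trans {a b c : N} (h : Par M a b) (h' : Par M b c) (hb : 0 < dg M b) : Par M a c := by
  unfold Par at *
  have : dg M b • (dg M c • a - dg M a • c) = 0 := by
    rw [smul_sub, smul_comm (dg M b) (dg M c) a, h, smul_comm (dg M b) (dg M a) c, ← h',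
      smul_comm, sub_self]
  exact sub_eq_zero.1 ((Alt.tf _ _ this).resolve_left hb.ne')

theorem Par.ω {a b : N} (h : Par M a b) (c : N) : dg M b * ω a c = dg M a * ω b c := by
  have := congrArg (fun x => Alt.ω x c) h
  simpa using this

theorem par_iff {a b : N} (hb : 0 < dg M b) :
    Par M a b ↔ ∃ m n : ℤ, m ≠ 0 ∧ m • a = n • b := by
  refine ⟨fun h => ⟨_, _, hb.ne', h⟩, fun ⟨m, n, hm, h⟩ => ?_⟩
  have h1 : m * dg M a = n * dg M b := by simpa using congrArg (dg M) h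
  have : m • (dg M b • a - dg M a • b) = 0 := by
    rw [smul_sub, smul_comm m (dg M b) a, h, smul_smul, smul_smul, h1, mul_comm, sub_self]
  exact sub_eq_zero.1 ((Alt.tf _ _ this).resolve_left hm)

/-- The ray through `ρ`. -/
def ray (M : AddSubmonoid N) [Good M] (ρ : N) : AddSubmonoid N where
  carrier := {a | a ∈ M ∧ Par M a ρ}
  zero_mem' := by exact ⟨M.zero_mem, by simp [Par]⟩
  add_mem' := by
    intro a b ha hb
    refine ⟨M.add_mem ha.1 hb.1, ?_⟩
    have h1 : dg M ρ • a = dg M a • ρ := ha.2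
    have h2 : dg M ρ • b = dg M b • ρ := hb.2
    unfold Par
    rw [smul_add, map_add, add_smul, h1, h2]

theorem mem_ray {ρ a : N} : a ∈ ray M ρ ↔ a ∈ M ∧ Par M a ρ := Iff.rfl

/-- The Plücker relation, valid for three vectors in a plane. -/
def Pl (M : AddSubmonoid N) [Good M] (a b c : N) : Prop :=
  dg M a * ω b c + dg M b * ω c a + dg M c * ω a b = 0

/-- Incoming walls of a planar quiver: split off the vertices with `ω (γ j) ρ < 0`, then those with
`ω (γ j) ρ = 0` (`x_split`, signs from `Pl`), and use `IsFact.unique`. -/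
theorem fW_attr_x (Q : Quiv M) {ρ : N} (hρ : 0 < dg M ρ) (hpl : ∀ i j, Pl M (Q.γ i) ρ (Q.γ j)) :
    fW (attr ρ) Q.x = (Q.sub fun j => ω (Q.γ j) ρ = 0).x := by
  have key : ∀ i j, ω (Q.γ i) ρ ≤ 0 → 0 ≤ ω (Q.γ j) ρ → ω (Q.γ i) (Q.γ j) ≤ 0 := by
    intro i j hi hj
    have h := hpl i j
    unfold Pl at h
    rw [ω_swap ρ (Q.γ j), ω_swap (Q.γ j) (Q.γ i)] at h
    have h1 := dg_nonneg (Q.mem i)
    have h2 := dg_nonneg (Q.mem j)
    by_contra hc
    have h3 := mul_pos hρ (not_le.1 hc)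
    nlinarith [mul_nonneg h1 hj, mul_nonneg h2 (neg_nonneg.2 hi)]
  have h1 := Q.x_split (fun j => ω (Q.γ j) ρ < 0) fun i j hi hj => key i j hi.le (not_lt.1 hj)
  have h2 := (Q.sub fun j => ¬ω (Q.γ j) ρ < 0).x_split (fun j => ω (Q.γ j.1) ρ = 0)
    fun i j hi _ => key i.1 j.1 hi.le (not_lt.1 j.2)
  have h3 : ((Q.sub fun j => ¬ω (Q.γ j) ρ < 0).sub fun j => ω (Q.γ j.1) ρ = 0).x =
      (Q.sub fun j => ω (Q.γ j) ρ = 0).x :=
    Quiv.x_congr ⟨fun j => ⟨j.1.1, j.2⟩, fun j => ⟨⟨j.1, not_lt.2 j.2.ge⟩, j.2⟩,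
      fun _ => rfl, fun _ => rfl⟩ (fun _ => rfl) (fun _ => rfl) (fun _ => rfl)
  rw [h2, h3, ← mul_assoc] at h1
  refine (IsFact.unique ⟨h1, Quiv.x_supp _ fun j => ?_, Quiv.x_supp _ fun j => ?_,
    Quiv.x_supp _ fun j => ?_⟩).2.1
  · refine Or.inr ?_
    rw [attr_s]
    exact sign_neg j.2
  · rw [Stab.mem_ker, attr_s]
    exact sign_eq_zero_iff.2 j.2
  · refine Or.inr ?_
    rw [attr_s]
    exact sign_pos (lt_of_le_of_ne (not_lt.1 j.1.2) (Ne.symm j.2))

theorem quiv_pos_z (p r : N) : Pos (z M p r) := by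
  by_cases h : r = p
  · rw [h]
    change Pos (zf p p)
    rw [zf_self]
    exact pos_one
  · change Pos (zf p r)
    rw [zf_of_ne h]
    exact pos_zero

theorem quiv_par_ker {ρ a : N} (hρ : 0 < dg M ρ) (h : Par M a ρ) : ω ρ a = 0 := by
  have := h.ω ρ
  rw [ω_self, mul_zero] at this
  rw [ω_swap, (mul_eq_zero.1 this).resolve_left hρ.ne', neg_zero]

/-- Remove one vertex. -/
theorem quiv_peel (Q : Quiv M) {ρ : N} (hρ : 0 < dg M ρ) (hQ : ∀ j, Par M (Q.γ j) ρ) {n : ℕ}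
    (hn : Fintype.card Q.J = n + 1) : ∃ (j0 : Q.J) (Q' : Quiv M), Fintype.card Q'.J = n ∧
      (∀ j, Par M (Q'.γ j) ρ) ∧ Q.x = E M (Q.b j0) (Q.s j0) (Q.γ j0) * Q'.x := by
  obtain ⟨j0⟩ : Nonempty Q.J := Fintype.card_pos_iff.1 (by omega)
  refine ⟨j0, Q.sub fun j => ¬j = j0, ?_, fun j => hQ j.1, ?_⟩
  · have := Fintype.card_subtype_compl (fun j : Q.J => j = j0)
    rw [Fintype.card_subtype_eq, hn] at this
    exact (Fintype.card_congr (Equiv.refl _)).trans this
  · rw [Q.x_split (fun j => j = j0) fun i j _ _ => ?_]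
    · congr 1
      have : Unique (Q.sub fun j => j = j0).J := ⟨⟨⟨j0, rfl⟩⟩, fun j => Subtype.ext j.2⟩
      rw [Quiv.x_unique]
      have : (default : (Q.sub fun j => j = j0).J).1 = j0 :=
        (default : (Q.sub fun j => j = j0).J).2
      change E M (Q.b (default : (Q.sub fun j => j = j0).J).1)
        (Q.s (default : (Q.sub fun j => j = j0).J).1)
        (Q.γ (default : (Q.sub fun j => j = j0).J).1) = _
      rw [this]
    · have := (hQ i).ω (Q.γ j)
      rw [quiv_par_ker hρ (hQ j), mul_zero] at this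
      exact ((mul_eq_zero.1 this).resolve_left hρ.ne').le

theorem quiv_E_ker (b : Bool) (s : ℤ) {ρ e : N} (he : ω ρ e = 0) :
    SuppIn (AddMonoidHom.mker (ω ρ)) (E M b s e) := by
  intro γ hγ
  obtain ⟨n, rfl⟩ := E_supp b s e γ hγ
  simp [he]

theorem quiv_sand_supp {ρ : N} {x y : Gp M} (hx : SuppIn (AddMonoidHom.mker (ω ρ)) x)
    (hy : SuppIn (AddMonoidHom.mker (ω ρ)) y) (p : N) :
    SuppIn {r | ω ρ r = ω ρ p} (x.1 * z M p * y.1 : A M) := by
  have hz : SuppIn {r | ω ρ r = ω ρ p} (z M p) := fun r hr => by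
    have : r = p := by_contra fun h => hr (zf_of_ne h)
    rw [this]
    rfl
  refine SuppIn.mul (S := {r | ω ρ r = ω ρ p}) (SuppIn.mul hx hz fun a ha b hb => ?_) hy
    fun a ha b hb => ?_
  · have h1 : ω ρ a = 0 := ha
    have h2 : ω ρ b = ω ρ p := hb
    change ω ρ (a + b) = ω ρ p
    rw [map_add, h1, h2, zero_add]
  · have h1 : ω ρ b = 0 := hb
    have h2 : ω ρ a = ω ρ p := ha
    change ω ρ (a + b) = ω ρ p
    rw [map_add, h1, h2, add_zero]

/-- Induction on the number of vertices (`x_split`, `x_unique`, `A.mul_mul_apply`, `E_conj_pos`). -/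
theorem x_conj_pos (Q : Quiv M) {ρ : N} (hρ : 0 < dg M ρ) (hQ : ∀ j, Par M (Q.γ j) ρ) {p : N}
    (hp : 0 ≤ ω ρ p) (r : N) : Pos ((((Q.x)⁻¹).1 * z M p * (Q.x).1) r) := by
  induction hn : Fintype.card Q.J generalizing Q p r with
  | zero =>
    have := Fintype.card_eq_zero_iff.1 hn
    rw [Q.x_empty, inv_one, Gp.val_one, one_mul, mul_one]
    exact quiv_pos_z p r
  | succ n ih =>
    obtain ⟨j0, Q', hc, hQ', hx⟩ := quiv_peel Q hρ hQ hn
    have he := quiv_par_ker hρ (hQ j0)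
    rw [hx, mul_inv_rev, Gp.val_mul, Gp.val_mul]
    have e : ∀ a b c d f : A M, a * b * c * (d * f) = a * (b * c * d) * f := fun a b c d f => by
      simp only [mul_assoc]
    rw [e, (A.mul_mul_apply _ _ _ r).2]
    refine Pos.finsum fun r' => ?_
    by_cases h0 : (((E M (Q.b j0) (Q.s j0) (Q.γ j0))⁻¹).1 * z M p *
        (E M (Q.b j0) (Q.s j0) (Q.γ j0)).1) r' = 0
    · rw [h0, zero_mul]
      exact pos_zero
    · have hs := quiv_E_ker (M := M) (Q.b j0) (Q.s j0) he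
      have h1 : ω ρ r' = ω ρ p := quiv_sand_supp (Gp.inv_supp hs) hs p r' h0
      refine (E_conj_pos _ _ ?_ r').mul (ih Q' hQ' (by rw [h1]; exact hp) r hc)
      have h2 := (hQ j0).ω p
      have h3 := dg_nonneg (Q.mem j0)
      by_contra hc
      nlinarith [mul_pos hρ (neg_pos.2 (not_le.1 hc)), mul_nonneg h3 hp]

theorem x_conj_pos' (Q : Quiv M) {ρ : N} (hρ : 0 < dg M ρ) (hQ : ∀ j, Par M (Q.γ j) ρ) {p : N}
    (hp : ω ρ p ≤ 0) (r : N) : Pos (((Q.x).1 * z M p * ((Q.x)⁻¹).1) r) := by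
  induction hn : Fintype.card Q.J generalizing Q r with
  | zero =>
    have := Fintype.card_eq_zero_iff.1 hn
    rw [Q.x_empty, inv_one, Gp.val_one, one_mul, mul_one]
    exact quiv_pos_z p r
  | succ n ih =>
    obtain ⟨j0, Q', hc, hQ', hx⟩ := quiv_peel Q hρ hQ hn
    rw [hx, mul_inv_rev, Gp.val_mul, Gp.val_mul]
    have e : ∀ a b c d f : A M, a * b * c * (d * f) = a * (b * c * d) * f := fun a b c d f => by
      simp only [mul_assoc]
    rw [e, (A.mul_mul_apply _ _ _ r).2]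
    refine Pos.finsum fun r' => ?_
    by_cases h0 : (Q'.x.1 * z M p * (Q'.x⁻¹).1) r' = 0
    · rw [h0, zero_mul]
      exact pos_zero
    · have hs : SuppIn (AddMonoidHom.mker (ω ρ)) Q'.x :=
        Q'.x_supp fun j => quiv_par_ker hρ (hQ' j)
      have h1 : ω ρ r' = ω ρ p := quiv_sand_supp hs (Gp.inv_supp hs) p r' h0
      refine (ih Q' hQ' r' hc).mul (E_conj_pos' _ _ ?_ r)
      have h2 := (hQ j0).ω r'
      have h3 := dg_nonneg (Q.mem j0)
      rw [h1] at h2
      by_contra hc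
      nlinarith [mul_pos hρ (not_le.1 hc), mul_nonneg h3 (neg_nonneg.2 hp)]

/-- Positive walls: up to degree `D` on the ray of `ρ`, `W` is a limit of products of `E`'s. -/
def PP (M : AddSubmonoid N) [Good M] (D : ℤ) (ρ : N) (W : N → R) : Prop :=
  ∀ n : ℤ, ∃ Q : Quiv M, (∀ j, Par M (Q.γ j) ρ) ∧
    ∀ γ ∈ M, γ ≠ 0 → dg M γ ≤ D → Par M γ ρ → Cl n (Q.x γ) (W γ)

theorem PP.congr {D : ℤ} {ρ : N} {W W' : N → R} (h : PP M D ρ W)
    (hW : ∀ γ ∈ M, γ ≠ 0 → dg M γ ≤ D → Par M γ ρ → W γ = W' γ) : PP M D ρ W' := by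
  intro n
  obtain ⟨Q, hQ, h1⟩ := h n
  exact ⟨Q, hQ, fun γ a b c d => hW γ a b c d ▸ h1 γ a b c d⟩

theorem PP.mono {D D' : ℤ} {ρ : N} {W : N → R} (h : PP M D ρ W) (hD : D' ≤ D) : PP M D' ρ W := by
  intro n
  obtain ⟨Q, hQ, h1⟩ := h n
  exact ⟨Q, hQ, fun γ a b c d => h1 γ a b (c.trans hD) d⟩

theorem PP.par {D : ℤ} {ρ ρ' : N} {W : N → R} (h : PP M D ρ W) (hρ : 0 < dg M ρ) (hρ' : 0 < dg M ρ')
    (hp : Par M ρ ρ') : PP M D ρ' W := by
  intro n
  obtain ⟨Q, hQ, h1⟩ := h n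
  exact ⟨Q, fun j => (hQ j).trans hp hρ, fun γ a b c d => h1 γ a b c (d.trans hp.symm hρ')⟩

theorem pp_one (D : ℤ) (ρ : N) : PP M D ρ (1 : Gp M) := by
  intro n
  have : IsEmpty (Quiv.empty M).J := inferInstanceAs (IsEmpty Empty)
  refine ⟨Quiv.empty M, fun j => j.elim, fun γ _ _ _ _ => ?_⟩
  rw [Quiv.x_empty]
  exact fun _ _ => rfl

theorem pp_E (D : ℤ) (b : Bool) (s : ℤ) {e ρ : N} (he : e ∈ M) (h0 : e ≠ 0) (hp : Par M e ρ) :
    PP M D ρ (E M b s e) := by
  intro n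
  have : Unique (Quiv.single b s he h0).J := inferInstanceAs (Unique Unit)
  refine ⟨Quiv.single b s he h0, fun _ => hp, fun γ _ _ _ _ => ?_⟩
  rw [Quiv.x_unique]
  exact fun _ _ => rfl

/-- `LimOn.sandwich` on the lower set `{dg ≤ D}`, `Lim.pos`. -/
theorem PP.conj_pos {D : ℤ} {ρ : N} {W : Gp M} (h : PP M D ρ W) (hρ : 0 < dg M ρ)
    (hW : ∀ γ ∈ M, dg M γ ≤ D → W γ ≠ 0 → Par M γ ρ) {p a : N} (ha : dg M a ≤ D) :
    (0 ≤ ω ρ p → Pos (((W⁻¹).1 * z M p * W.1) (p + a))) ∧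
      (ω ρ p ≤ 0 → Pos ((W.1 * z M p * (W⁻¹).1) (p + a))) := by
  choose Q hQ hcl using fun k : ℕ => h k
  have hl : LimOn {a | dg M a ≤ D} (fun k => (Q k).x) W := by
    intro γ hγ
    by_cases h1 : γ = 0
    · simp only [h1, Gp.zero]
      exact lim_const _
    by_cases h2 : γ ∈ M ∧ Par M γ ρ
    · exact lim_of_cl fun k => hcl k γ h2.1 h1 hγ h2.2
    · have h3 : W γ = 0 := by_contra fun h3 => h2 ⟨W.supp γ h3, hW γ (W.supp γ h3) hγ h3⟩
      have h4 : ∀ k, (Q k).x γ = 0 := fun k => by_contra fun h4 =>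
        h2 ((Q k).x_supp (M' := ray M ρ) (fun j => ⟨(Q k).mem j, hQ k j⟩) γ h4)
      simp only [h3, h4]
      exact lim_const _
  have hi := LimOn.inv (lower_deg D) hl
  exact ⟨fun hp => (LimOn.sandwich (lower_deg D) hi hl ha p).pos fun k =>
      x_conj_pos (Q k) hρ (hQ k) hp _,
    fun hp => (LimOn.sandwich (lower_deg D) hl hi ha p).pos fun k =>
      x_conj_pos' (Q k) hρ (hQ k) hp _⟩

end

end Crest.Agent.R59
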