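import Crest.Agent.R59.ShHB

/-!
# R59/ShBase: the Hilbert series of all invariants

`HB_of_fb` with one level (`F 0 = ⊥`, `F (n+1) = ⊤`): `Ω` = exponent vectors `m : Pt J →₀ ℕ` supported in
`S`, `b m = ε m • monomial m 1` with
`ε m = ∏_{s, t ∈ S, s.1 = t.1 fermion, s.2 < t.2} (if m t < m s then -1 else 1)`, type
`S.val.map fun s => (s.1, m s)`, good = `Gd D.b`.  For a bad `m` use the swap of two equal fermions with
the same exponent (the sign `chi` of a swap is `-1`: choose them adjacent, or conjugate, or use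
`chi_mul`).  Then `HB.gf` and `GF_conf`.
-/

set_option autoImplicit false
set_option linter.unusedSectionVars false
set_option linter.unusedVariables false

namespace Crest.Agent.R59

noncomputable section

open MvPolynomial

variable {J : Type} [Fintype J] [DecidableEq J] (D : Dat J)

theorem shbase_swap_GS {S : Finset (Pt J)} {s t : Pt J} (hs : s ∈ S) (ht : t ∈ S) (hc : s.1 = t.1) :
    Equiv.swap s t ∈ GS S := by
  refine ⟨fun u => ?_, fun u hu => Equiv.swap_apply_of_ne_of_ne ?_ ?_⟩
  · rw [Equiv.swap_apply_def]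
    split_ifs with h1 h2
    · rw [h1, hc]
    · rw [h2, hc]
    · rfl
  · rintro rfl; exact hu hs
  · rintro rfl; exact hu ht

theorem shbase_adj {S : Finset (Pt J)} {s t : Pt J} (hs : s ∈ S) (ht : t ∈ S) (hlt : s.2 < t.2)
    (hc : s.1 = t.1) (hb : D.b s.1 = true) (hn : ∀ u ∈ S, u.1 = s.1 → s.2 < u.2 → u.2 < t.2 → False) :
    D.chi S (Equiv.swap s t) = -1 := by
  rw [Dat.chi, ← Finset.prod_product', Finset.prod_eq_single_of_mem (s, t) (Finset.mk_mem_product hs ht)]
  · simp only [hc, hlt, and_self, if_true, Equiv.swap_apply_left, Equiv.swap_apply_right, Dat.sg]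
    rw [if_pos ⟨trivial, hc ▸ hb, trivial⟩]
  · rintro ⟨u, v⟩ huv hne
    obtain ⟨hu, hv⟩ := Finset.mem_product.1 huv
    dsimp only at hu hv ⊢
    split_ifs with h
    · obtain ⟨h1, h2⟩ := h
      rw [Dat.sg, if_neg]
      rintro ⟨-, -, h3⟩
      have hu' := hn u hu
      have hv' := hn v hv
      rw [Equiv.swap_apply_def, Equiv.swap_apply_def] at h3
      split_ifs at h3 with e1 e2 e3 e4 e5 e6 e7 e8
      · omega
      · subst e1; subst e3; omega
      · subst e1; omega
      · subst e4; subst e5; exact hne rfl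
      · omega
      · subst e4
        refine hu' (h1.trans hc.symm) h3 h2
      · subst e7
        exact hv' h1.symm h2 h3
      · subst e8; omega
      · omega
    · rfl

theorem shbase_swap_lt {S : Finset (Pt J)} {t : Pt J} (ht : t ∈ S) (hb : D.b t.1 = true) (n : ℕ) :
    ∀ s ∈ S, s.1 = t.1 → s.2 < t.2 → t.2 - s.2 = n → D.chi S (Equiv.swap s t) = -1 := by
  induction n using Nat.strong_induction_on with
  | _ n ih =>
    intro s hs hc hlt hn
    by_cases h : ∃ u ∈ S, u.1 = s.1 ∧ s.2 < u.2 ∧ u.2 < t.2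
    · obtain ⟨u, hu, h1, h2, h3⟩ := h
      have h4 := ih (t.2 - u.2) (by omega) u hu (h1.trans hc) h3 rfl
      have htu : t ≠ u := fun e => by rw [e] at h3; omega
      have hts : t ≠ s := fun e => by rw [e] at hlt; omega
      have g1 := shbase_swap_GS hu hs h1
      have g2 := shbase_swap_GS ht hu (h1.trans hc).symm
      rw [← Equiv.swap_mul_swap_mul_swap htu hts, D.chi_mul (mul_mem g1.1 g2.1) g1.1, mv_of_GS g1,
        D.chi_mul g1.1 g2.1, mv_of_GS g2, mul_right_comm, D.chi_mul_self, one_mul, Equiv.swap_comm, h4]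
    · exact shbase_adj D hs ht hlt hc (hc ▸ hb) fun u hu h1 h2 h3 => h ⟨u, hu, h1, h2, h3⟩

theorem chi_swap {S : Finset (Pt J)} {s t : Pt J} (hs : s ∈ S) (ht : t ∈ S) (hst : s ≠ t)
    (hc : s.1 = t.1) (hb : D.b s.1 = true) : D.chi S (Equiv.swap s t) = -1 := by
  rcases lt_trichotomy s.2 t.2 with h | h | h
  · exact shbase_swap_lt D ht (hc ▸ hb) _ s hs hc h rfl
  · exact absurd (Prod.ext hc h) hst
  · rw [Equiv.swap_comm]
    exact shbase_swap_lt D hs hb _ t ht hc.symm h rfl

theorem shbase_sym {α : Type} [DecidableEq α] (S : Finset α) (c : α → α → ℚ)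
    (h1 : ∀ s ∈ S, ∀ t ∈ S, c s t * c t s = 1) (h2 : ∀ s ∈ S, c s s = 1) :
    ∏ s ∈ S, ∏ t ∈ S, c s t = 1 := by
  rw [← Finset.prod_product']
  refine Finset.prod_involution (fun p _ => p.swap) (fun p hp => ?_) (fun p hp hne he => hne ?_)
    (fun p hp => ?_) fun p _ => rfl
  · obtain ⟨a, b⟩ := Finset.mem_product.1 hp
    exact h1 _ a _ b
  · have : p.2 = p.1 := congrArg Prod.fst he
    rw [this]
    exact h2 _ (Finset.mem_product.1 hp).1
  · obtain ⟨a, b⟩ := Finset.mem_product.1 hp
    exact Finset.mem_product.2 ⟨b, a⟩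

/-- One factor of the sign of a monomial. -/
def shbase_e (m : Pt J → ℕ) (s t : Pt J) : ℚ :=
  if s.1 = t.1 ∧ D.b s.1 = true ∧ s.2 < t.2 ∧ m t < m s then -1 else 1

/-- The sign of a monomial. -/
def shbase_eps (S : Finset (Pt J)) (m : Pt J → ℕ) : ℚ := ∏ s ∈ S, ∏ t ∈ S, shbase_e D m s t

theorem shbase_e_sq (m : Pt J → ℕ) (s t : Pt J) : shbase_e D m s t * shbase_e D m s t = 1 := by
  unfold shbase_e
  split_ifs <;> norm_num

theorem shbase_eps_sq (S : Finset (Pt J)) (m : Pt J → ℕ) : shbase_eps D S m * shbase_eps D S m = 1 := by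
  simp only [shbase_eps, ← Finset.prod_mul_distrib, shbase_e_sq, Finset.prod_const_one]

theorem shbase_eps_ne (S : Finset (Pt J)) (m : Pt J → ℕ) : shbase_eps D S m ≠ 0 :=
  left_ne_zero_of_mul_eq_one (shbase_eps_sq D S m)

theorem shbase_prod_GS {S : Finset (Pt J)} {g : Equiv.Perm (Pt J)} (hg : g ∈ GS S) (f : Pt J → ℚ) :
    ∏ s ∈ S, f (g s) = ∏ s ∈ S, f s := by
  conv_rhs => rw [← mv_of_GS hg, mv, Finset.prod_map]
  rfl

theorem shbase_chi_eps {S : Finset (Pt J)} {g : Equiv.Perm (Pt J)} (hg : g ∈ GS S) {m m' : Pt J → ℕ}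
    (hm : ∀ s, m' (g s) = m s)
    (hgood : ∀ s ∈ S, ∀ t ∈ S, s.1 = t.1 → D.b s.1 = true → m s = m t → s = t) :
    D.chi S g * shbase_eps D S m = shbase_eps D S m' := by
  have h1 : shbase_eps D S m' = ∏ s ∈ S, ∏ t ∈ S, shbase_e D m' (g s) (g t) := by
    rw [shbase_eps, ← shbase_prod_GS hg]
    exact Finset.prod_congr rfl fun s _ => (shbase_prod_GS hg _).symm
  refine mul_right_cancel₀ (shbase_eps_ne D S m') ?_
  rw [shbase_eps_sq, h1, Dat.chi, shbase_eps]
  simp only [← Finset.prod_mul_distrib]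
  have hc : ∀ s, (g s).1 = s.1 := hg.1
  refine shbase_sym S _ (fun s hs t ht => ?_) fun s _ => by simp [shbase_e]
  simp only [shbase_e, Dat.sg, hc, hm]
  by_cases e : s = t
  · subst e; simp
  by_cases e1 : s.1 = t.1
  · by_cases e2 : D.b s.1 = true
    · have n1 : s.2 ≠ t.2 := fun h => e (Prod.ext e1 h)
      have n2 : (g s).2 ≠ (g t).2 := fun h => e (g.injective (Prod.ext (by rw [hc, hc, e1]) h))
      have n3 : m s ≠ m t := fun h => e (hgood s hs t ht e1 e2 h)
      have e3 : D.b t.1 = true := e1 ▸ e2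
      simp only [e1, e3, true_and]
      rcases lt_or_gt_of_ne n1 with a | a <;> rcases lt_or_gt_of_ne n2 with b | b <;>
        rcases lt_or_gt_of_ne n3 with c | c <;>
        simp [a, b, c, a.not_gt, b.not_gt, c.not_gt]
    · have e3 : ¬ D.b t.1 = true := e1 ▸ e2
      simp [e2, e3]
  · have e3 : ¬ t.1 = s.1 := fun h => e1 h.symm
    simp [e1, e3]

theorem shbase_rel {α β : Type} [DecidableEq α] (φ0 : α → β) {r : α → β → Prop} {s : Multiset α}
    {t : Multiset β} (h : Multiset.Rel r s t) (hs : s.Nodup) :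
    ∃ φ : α → β, s.map φ = t ∧ ∀ a ∈ s, r a (φ a) := by
  induction h with
  | zero => exact ⟨φ0, rfl, fun a ha => absurd ha (Multiset.notMem_zero a)⟩
  | @cons a b as bs hab _ ih =>
    obtain ⟨h1, h2⟩ := Multiset.nodup_cons.1 hs
    obtain ⟨φ, h3, h4⟩ := ih h2
    have h5 : ∀ c ∈ as, Function.update φ a b c = φ c := fun c hc =>
      Function.update_of_ne (by rintro rfl; exact h1 hc) _ _
    refine ⟨Function.update φ a b, ?_, fun c hc => ?_⟩
    · rw [Multiset.map_cons, Function.update_self, Multiset.map_congr rfl h5, h3]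
    · rcases Multiset.mem_cons.1 hc with rfl | hc
      · rwa [Function.update_self]
      · rw [h5 c hc]; exact h4 c hc

/-- Exponent vectors supported in `S`. -/
abbrev shbase_Om (S : Finset (Pt J)) : Type := {m : Pt J →₀ ℕ // m.support ⊆ S}

/-- The type of an exponent vector. -/
def shbase_tp (S : Finset (Pt J)) (x : shbase_Om S) : Multiset (J × ℕ) := S.val.map fun s => (s.1, x.1 s)

/-- The action on exponent vectors. -/
def shbase_mv (S : Finset (Pt J)) (g : GS S) (x : shbase_Om S) : shbase_Om S :=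
  ⟨x.1.mapDomain g.1, Finsupp.mapDomain_support.trans fun s hs => by
    obtain ⟨t, ht, rfl⟩ := Finset.mem_image.1 hs
    have : g.1 t ∈ mv g.1 S := mem_mv.2 (by simpa using x.2 ht)
    rwa [mv_of_GS g.2] at this⟩

theorem shbase_mv_apply {S : Finset (Pt J)} (g : GS S) (x : shbase_Om S) (s : Pt J) :
    (shbase_mv S g x).1 (g.1 s) = x.1 s := Finsupp.mapDomain_apply g.1.injective _ _

theorem shbase_mv_eq {S : Finset (Pt J)} (g : GS S) {x y : shbase_Om S} (h : ∀ s, y.1 (g.1 s) = x.1 s) :
    shbase_mv S g x = y := by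
  refine Subtype.ext (Finsupp.ext fun s => ?_)
  obtain ⟨t, rfl⟩ := g.1.surjective s
  rw [shbase_mv_apply, h]

theorem shbase_zero {S : Finset (Pt J)} (x : shbase_Om S) {s : Pt J} (hs : s ∉ S) : x.1 s = 0 :=
  Finsupp.notMem_support_iff.1 fun h => hs (x.2 h)

theorem shbase_gd {S : Finset (Pt J)} (x : shbase_Om S) : Gd D.b (shbase_tp S x) ↔
    ∀ s ∈ S, ∀ t ∈ S, s.1 = t.1 → D.b s.1 = true → x.1 s = x.1 t → s = t := by
  rw [Gd, shbase_tp, Multiset.filter_map, Multiset.nodup_map_iff_inj_on (S.nodup.filter _)]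
  simp only [Multiset.mem_filter, Finset.mem_val, Function.comp, Prod.mk.injEq]
  exact ⟨fun h s hs t ht e1 e2 e3 => h s ⟨hs, e2⟩ t ⟨ht, e1 ▸ e2⟩ ⟨e1, e3⟩,
    fun h s hs t ht e => h s hs.1 t ht.1 e.1 hs.2 e.2⟩

theorem shbase_count (S : Finset (Pt J)) (j : J) : (S.val.map Prod.fst).count j = ty S j := by
  rw [Multiset.count_map, ty, Finset.card, Finset.filter_val]
  congr 1
  exact Multiset.filter_congr fun s _ => eq_comm

theorem shbase_exists {S : Finset (Pt J)} {μ : Multiset (J × ℕ)}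
    (h : ∀ j, (μ.map Prod.fst).count j = ty S j) : ∃ x, shbase_tp S x = μ := by
  have h1 : S.val.map Prod.fst = μ.map Prod.fst := Multiset.ext.2 fun j => by rw [h, shbase_count]
  obtain ⟨φ, h2, h3⟩ := shbase_rel id (Multiset.rel_map.1 (Multiset.rel_eq.2 h1)) S.nodup
  refine ⟨⟨Finsupp.onFinset S (fun s => if s ∈ S then (φ s).2 else 0) fun s hs => ?_,
    Finsupp.support_onFinset_subset⟩, ?_⟩
  · by_contra h'
    exact hs (if_neg h')
  · rw [← h2]
    refine Multiset.map_congr rfl fun s hs => ?_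
    have hs' : s ∈ S := hs
    exact Prod.ext (h3 s hs) (by simp [hs'])

theorem shbase_base (S : Finset (Pt J)) : Hilb ⊥ (D.Inv S) = ∏ j, hE (D.b j) (ty S j) := by
  let ι := {μ : Multiset (J × ℕ) // Gd D.b μ ∧ ∀ j, (μ.map Prod.fst).count j = ty S j}
  choose rep hrep using fun μ : ι => shbase_exists μ.2.2
  let F : ℕ → Submodule ℚ (PR J) := fun n => if n = 0 then ⊥ else ⊤
  have F0 : F 0 = ⊥ := if_pos rfl
  have F1 : ∀ n, F (n + 1) = ⊤ := fun n => if_neg n.succ_ne_zero
  let b : shbase_Om S → PR J := fun x => shbase_eps D S x.1 • monomial x.1 1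
  have hb : LinearIndependent ℚ b := by
    have := ((basisMonomials (Pt J) ℚ).linearIndependent.comp (Subtype.val : shbase_Om S → _)
      Subtype.val_injective).units_smul fun x => Units.mk0 _ (shbase_eps_ne D S x.1)
    have e : b = (fun x : shbase_Om S => Units.mk0 _ (shbase_eps_ne D S x.1)) •
        ((basisMonomials (Pt J) ℚ) ∘ (Subtype.val : shbase_Om S → _)) := by
      funext x
      simp [b, Units.smul_def]
    rw [e]
    exact this
  have key := HB_of_fb D S F (fun n k hnk => ?_) (fun n g _ f hf => ?_) (I := ⊥) (by simp [F0])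
    (shbase_mv S) (fun x => shbase_mv_eq _ fun s => rfl) (shbase_tp S) (fun _ => 0) b
    (fun x => en (shbase_tp S x)) (Gd D.b) (fun x => ?_) (fun x => ?_) (fun _ _ => rfl) (fun g x => ?_)
    (fun x y hxy => ?_) (fun x => by rw [F1]; trivial) (fun g x hx => ?_) (fun x hx => ?_) (fun n => ?_)
    (fun n f hf _ => ?_) (fun f _ => ⟨1, by rw [F1]; trivial⟩) rep (fun i => by rw [hrep]; exact i.2.1)
    (fun i j hij => Subtype.ext (by simpa only [hrep] using hij))
    (fun x hx => ⟨⟨shbase_tp S x, hx, fun j => ?_⟩, hrep _⟩)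
  · have h1 := (key.gf (fun f hf n => ?_) (S := S) fun f hf => hf.1).2
    · rw [h1]
      simp only [hrep]
      exact (GF_conf D.b (ty S)).2
    · have : f = 0 := by simpa using hf
      simp [this]
  · rcases n with _ | n
    · rw [F0]; exact bot_le
    · obtain ⟨k, rfl⟩ : ∃ k', k = k' + 1 := ⟨k - 1, by omega⟩
      rw [F1, F1]
  · rcases n with _ | n
    · rw [F0] at hf ⊢
      rw [(Submodule.mem_bot ℚ).1 hf, map_zero]
      exact Submodule.zero_mem _
    · rw [F1]; trivial
  · refine Submodule.smul_mem _ _ ?_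
    change monomial x.1 (1 : ℚ) ∈ supported ℚ (S : Set (Pt J))
    rw [mem_supported, vars_monomial one_ne_zero]
    exact Finset.coe_subset.2 x.2
  · refine (homogeneousSubmodule (Pt J) ℚ _).smul_mem _ (isHomogeneous_monomial _ ?_)
    rw [Finsupp.degree_apply, Finset.sum_subset x.2 fun s _ hs => Finsupp.notMem_support_iff.1 hs, en,
      shbase_tp, Multiset.map_map]
    rfl
  · have : S.val = S.val.map g.1 := by
      conv_lhs => rw [← mv_of_GS g.2, mv, Finset.map_val]
      rfl
    rw [shbase_tp, this, Multiset.map_map, shbase_tp]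
    refine Multiset.map_congr rfl fun s _ => ?_
    rw [Function.comp, shbase_mv_apply, g.2.1 s]
  · obtain ⟨g, hg1, hg2⟩ := exists_perm_of_fibers S (fun s => (s.1, x.1 s)) (fun s => (s.1, y.1 s))
      fun z => by
        have := congrArg (Multiset.count z) hxy
        rw [shbase_tp, shbase_tp, Multiset.count_map, Multiset.count_map] at this
        simpa only [Finset.card, Finset.filter_val, eq_comm] using this
    refine ⟨⟨g, fun s => ?_, hg1⟩, shbase_mv_eq _ fun s => ?_⟩
    · by_cases hs : s ∈ S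
      · exact (Prod.ext_iff.1 (hg2 s hs)).1
      · rw [hg1 s hs]
    · by_cases hs : s ∈ S
      · exact (Prod.ext_iff.1 (hg2 s hs)).2
      · change y.1 (g s) = _
        rw [hg1 s hs, shbase_zero x hs, shbase_zero y hs]
  · have h1 := shbase_chi_eps D g.2 (shbase_mv_apply g x) ((shbase_gd D x).1 hx)
    have : D.act S g.1 (b x) = b (shbase_mv S g x) := by
      rw [Dat.act_apply, map_smul, rename_monomial, smul_smul, h1]
      rfl
    rw [this, sub_self]
    exact Submodule.zero_mem _
  · rw [shbase_gd] at hx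
    push Not at hx
    obtain ⟨s, hs, t, ht, e1, e2, e3, e4⟩ := hx
    refine ⟨⟨Equiv.swap s t, shbase_swap_GS hs ht e1⟩, ?_⟩
    have h1 : shbase_mv S ⟨Equiv.swap s t, shbase_swap_GS hs ht e1⟩ x = x :=
      shbase_mv_eq _ fun u => Equiv.apply_swap_eq_self e3 u
    have h2 : x.1.mapDomain (Equiv.swap s t) = x.1 := congrArg Subtype.val h1
    have : D.act S (Equiv.swap s t) (b x) = -b x := by
      rw [Dat.act_apply, map_smul, rename_monomial, chi_swap D hs ht e4 e1 e2, h2, neg_one_smul]
    rw [this, neg_add_cancel]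
    exact Submodule.zero_mem _
  · rcases n with _ | n
    · exact (hb.comp _ Subtype.val_injective).map' (F 0).mkQ (by rw [Submodule.ker_mkQ, F0])
    · have : IsEmpty {x : shbase_Om S // 0 = n + 1} := ⟨fun x => by have := x.2; omega⟩
      exact linearIndependent_empty_type
  · rcases n with _ | n
    · refine Submodule.mem_sup_left ?_
      have h1 : (f.vars : Set (Pt J)) ⊆ S := mem_supported.1 hf.1
      rw [f.as_sum]
      refine Submodule.sum_mem _ fun m hm => ?_
      have h2 : m.support ⊆ S := fun s hs => h1 ((mem_vars_iff_mem_support s).2 ⟨m, hm, hs⟩)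
      have h3 : monomial m (coeff m f) = (coeff m f * shbase_eps D S m) • b ⟨m, h2⟩ := by
        simp only [b]
        rw [smul_smul, mul_assoc, shbase_eps_sq, mul_one, smul_monomial, smul_eq_mul, mul_one]
      rw [h3]
      exact Submodule.smul_mem _ _ (Submodule.subset_span ⟨_, rfl, rfl⟩)
    · refine Submodule.mem_sup_right ?_
      rw [F1]; trivial
  · rw [shbase_tp, Multiset.map_map]
    exact shbase_count S j

theorem base (d : J → ℕ) : Hilb ⊥ (D.Inv (std d)) = ∏ j, hE (D.b j) (d j) := by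
  rw [shbase_base, ty_std]

end

end Crest.Agent.R59
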