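import Crest.Agent.R59.ShHB
import Crest.Agent.R59.ShTens

/-!
# R59/ShTP: the torsion pair filtration

Fix `S`.  For `U ⊆ S` with `¬ p (wt U)` let `lev U = #{U' ⊆ S | wt U' < wt U}` and
`F n = Ib p S ⊔ span {K U (S \ U) | U ⊆ S, lev U < n}` as a subspace (`F 0 = Ib p S`, `F n = ⊤` for large
`n` because `K ∅ S = 1`).  With equivariant bases `u` of `IT`, `w` of `IF`, use `HB_of_fb` with
`Ω = {(U, c, c') | U ⊆ S, ¬ p (wt U), dim c = ty U, dim c' = ty (S \ U)}`,
`b = Kt U (S \ U) * u c U * w c' (S \ U)`, type `(c, c')`, everything good (`act_Kt`).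
Put `JU = IT U ⊔ IF (S \ U)`.
* `K U (S \ U) * JU ⊆ F (lev U)` (`K_mul_JU`);
* `K U' (S \ U') ∈ JU` if `U' ≠ U`, `wt U' ≤ wt U` (`K_mem_JU`); hence `F (lev U) ⊆ JU` (note that `p (wt U')`
  and `¬ p (wt U)` give `wt U' < wt U`), and independence follows from `K_nzd`, `tens_ind`.
* span: `f = ∑_{lev U = n} K U (S \ U) * f_U + r` with `f_U ∈ RS S` (kill the other variables);
  `f = Av S f`; `Av S (Kt U * f_U) = Av S (Kt U * Av U (Av (S \ U) f_U))`, `tens_span`; finally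
  `Av S (b x)` is a combination of the `b (m g x)`.
-/

set_option autoImplicit false
set_option linter.unusedSectionVars false
set_option linter.unusedVariables false

namespace Crest.Agent.R59

noncomputable section

open MvPolynomial

variable {J : Type} [Fintype J] [DecidableEq J] (D : Dat J)
  {Λ : Type} [AddCommGroup Λ] [LinearOrder Λ] [IsOrderedAddMonoid Λ] (φ : J → Λ)

theorem shtp_gen_mem {p : Λ → Prop} {S U : Finset (Pt J)} (hU : U ⊆ S) (hp : p (wt φ U)) :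
    D.K U (S \ U) ∈ Ib D φ p S :=
  Ideal.subset_span ⟨U, hU, hp, rfl⟩

theorem shtp_Ib_le {p : Λ → Prop} {S : Finset (Pt J)} {I : Ideal (PR J)}
    (h : ∀ U, U ⊆ S → p (wt φ U) → D.K U (S \ U) ∈ I) : Ib D φ p S ≤ I := by
  refine Ideal.span_le.mpr ?_
  rintro f ⟨U, hU, hp, rfl⟩
  exact h U hU hp

theorem shtp_wt_union {U W : Finset (Pt J)} (h : Disjoint U W) :
    wt φ (U ∪ W) = wt φ U + wt φ W := Finset.sum_union h

theorem K_mul_JU {S U : Finset (Pt J)} (hU : U ⊆ S) {f : PR J} (hf : f ∈ IT D φ U ⊔ IF D φ (S \ U)) :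
    D.K U (S \ U) * f ∈ Ib D φ (fun x => x < wt φ U) S := by
  have key : IT D φ U ⊔ IF D φ (S \ U) ≤
      (Ib D φ (fun x => x < wt φ U) S).colon {D.K U (S \ U)} := by
    refine sup_le (shtp_Ib_le D φ fun V hV hlt => ?_) (shtp_Ib_le D φ fun V hV hlt => ?_)
    · rw [Submodule.mem_colon_singleton, smul_eq_mul]
      refine Ideal.mem_of_dvd _ ?_ (shtp_gen_mem D φ (hV.trans hU) hlt)
      have h1 : S \ V = (U \ V) ∪ (S \ U) := by
        ext s
        have := @hU s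
        have := @hV s
        simp only [Finset.mem_sdiff, Finset.mem_union]
        tauto
      have h2 : Disjoint (U \ V) (S \ U) :=
        Finset.disjoint_of_subset_left Finset.sdiff_subset Finset.disjoint_sdiff
      rw [h1, D.K_union_right V h2]
      exact mul_dvd_mul_left _ (D.K_dvd hV le_rfl)
    · rw [Submodule.mem_colon_singleton, smul_eq_mul]
      have h2 : Disjoint U V := Finset.disjoint_of_subset_right hV Finset.disjoint_sdiff
      have h3 : U ∪ V ⊆ S := Finset.union_subset hU (hV.trans Finset.sdiff_subset)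
      have h4 : wt φ (U ∪ V) < wt φ U := by
        rw [shtp_wt_union φ h2]
        exact add_lt_of_neg_right _ hlt
      refine Ideal.mem_of_dvd _ ?_ (shtp_gen_mem D φ (p := fun x => x < wt φ U) h3 h4)
      have h1 : S \ (U ∪ V) = (S \ U) \ V := by
        ext s
        simp only [Finset.mem_sdiff, Finset.mem_union]
        tauto
      rw [h1, D.K_union_left h2, mul_comm]
      exact mul_dvd_mul_left _ (D.K_dvd le_rfl Finset.sdiff_subset)
  have := key hf
  rwa [Submodule.mem_colon_singleton, smul_eq_mul, mul_comm] at this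

theorem K_mem_JU (h0 : ∀ d, wd φ d = 0 → d = 0) {S U U' : Finset (Pt J)} (hU : U ⊆ S) (hU' : U' ⊆ S)
    (hne : U' ≠ U) (hle : wt φ U' ≤ wt φ U) : D.K U' (S \ U') ∈ IT D φ U ⊔ IF D φ (S \ U) := by
  have hz : ∀ V : Finset (Pt J), wt φ V = 0 → V = ∅ := fun V hV =>
    ty_eq_zero.mp (h0 _ (by rw [← wt_eq_wd, hV]))
  by_cases hA : wt φ (U' ∩ U) < wt φ U
  · refine Ideal.mem_sup_left (Ideal.mem_of_dvd _ ?_
      (shtp_gen_mem D φ (p := fun x => x < wt φ U) Finset.inter_subset_right hA))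
    refine D.K_dvd Finset.inter_subset_left fun s hs => ?_
    have := @hU s
    simp only [Finset.mem_sdiff, Finset.mem_inter] at hs ⊢
    tauto
  by_cases hB : wt φ (U' \ U) < 0
  · refine Ideal.mem_sup_right (Ideal.mem_of_dvd _ ?_
      (shtp_gen_mem D φ (p := fun x => x < 0) (Finset.sdiff_subset_sdiff hU' le_rfl) hB))
    refine D.K_dvd Finset.sdiff_subset fun s hs => ?_
    simp only [Finset.mem_sdiff] at hs ⊢
    tauto
  exfalso
  rw [not_lt] at hA hB
  have e1 : wt φ U' = wt φ (U' ∩ U) + wt φ (U' \ U) := by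
    rw [← shtp_wt_union φ (Finset.disjoint_of_subset_left Finset.inter_subset_right
      Finset.disjoint_sdiff), Finset.union_comm, Finset.sdiff_union_inter]
  have e2 : wt φ U = wt φ (U' ∩ U) + wt φ (U \ U') := by
    rw [← shtp_wt_union φ (Finset.disjoint_of_subset_left Finset.inter_subset_left
      Finset.disjoint_sdiff), Finset.union_comm, Finset.inter_comm, Finset.sdiff_union_inter]
  have e3 : wt φ (U' \ U) = 0 := by
    refine le_antisymm ?_ hB
    rw [e1] at hle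
    exact (add_le_iff_nonpos_right _).mp (hle.trans hA)
  have e4 : wt φ (U \ U') = 0 := by
    have : wt φ (U' ∩ U) = wt φ U := by
      refine le_antisymm ?_ hA
      rw [e1, e3, add_zero] at hle
      exact hle
    rw [this] at e2
    exact (add_eq_left.mp e2.symm)
  exact hne (Finset.Subset.antisymm (Finset.sdiff_eq_empty_iff_subset.mp (hz _ e3))
    (Finset.sdiff_eq_empty_iff_subset.mp (hz _ e4)))

/-- The number of subsets of smaller weight. -/
def shtp_lev (S : Finset (Pt J)) (x : Λ) : ℕ := (S.powerset.filter fun U => wt φ U < x).card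

theorem shtp_lev_mono (S : Finset (Pt J)) {x y : Λ} (h : x ≤ y) :
    shtp_lev φ S x ≤ shtp_lev φ S y := by
  refine Finset.card_le_card fun U hU => ?_
  rw [Finset.mem_filter] at hU ⊢
  exact ⟨hU.1, hU.2.trans_le h⟩

theorem shtp_lev_lt {S U : Finset (Pt J)} (hU : U ⊆ S) {y : Λ} (h : wt φ U < y) :
    shtp_lev φ S (wt φ U) < shtp_lev φ S y := by
  refine Finset.card_lt_card ⟨fun V hV => ?_, fun hle => ?_⟩
  · rw [Finset.mem_filter] at hV ⊢
    exact ⟨hV.1, hV.2.trans h⟩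
  · have := hle (Finset.mem_filter.mpr ⟨Finset.mem_powerset.mpr hU, h⟩)
    exact lt_irrefl _ (Finset.mem_filter.mp this).2

theorem shtp_smul_mem {I : Ideal (PR J)} (c : ℚ) {f : PR J} (hf : f ∈ I) : c • f ∈ I :=
  (IQ I).smul_mem c hf

theorem shtp_sum_mkQ {I : Ideal (PR J)} {ι : Type} {s : Finset ι} {g : ι → ℚ} {v : ι → PR J} :
    ∑ i ∈ s, g i • (IQ I).mkQ (v i) = 0 ↔ ∑ i ∈ s, g i • v i ∈ I := by
  simp only [← map_smul, ← map_sum]
  rw [Submodule.mkQ_apply, Submodule.Quotient.mk_eq_zero, Submodule.restrictScalars_mem]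

theorem shtp_ind_mul {I : Ideal (PR J)} {k : PR J} (hk : ∀ f, k * f ∈ I → f ∈ I) {ι : Type}
    {v : ι → PR J} (h : LinearIndependent ℚ fun i => (IQ I).mkQ (v i)) :
    LinearIndependent ℚ fun i => (IQ I).mkQ (k * v i) := by
  rw [linearIndependent_iff'] at h ⊢
  intro s g hg
  refine h s g ?_
  rw [shtp_sum_mkQ] at hg ⊢
  refine hk _ ?_
  simpa only [Finset.mul_sum, mul_smul_comm] using hg

theorem shtp_trInv (S U : Finset (Pt J)) : TrInv U (IT D φ U ⊔ IF D φ (S \ U)) := by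
  refine TrInv.sup (trInv_span ?_) (trInv_span ?_)
  · rintro f ⟨V, hV, -, rfl⟩
    exact trU_K D (Or.inl ⟨hV, Finset.sdiff_subset⟩)
  · rintro f ⟨V, hV, -, rfl⟩
    exact trU_K D (Or.inr ⟨Finset.disjoint_of_subset_left hV Finset.sdiff_disjoint,
      Finset.disjoint_of_subset_left Finset.sdiff_subset Finset.sdiff_disjoint⟩)

theorem shtp_K_eq (U W : Finset (Pt J)) : D.K U W = D.sgn U W • D.Kt U W := by
  rw [Dat.Kt, smul_smul, D.sgn_mul_self, one_smul]

theorem shtp_act_one {U W : Finset (Pt J)} (h : Disjoint U W) {g : Equiv.Perm (Pt J)}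
    (hg : g ∈ GS U) : D.act W g 1 = 1 := by
  rw [D.act_apply, D.chi_congr (g' := 1) fun s hs => hg.2 s (Finset.disjoint_right.mp h hs),
    D.chi_one, map_one, one_smul]

theorem shtp_Av_act (S : Finset (Pt J)) {g : Equiv.Perm (Pt J)} (hg : g ∈ GS S) (f : PR J) :
    D.Av S (D.act S g f) = D.Av S f :=
  (avg_rep (D.rep S) ⟨g, hg⟩ f).1

theorem shtp_Av_Av {S U : Finset (Pt J)} {k : PR J}
    (h : ∀ g ∈ GS U, ∀ f, D.Av S (k * D.act U g f) = D.Av S (k * f)) (f : PR J) :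
    D.Av S (k * D.Av U f) = D.Av S (k * f) := by
  have h1 : D.Av U f = (Fintype.card (GS U) : ℚ)⁻¹ • ∑ g : GS U, D.act U g.1 f := by
    simp [Dat.Av, Dat.rep_apply]
  have hc : (Fintype.card (GS U) : ℚ) ≠ 0 := by exact_mod_cast Fintype.card_ne_zero
  rw [h1, mul_smul_comm, map_smul, Finset.mul_sum, map_sum,
    Finset.sum_congr rfl fun (g : GS U) _ => h g.1 g.2 f, Finset.sum_const, Finset.card_univ,
    ← Nat.cast_smul_eq_nsmul ℚ, smul_smul, inv_mul_cancel₀ hc, one_smul]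

theorem shtp_Av_Kt {U W : Finset (Pt J)} (h : Disjoint U W) (f : PR J) :
    D.Av (U ∪ W) (D.Kt U W * D.Av U (D.Av W f)) = D.Av (U ∪ W) (D.Kt U W * f) := by
  rw [shtp_Av_Av, shtp_Av_Av]
  · intro g hg f
    have := D.act_Kt hg.1 h 1 f
    rw [mv_of_GS hg, mv_of_disjoint hg h.symm, shtp_act_one D h.symm hg, mul_one] at this
    rw [← this, shtp_Av_act D _ (GS_mono Finset.subset_union_right hg)]
  · intro g hg f
    have := D.act_Kt hg.1 h f 1
    rw [mv_of_GS hg, mv_of_disjoint hg h, shtp_act_one D h hg, mul_one, mul_one] at this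
    rw [← this, shtp_Av_act D _ (GS_mono Finset.subset_union_left hg)]

/-- Killing the variables outside `S`. -/
def shtp_pi (S : Finset (Pt J)) : PR J →ₐ[ℚ] PR J := aeval fun s => if s ∈ S then X s else 0

theorem shtp_pi_mem (S : Finset (Pt J)) (f : PR J) : shtp_pi S f ∈ RS S := by
  induction f using MvPolynomial.induction_on with
  | C a =>
    rw [shtp_pi, aeval_C, Algebra.algebraMap_eq_smul_one]
    exact (RS S).smul_mem _ (RS_one S)
  | add f g hf hg =>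
    rw [map_add]
    exact (RS S).add_mem hf hg
  | mul_X f s hf =>
    rw [map_mul]
    refine RS_mul hf ?_
    rw [shtp_pi, aeval_X]
    split_ifs with hs
    · exact RS_X hs
    · exact (RS S).zero_mem

theorem shtp_pi_eq {S : Finset (Pt J)} {f : PR J} (hf : f ∈ RS S) : shtp_pi S f = f := by
  have h : supported ℚ (S : Set (Pt J)) ≤ AlgHom.equalizer (shtp_pi S) (AlgHom.id ℚ (PR J)) := by
    refine Algebra.adjoin_le ?_
    rintro _ ⟨s, hs, rfl⟩
    have hs' : s ∈ S := hs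
    simp [shtp_pi, hs']
  exact h hf

section main

variable {D φ} (BT : TB D (sysI D φ fun w x => x < w)) (BF : TB D (sysI D φ fun _ x => x < 0))
  (p : Λ → Prop) (S : Finset (Pt J))

/-- The index set. -/
abbrev shtp_Om : Type :=
  {x : Finset (Pt J) × BT.ι × BF.ι //
    x.1 ⊆ S ∧ ¬p (wt φ x.1) ∧ BT.dim x.2.1 = ty x.1 ∧ BF.dim x.2.2 = ty (S \ x.1)}

variable {BT BF p S}

theorem shtp_wt_mv {g : Equiv.Perm (Pt J)} (hg : g ∈ CP J) (U : Finset (Pt J)) :
    wt φ (mv g U) = wt φ U := by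
  rw [wt_eq_wd, wt_eq_wd, ty_mv hg]

theorem shtp_mv_sdiff (g : GS S) (U : Finset (Pt J)) : S \ mv g.1 U = mv g.1 (S \ U) := by
  rw [mv_sdiff, mv_of_GS g.2]

/-- The action on the index set. -/
def shtp_m (g : GS S) (x : shtp_Om BT BF p S) : shtp_Om BT BF p S :=
  ⟨(mv g.1 x.1.1, x.1.2), by
    obtain ⟨h1, h2, h3, h4⟩ := x.2
    refine ⟨?_, ?_, ?_, ?_⟩
    · exact (Finset.map_subset_map.mpr h1).trans (mv_of_GS g.2).subset
    · rwa [shtp_wt_mv g.2.1]
    · rwa [ty_mv g.2.1]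
    · rwa [shtp_mv_sdiff, ty_mv g.2.1]⟩

/-- The family. -/
def shtp_b (x : shtp_Om BT BF p S) : PR J :=
  D.Kt x.1.1 (S \ x.1.1) * BT.u x.1.2.1 x.1.1 * BF.u x.1.2.2 (S \ x.1.1)

/-- The filtration. -/
def shtp_F (D : Dat J) (φ : J → Λ) (p : Λ → Prop) (S : Finset (Pt J)) (n : ℕ) : Ideal (PR J) :=
  Ib D φ (fun x => p x ∨ shtp_lev φ S x < n) S

theorem shtp_uT_mem {U : Finset (Pt J)} {c : BT.ι} (hc : BT.dim c = ty U) : BT.u c U ∈ RS U :=
  ((BT.hb U).mem ⟨c, hc⟩).2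

theorem shtp_uF_mem {U : Finset (Pt J)} {c : BF.ι} (hc : BF.dim c = ty U) : BF.u c U ∈ RS U :=
  ((BF.hb U).mem ⟨c, hc⟩).2

theorem shtp_b_mem (x : shtp_Om BT BF p S) : shtp_b x ∈ RS S := by
  obtain ⟨h1, h2, h3, h4⟩ := x.2
  exact RS_mul (RS_mul ((RS S).smul_mem _ (D.K_mem h1 Finset.sdiff_subset))
    (RS_mono h1 (shtp_uT_mem h3))) (RS_mono Finset.sdiff_subset (shtp_uF_mem h4))

theorem shtp_b_hom (x : shtp_Om BT BF p S) : (shtp_b x).IsHomogeneous
    (aa D.a (BT.dim x.1.2.1) (BF.dim x.1.2.2) + (BT.t x.1.2.1 + BF.t x.1.2.2)) := by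
  obtain ⟨h1, h2, h3, h4⟩ := x.2
  rw [← add_assoc, h3, h4]
  exact (((homogeneousSubmodule (Pt J) ℚ _).smul_mem _ (D.K_hom _ _)).mul
    ((BT.hb _).hom ⟨_, h3⟩)).mul ((BF.hb _).hom ⟨_, h4⟩)

theorem shtp_act_b (g : GS S) (x : shtp_Om BT BF p S) :
    D.act S g.1 (shtp_b x) = shtp_b (shtp_m g x) := by
  obtain ⟨h1, h2, h3, h4⟩ := x.2
  have := D.act_Kt g.2.1 (Finset.disjoint_sdiff (s := x.1.1) (t := S)) (BT.u x.1.2.1 x.1.1)
    (BF.u x.1.2.2 (S \ x.1.1))
  rw [Finset.union_sdiff_of_subset h1, BT.eqv _ g.2.1 _ _ h3, BF.eqv _ g.2.1 _ _ h4,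
    ← shtp_mv_sdiff] at this
  exact this

theorem shtp_b_mem_of {I : Ideal (PR J)} (x : shtp_Om BT BF p S) (h : D.K x.1.1 (S \ x.1.1) ∈ I) :
    shtp_b x ∈ I := by
  refine I.mul_mem_right _ (I.mul_mem_right _ ?_)
  exact shtp_smul_mem _ h

theorem shtp_F_stab (n : ℕ) : ∀ g ∈ GS S, ∀ f ∈ IQ (shtp_F D φ p S n),
    rename g f ∈ IQ (shtp_F D φ p S n) := by
  intro g hg f hf
  have := (sysI D φ fun _ x => p x ∨ shtp_lev φ S x < n).Ie g hg.1 S f hf
  rwa [mv_of_GS hg] at this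

theorem shtp_F_mono {a b : ℕ} (hab : a ≤ b) : shtp_F D φ p S a ≤ shtp_F D φ p S b :=
  shtp_Ib_le D φ fun V hV h =>
    shtp_gen_mem D φ (p := fun x => p x ∨ shtp_lev φ S x < b) hV (h.imp_right fun h => by omega)

theorem shtp_F_le (h0 : ∀ d, wd φ d = 0 → d = 0) (hp : ∀ x y, x ≤ y → p y → p x)
    {U : Finset (Pt J)} (hU : U ⊆ S) (hpU : ¬p (wt φ U)) :
    shtp_F D φ p S (shtp_lev φ S (wt φ U)) ≤ IT D φ U ⊔ IF D φ (S \ U) := by
  refine shtp_Ib_le D φ fun V hV h => ?_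
  have hlt : wt φ V < wt φ U := by
    by_contra hle
    rw [not_lt] at hle
    rcases h with h | h
    · exact hpU (hp _ _ hle h)
    · exact absurd (shtp_lev_mono φ S hle) (not_le.mpr h)
  exact K_mem_JU D φ h0 hU hV (fun e => by rw [e] at hlt; exact lt_irrefl _ hlt) hlt.le

theorem shtp_ind (h0 : ∀ d, wd φ d = 0 → d = 0) (hp : ∀ x y, x ≤ y → p y → p x) (n : ℕ) :
    LinearIndependent ℚ fun x : {x : shtp_Om BT BF p S // shtp_lev φ S (wt φ x.1.1) = n} =>
      (IQ (shtp_F D φ p S n)).mkQ (shtp_b x.1) := by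
  classical
  have key : ∀ x : {x : shtp_Om BT BF p S // shtp_lev φ S (wt φ x.1.1) = n},
      ∃ l : PR J →ₗ[ℚ] ℚ, (∀ f ∈ shtp_F D φ p S n, l f = 0) ∧
        ∀ y : {x : shtp_Om BT BF p S // shtp_lev φ S (wt φ x.1.1) = n},
          l (shtp_b y.1) = if y = x then 1 else 0 := by
    rintro ⟨⟨⟨U, c, c'⟩, h1, h2, h3, h4⟩, rfl⟩
    dsimp only at h1 h2 h3 h4
    have hd : Disjoint U (S \ U) := Finset.disjoint_sdiff
    have i1 := tens_ind hd ((sysI D φ fun w x => x < w).gen U)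
      ((sysI D φ fun _ x => x < 0).gen (S \ U))
      (fun c : {c // BT.dim c = ty U} => shtp_uT_mem c.2)
      (fun c : {c // BF.dim c = ty (S \ U)} => shtp_uF_mem c.2) (BT.hb U).ind (BF.hb (S \ U)).ind
    have i2 := shtp_ind_mul (I := IT D φ U ⊔ IF D φ (S \ U)) (k := D.Kt U (S \ U))
      (fun f hf => by
        refine K_nzd D hd (shtp_trInv D φ S U) ?_
        rw [shtp_K_eq, smul_mul_assoc]
        exact shtp_smul_mem _ hf) i1
    obtain ⟨l, hl0, hl⟩ := exists_dual i2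
    refine ⟨l (⟨c, h3⟩, ⟨c', h4⟩), fun f hf => hl0 _ f (shtp_F_le h0 hp h1 h2 hf), ?_⟩
    rintro ⟨⟨⟨V, e, e'⟩, k1, k2, k3, k4⟩, k5⟩
    dsimp only at k1 k2 k3 k4 k5
    by_cases hVU : V = U
    · subst hVU
      have := hl (⟨c, h3⟩, ⟨c', h4⟩) (⟨e, k3⟩, ⟨e', k4⟩)
      rw [← mul_assoc] at this
      refine this.trans (if_congr ?_ rfl rfl)
      simp only [Prod.mk.injEq, Subtype.mk.injEq, shtp_Om, true_and]
      exact ⟨fun h => ⟨h.1.symm, h.2.symm⟩, fun h => ⟨h.1.symm, h.2.symm⟩⟩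
    · rw [if_neg]
      · refine hl0 _ _ (shtp_b_mem_of _ (K_mem_JU D φ h0 h1 k1 hVU ?_))
        by_contra hlt
        exact absurd k5 (shtp_lev_lt φ h1 (not_le.mp hlt)).ne'
      · intro e
        exact hVU (congrArg (fun x => x.1.1.1) e)
  choose l hl0 hl using key
  rw [linearIndependent_iff']
  intro s g hg x hx
  rw [shtp_sum_mkQ] at hg
  have := hl0 x _ hg
  rwa [map_sum, Finset.sum_eq_single_of_mem x hx fun y _ hy => by
    rw [map_smul, hl, if_neg hy, smul_zero], map_smul, hl, if_pos rfl, smul_eq_mul, mul_one] at this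

theorem shtp_span (n : ℕ) {f : PR J} (hf : f ∈ D.Inv S) (hF : f ∈ shtp_F D φ p S (n + 1)) :
    f ∈ Submodule.span ℚ (shtp_b '' {x : shtp_Om BT BF p S | shtp_lev φ S (wt φ x.1.1) = n}) ⊔
      IQ (shtp_F D φ p S n) := by
  classical
  set T := Submodule.span ℚ (shtp_b '' {x : shtp_Om BT BF p S | shtp_lev φ S (wt φ x.1.1) = n}) ⊔
      IQ (shtp_F D φ p S n) with hT
  have hFT : ∀ g ∈ shtp_F D φ p S n, D.Av S g ∈ T := fun g hg =>
    Submodule.mem_sup_right (D.Av_mem_of_stable (shtp_F_stab n) hg)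
  have base : ∀ U, U ⊆ S → (p (wt φ U) ∨ shtp_lev φ S (wt φ U) < n + 1) → ∀ g ∈ RS S,
      D.Av S (D.K U (S \ U) * g) ∈ T := by
    intro U hU h g hg
    by_cases h' : p (wt φ U) ∨ shtp_lev φ S (wt φ U) < n
    · exact hFT _ (Ideal.mul_mem_right _ _
        (shtp_gen_mem D φ (p := fun x => p x ∨ shtp_lev φ S x < n) hU h'))
    rw [not_or] at h'
    have hn : shtp_lev φ S (wt φ U) = n := by
      have := h.resolve_left h'.1
      have := h'.2
      omega
    have hd : Disjoint U (S \ U) := Finset.disjoint_sdiff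
    have hS : U ∪ S \ U = S := Finset.union_sdiff_of_subset hU
    rw [shtp_K_eq, smul_mul_assoc, map_smul]
    refine T.smul_mem _ ?_
    have e := shtp_Av_Kt D hd g
    rw [hS] at e
    rw [← e]
    have hs := tens_span D hd (I := IT D φ U) (I' := IF D φ (S \ U))
      (u := fun c : {c // BT.dim c = ty U} => BT.u c.1 U)
      (w := fun c : {c // BF.dim c = ty (S \ U)} => BF.u c.1 (S \ U))
      (fun f hf => (BT.hb U).span f ⟨hf, hf.1⟩) (fun f hf => (BF.hb (S \ U)).span f ⟨hf, hf.1⟩) g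
      (by rwa [hS])
    have hle : Submodule.span ℚ (Set.range fun q : {c // BT.dim c = ty U} ×
        {c // BF.dim c = ty (S \ U)} => BT.u q.1.1 U * BF.u q.2.1 (S \ U)) ⊔
        IQ (IT D φ U ⊔ IF D φ (S \ U)) ≤
        T.comap ((D.Av S).comp (LinearMap.mulLeft ℚ (D.Kt U (S \ U)))) := by
      refine sup_le (Submodule.span_le.mpr ?_) fun r hr => ?_
      · rintro _ ⟨⟨c, c'⟩, rfl⟩
        let x : shtp_Om BT BF p S := ⟨(U, c.1, c'.1), hU, h'.1, c.2, c'.2⟩
        change D.Av S (D.Kt U (S \ U) * (BT.u c.1 U * BF.u c'.1 (S \ U))) ∈ T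
        rw [← mul_assoc]
        change D.Av S (shtp_b x) ∈ T
        have h1 : D.Av S (shtp_b x) =
            (Fintype.card (GS S) : ℚ)⁻¹ • ∑ g : GS S, D.act S g.1 (shtp_b x) := by
          simp [Dat.Av, Dat.rep_apply]
        rw [h1]
        refine T.smul_mem _ (T.sum_mem fun g _ => Submodule.mem_sup_left ?_)
        rw [shtp_act_b]
        refine Submodule.subset_span ⟨shtp_m g x, ?_, rfl⟩
        change shtp_lev φ S (wt φ (mv g.1 U)) = n
        rw [shtp_wt_mv g.2.1, hn]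
      · change D.Av S (D.Kt U (S \ U) * r) ∈ T
        refine hFT _ ?_
        rw [Dat.Kt, smul_mul_assoc]
        refine shtp_smul_mem _ (shtp_Ib_le D φ (fun V hV hlt => ?_) (K_mul_JU D φ hU hr))
        refine shtp_gen_mem D φ (p := fun x => p x ∨ shtp_lev φ S x < n) hV (Or.inr ?_)
        rw [← hn]
        exact shtp_lev_lt φ hV hlt
    exact hle hs
  have key : ∀ f ∈ shtp_F D φ p S (n + 1), ∀ g, D.Av S (shtp_pi S (g * f)) ∈ T := by
    intro f hf
    induction hf using Submodule.span_induction with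
    | mem f hf =>
      obtain ⟨U, hU, h, rfl⟩ := hf
      intro g
      rw [map_mul, shtp_pi_eq (D.K_mem hU Finset.sdiff_subset), mul_comm]
      exact base U hU h _ (shtp_pi_mem S g)
    | zero => intro g; simp
    | add f f' _ _ h h' =>
      intro g
      rw [mul_add, map_add, map_add]
      exact T.add_mem (h g) (h' g)
    | smul a f _ h =>
      intro g
      rw [smul_eq_mul, ← mul_assoc]
      exact h _
  have := key f hF 1
  rwa [one_mul, shtp_pi_eq hf.1, D.Av_eq hf.2] at this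

theorem shtp_HB (h0 : ∀ d, wd φ d = 0 → d = 0) (hp : ∀ x y, x ≤ y → p y → p x) {ι : Type}
    (rep : ι → shtp_Om BT BF p S) (hinj : Function.Injective fun i => (rep i).1.2)
    (hsurj : ∀ x : shtp_Om BT BF p S, ∃ i, (rep i).1.2 = x.1.2) :
    HB (Ib D φ p S) (D.Inv S) (fun i => D.Av S (shtp_b (rep i))) fun i =>
      aa D.a (BT.dim (rep i).1.2.1) (BF.dim (rep i).1.2.2) +
        (BT.t (rep i).1.2.1 + BF.t (rep i).1.2.2) := by
  refine HB_of_fb D S (Ω := shtp_Om BT BF p S) (O := BT.ι × BF.ι)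
    (fun n => IQ (shtp_F D φ p S n)) ?_ shtp_F_stab (I := Ib D φ p S) (by simp [shtp_F]) shtp_m
    (fun x => Subtype.ext (Prod.ext (mv_one _) rfl)) (fun x => x.1.2)
    (fun x => shtp_lev φ S (wt φ x.1.1)) shtp_b
    (fun x => aa D.a (BT.dim x.1.2.1) (BF.dim x.1.2.2) + (BT.t x.1.2.1 + BF.t x.1.2.2))
    (fun _ => True) shtp_b_mem shtp_b_hom
    (fun g x => congrArg (shtp_lev φ S) (shtp_wt_mv g.2.1 _)) (fun g x => rfl) ?_ ?_ ?_
    (fun x h => absurd trivial h) (shtp_ind h0 hp) (fun n f hf hF => shtp_span n hf hF) ?_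
    rep (fun _ => trivial) hinj fun x _ => hsurj x
  · intro a b hab f hf
    exact shtp_F_mono hab hf
  · intro x y h
    obtain ⟨g, hg, e⟩ := exists_GS_mv x.2.1 y.2.1 (by rw [← x.2.2.2.1, ← y.2.2.2.1, h])
    exact ⟨⟨g, hg⟩, Subtype.ext (Prod.ext e h)⟩
  · intro x
    exact shtp_b_mem_of (I := shtp_F D φ p S _) x (shtp_gen_mem D φ
      (p := fun y => p y ∨ shtp_lev φ S y < shtp_lev φ S (wt φ x.1.1) + 1) x.2.1
      (Or.inr (Nat.lt_succ_self _)))
  · intro g x _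
    rw [shtp_act_b, sub_self]
    exact Submodule.zero_mem _
  · intro f _
    refine ⟨shtp_lev φ S (wt φ ∅) + 1, ?_⟩
    have := shtp_gen_mem D φ (p := fun y => p y ∨ shtp_lev φ S y < shtp_lev φ S (wt φ ∅) + 1)
      (Finset.empty_subset S) (Or.inr (Nat.lt_succ_self _))
    rw [D.K_empty_left] at this
    have h2 := Ideal.mul_mem_left _ f this
    rw [mul_one] at h2
    exact h2

end main

open Classical in
theorem tp (h0 : ∀ d, wd φ d = 0 → d = 0) (p : Λ → Prop) (hp : ∀ x y, x ≤ y → p y → p x)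
    (d : J → ℕ) :
    (sysI D φ fun _ => p).H D d = ∑ d' ∈ (Finset.Iic d).filter (fun d' => ¬p (wd φ d')),
      PowerSeries.X ^ aa D.a d' (d - d') *
        ((sysI D φ fun w x => x < w).H D d' * (sysI D φ fun _ x => x < 0).H D (d - d')) := by
  obtain ⟨BT⟩ := exists_TB D (sysI D φ fun w x => x < w)
  obtain ⟨BF⟩ := exists_TB D (sysI D φ fun _ x => x < 0)
  set S := std d with hS
  have hty : ty S = d := ty_std d
  set P := (Finset.Iic d).filter (fun d' => ¬p (wd φ d')) with hP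
  have hex : ∀ d' : P, ∃ U, U ⊆ S ∧ ty U = d'.1 := fun d' =>
    exists_subset_ty (by rw [hty]; exact Finset.mem_Iic.mp (Finset.mem_filter.mp d'.2).1)
  choose U hU hUt using hex
  let rep : (Σ d' : P, {c // BT.dim c = d'.1} × {c // BF.dim c = d - d'.1}) → shtp_Om BT BF p S :=
    fun i => ⟨(U i.1, i.2.1.1, i.2.2.1), hU _, by
      rw [wt_eq_wd, hUt]; exact (Finset.mem_filter.mp i.1.2).2, by rw [hUt]; exact i.2.1.2, by
      rw [ty_sdiff (hU _), hUt, hty]; exact i.2.2.2⟩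
  have hb := shtp_HB h0 hp rep
    (by
      rintro ⟨d₁, ⟨c₁, hc₁⟩, ⟨e₁, he₁⟩⟩ ⟨d₂, ⟨c₂, hc₂⟩, ⟨e₂, he₂⟩⟩ h
      obtain ⟨rfl, rfl⟩ := Prod.mk.inj h
      obtain rfl : d₁ = d₂ := Subtype.ext (hc₁.symm.trans hc₂)
      rfl)
    (fun x => ⟨⟨⟨ty x.1.1, Finset.mem_filter.mpr ⟨Finset.mem_Iic.mpr ((ty_le x.2.1).trans hty.le), by
      rw [← wt_eq_wd]; exact x.2.2.1⟩⟩, ⟨x.1.2.1, x.2.2.2.1⟩,
      ⟨x.1.2.2, x.2.2.2.2.trans ((ty_sdiff x.2.1).trans (congrArg (· - ty x.1.1) hty))⟩⟩, rfl⟩)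
  have hgf := (hb.gf ((sysI D φ fun _ => p).Ig S) (S := S) fun f hf => hf.1).2
  have hinf : D.Inv S ⊓ RS S = D.Inv S := inf_eq_left.mpr fun f hf => hf.1
  change Hilb (Ib D φ p S) (D.Inv S ⊓ RS S) = _
  rw [hinf, hgf]
  have e : (fun i => aa D.a (BT.dim (rep i).1.2.1) (BF.dim (rep i).1.2.2) +
      (BT.t (rep i).1.2.1 + BF.t (rep i).1.2.2)) =
      fun i : (Σ d' : P, {c // BT.dim c = d'.1} × {c // BF.dim c = d - d'.1}) =>
        aa D.a i.1.1 (d - i.1.1) + (BT.t i.2.1.1 + BF.t i.2.2.1) := by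
    funext i
    change aa D.a (BT.dim i.2.1.1) (BF.dim i.2.2.1) + _ = _
    rw [i.2.1.2, i.2.2.2]
  rw [e, GF_sigma (Ω := fun d' : P => {c // BT.dim c = d'.1} × {c // BF.dim c = d - d'.1})
    (w := fun d' x => aa D.a d'.1 (d - d'.1) + (BT.t x.1.1 + BF.t x.2.1))
    fun d' => ((BT.gf d'.1).1.prod (BF.gf (d - d'.1)).1).shift _, ← Finset.sum_coe_sort P]
  refine Finset.sum_congr rfl fun d' _ => ?_
  rw [GF_shift, GF_prod (BT.gf d'.1).1 (BF.gf (d - d'.1)).1, (BT.gf _).2, (BF.gf _).2]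

end

end Crest.Agent.R59
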