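import Crest.Agent.R59.Pbw
import Crest.Agent.R59.ShTP
import Crest.Agent.R59.ShBase

/-!
# R59/ShMain: the output of the shuffle model

Use `tp` twice, with `Λ = ℤ ×ₗ ℤ`: `φ₁ j = (θ j, 1)`, `p = False` gives `full = Hn * HF`;
`φ₂ j = (θ j, -1)`, `p x = (x.1 < 0)` gives `HF = H0 * Hp`.  The ideals agree:
`IF φ₁ = IF θ = Ib φ₂ p`, and `IT φ₂ S = IF θ S` if `wt θ S = 0`; the vanishing statements come from
`K ∅ S = 1`, `K S ∅ = 1` and `Hilb_top`.
-/

set_option autoImplicit false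
set_option linter.unusedSectionVars false
set_option linter.unusedVariables false

namespace Crest.Agent.R59

noncomputable section

variable {J : Type} [Fintype J] [DecidableEq J] (D : Dat J) (θ : J → ℤ)

/-- The refined weight `(θ, ε)`. -/
def shmain_phi (ε : ℤ) (j : J) : ℤ ×ₗ ℤ := toLex (θ j, ε)

theorem shmain_wd (ε : ℤ) (d : J → ℕ) :
    wd (shmain_phi θ ε) d = toLex (wd θ d, ((∑ j, d j : ℕ) : ℤ) * ε) := by
  have h : ofLex (wd (shmain_phi θ ε) d) = (wd θ d, ((∑ j, d j : ℕ) : ℤ) * ε) := by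
    unfold wd shmain_phi
    change (∑ j, d j • (θ j, ε) : ℤ × ℤ) = _
    ext
    · simp [Prod.fst_sum]
    · simp [Prod.snd_sum, Finset.sum_mul]
  rw [← h]; rfl

theorem shmain_sum_eq_zero {d : J → ℕ} (h : ∑ j, d j = 0) : d = 0 := by
  funext j
  exact (Finset.sum_eq_zero_iff.1 h) j (Finset.mem_univ j)

theorem shmain_h0 {ε : ℤ} (hε : ε ≠ 0) (d : J → ℕ) (h : wd (shmain_phi θ ε) d = 0) : d = 0 := by
  rw [shmain_wd] at h
  have h2 : ((∑ j, d j : ℕ) : ℤ) * ε = 0 := congrArg (fun x : ℤ ×ₗ ℤ => (ofLex x).2) h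
  rcases mul_eq_zero.1 h2 with h3 | h3
  · exact shmain_sum_eq_zero (by exact_mod_cast h3)
  · exact absurd h3 hε

theorem shmain_wt_std {Λ : Type} [AddCommGroup Λ] (φ : J → Λ) (d : J → ℕ) :
    wt φ (std d) = wd φ d := by
  rw [wt_eq_wd, ty_std]

theorem shmain_wd_zero {Λ : Type} [AddCommGroup Λ] (φ : J → Λ) : wd φ 0 = 0 := by
  simp [wd]

theorem shmain_H_congr {Λ Λ' : Type} [AddCommGroup Λ] [LinearOrder Λ] [AddCommGroup Λ']
    [LinearOrder Λ'] (φ : J → Λ) (φ' : J → Λ') (p : Λ → Λ → Prop) (p' : Λ' → Λ' → Prop)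
    (d : J → ℕ) (h : ∀ d', d' ≤ d → (p (wd φ d) (wd φ d') ↔ p' (wd φ' d) (wd φ' d'))) :
    (sysI D φ p).H D d = (sysI D φ' p').H D d := by
  have : Ib D φ (p (wt φ (std d))) (std d) = Ib D φ' (p' (wt φ' (std d))) (std d) := by
    unfold Ib
    congr 1
    ext f
    simp only [Set.mem_setOf_eq, shmain_wt_std]
    refine exists_congr fun U => and_congr_right fun hU => and_congr_left fun _ => ?_
    rw [wt_eq_wd, wt_eq_wd]
    refine h _ ?_
    have := ty_le hU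
    rwa [ty_std] at this
  change Hilb (Ib D φ (p (wt φ (std d))) (std d)) (D.Inv (std d) ⊓ RS (std d)) =
    Hilb (Ib D φ' (p' (wt φ' (std d))) (std d)) (D.Inv (std d) ⊓ RS (std d))
  rw [this]

theorem shmain_H_empty {Λ : Type} [AddCommGroup Λ] [LinearOrder Λ] (φ : J → Λ)
    (p : Λ → Λ → Prop) (d : J → ℕ) (h : p (wd φ d) 0) : (sysI D φ p).H D d = 0 := by
  have : Ib D φ (p (wt φ (std d))) (std d) = ⊤ := by
    rw [Ideal.eq_top_iff_one]
    refine Ideal.subset_span ⟨∅, Finset.empty_subset _, ?_, (D.K_empty_left _).symm⟩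
    rw [shmain_wt_std]
    simpa [wt] using h
  change Hilb (Ib D φ (p (wt φ (std d))) (std d)) (D.Inv (std d) ⊓ RS (std d)) = 0
  rw [this, Hilb_top]

theorem shmain_H_full {Λ : Type} [AddCommGroup Λ] [LinearOrder Λ] (φ : J → Λ)
    (p : Λ → Λ → Prop) (d : J → ℕ) (h : p (wd φ d) (wd φ d)) : (sysI D φ p).H D d = 0 := by
  have : Ib D φ (p (wt φ (std d))) (std d) = ⊤ := by
    rw [Ideal.eq_top_iff_one]
    refine Ideal.subset_span ⟨std d, subset_rfl, ?_, ?_⟩
    · rw [shmain_wt_std]; exact h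
    · rw [Finset.sdiff_self, D.K_empty_right]
  change Hilb (Ib D φ (p (wt φ (std d))) (std d)) (D.Inv (std d) ⊓ RS (std d)) = 0
  rw [this, Hilb_top]

theorem shmain_H_false {Λ : Type} [AddCommGroup Λ] [LinearOrder Λ] (φ : J → Λ) (d : J → ℕ) :
    (sysI D φ fun _ _ => False).H D d = ∏ j, hE (D.b j) (d j) := by
  have h1 : Ib D φ (fun _ => False) (std d) = ⊥ := by
    unfold Ib
    simp
  have h2 : D.Inv (std d) ⊓ RS (std d) = D.Inv (std d) := inf_eq_left.2 fun f hf => hf.1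
  change Hilb (Ib D φ (fun _ => False) (std d)) (D.Inv (std d) ⊓ RS (std d)) = _
  rw [h1, h2, base]

theorem shmain_lt (a b c e : ℤ) :
    (toLex (a, b) : ℤ ×ₗ ℤ) < toLex (c, e) ↔ a < c ∨ a = c ∧ b < e := Prod.Lex.toLex_lt_toLex

theorem shmain_zero : (0 : ℤ ×ₗ ℤ) = toLex (0, 0) := rfl

theorem shmain_sum_pos {d : J → ℕ} (h : d ≠ 0) : (0 : ℤ) < ((∑ j, d j : ℕ) : ℤ) := by
  have : ∑ j, d j ≠ 0 := fun h' => h (shmain_sum_eq_zero h')
  exact_mod_cast Nat.pos_of_ne_zero this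

theorem shuffle_main : ∃ Hn H0 Hp HF : (J → ℕ) → PowerSeries ℚ,
    Hn 0 = 1 ∧ H0 0 = 1 ∧ Hp 0 = 1 ∧
    (∀ d, d ≠ 0 → 0 ≤ wd θ d → Hn d = 0) ∧ (∀ d, wd θ d ≠ 0 → H0 d = 0) ∧
    (∀ d, d ≠ 0 → wd θ d ≤ 0 → Hp d = 0) ∧
    (∀ d, ∏ j, hE (D.b j) (d j) =
      ∑ d' ∈ Finset.Iic d, PowerSeries.X ^ aa D.a d' (d - d') * (Hn d' * HF (d - d'))) ∧
    (∀ d, HF d = ∑ d' ∈ Finset.Iic d, PowerSeries.X ^ aa D.a d' (d - d') * (H0 d' * Hp (d - d'))) ∧
    (SymNull D θ → ∃ (ι : Type) (dim : ι → J → ℕ) (t : ι → ℕ) (β : ι → Bool),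
      (∀ c, dim c ≠ 0 ∧ wd θ (dim c) = 0) ∧ ∀ d, wd θ d = 0 → ∀ k, Finite (Cfg D dim t β d k) ∧
        PowerSeries.coeff k (H0 d) = Nat.card (Cfg D dim t β d k)) := by
  classical
  have hF1 : ∀ d, (sysI D (shmain_phi θ 1) fun _ x => x < 0).H D d =
      (sysI D θ fun _ x => x < 0).H D d := fun d => by
    refine shmain_H_congr D _ _ _ _ d fun d' _ => ?_
    rw [shmain_wd, shmain_zero, shmain_lt]
    have : (0 : ℤ) ≤ ((∑ j, d' j : ℕ) : ℤ) := Nat.cast_nonneg _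
    constructor
    · rintro (h | ⟨-, h⟩)
      · exact h
      · omega
    · exact Or.inl
  have hF2 : ∀ d, (sysI D θ fun _ x => x < 0).H D d =
      (sysI D (shmain_phi θ (-1)) fun _ x => (ofLex x).1 < 0).H D d := fun d => by
    refine shmain_H_congr D _ _ _ _ d fun d' _ => ?_
    rw [shmain_wd]
    rfl
  have hT2 : ∀ d, wd θ d = 0 → (sysI D (shmain_phi θ (-1)) fun w x => x < w).H D d =
      (sysI D θ fun _ x => x < 0).H D d := fun d hd => by
    refine shmain_H_congr D _ _ _ _ d fun d' hd' => ?_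
    rw [shmain_wd, shmain_wd, shmain_lt, hd]
    have h1 : ∑ j, d' j ≤ ∑ j, d j := Finset.sum_le_sum fun j _ => hd' j
    have : ((∑ j, d' j : ℕ) : ℤ) ≤ ((∑ j, d j : ℕ) : ℤ) := by exact_mod_cast h1
    constructor
    · rintro (h | ⟨-, h⟩)
      · exact h
      · omega
    · exact Or.inl
  refine ⟨fun d => (sysI D (shmain_phi θ 1) fun w x => x < w).H D d,
    fun d => if wd θ d < 0 then 0 else (sysI D (shmain_phi θ (-1)) fun w x => x < w).H D d,
    fun d => (sysI D (shmain_phi θ (-1)) fun _ x => x < 0).H D d,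
    fun d => (sysI D θ fun _ x => x < 0).H D d, ?_, ?_, ?_, ?_, ?_, ?_, ?_, ?_, ?_⟩
  · exact sysI_zero D _ (lt_irrefl _)
  · simp only [shmain_wd_zero, lt_irrefl, if_false]
    exact sysI_zero D _ (lt_irrefl _)
  · exact sysI_zero D _ (lt_irrefl _)
  · intro d hd h
    refine shmain_H_empty D _ _ d ?_
    rw [shmain_wd, shmain_zero, shmain_lt]
    have := shmain_sum_pos hd
    omega
  · intro d hd
    simp only
    split_ifs with h
    · rfl
    · refine shmain_H_empty D _ _ d ?_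
      rw [shmain_wd, shmain_zero, shmain_lt]
      omega
  · intro d hd h
    refine shmain_H_full D _ _ d ?_
    rw [shmain_wd, shmain_zero, shmain_lt]
    have := shmain_sum_pos hd
    omega
  · intro d
    have := tp D (shmain_phi θ 1) (shmain_h0 θ one_ne_zero) (fun _ => False) (fun _ _ _ h => h) d
    rw [shmain_H_false] at this
    rw [this]
    refine Finset.sum_congr ?_ fun d' _ => by rw [hF1]
    ext d'
    simp
  · intro d
    have := tp D (shmain_phi θ (-1)) (shmain_h0 θ (by norm_num)) (fun x => (ofLex x).1 < 0)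
      (fun x y hxy hy => lt_of_le_of_lt (Prod.Lex.monotone_fst x y hxy) hy) d
    simp only
    rw [hF2, this, Finset.sum_filter]
    refine Finset.sum_congr rfl fun d' _ => ?_
    have e : (ofLex (wd (shmain_phi θ (-1)) d')).1 = wd θ d' := by rw [shmain_wd]; rfl
    rw [e]
    by_cases h : wd θ d' < 0 <;> simp [h]
  · intro hs
    obtain ⟨ι, dim, t, β, h1, h2⟩ := pbw D θ hs
    refine ⟨ι, dim, t, β, h1, fun d hd k => ⟨(h2 d hd k).1, ?_⟩⟩
    simp only [hd, lt_irrefl, if_false]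
    rw [hT2 d hd]
    exact (h2 d hd k).2

end

end Crest.Agent.R59
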