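import Crest.Agent.R59.Quiv
import Crest.Agent.R59.ShMain

/-!
# R59/QuivB: walls of a quiver on isotropic slopes are positive

With `θ' j = θ (γ j)`, `shuffle_main` and `XA_mul` give `x = XG Hn * XG H0 * XG Hp`, so
`fW θ x = XG H0`.  The coefficient of `v^i` in `Xf H0 γ` is the number of good multisets `μ` over
`ι × ℕ` with `cl (∑ dim) = γ` and `∑ (s' c + 2 m) = i`, where `s' c = ex (dim c) + 2 t c`.  Only finitely many
`μ` have `dg γ ≤ D` and `i < n`; let `ι₀` be the finite set of generators that occur, and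
`Q' = (ι₀, cl ∘ dim, β, s')` (no arrows).  By `GF_conf` the coefficient of `v^i` in `Q'.x γ` counts the good
multisets over `ι₀ × ℕ`.
-/

set_option autoImplicit false
set_option linter.unusedSectionVars false
set_option linter.unusedVariables false

namespace Crest.Agent.R59

noncomputable section

variable {N : Type} [AddCommGroup N] [Alt N] {M : AddSubmonoid N} [Good M]

/-- Counting interpretation of the coefficients of `Xf`. -/
theorem quivb_count (Q : Quiv M) (H : (Q.J → ℕ) → PowerSeries ℚ) {Ω : Type} (P : Ω → Prop)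
    (dm : Ω → Q.J → ℕ) (e : Ω → ℤ) (h1 : ∀ x, P x → ∃ k : ℕ, e x = Q.ex (dm x) + 2 * (k : ℤ))
    (h2 : ∀ d (k : ℕ), Finite {x // P x ∧ dm x = d ∧ e x = Q.ex d + 2 * (k : ℤ)} ∧
      PowerSeries.coeff k (H d) = Nat.card {x // P x ∧ dm x = d ∧ e x = Q.ex d + 2 * (k : ℤ)})
    (γ : N) (i : ℤ) :
    Finite {x // P x ∧ Q.cl (dm x) = γ ∧ e x = i} ∧
      (Q.Xf H γ).coeff i = Nat.card {x // P x ∧ Q.cl (dm x) = γ ∧ e x = i} := by
  classical
  have hfin : {d | Q.cl d = γ}.Finite :=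
    (Q.cl_finite (dg M γ)).subset fun d hd => by
      have : Q.cl d = γ := hd
      simp only [Set.mem_ofPred_eq, this, le_refl]
  have hB : ∀ d, d ∈ hfin.toFinset ↔ Q.cl d = γ := fun d => by simp
  have h3 : ∀ d, Finite {x // P x ∧ dm x = d ∧ e x = i} ∧
      (vp (Q.ex d) * iq (H d)).coeff i = Nat.card {x // P x ∧ dm x = d ∧ e x = i} := by
    intro d
    rw [coeff_vp_mul]
    by_cases hk : ∃ k : ℕ, i - Q.ex d = 2 * (k : ℤ)
    · obtain ⟨k, hk⟩ := hk
      have hi : i = Q.ex d + 2 * (k : ℤ) := by omega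
      rw [hk, iq_coeff_two_mul, hi]
      exact h2 d k
    · have : IsEmpty {x // P x ∧ dm x = d ∧ e x = i} := ⟨fun x => by
        obtain ⟨k, hk'⟩ := h1 x.1 x.2.1
        rw [x.2.2.1, x.2.2.2] at hk'
        exact hk ⟨k, by omega⟩⟩
      refine ⟨inferInstance, ?_⟩
      rw [iq_coeff_of_ne _ fun k hk' => hk ⟨k, hk'⟩]
      simp
  let E : {x // P x ∧ Q.cl (dm x) = γ ∧ e x = i} ≃
      Σ d : hfin.toFinset, {x // P x ∧ dm x = d.1 ∧ e x = i} :=
    { toFun := fun x => ⟨⟨dm x.1, (hB _).2 x.2.2.1⟩, ⟨x.1, x.2.1, rfl, x.2.2.2⟩⟩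
      invFun := fun y => ⟨y.2.1, y.2.2.1, by rw [y.2.2.2.1]; exact (hB _).1 y.1.2, y.2.2.2.2⟩
      left_inv := fun x => rfl
      right_inv := by
        rintro ⟨⟨d, hd⟩, ⟨x, hx1, hx2, hx3⟩⟩
        dsimp only at hx2
        subst hx2
        rfl }
  have : ∀ d : hfin.toFinset, Finite {x // P x ∧ dm x = d.1 ∧ e x = i} := fun d => (h3 d.1).1
  refine ⟨Finite.of_equiv _ E.symm, ?_⟩
  rw [Q.Xf_eq_sum H hB, Nat.card_congr E, Nat.card_sigma, HahnSeries.coeff_sum]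
  push_cast
  rw [← Finset.sum_coe_sort hfin.toFinset]
  exact Finset.sum_congr rfl fun d _ => (h3 d.1).2

theorem quivb_sum_count {J A : Type} [Fintype J] [DecidableEq J] [AddCommMonoid A] (f : J → A)
    (μ : Multiset (J × ℕ)) :
    ∑ j, (μ.map Prod.fst).count j • f j = (μ.map fun y => f y.1).sum := by
  induction μ using Multiset.induction_on with
  | empty => simp
  | cons y μ ih =>
    simp only [Multiset.map_cons, Multiset.sum_cons, Multiset.count_cons, add_smul,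
      Finset.sum_add_distrib, ih, ite_smul, one_smul, zero_smul, Finset.sum_ite_eq', Finset.mem_univ,
      if_true]
    rw [add_comm]

theorem quivb_sum_en {J : Type} (s : J → ℤ) (μ : Multiset (J × ℕ)) :
    (μ.map fun y => s y.1 + 2 * (y.2 : ℤ)).sum = (μ.map fun y => s y.1).sum + 2 * (en μ : ℤ) := by
  induction μ using Multiset.induction_on with
  | empty => simp [en]
  | cons y μ ih =>
    simp only [en, Multiset.map_cons, Multiset.sum_cons] at ih ⊢
    rw [ih]; push_cast; ring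

/-- Coefficients of a quiver without arrows. -/
theorem x_coeff (Q : Quiv M) (h : ∀ i j, ω (Q.γ i) (Q.γ j) = 0) (γ : N) (i : ℤ) :
    Finite {μ : Multiset (Q.J × ℕ) // Gd Q.b μ ∧ (μ.map fun y => Q.γ y.1).sum = γ ∧
      (μ.map fun y => Q.s y.1 + 2 * (y.2 : ℤ)).sum = i} ∧
    (Q.x γ).coeff i = Nat.card {μ : Multiset (Q.J × ℕ) // Gd Q.b μ ∧
      (μ.map fun y => Q.γ y.1).sum = γ ∧ (μ.map fun y => Q.s y.1 + 2 * (y.2 : ℤ)).sum = i} := by
  have hex : ∀ μ : Multiset (Q.J × ℕ), (μ.map fun y => Q.s y.1 + 2 * (y.2 : ℤ)).sum =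
      Q.ex (fun j => (μ.map Prod.fst).count j) + 2 * (en μ : ℤ) := by
    intro μ
    rw [quivb_sum_en, ← quivb_sum_count]
    simp [Quiv.ex, aa, Quiv.dat, h, mul_comm]
  have hcl : ∀ μ : Multiset (Q.J × ℕ), Q.cl (fun j => (μ.map Prod.fst).count j) =
      (μ.map fun y => Q.γ y.1).sum := fun μ => quivb_sum_count Q.γ μ
  have key := quivb_count Q Q.full (Gd Q.b) (fun μ j => (μ.map Prod.fst).count j)
    (fun μ => (μ.map fun y => Q.s y.1 + 2 * (y.2 : ℤ)).sum) (fun μ _ => ⟨en μ, hex μ⟩) ?_ γ i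
  · simp only [hcl] at key
    exact key
  · intro d k
    obtain ⟨g1, g2⟩ := GF_conf Q.b d
    let E : {x : {μ : Multiset (Q.J × ℕ) // Gd Q.b μ ∧ ∀ j, (μ.map Prod.fst).count j = d j} //
        en x.1 = k} ≃ {μ : Multiset (Q.J × ℕ) // Gd Q.b μ ∧
          (fun j => (μ.map Prod.fst).count j) = d ∧
          (μ.map fun y => Q.s y.1 + 2 * (y.2 : ℤ)).sum = Q.ex d + 2 * (k : ℤ)} :=
      { toFun := fun x => ⟨x.1.1, x.1.2.1, funext x.1.2.2, by
          rw [hex, funext x.1.2.2, x.2]⟩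
        invFun := fun x => ⟨⟨x.1, x.2.1, congrFun x.2.2.1⟩, by
          have := x.2.2.2
          rw [hex, x.2.2.1] at this
          dsimp only
          omega⟩
        left_inv := fun x => rfl
        right_inv := fun x => rfl }
    have := g1 k
    refine ⟨Finite.of_equiv _ E, ?_⟩
    rw [← Nat.card_congr E, Quiv.full, ← g2, GF, PowerSeries.coeff_mk]

theorem quivb_wd (Q : Quiv M) (θ : N →+ ℤ) (d : Q.J → ℕ) :
    wd (fun j => θ (Q.γ j)) d = θ (Q.cl d) := by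
  simp [wd, Quiv.cl, map_sum]

theorem quivb_cl_zero (Q : Quiv M) : Q.cl 0 = 0 := Q.cl_eq_zero.2 rfl

theorem quivb_cl_sum (Q : Quiv M) {ι : Type} (f : ι → Q.J → ℕ) (μ : Multiset ι) :
    Q.cl (μ.map f).sum = (μ.map fun y => Q.cl (f y)).sum := by
  induction μ using Multiset.induction_on with
  | empty => simpa using quivb_cl_zero Q
  | cons y μ ih => simp only [Multiset.map_cons, Multiset.sum_cons, Q.cl_add, ih]

theorem quivb_theta_sum (Q : Quiv M) (θ : N →+ ℤ) {ι : Type} (f : ι → Q.J → ℕ)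
    (hf : ∀ c, θ (Q.cl (f c)) = 0) (μ : Multiset ι) : θ (Q.cl (μ.map f).sum) = 0 := by
  induction μ using Multiset.induction_on with
  | empty => simp [quivb_cl_zero]
  | cons y μ ih => simp only [Multiset.map_cons, Multiset.sum_cons, Q.cl_add, map_add, ih, hf, add_zero]

theorem quivb_ex_add (Q : Quiv M) (d d' : Q.J → ℕ) :
    Q.ex (d + d') = Q.ex d + Q.ex d' - aa Q.dat.a d d' - aa Q.dat.a d' d := by
  simp only [Quiv.ex, aa_add_left, aa_add_right, Pi.add_apply]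
  push_cast
  simp only [mul_add, Finset.sum_add_distrib]
  ring

theorem quivb_ex_zero (Q : Quiv M) : Q.ex 0 = 0 := by simp [Quiv.ex, aa]

/-- The exponent of a configuration in terms of the PBW degree. -/
theorem quivb_e_eq (Q : Quiv M) {ι : Type} (dim : ι → Q.J → ℕ) (t : ι → ℕ) (μ : Multiset (ι × ℕ)) :
    (μ.map fun y => Q.ex (dim y.1) + 2 * (t y.1 : ℤ) + 2 * (y.2 : ℤ)).sum =
      Q.ex (μ.map fun y => dim y.1).sum +
        aa Q.dat.a (μ.map fun y => dim y.1).sum (μ.map fun y => dim y.1).sum +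
        (μ.map fun y => 2 * ((t y.1 : ℤ) + y.2) - aa Q.dat.a (dim y.1) (dim y.1)).sum := by
  induction μ using Multiset.induction_on with
  | empty => simp [quivb_ex_zero, aa]
  | cons y μ ih =>
    simp only [Multiset.map_cons, Multiset.sum_cons, ih, quivb_ex_add, aa_add_left, aa_add_right]
    push_cast
    ring

theorem quivb_parity (Q : Quiv M) (θ : N →+ ℤ)
    (hiso : ∀ d d', θ (Q.cl d) = 0 → θ (Q.cl d') = 0 → ω (Q.cl d) (Q.cl d') = 0)
    {ι : Type} (dim : ι → Q.J → ℕ) (hd : ∀ c, θ (Q.cl (dim c)) = 0) (t : ι → ℕ)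
    (μ : Multiset (ι × ℕ)) :
    ∃ k : ℕ, (μ.map fun y => Q.ex (dim y.1) + 2 * (t y.1 : ℤ) + 2 * (y.2 : ℤ)).sum =
      Q.ex (μ.map fun y => dim y.1).sum + 2 * (k : ℤ) := by
  induction μ using Multiset.induction_on with
  | empty => exact ⟨0, by simp [quivb_ex_zero]⟩
  | cons y μ ih =>
    obtain ⟨k, hk⟩ := ih
    have h1 := hiso _ _ (hd y.1) (quivb_theta_sum Q θ (fun y : ι × ℕ => dim y.1) (fun c => hd c.1) μ)
    rw [Q.ω_cl] at h1
    refine ⟨k + t y.1 + y.2 + aa Q.dat.a (dim y.1) (μ.map fun y => dim y.1).sum, ?_⟩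
    simp only [Multiset.map_cons, Multiset.sum_cons, hk, quivb_ex_add]
    push_cast
    linarith

theorem quivb_lift {α β : Type} (f : α → β) (μ : Multiset β) (h : ∀ y ∈ μ, ∃ x, f x = y) :
    ∃ μ' : Multiset α, μ'.map f = μ := by
  induction μ using Multiset.induction_on with
  | empty => exact ⟨0, rfl⟩
  | cons y μ ih =>
    obtain ⟨x, rfl⟩ := h y (Multiset.mem_cons_self _ _)
    obtain ⟨μ', rfl⟩ := ih fun z hz => h z (Multiset.mem_cons_of_mem hz)
    exact ⟨x ::ₘ μ', Multiset.map_cons _ _ _⟩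

theorem quivb_Gd_map {ι ι' : Type} (g : ι' → ι) (hg : Function.Injective g) (β : ι → Bool)
    (μ : Multiset (ι' × ℕ)) : Gd β (μ.map (Prod.map g id)) ↔ Gd (fun c => β (g c)) μ := by
  unfold Gd
  rw [Multiset.filter_map, Multiset.nodup_map_iff_of_injective (hg.prodMap Function.injective_id)]
  rfl

theorem fW_x_approx (Q : Quiv M) (θ : N →+ ℤ)
    (hiso : ∀ d d', θ (Q.cl d) = 0 → θ (Q.cl d') = 0 → ω (Q.cl d) (Q.cl d') = 0) (D n : ℤ) :
    ∃ Q' : Quiv M, (∀ c, ∃ d, Q'.γ c = Q.cl d ∧ θ (Q.cl d) = 0) ∧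
      ∀ γ, dg M γ ≤ D → Cl n (Q'.x γ) (fW (Stab.ofZ θ) Q.x γ) := by
  classical
  obtain ⟨Hn, H0, Hp, HF, n0, z0, p0, hn, hz, hp, hfull, hF, hpbw⟩ :=
    shuffle_main Q.dat (fun j => θ (Q.γ j))
  simp only [quivb_wd] at hn hz hp
  have hfact : IsFact (Stab.ofZ θ) Q.x (Q.XG Hn n0) (Q.XG H0 z0) (Q.XG Hp p0) := by
    refine ⟨Subtype.ext ?_, fun γ hγ => ?_, fun γ hγ => ?_, fun γ hγ => ?_⟩
    · change Q.XA Q.full = Q.XA Hn * Q.XA H0 * Q.XA Hp
      rw [mul_assoc, ← Q.XA_mul hF]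
      exact Q.XA_mul hfull
    · obtain ⟨d, rfl, hd⟩ := Q.Xf_ne_zero hγ
      by_cases h0 : d = 0
      · exact Or.inl (Q.cl_eq_zero.2 h0)
      · refine Or.inr ?_
        rw [Stab.ofZ_s, sign_eq_neg_one_iff]
        by_contra h1
        exact hd (hn d h0 (not_lt.1 h1))
    · obtain ⟨d, rfl, hd⟩ := Q.Xf_ne_zero hγ
      change (Stab.ofZ θ).s (Q.cl d) = 0
      rw [Stab.ofZ_s, sign_eq_zero_iff]
      by_contra h1
      exact hd (hz d h1)
    · obtain ⟨d, rfl, hd⟩ := Q.Xf_ne_zero hγ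
      by_cases h0 : d = 0
      · exact Or.inl (Q.cl_eq_zero.2 h0)
      · refine Or.inr ?_
        rw [Stab.ofZ_s, sign_eq_one_iff]
        by_contra h1
        exact hd (hp d h0 (not_lt.1 h1))
  rw [hfact.unique.2.1]
  have hsym : SymNull Q.dat (fun j => θ (Q.γ j)) := by
    intro d d' h1 h2
    rw [quivb_wd] at h1 h2
    have := hiso d d' h1 h2
    rw [Q.ω_cl] at this
    omega
  obtain ⟨ι, dim, t, β, hdim, hcfg⟩ := hpbw hsym
  simp only [quivb_wd] at hdim hcfg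
  obtain ⟨e, he⟩ : ∃ e : Multiset (ι × ℕ) → ℤ, e = fun μ =>
    (μ.map fun y => Q.ex (dim y.1) + 2 * (t y.1 : ℤ) + 2 * (y.2 : ℤ)).sum := ⟨_, rfl⟩
  obtain ⟨dm, hdm⟩ : ∃ dm : Multiset (ι × ℕ) → Q.J → ℕ, dm = fun μ =>
    (μ.map fun y => dim y.1).sum := ⟨_, rfl⟩
  have h1 : ∀ μ, Gd β μ → ∃ k : ℕ, e μ = Q.ex (dm μ) + 2 * (k : ℤ) := fun μ _ => by
    rw [he, hdm]
    exact quivb_parity Q θ hiso dim (fun c => (hdim c).2) t μ
  have h2 : ∀ d (k : ℕ), Finite {x // Gd β x ∧ dm x = d ∧ e x = Q.ex d + 2 * (k : ℤ)} ∧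
      PowerSeries.coeff k (H0 d) =
        Nat.card {x // Gd β x ∧ dm x = d ∧ e x = Q.ex d + 2 * (k : ℤ)} := by
    intro d k
    by_cases hd : θ (Q.cl d) = 0
    · obtain ⟨g1, g2⟩ := hcfg d hd k
      let E : Cfg Q.dat dim t β d k ≃ {x // Gd β x ∧ dm x = d ∧ e x = Q.ex d + 2 * (k : ℤ)} :=
        Equiv.subtypeEquivRight fun μ => by
          refine and_congr_right fun _ => ?_
          rw [hdm, he]
          refine and_congr_right fun h3 => ?_
          dsimp only at h3 ⊢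
          rw [quivb_e_eq, h3]
          constructor <;> intro h4 <;> linarith
      exact ⟨Finite.of_equiv _ E, by rw [g2, Nat.card_congr E]⟩
    · have : IsEmpty {x // Gd β x ∧ dm x = d ∧ e x = Q.ex d + 2 * (k : ℤ)} := ⟨fun ⟨x, _, hx, _⟩ => by
        apply hd
        rw [← hx, hdm]
        exact quivb_theta_sum Q θ (fun y : ι × ℕ => dim y.1) (fun c => (hdim c.1).2) x⟩
      refine ⟨inferInstance, ?_⟩
      rw [hz d hd]
      simp
  have hT : {μ | Gd β μ ∧ dg M (Q.cl (dm μ)) ≤ D ∧ e μ < n}.Finite := by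
    refine ((Q.cl_finite D).biUnion fun d _ => (Set.finite_Iic (n - Q.ex d).toNat).biUnion fun k _ =>
      (Set.finite_coe_iff.1 (h2 d k).1 :
        {x | Gd β x ∧ dm x = d ∧ e x = Q.ex d + 2 * (k : ℤ)}.Finite)).subset ?_
    rintro μ ⟨g1, g2, g3⟩
    obtain ⟨k, hk⟩ := h1 μ g1
    simp only [Set.mem_iUnion]
    exact ⟨dm μ, g2, k, by simp only [Set.mem_Iic]; omega, g1, rfl, hk⟩
  obtain ⟨ι₀, hι₀⟩ : ∃ ι₀ : Finset ι, ∀ μ, Gd β μ → dg M (Q.cl (dm μ)) ≤ D → e μ < n →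
      ∀ y ∈ μ, y.1 ∈ ι₀ := by
    refine ⟨hT.toFinset.biUnion fun μ => (μ.map Prod.fst).toFinset, fun μ g1 g2 g3 y hy => ?_⟩
    rw [Finset.mem_biUnion]
    exact ⟨μ, hT.mem_toFinset.2 ⟨g1, g2, g3⟩, Multiset.mem_toFinset.2 (Multiset.mem_map_of_mem _ hy)⟩
  let Q' : Quiv M :=
    { J := {c // c ∈ ι₀}
      γ := fun c => Q.cl (dim c.1)
      mem := fun c => Q.cl_mem _
      ne := fun c h => (hdim c.1).1 (Q.cl_eq_zero.1 h)
      b := fun c => β c.1
      s := fun c => Q.ex (dim c.1) + 2 * (t c.1 : ℤ) }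
  refine ⟨Q', fun c => ⟨dim c.1, rfl, (hdim c.1).2⟩, fun γ hγ i hi => ?_⟩
  have k1 := (x_coeff Q' (fun a b => hiso _ _ (hdim a.1).2 (hdim b.1).2) γ i).2
  have k2 := (quivb_count Q H0 (Gd β) dm e h1 h2 γ i).2
  change _ = (Q.Xf H0 γ).coeff i
  rw [k1, k2]
  congr 1
  have hinj : Function.Injective (Prod.map (Subtype.val : {c // c ∈ ι₀} → ι) (id : ℕ → ℕ)) :=
    Subtype.val_injective.prodMap Function.injective_id
  have hiff : ∀ μ : Multiset ({c // c ∈ ι₀} × ℕ),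
      (Gd Q'.b μ ∧ (μ.map fun y => Q'.γ y.1).sum = γ ∧
        (μ.map fun y => Q'.s y.1 + 2 * (y.2 : ℤ)).sum = i) ↔
      (Gd β (μ.map (Prod.map Subtype.val id)) ∧ Q.cl (dm (μ.map (Prod.map Subtype.val id))) = γ ∧
        e (μ.map (Prod.map Subtype.val id)) = i) := by
    intro μ
    rw [quivb_Gd_map _ Subtype.val_injective, hdm, he]
    dsimp only
    rw [quivb_cl_sum, Multiset.map_map, Multiset.map_map]
    rfl
  refine Nat.card_eq_of_bijective
    (fun μ => ⟨μ.1.map (Prod.map Subtype.val id), (hiff μ.1).1 μ.2⟩) ⟨?_, ?_⟩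
  · intro a b hab
    exact Subtype.ext (Multiset.map_injective hinj (congrArg Subtype.val hab))
  · rintro ⟨μ, g1, g2, g3⟩
    obtain ⟨μ', rfl⟩ := quivb_lift (Prod.map (Subtype.val : {c // c ∈ ι₀} → ι) (id : ℕ → ℕ)) μ
      fun y hy => ⟨(⟨y.1, hι₀ μ g1 (g2 ▸ hγ) (g3 ▸ hi) y hy⟩, y.2), rfl⟩
    exact ⟨⟨μ', (hiff μ').2 ⟨g1, g2, g3⟩⟩, rfl⟩

end

end Crest.Agent.R59
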