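import Crest.Agent.R59.St
import Crest.Agent.R59.Comb

/-!
# R59/RotDef: periodic words and their rotations

Letters `s : ℕ` have level `lv s < L` (periodic with period `m`) and exponent `u s`; the frame vertices
`Y 0, …, Y L` sit at time `0`.  The vertex `(j, 0)` is `Y j`, the vertex `(lv s, s + 1)` is the letter `s`.  The state
`n` uses the letters `n ≤ s < n + m`.
-/

set_option autoImplicit false
set_option linter.unusedSectionVars false
set_option linter.unusedVariables false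

namespace Crest.Agent.R59

noncomputable section

/-- Periodic words with their lattice. -/
structure Rot (N : Type) [AddCommGroup N] [Alt N] where
  m : ℕ
  L : ℕ
  lv : ℕ → ℕ
  Y : ℕ → N
  u : ℕ → N
  x : N
  f : N
  per : ∀ s, lv (s + m) = lv s
  lt : ∀ s, lv s < L
  ne : ∀ j, j < L → ∃ s, s < m ∧ lv s = j
  uper : ∀ s, u (s + m) = u s + Y (lv s + 1) - Y (lv s)
  oYY : ∀ i j, ω (Y i) (Y j) = 0
  ouY : ∀ s j, ω (u s) (Y j) = if lv s = j then -1 else if lv s + 1 = j then 1 else 0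
  ouu : ∀ s s', s < s' → s' < s + m →
    ω (u s) (u s') = if lv s' = lv s then 1 else if lv s' + 1 = lv s then -1 else 0
  ox : ∀ a, ω x a = 0
  oYf : ∀ j, ω (Y j) f = 1
  ouf : ∀ s, ω (u s) f = 1
  extZ : ∀ (a b : ℕ → ℤ) (c : ℤ), ∃ θ : N →+ ℤ,
    (∀ j, θ (Y j) = a j) ∧ (∀ s, s < m → θ (u s) = b s) ∧ θ x = c ∧ θ f = 0
  extR : ∀ a b : ℕ → ℝ, ∃ θ : N →+ ℝ, (∀ j, θ (Y j) = a j) ∧ ∀ s, s < m → θ (u s) = b s

variable {N : Type} [AddCommGroup N] [Alt N]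

namespace Rot

variable (P : Rot N)

/-- The exponent of a vertex. -/
def U (p : ℕ ×ₗ ℕ) : N := if (ofLex p).2 = 0 then P.Y (ofLex p).1 else P.u ((ofLex p).2 - 1)

/-- The vertex of a letter. -/
def vl (s : ℕ) : ℕ ×ₗ ℕ := toLex (P.lv s, s + 1)

/-- A frame vertex. -/
def vy (j : ℕ) : ℕ ×ₗ ℕ := toLex (j, 0)

/-- The vertices of the state `n`. -/
def W (n : ℕ) : Finset (ℕ ×ₗ ℕ) :=
  (Finset.Ico n (n + P.m)).image P.vl ∪ (Finset.range (P.L + 1)).image vy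

/-- The seed of the state `n`. -/
abbrev s (n : ℕ) : Finset N := sd (P.W n) P.U

/-- The direction of the mutation from the state `n` to the state `n + 1`. -/
def k (n : ℕ) : N := P.u n - P.Y (P.lv n)

/-- The frame monomial with exponent `ν`. -/
def pv (ν : Fin (P.L + 1) → ℕ) : N := ∑ j, ν j • P.Y j

/-- The product of all letters. -/
def rG : N := ∑ s ∈ Finset.range P.m, P.u s

/-- The up-edges between letters. -/
def E (s s' : Fin P.m) : Prop :=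
  (P.lv s' = P.lv s ∧ s < s') ∨ (P.lv s' = P.lv s + 1 ∧ s' < s)

instance : DecidableRel P.E := fun _ _ => by unfold E; infer_instance

theorem U_vl (s : ℕ) : P.U (P.vl s) = P.u s := by simp [U, vl]

theorem U_vy (j : ℕ) : P.U (vy j) = P.Y j := by simp [U, vy]

theorem mem_W {n : ℕ} {p : ℕ ×ₗ ℕ} :
    p ∈ P.W n ↔ (∃ s, n ≤ s ∧ s < n + P.m ∧ p = P.vl s) ∨ ∃ j, j ≤ P.L ∧ p = vy j := by
  simp only [W, Finset.mem_union, Finset.mem_image, Finset.mem_Ico, Finset.mem_range,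
    Nat.lt_succ_iff]
  constructor
  · rintro (⟨s, ⟨a, b⟩, rfl⟩ | ⟨j, a, rfl⟩)
    exacts [Or.inl ⟨s, a, b, rfl⟩, Or.inr ⟨j, a, rfl⟩]
  · rintro (⟨s, a, b, rfl⟩ | ⟨j, a, rfl⟩)
    exacts [Or.inl ⟨s, ⟨a, b⟩, rfl⟩, Or.inr ⟨j, a, rfl⟩]

theorem m_pos : 0 < P.m := by
  obtain ⟨s, hs, -⟩ := P.ne 0 (lt_of_le_of_lt (Nat.zero_le _) (P.lt 0))
  omega

theorem vy_zero_mem (n : ℕ) : vy 0 ∈ P.W n :=
  P.mem_W.2 (Or.inr ⟨0, Nat.zero_le _, rfl⟩)

theorem vy_zero_le (p : ℕ ×ₗ ℕ) : vy 0 ≤ p := by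
  rw [vy, ← toLex_ofLex p, Prod.Lex.toLex_le_toLex]
  omega

theorem exists_letter (n : ℕ) {j : ℕ} (hj : j < P.L) : ∃ s, n ≤ s ∧ s < n + P.m ∧ P.lv s = j := by
  induction n with
  | zero =>
    obtain ⟨s, hs, e⟩ := P.ne j hj
    exact ⟨s, Nat.zero_le _, by omega, e⟩
  | succ n ih =>
    obtain ⟨s, a, b, e⟩ := ih
    rcases a.eq_or_lt with rfl | a
    · exact ⟨n + P.m, by omega, by omega, by rw [P.per, e]⟩
    · exact ⟨s, a, by omega, e⟩

/-- The form on the vertices of a state. -/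
theorem ω_U {n : ℕ} {p q : ℕ ×ₗ ℕ} (hp : p ∈ P.W n) (hq : q ∈ P.W n) (h : p < q) :
    ω (P.U p) (P.U q) = if (ofLex q).1 = (ofLex p).1 ∨
      ((ofLex q).1 = (ofLex p).1 + 1 ∧ (ofLex q).2 < (ofLex p).2) then 1 else 0 := by
  rcases P.mem_W.1 hp with ⟨s, a, b, rfl⟩ | ⟨i, a, rfl⟩ <;>
    rcases P.mem_W.1 hq with ⟨t, c, d, rfl⟩ | ⟨j, c, rfl⟩
  · rw [U_vl, U_vl]
    simp only [vl, Prod.Lex.toLex_lt_toLex, ofLex_toLex] at h ⊢
    rcases lt_trichotomy s t with e | e | e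
    · rw [P.ouu s t e (by omega)]
      split_ifs <;> omega
    · subst e; omega
    · rw [ω_swap, P.ouu t s e (by omega)]
      split_ifs <;> omega
  · rw [U_vl, U_vy, P.ouY]
    simp only [vl, vy, Prod.Lex.toLex_lt_toLex, ofLex_toLex] at h ⊢
    split_ifs <;> omega
  · rw [U_vl, U_vy, ω_swap, P.ouY]
    simp only [vl, vy, Prod.Lex.toLex_lt_toLex, ofLex_toLex] at h ⊢
    split_ifs <;> omega
  · rw [U_vy, U_vy, P.oYY]
    simp only [vy, Prod.Lex.toLex_lt_toLex, ofLex_toLex] at h ⊢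
    split_ifs <;> omega

theorem chain (n : ℕ) : Chain (P.W n) P.U := by
  refine ⟨fun p hp q hq h => ?_, fun p hp q hq r hr h1 h2 h => ?_, fun p q h => ?_⟩
  · rw [P.ω_U hp hq h]
    split_ifs <;> simp
  · rw [P.ω_U hp hr (h1.trans h2)] at h
    rw [P.ω_U hp hq h1, P.ω_U hq hr h2]
    rw [Prod.Lex.lt_iff] at h1 h2
    split_ifs at h ⊢ <;> omega
  · obtain ⟨hp, hq, h, hn⟩ := h
    rw [P.ω_U hp hq h, if_pos]
    have hL : (ofLex q).1 ≤ P.L := by
      rcases P.mem_W.1 hq with ⟨t, -, -, rfl⟩ | ⟨j, c, rfl⟩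
      exacts [(P.lt t).le, c]
    by_contra hc
    have h' := Prod.Lex.lt_iff.1 h
    have h1 := hn (vy ((ofLex p).1 + 1)) (P.mem_W.2 (Or.inr ⟨_, by omega, rfl⟩))
    obtain ⟨s, a, b, e⟩ := P.exists_letter n (j := (ofLex p).1) (by omega)
    have h2 := hn (P.vl s) (P.mem_W.2 (Or.inl ⟨s, a, b, rfl⟩))
    simp only [vy, vl, Prod.Lex.lt_iff, ofLex_toLex] at h1 h2
    omega

theorem exists_fram : ∃ dx : N →+ ℤ, Fram (P.W 0) P.U P.x P.f dx := by
  obtain ⟨θ, h1, h2, h3, h4⟩ := P.extZ 0 0 1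
  refine ⟨θ, P.ox, fun p hp => ?_, h3, fun p hp => ?_, h4⟩ <;>
    rcases P.mem_W.1 hp with ⟨s, a, b, rfl⟩ | ⟨i, a, rfl⟩
  · rw [U_vl, P.ouf]
  · rw [U_vy, P.oYf]
  · rw [U_vl, h2 s (by omega)]; rfl
  · rw [U_vy, h1]; rfl

open Classical in
/-- The coordinate of `U q - U p` is the functional with value `1` on the vertices `≥ q`, `0` on the
others and on `x` (`extZ`); the coordinate of `x + Y 0` is `dx`. -/
theorem isSeed_ext : IsSeed (insert (P.x + P.U (vy 0)) (P.s 0)) := by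
  suffices H : ∀ e ∈ insert (P.x + P.U (vy 0)) (P.s 0), ∃ θ : N →+ ℤ, θ e = 1 ∧
      ∀ e' ∈ insert (P.x + P.U (vy 0)) (P.s 0), e ≠ e' → θ e' = 0 by
    choose! co h1 h2 using H
    exact ⟨co, h1, h2⟩
  intro e he
  rcases Finset.mem_insert.1 he with rfl | he
  · obtain ⟨dx, hd⟩ := P.exists_fram
    refine ⟨dx, by rw [map_add, hd.dx1, hd.dxU _ (P.vy_zero_mem 0), add_zero], fun e' he' hne => ?_⟩
    rcases Finset.mem_insert.1 he' with rfl | he'
    · exact absurd rfl hne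
    · obtain ⟨p, q, h, rfl⟩ := mem_sd.1 he'
      rw [map_sub, hd.dxU _ h.1, hd.dxU _ h.2.1, sub_zero]
  · obtain ⟨p, q, h, rfl⟩ := mem_sd.1 he
    obtain ⟨θ, h1, h2, h3, -⟩ := P.extZ (fun j => if q ≤ vy j then 1 else 0)
      (fun s => if q ≤ P.vl s then 1 else 0) 0
    have hθ : ∀ r ∈ P.W 0, θ (P.U r) = if q ≤ r then 1 else 0 := by
      intro r hr
      rcases P.mem_W.1 hr with ⟨s, a, b, rfl⟩ | ⟨i, a, rfl⟩
      · rw [U_vl, h2 s (by omega)]
      · rw [U_vy, h1]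
    refine ⟨θ, by rw [map_sub, hθ _ h.1, hθ _ h.2.1, if_pos le_rfl, if_neg h.2.2.1.not_ge, sub_zero],
      fun e' he' hne => ?_⟩
    rcases Finset.mem_insert.1 he' with rfl | he'
    · rw [map_add, h3, hθ _ (P.vy_zero_mem 0), if_neg ((vy_zero_le p).trans_lt h.2.2.1).not_ge,
        add_zero]
    · obtain ⟨p', q', h', rfl⟩ := mem_sd.1 he'
      rw [map_sub, hθ _ h'.1, hθ _ h'.2.1]
      by_cases a : q ≤ p'
      · rw [if_pos a, if_pos (a.trans h'.2.2.1.le), sub_self]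
      by_cases b : q ≤ q'
      · exfalso
        have e1 : q = q' := by
          by_contra c
          exact h'.2.2.2 q h.2.1 ⟨not_le.1 a, lt_of_le_of_ne b c⟩
        subst e1
        have e2 : p = p' := by
          rcases lt_trichotomy p p' with c | c | c
          · exact (h.2.2.2 p' h'.1 ⟨c, h'.2.2.1⟩).elim
          · exact c
          · exact (h'.2.2.2 p h.1 ⟨c, h.2.2.1⟩).elim
        exact hne (by rw [e2])
      · rw [if_neg a, if_neg b, sub_self]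

theorem k_mem (n : ℕ) : P.k n ∈ P.s n := by
  have := P.m_pos
  refine mem_sd.2 ⟨vy (P.lv n), P.vl n, ⟨P.mem_W.2 (Or.inr ⟨_, (P.lt n).le, rfl⟩),
    P.mem_W.2 (Or.inl ⟨n, le_rfl, by omega, rfl⟩), ?_, fun r hr => ?_⟩, by rw [U_vl, U_vy, k]⟩
  · simp [vy, vl, Prod.Lex.toLex_lt_toLex]
  · rcases P.mem_W.1 hr with ⟨s, a, b, rfl⟩ | ⟨i, a, rfl⟩ <;>
      simp only [vy, vl, Prod.Lex.toLex_lt_toLex] <;> omega

theorem u_add_mul (s t : ℕ) :
    P.u (s + t * P.m) = P.u s + t • (P.Y (P.lv s + 1) - P.Y (P.lv s)) ∧ P.lv (s + t * P.m) = P.lv s := by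
  induction t with
  | zero => simp
  | succ t ih =>
    rw [Nat.succ_mul, ← add_assoc, P.uper, P.per, ih.1, ih.2, succ_nsmul]
    exact ⟨by abel, rfl⟩

end Rot

end

end Crest.Agent.R59
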