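import Crest.Agent.R59.RotSeed

/-!
# R59/RotLim: the charts converge to the Toda cone
-/

set_option autoImplicit false
set_option linter.unusedSectionVars false
set_option linter.unusedVariables false

namespace Crest.Agent.R59

noncomputable section

variable {N : Type} [AddCommGroup N] [Alt N]

/-- Recursion for the coefficients of `FH` at a sum of linearly independent vertex exponents. -/
theorem rotlim_FH_cons {V : Type} [LinearOrder V] {W : Finset V} {U : V → N}
    (hW : ∀ p ∈ W, ∃ θ : N →+ ℤ, θ (U p) = 1 ∧ ∀ q ∈ W, q ≠ p → θ (U q) = 0)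
    {ι : Type} [Fintype ι] [DecidableEq ι] (emb : ι ↪ V) (hemb : ∀ i, emb i ∈ W)
    (k : ℕ) (α : List ℕ) (ν : ι → ℕ) :
    FH W U (k :: α) (∑ i, ν i • U (emb i)) =
      ∑ S ∈ ((Finset.univ.filter fun j => ν j ≠ 0).powersetCard k).filter
          (fun S => ∀ a ∈ S, ∀ b ∈ S, ω (U (emb a)) (U (emb b)) = 0),
        vp (ω (∑ i ∈ S, U (emb i)) (∑ i, ν i • U (emb i))) *
          FH W U α (∑ i, (if i ∈ S then ν i - 1 else ν i) • U (emb i)) := by
  classical
  rw [FH_cons_apply]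
  symm
  refine Finset.sum_of_injOn (fun S => S.map emb) (Finset.map_injective emb).injOn ?_ ?_ ?_
  · intro S hS
    rw [Finset.mem_coe, Finset.mem_filter, Finset.mem_powersetCard] at hS
    simp only [stb, Finset.coe_filter, Finset.mem_powersetCard, Set.mem_ofPred_eq, Finset.card_map]
    refine ⟨⟨fun p hp => ?_, hS.1.2⟩, fun p hp q hq => ?_⟩
    · obtain ⟨i, -, rfl⟩ := Finset.mem_map.1 hp
      exact hemb i
    · obtain ⟨i, hi, rfl⟩ := Finset.mem_map.1 hp
      obtain ⟨j, hj, rfl⟩ := Finset.mem_map.1 hq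
      exact hS.2 i hi j hj
  · intro S hS hn
    by_contra hne
    have h1 := right_ne_zero_of_mul hne
    obtain ⟨c, -, hc⟩ := FH_ne_zero h1
    simp only [stb, Finset.mem_filter, Finset.mem_powersetCard] at hS
    have key : ∀ p ∈ S, ∃ i, ν i ≠ 0 ∧ emb i = p := by
      intro p hp
      by_contra hcon
      push Not at hcon
      obtain ⟨θ, h2, h3⟩ := hW p (hS.1.1 hp)
      have h4 := congrArg θ hc
      rw [map_sub, map_sum, map_sum, map_sum] at h4
      have e1 : ∑ i, θ (ν i • U (emb i)) = 0 := Finset.sum_eq_zero fun i _ => by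
        by_cases h0 : ν i = 0
        · simp [h0]
        · rw [map_nsmul, h3 _ (hemb i) (hcon i h0), smul_zero]
      have e2 : ∑ q ∈ S, θ (U q) = 1 := by
        rw [Finset.sum_eq_single_of_mem p hp fun q hq hqp => h3 q (hS.1.1 hq) hqp, h2]
      have e3 : 0 ≤ ∑ q ∈ W, θ (c q • U q) := Finset.sum_nonneg fun q hq => by
        rw [map_nsmul]
        by_cases hqp : q = p
        · rw [hqp, h2]; simp
        · rw [h3 q hq hqp, smul_zero]
      omega
    apply hn
    refine ⟨S.preimage emb emb.injective.injOn, ?_, ?_⟩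
    · have e : (S.preimage emb emb.injective.injOn).map emb = S := by
        ext p
        simp only [Finset.mem_map, Finset.mem_preimage]
        exact ⟨fun ⟨i, h, e⟩ => e ▸ h, fun hp => by
          obtain ⟨i, -, rfl⟩ := key p hp
          exact ⟨i, hp, rfl⟩⟩
      rw [Finset.mem_coe, Finset.mem_filter, Finset.mem_powersetCard]
      refine ⟨⟨fun i hi => ?_, ?_⟩, fun a ha b hb => ?_⟩
      · obtain ⟨j, hj, e⟩ := key _ (Finset.mem_preimage.1 hi)
        rw [emb.injective e] at hj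
        simpa using hj
      · rw [← hS.1.2, ← Finset.card_map emb, e]
      · exact hS.2 _ (Finset.mem_preimage.1 ha) _ (Finset.mem_preimage.1 hb)
    · ext p
      simp only [Finset.mem_map, Finset.mem_preimage]
      exact ⟨fun ⟨i, h, e⟩ => e ▸ h, fun hp => by
        obtain ⟨i, -, rfl⟩ := key p hp
        exact ⟨i, hp, rfl⟩⟩
  · intro S hS
    rw [Finset.mem_filter, Finset.mem_powersetCard] at hS
    rw [Finset.sum_map]
    refine congrArg (fun r => _ * (FH W U α) r) ?_
    rw [eq_sub_iff_add_eq]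
    have e : ∑ i ∈ S, U (emb i) = ∑ i, (if i ∈ S then 1 else 0 : ℕ) • U (emb i) := by
      simp [ite_smul, Finset.sum_ite_mem]
    rw [e, ← Finset.sum_add_distrib]
    refine Finset.sum_congr rfl fun i _ => ?_
    rw [← add_nsmul]
    congr 1
    split_ifs with hi
    · have := (Finset.mem_filter.1 (hS.1.1 hi)).2
      omega
    · rfl

theorem rotlim_FH_cons' {V : Type} [LinearOrder V] {W : Finset V} {U : V → N}
    (hW : ∀ p ∈ W, ∃ θ : N →+ ℤ, θ (U p) = 1 ∧ ∀ q ∈ W, q ≠ p → θ (U q) = 0)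
    {ι : Type} [Fintype ι] [DecidableEq ι] (emb : ι → V) (hinj : Function.Injective emb)
    (hemb : ∀ i, emb i ∈ W) (u : ι → N) (hu : ∀ i, U (emb i) = u i)
    (k : ℕ) (α : List ℕ) (ν : ι → ℕ) :
    FH W U (k :: α) (∑ i, ν i • u i) =
      ∑ S ∈ ((Finset.univ.filter fun j => ν j ≠ 0).powersetCard k).filter
          (fun S => ∀ a ∈ S, ∀ b ∈ S, ω (u a) (u b) = 0),
        vp (ω (∑ i ∈ S, u i) (∑ i, ν i • u i)) *
          FH W U α (∑ i, (if i ∈ S then ν i - 1 else ν i) • u i) := by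
  obtain rfl : u = fun i => U (emb i) := funext fun i => (hu i).symm
  exact rotlim_FH_cons hW ⟨emb, hinj⟩ hemb k α ν

theorem rotlim_one_apply (r : N) [Decidable (r = 0)] :
    (1 : A (⊥ : AddSubmonoid N)) r = if r = 0 then 1 else 0 := by
  change zf 0 r = _
  split_ifs with h
  · rw [h, zf_self]
  · exact zf_of_ne h

theorem rotlim_upE {ι : Type} (E : ι → ι → Prop) [DecidableRel E] (S T : Finset ι) :
    (upE E S T : ℤ) = ∑ a ∈ S, ∑ b ∈ T, if E a b then 1 else 0 := by
  rw [upE, Finset.card_filter, Finset.sum_product]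
  push_cast
  rfl

namespace Rot

variable (P : Rot N)

theorem rotlim_ext (n : ℕ) (a b : ℕ → ℤ) : ∃ θ : N →+ ℤ,
    (∀ j, θ (P.Y j) = a j) ∧ ∀ s, n ≤ s → s < n + P.m → θ (P.u s) = b s := by
  induction n generalizing b with
  | zero =>
    obtain ⟨θ, h1, h2, -⟩ := P.extZ a b 0
    exact ⟨θ, h1, fun s _ hs => h2 s (by omega)⟩
  | succ n ih =>
    obtain ⟨θ, h1, h2⟩ :=
      ih fun s => if s = n then b (n + P.m) - a (P.lv n + 1) + a (P.lv n) else b s
    have := P.m_pos
    refine ⟨θ, h1, fun s hs hs' => ?_⟩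
    by_cases e : s = n + P.m
    · rw [e, P.uper, map_sub, map_add, h1, h1, h2 n le_rfl (by omega), if_pos rfl]
      ring
    · rw [h2 s (by omega) (by omega), if_neg (by omega)]

theorem rotlim_dual (n : ℕ) : ∀ p ∈ P.W n, ∃ θ : N →+ ℤ, θ (P.U p) = 1 ∧
    ∀ q ∈ P.W n, q ≠ p → θ (P.U q) = 0 := by
  intro p hp
  obtain ⟨θ, h1, h2⟩ := P.rotlim_ext n (fun j => if vy j = p then 1 else 0)
    (fun s => if P.vl s = p then 1 else 0)
  have h : ∀ q ∈ P.W n, θ (P.U q) = if q = p then 1 else 0 := by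
    intro q hq
    rcases P.mem_W.1 hq with ⟨s, a, b, rfl⟩ | ⟨i, a, rfl⟩
    · rw [U_vl, h2 s a b]
    · rw [U_vy, h1]
  exact ⟨θ, by rw [h p hp, if_pos rfl], fun q hq hqp => by rw [h q hq, if_neg hqp]⟩

theorem rotlim_vl_inj : Function.Injective P.vl := fun s t h => by
  have := congrArg (fun p => (ofLex p).2) h
  simpa [vl] using this

theorem rotlim_vy_inj : Function.Injective vy := fun s t h => by
  have := congrArg (fun p => (ofLex p).1) h
  simpa [vy] using this

theorem rotlim_sum_W {M : Type} [AddCommMonoid M] (n : ℕ) (F : ℕ ×ₗ ℕ → M) :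
    ∑ p ∈ P.W n, F p = ∑ s ∈ Finset.Ico n (n + P.m), F (P.vl s) + ∑ j : Fin (P.L + 1), F (vy j) := by
  rw [W, Finset.sum_union, Finset.sum_image P.rotlim_vl_inj.injOn,
    Finset.sum_image rotlim_vy_inj.injOn, Finset.sum_range]
  rw [Finset.disjoint_left]
  intro p h1 h2
  obtain ⟨s, -, rfl⟩ := Finset.mem_image.1 h1
  obtain ⟨j, -, e⟩ := Finset.mem_image.1 h2
  have := congrArg (fun p => (ofLex p).2) e
  simp [vl, vy] at this

theorem ω_u_pv (ν : Fin (P.L + 1) → ℕ) (s : ℕ) :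
    ω (P.u s) (P.pv ν) = (ν ⟨P.lv s + 1, Nat.succ_lt_succ (P.lt s)⟩ : ℤ) -
      ν ⟨P.lv s, (P.lt s).trans (Nat.lt_succ_self _)⟩ := by
  rw [pv, map_sum]
  have e : ∀ j : Fin (P.L + 1), ω (P.u s) (ν j • P.Y j) =
      (if j = ⟨P.lv s + 1, Nat.succ_lt_succ (P.lt s)⟩ then (ν j : ℤ) else 0) -
        (if j = ⟨P.lv s, (P.lt s).trans (Nat.lt_succ_self _)⟩ then (ν j : ℤ) else 0) := by
    intro j
    rw [map_nsmul, P.ouY]
    simp only [Fin.ext_iff]
    split_ifs <;> first | omega | simp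
  simp only [e, Finset.sum_sub_distrib, Finset.sum_ite_eq', Finset.mem_univ, if_true]

theorem ω_Y_pv (ν : Fin (P.L + 1) → ℕ) (j : ℕ) : ω (P.Y j) (P.pv ν) = 0 := by
  simp [pv, map_sum, map_nsmul, P.oYY]

/-- With `g j = ν j - ν (j+1) ≥ 0`, `c j = g j + 1/T`, `τ s = (s+1)/(m+1)`, take
`θ (Y j) = ∑_{i<j} c i / T`, `θ (u s) = θ (Y (lv s)) - c (lv s) + c (lv s) τ s / T` (`extR`).  Then `θ ∘ U` is
strictly increasing on `W (T m)`, `θ (k j) < 0` for `j < T m`, and `θ → ω · (pv ν)` pointwise on the cone. -/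
theorem exists_theta_chart (ν : Fin (P.L + 1) → ℕ) (hν : Antitone ν) (B : Finset N)
    (hB : ∀ a ∈ B, a ∈ cone (P.s 0)) (T0 : ℕ) :
    ∃ T, T0 ≤ T ∧ ∃ θ : N →+ ℝ, (∀ j, j < T * P.m → θ (P.k j) < 0) ∧
      (∀ e ∈ P.s (T * P.m), 0 < θ e) ∧
      ∀ a ∈ B, ω a (P.pv ν) ≠ 0 → SignType.sign (θ a) = SignType.sign (ω a (P.pv ν)) := by
  classical
  have hm := P.m_pos
  set g : ℕ → ℝ := fun j => if h : j < P.L then
    (ν ⟨j, h.trans (Nat.lt_succ_self _)⟩ : ℝ) - ν ⟨j + 1, Nat.succ_lt_succ h⟩ else 0 with hg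
  have hg0 : ∀ j, 0 ≤ g j := fun j => by
    simp only [hg]
    split_ifs with h
    · rw [sub_nonneg, Nat.cast_le]
      exact hν (Fin.mk_le_mk.2 (Nat.le_succ j))
    · exact le_rfl
  set τ : ℕ → ℝ := fun s => ((s : ℝ) + 1) / (P.m + 1) with hτ
  set y : ℝ → ℕ → ℝ := fun ε j => ε * ∑ i ∈ Finset.range j, (g i + ε) with hy
  set w : ℝ → ℕ → ℝ := fun ε s =>
    y ε (P.lv s) - (g (P.lv s) + ε) + (g (P.lv s) + ε) * τ s * ε with hw
  choose θ hθY hθu using fun ε => P.extR (y ε) (w ε)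
  have hys : ∀ ε j, y ε (j + 1) = y ε j + ε * (g j + ε) := fun ε j => by
    simp only [hy, Finset.sum_range_succ]; ring
  have hτ0 : ∀ s, 0 < τ s := fun s => by simp only [hτ]; positivity
  have hτ1 : ∀ s, s < P.m → τ s < 1 := fun s hs => by
    simp only [hτ]
    rw [div_lt_one (by positivity)]
    have : (s : ℝ) < P.m := by exact_mod_cast hs
    linarith
  have hτm : ∀ s t, s < t → τ s < τ t := fun s t hs => by
    simp only [hτ]
    have : (s : ℝ) < t := by exact_mod_cast hs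
    exact div_lt_div_of_pos_right (by linarith) (by positivity)
  have hθt : ∀ ε s t, s < P.m → θ ε (P.u (s + t * P.m)) =
      y ε (P.lv s) + (g (P.lv s) + ε) * ((t + τ s) * ε - 1) := fun ε s t hs => by
    rw [(P.u_add_mul s t).1, map_add, map_nsmul, map_sub, hθY, hθY, hθu ε s hs, hys]
    simp only [hw, nsmul_eq_mul]
    ring
  -- convergence
  have hU : ∀ p ∈ P.W 0, Filter.Tendsto (fun ε => θ ε (P.U p)) (nhds 0)
      (nhds (ω (P.U p) (P.pv ν) : ℝ)) := by
    intro p hp
    rcases P.mem_W.1 hp with ⟨s, a, b, rfl⟩ | ⟨i, a, rfl⟩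
    · simp only [U_vl, hθu _ s (by omega)]
      have hc : Continuous fun ε => w ε s := by simp only [hw, hy]; fun_prop
      convert hc.tendsto 0 using 2
      rw [ω_u_pv]
      simp [hw, hy, hg, P.lt s]
    · simp only [U_vy, hθY]
      have hc : Continuous fun ε => y ε i := by simp only [hy]; fun_prop
      convert hc.tendsto 0 using 2
      rw [ω_Y_pv]
      simp [hy]
  have hcone : ∀ a ∈ cone (P.s 0), Filter.Tendsto (fun ε => θ ε a) (nhds 0)
      (nhds (ω a (P.pv ν) : ℝ)) := by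
    intro a ha
    induction ha using AddSubmonoid.closure_induction with
    | mem e he =>
      obtain ⟨p, q, h, rfl⟩ := mem_sd.1 he
      simp only [map_sub, AddMonoidHom.sub_apply, Int.cast_sub]
      exact (hU q h.2.1).sub (hU p h.1)
    | zero => simp
    | add a b _ _ ha hb =>
      simp only [map_add, AddMonoidHom.add_apply, Int.cast_add]
      exact ha.add hb
  have hev : ∀ᶠ T : ℕ in Filter.atTop, ∀ a ∈ B, ω a (P.pv ν) ≠ 0 →
      SignType.sign (θ (1 / (T : ℝ)) a) = SignType.sign (ω a (P.pv ν)) := by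
    rw [Filter.eventually_all_finset]
    intro a ha
    by_cases h0 : ω a (P.pv ν) = 0
    · exact Filter.Eventually.of_forall fun _ h => absurd h0 h
    have h1 := (hcone a (hB a ha)).comp (tendsto_one_div_atTop_nhds_zero_nat (𝕜 := ℝ))
    rcases lt_or_gt_of_ne h0 with h2 | h2
    · filter_upwards [h1.eventually_lt_const (u := 0) (by exact_mod_cast h2)] with T hT _
      rw [sign_neg h2]
      exact sign_neg hT
    · filter_upwards [h1.eventually_const_lt (u := 0) (by exact_mod_cast h2)] with T hT _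
      rw [sign_pos h2]
      exact sign_pos hT
  obtain ⟨T, hT1, hT2⟩ := (hev.and (Filter.eventually_ge_atTop (max T0 1))).exists
  have hT0 : (0 : ℝ) < T := by exact_mod_cast (le_of_max_le_right hT2 : 1 ≤ T)
  set ε : ℝ := 1 / (T : ℝ) with hε
  have hε0 : 0 < ε := by positivity
  have hεT : (T : ℝ) * ε = 1 := by rw [hε]; field_simp
  have hc0 : ∀ j, 0 < g j + ε := fun j => by linarith [hg0 j]
  refine ⟨T, le_of_max_le_left hT2, θ ε, fun j hj => ?_, fun e he => ?_, hT1⟩
  · have e1 : j = j % P.m + j / P.m * P.m := by rw [mul_comm, Nat.mod_add_div]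
    have e2 : j % P.m < P.m := Nat.mod_lt _ hm
    have e3 : j / P.m < T := Nat.div_lt_of_lt_mul (by rwa [mul_comm])
    rw [k, map_sub, hθY, e1, hθt ε _ _ e2, (P.u_add_mul _ _).2, add_sub_cancel_left]
    refine mul_neg_of_pos_of_neg (hc0 _) ?_
    have e4 : ((j / P.m : ℕ) : ℝ) + 1 ≤ T := by exact_mod_cast e3
    have := hτ1 _ e2
    nlinarith
  · have hym : StrictMono (y ε) := strictMono_nat_of_lt_succ fun j => by
      rw [hys]; linarith [mul_pos hε0 (hc0 j)]
    have hl : ∀ s, T * P.m ≤ s → s < T * P.m + P.m →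
        θ ε (P.u s) = y ε (P.lv s) + (g (P.lv s) + ε) * τ (s - T * P.m) * ε := by
      intro s h1 h2
      obtain ⟨s, rfl⟩ := Nat.exists_eq_add_of_le' h1
      rw [hθt ε s T (by omega), (P.u_add_mul _ _).2, Nat.add_sub_cancel, add_mul (T : ℝ), hεT]
      ring
    have hl1 : ∀ s, T * P.m ≤ s → s < T * P.m + P.m → y ε (P.lv s) < θ ε (P.u s) := by
      intro s h1 h2
      rw [hl s h1 h2]
      linarith [mul_pos (mul_pos (hc0 (P.lv s)) (hτ0 (s - T * P.m))) hε0]
    have hl2 : ∀ s, T * P.m ≤ s → s < T * P.m + P.m → θ ε (P.u s) < y ε (P.lv s + 1) := by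
      intro s h1 h2
      rw [hl s h1 h2, hys]
      have := mul_lt_mul_of_pos_left (hτ1 (s - T * P.m) (by omega)) (mul_pos hε0 (hc0 (P.lv s)))
      linarith
    obtain ⟨p, q, ⟨hp, hq, h, -⟩, rfl⟩ := mem_sd.1 he
    rw [map_sub, sub_pos]
    rcases P.mem_W.1 hp with ⟨s, a, b, rfl⟩ | ⟨i, a, rfl⟩ <;>
      rcases P.mem_W.1 hq with ⟨t, c, d, rfl⟩ | ⟨j, c, rfl⟩ <;>
      simp only [vl, vy, Prod.Lex.toLex_lt_toLex] at h
    · rw [U_vl, U_vl]
      rcases h with h | ⟨h, h'⟩
      · exact ((hl2 s a b).trans_le (hym.monotone h)).trans (hl1 t c d)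
      · rw [hl s a b, hl t c d, h]
        have := mul_lt_mul_of_pos_left (hτm (s - T * P.m) (t - T * P.m) (by omega))
          (mul_pos hε0 (hc0 (P.lv t)))
        linarith
    · rw [U_vl, U_vy, hθY]
      exact (hl2 s a b).trans_le (hym.monotone (by omega))
    · rw [U_vl, U_vy, hθY]
      exact (hym.monotone (by omega)).trans_lt (hl1 t c d)
    · rw [U_vy, U_vy, hθY, hθY]
      exact hym (by omega)

/-- If `r` is in the support of `FH (W (T m)) α` for arbitrarily large `T` then `r` is a frame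
monomial.  Write `r = ∑ a s • u (s + T m) + ∑ b j • Y j`; the numbers `a s` are coordinates of `r`; with
`A j = ∑_{lv s = j} a s` the coordinate of `Y j` is `b j + T (A (j-1) - A j)`, `0 ≤ b j ≤ α.sum`; so for large
`T` all `A j` vanish (induction on `j`). -/
theorem frame_of_support (α : List ℕ) (r : N)
    (h : ∀ T0, ∃ T, T0 ≤ T ∧ FH (P.W (T * P.m)) P.U α r ≠ 0) :
    ∃ ν : Fin (P.L + 1) → ℕ, ∑ j, ν j = α.sum ∧ r = P.pv ν := by
  obtain ⟨θ, h1, h2, -⟩ := P.extZ (fun j => j) 0 0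
  obtain ⟨T, hT, hne⟩ := h ((θ r).toNat + 1)
  obtain ⟨c, hc1, hc2⟩ := FH_ne_zero hne
  rw [P.rotlim_sum_W] at hc1 hc2
  simp only [U_vl, U_vy] at hc2
  have hu : ∀ s ∈ Finset.Ico (T * P.m) (T * P.m + P.m), θ (P.u s) = T := by
    intro s hs
    rw [Finset.mem_Ico] at hs
    obtain ⟨s, rfl⟩ := Nat.exists_eq_add_of_le' hs.1
    rw [(P.u_add_mul s T).1, map_add, map_nsmul, map_sub, h1, h1, h2 s (by omega)]
    simp
  have h0 : ∀ s ∈ Finset.Ico (T * P.m) (T * P.m + P.m), c (P.vl s) = 0 := by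
    intro s hs
    by_contra hcs
    have h3 := congrArg θ hc2
    rw [map_add, map_sum, map_sum] at h3
    have h4 : 0 ≤ ∑ j : Fin (P.L + 1), θ (c (vy j) • P.Y j) := Finset.sum_nonneg fun j _ => by
      rw [map_nsmul, h1, nsmul_eq_mul]; positivity
    have h5 : θ (c (P.vl s) • P.u s) ≤
        ∑ s ∈ Finset.Ico (T * P.m) (T * P.m + P.m), θ (c (P.vl s) • P.u s) :=
      Finset.single_le_sum (f := fun s => θ (c (P.vl s) • P.u s)) (fun t ht => by
        rw [map_nsmul, hu t ht, nsmul_eq_mul]; positivity) hs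
    rw [map_nsmul, hu s hs, nsmul_eq_mul] at h5
    have h6 : (1 : ℤ) * T ≤ c (P.vl s) * T :=
      mul_le_mul_of_nonneg_right (by omega) (Int.natCast_nonneg _)
    omega
  refine ⟨fun j => c (vy j), ?_, ?_⟩
  · rw [← hc1, Finset.sum_eq_zero h0, zero_add]
  · rw [hc2, Finset.sum_eq_zero fun s hs => by rw [h0 s hs, zero_smul], zero_add, pv]

theorem rotlim_pv_inj : Function.Injective P.pv := by
  intro ν ν' h
  funext j
  obtain ⟨θ, h1, -⟩ := P.extZ (fun i => if i = j then 1 else 0) 0 0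
  have key : ∀ μ : Fin (P.L + 1) → ℕ, θ (P.pv μ) = μ j := fun μ => by
    rw [pv, map_sum, Finset.sum_eq_single j]
    · simp [h1]
    · intro i _ hi
      rw [map_nsmul, h1, if_neg (fun e => hi (Fin.ext e)), smul_zero]
    · simp
  have := congrArg θ h
  rw [key, key] at this
  exact_mod_cast this

/-- More generally than needed: induction on `α`; a stable set containing a letter contributes zero
(the coordinate of that letter would be negative, `FH_ne_zero`), subsets of the frame are stable. -/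
theorem FH_pv (n : ℕ) (α : List ℕ) (ν : Fin (P.L + 1) → ℕ) :
    FH (P.W n) P.U α (P.pv ν) = MM α ν := by
  classical
  induction α generalizing ν with
  | nil =>
    have h0 : P.pv 0 = 0 := by simp [pv]
    rw [FH_nil, rotlim_one_apply, MM]
    by_cases h : ν = 0
    · rw [if_pos h, if_pos (by rw [h, h0]), Nat.cast_one]
    · rw [if_neg h, if_neg (fun e => h (P.rotlim_pv_inj (e.trans h0.symm))), Nat.cast_zero]
  | cons k α ih =>
    have := rotlim_FH_cons' (P.rotlim_dual n) (ι := Fin (P.L + 1))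
      (fun j => vy j) (fun i j h => Fin.ext (rotlim_vy_inj h))
      (fun j => P.mem_W.2 (Or.inr ⟨j, Nat.lt_succ_iff.1 j.2, rfl⟩)) (fun j => P.Y j)
      (fun j => P.U_vy j) k α ν
    simp only [P.oYY, implies_true, Finset.filter_true] at this
    rw [pv, this, MM, Nat.cast_sum]
    refine Finset.sum_congr rfl fun S _ => ?_
    rw [← pv, ← pv, ih, map_sum (ω : N →+ N →+ ℤ), AddMonoidHom.finsetSum_apply,
      Finset.sum_eq_zero fun (j : Fin (P.L + 1)) _ => P.ω_Y_pv ν j, vp_zero, one_mul]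

theorem pv_injective : Function.Injective P.pv := by
  exact P.rotlim_pv_inj

theorem pv_add_letter_ne (ν ν' : Fin (P.L + 1) → ℕ) {s : ℕ} (hs : s < P.m) (j : ℕ) :
    P.pv ν + (P.u s - P.Y j) ≠ P.pv ν' := by
  intro h
  obtain ⟨θ, h1, h2, -⟩ := P.extZ 0 1 0
  have := congrArg θ h
  simp [pv, map_sum, h1, h2 s hs] at this

theorem pv_sub_mem (ν : Fin (P.L + 1) → ℕ) : P.pv ν - (∑ j, ν j) • P.U (vy 0) ∈ cone (P.s 0) := by
  rw [pv, Finset.sum_smul, ← Finset.sum_sub_distrib]
  refine AddSubmonoid.sum_mem _ fun j _ => ?_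
  rw [← smul_sub, ← P.U_vy]
  exact AddSubmonoid.nsmul_mem _ (sub_mem_cone P.U (P.vy_zero_mem 0)
    (P.mem_W.2 (Or.inr ⟨j, Nat.lt_succ_iff.1 j.2, rfl⟩)) (vy_zero_le _)) _

/-- The first letter of level `j`. -/
theorem exists_first {j : ℕ} (hj : j < P.L) :
    ∃ s, s < P.m ∧ P.lv s = j ∧ P.u s - P.Y j ∈ P.s 0 := by
  classical
  have hex := P.ne j hj
  obtain ⟨h1, h2⟩ := Nat.find_spec hex
  refine ⟨Nat.find hex, h1, h2, mem_sd.2 ⟨vy j, P.vl (Nat.find hex),
    ⟨P.mem_W.2 (Or.inr ⟨j, hj.le, rfl⟩), P.mem_W.2 (Or.inl ⟨_, Nat.zero_le _, by omega, rfl⟩), ?_,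
      fun r hr => ?_⟩, by rw [U_vl, U_vy]⟩⟩
  · simp [vy, vl, Prod.Lex.toLex_lt_toLex, h2]
  · rcases P.mem_W.1 hr with ⟨s, a, b, rfl⟩ | ⟨i, a, rfl⟩ <;>
      simp only [vy, vl, Prod.Lex.toLex_lt_toLex, h2]
    · intro h
      exact Nat.find_min hex (m := s) (by omega) ⟨by omega, by omega⟩
    · omega

theorem rotlim_ω_letters (a b : Fin P.m) :
    ω (P.u a) (P.u b) = (if P.E a b then 1 else 0) - (if P.E b a then 1 else 0) := by
  have ha := a.2
  have hb := b.2
  simp only [E, Fin.lt_def]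
  rcases lt_trichotomy (a : ℕ) b with h | h | h
  · rw [P.ouu a b h (by omega)]
    split_ifs <;> omega
  · rw [h, ω_self]
    split_ifs <;> omega
  · rw [ω_swap, P.ouu b a h (by omega)]
    split_ifs <;> omega

theorem rotlim_E_asymm {a b : Fin P.m} (h : P.E a b) : ¬P.E b a := by
  simp only [E, Fin.lt_def] at h ⊢
  omega

theorem rotlim_stable (S : Finset (Fin P.m)) :
    (∀ a ∈ S, ∀ b ∈ S, ω (P.u a) (P.u b) = 0) ↔ ∀ a ∈ S, ∀ b ∈ S, ¬P.E a b := by
  constructor
  · intro h a ha b hb e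
    have := h a ha b hb
    rw [rotlim_ω_letters, if_pos e, if_neg (P.rotlim_E_asymm e)] at this
    omega
  · intro h a ha b hb
    rw [rotlim_ω_letters, if_neg (h a ha b hb), if_neg (h b hb a ha), sub_zero]

theorem rotlim_ω_sum (S T : Finset (Fin P.m)) :
    ω (∑ s ∈ S, P.u s) (∑ s ∈ T, P.u s) = (upE P.E S T : ℤ) - upE P.E T S := by
  rw [rotlim_upE, rotlim_upE, Finset.sum_comm (s := T), ← Finset.sum_sub_distrib, map_sum (ω : N →+ N →+ ℤ),
    AddMonoidHom.finsetSum_apply]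
  refine Finset.sum_congr rfl fun a _ => ?_
  rw [map_sum, ← Finset.sum_sub_distrib]
  exact Finset.sum_congr rfl fun b _ => P.rotlim_ω_letters a b

/-- Induction on `α` for all subsets `T` of the letters; a stable set containing a frame vertex or a letter
outside `T` contributes zero.  `ω (∑_S u) (∑_T u) = upE S (T \ S) - upE (T \ S) S`. -/
theorem FH_letters (α : List ℕ) (T : Finset (Fin P.m)) :
    vp (upE P.E T T) * FH (P.W 0) P.U α (∑ s ∈ T, P.u s) =
      Polynomial.aeval (vp 2) (Col P.E α T) := by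
  classical
  induction α generalizing T with
  | nil =>
    rw [FH_nil, rotlim_one_apply, Col]
    by_cases h : T = ∅
    · subst h
      simp [upE]
    · rw [if_neg h, if_neg, mul_zero, map_zero]
      intro e
      obtain ⟨θ, -, h2, -⟩ := P.extZ 0 1 0
      have := congrArg θ e
      rw [map_sum, Finset.sum_congr rfl fun (s : Fin P.m) _ => h2 s s.2] at this
      simp at this
      exact h this
  | cons k α ih =>
    have := rotlim_FH_cons' (P.rotlim_dual 0) (ι := Fin P.m)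
      (fun s => P.vl s) (fun i j h => Fin.ext (P.rotlim_vl_inj h))
      (fun s => P.mem_W.2 (Or.inl ⟨s, Nat.zero_le _, by simp, rfl⟩)) (fun s => P.u s)
      (fun s => P.U_vl s) k α (fun s => if s ∈ T then 1 else 0)
    have e1 : ∀ T : Finset (Fin P.m),
        ∑ i : Fin P.m, (if i ∈ T then 1 else 0 : ℕ) • P.u i = ∑ s ∈ T, P.u s := fun T => by
      simp [ite_smul, Finset.sum_ite_mem]
    have e2 : (Finset.univ.filter fun j : Fin P.m => (if j ∈ T then 1 else 0 : ℕ) ≠ 0) = T := by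
      ext j; simp
    have e3 : ∀ (S : Finset (Fin P.m)) (i : Fin P.m), (if i ∈ S then (if i ∈ T then 1 else 0 : ℕ) - 1
        else (if i ∈ T then 1 else 0 : ℕ)) = if i ∈ T \ S then 1 else 0 := fun S i => by
      by_cases h1 : i ∈ S <;> by_cases h2 : i ∈ T <;> simp [h1, h2]
    simp only [e1, e2, e3, rotlim_stable] at this
    rw [this, Col, map_sum, Finset.mul_sum]
    refine Finset.sum_congr (by congr) fun S hS => ?_
    simp only [Finset.mem_filter, Finset.mem_powersetCard] at hS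
    rw [map_mul, map_pow, Polynomial.aeval_X, ← ih, vp_pow, ← mul_assoc, ← mul_assoc, ← vp_add,
      ← vp_add, rotlim_ω_sum]
    congr 2
    have hSS : ∑ a ∈ S, ∑ b ∈ S, (if P.E a b then 1 else 0 : ℤ) = 0 :=
      Finset.sum_eq_zero fun a ha => Finset.sum_eq_zero fun b hb => if_neg (hS.2 a ha b hb)
    simp only [rotlim_upE, ← Finset.sum_sdiff hS.1.1, Finset.sum_add_distrib, hSS]
    ring

end Rot

end

end Crest.Agent.R59
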