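import Crest.Agent.R59.RotDef

/-!
# R59/RotSeed: rotation of the word is a mutation

Let `j = lv n`, `v = vl n`, `v' = vl (n + m)`, `k = u n - Y j`; `W (n+1) = insert v' (W n \ {v})`,
`U v' = Y (j+1) + k`.  On `W n`: `ω k (U p) = -1` for `p = v, vy j`, `= 1` for `p = vy (j+1)`, `= 0` otherwise.
In `W n`, `v` covers `vy j`; in `W (n+1)`, `vy (j+1)` covers `v'`.
-/

set_option autoImplicit false
set_option linter.unusedSectionVars false
set_option linter.unusedVariables false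

namespace Crest.Agent.R59

noncomputable section

variable {N : Type} [AddCommGroup N] [Alt N]

namespace Rot

variable (P : Rot N)

theorem rotseed_vl_inj {s t : ℕ} : P.vl s = P.vl t ↔ s = t := by
  refine ⟨fun h => ?_, fun h => by rw [h]⟩
  have := congrArg (fun p : ℕ ×ₗ ℕ => (ofLex p).2) h
  simpa [vl] using this

theorem rotseed_vy_inj {i j : ℕ} : vy i = vy j ↔ i = j := by
  refine ⟨fun h => ?_, fun h => by rw [h]⟩
  have := congrArg (fun p : ℕ ×ₗ ℕ => (ofLex p).1) h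
  simpa [vy] using this

theorem rotseed_vl_ne (s j : ℕ) : P.vl s ≠ vy j := by
  intro h
  have := congrArg (fun p : ℕ ×ₗ ℕ => (ofLex p).2) h
  simp [vy, vl] at this

theorem ω_k {n : ℕ} {p : ℕ ×ₗ ℕ} (hp : p ∈ P.W n) :
    ω (P.k n) (P.U p) = if p = P.vl n ∨ p = vy (P.lv n) then -1
      else if p = vy (P.lv n + 1) then 1 else 0 := by
  rcases P.mem_W.1 hp with ⟨s, a, b, rfl⟩ | ⟨i, a, rfl⟩
  · rw [U_vl, k, map_sub, AddMonoidHom.sub_apply, ω_swap (P.Y _), P.ouY]
    simp only [P.rotseed_vl_inj, P.rotseed_vl_ne, or_false, if_false]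
    rcases a.eq_or_lt with rfl | a
    · simp [ω_self]
    · rw [P.ouu n s a b, if_neg (show ¬ s = n by omega)]
      split_ifs <;> rfl
  · rw [U_vy, k, map_sub, AddMonoidHom.sub_apply, P.oYY, P.ouY]
    simp only [(P.rotseed_vl_ne _ _).symm, rotseed_vy_inj, false_or, sub_zero, eq_comm]

theorem W_succ (n : ℕ) : P.W (n + 1) = insert (P.vl (n + P.m)) ((P.W n).erase (P.vl n)) := by
  have := P.m_pos
  ext p
  rw [Finset.mem_insert, Finset.mem_erase, mem_W, mem_W]
  constructor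
  · rintro (⟨s, a, b, rfl⟩ | ⟨j, a, rfl⟩)
    · by_cases h : s = n + P.m
      · exact Or.inl (by rw [h])
      · exact Or.inr ⟨fun h' => by have := P.rotseed_vl_inj.1 h'; omega,
          Or.inl ⟨s, by omega, by omega, rfl⟩⟩
    · exact Or.inr ⟨(P.rotseed_vl_ne _ _).symm, Or.inr ⟨j, a, rfl⟩⟩
  · rintro (rfl | ⟨h, ⟨s, a, b, rfl⟩ | ⟨j, a, rfl⟩⟩)
    · exact Or.inl ⟨_, by omega, by omega, rfl⟩
    · have : s ≠ n := fun h' => h (by rw [h'])
      exact Or.inl ⟨s, by omega, by omega, rfl⟩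
    · exact Or.inr ⟨j, a, rfl⟩

/-- The order-theoretic data of a rotation. -/
structure RotseedOrd {V : Type} [LinearOrder V] (W : Finset V) (y v v' y' : V) : Prop where
  cov : Cov W y v
  my' : y' ∈ W
  h1 : v < v'
  h2 : v' < y'
  h3 : ∀ r ∈ W, r < y' → r < v'

section ord

variable {V : Type} [LinearOrder V] {W : Finset V} {y v v' y' : V}

theorem RotseedOrd.ne (H : RotseedOrd W y v v' y') {p q : V} (h : Cov W p q) (hp : p ≠ y) :
    q ≠ v := by
  rintro rfl
  rcases lt_or_gt_of_ne hp with c | c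
  · exact h.2.2.2 y H.cov.1 ⟨c, H.cov.2.2.1⟩
  · exact H.cov.2.2.2 p h.1 ⟨c, h.2.2.1⟩

theorem RotseedOrd.covA (H : RotseedOrd W y v v' y') : Cov (insert v' (W.erase v)) v' y' := by
  refine ⟨Finset.mem_insert_self _ _, Finset.mem_insert_of_mem
    (Finset.mem_erase.2 ⟨(H.h1.trans H.h2).ne', H.my'⟩), H.h2, fun r hr h => ?_⟩
  rcases Finset.mem_insert.1 hr with rfl | hr
  · exact lt_irrefl _ h.1
  · exact lt_asymm h.1 (H.h3 r (Finset.mem_erase.1 hr).2 h.2)

theorem RotseedOrd.covB (H : RotseedOrd W y v v' y') {p q : V} (h : Cov W p q) (hp : p ≠ y) :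
    Cov (insert v' (W.erase v)) (if p = v then y else p) (if q = y' then v' else q) := by
  have hq := H.ne h hp
  obtain ⟨⟨a1, a2, a3, a4⟩, b1, b2, b3, b4⟩ := H
  obtain ⟨c1, c2, c3, c4⟩ := h
  have hle : (if p = v then y else p) ≤ p := by
    split_ifs with e
    · rw [e]; exact a3.le
    · exact le_rfl
  have hle' : (if q = y' then v' else q) ≤ q := by
    split_ifs with e
    · rw [e]; exact b3.le
    · exact le_rfl
  refine ⟨Finset.mem_insert_of_mem (Finset.mem_erase.2 ?_), ?_, hle.trans_lt ?_, fun r hr h => ?_⟩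
  · split_ifs with e
    exacts [⟨a3.ne, a1⟩, ⟨e, c1⟩]
  · split_ifs with e
    exacts [Finset.mem_insert_self _ _, Finset.mem_insert_of_mem (Finset.mem_erase.2 ⟨hq, c2⟩)]
  · split_ifs with e
    exacts [b4 p c1 (e ▸ c3), c3]
  · obtain ⟨h1, h2⟩ := h
    rcases Finset.mem_insert.1 hr with rfl | hr
    · by_cases e : q = y'
      · rw [if_pos e] at h2
        exact lt_irrefl _ h2
      · rw [if_neg e] at h2
        have d1 : y' < q := lt_of_le_of_ne (not_lt.1 fun d => lt_asymm h2 (b4 q c2 d)) (Ne.symm e)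
        have d2 : y' ≤ p := not_lt.1 fun d => c4 y' b1 ⟨d, d1⟩
        rw [if_neg ((b2.trans b3).trans_le d2).ne'] at h1
        exact lt_asymm h1 (b3.trans_le d2)
    · obtain ⟨r1, r2⟩ := Finset.mem_erase.1 hr
      have d1 : r ≤ p := not_lt.1 fun d => c4 r r2 ⟨d, h2.trans_le hle'⟩
      by_cases e : p = v
      · rw [if_pos e] at h1
        exact a4 r r2 ⟨h1, lt_of_le_of_ne (e ▸ d1) r1⟩
      · rw [if_neg e] at h1
        exact lt_irrefl _ (h1.trans_le d1)

theorem RotseedOrd.covC (H : RotseedOrd W y v v' y') {p' q' : V}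
    (h : Cov (insert v' (W.erase v)) p' q') : (p' = v' ∧ q' = y') ∨
      ∃ p q, Cov W p q ∧ p ≠ y ∧ p' = (if p = v then y else p) ∧
        q' = (if q = y' then v' else q) := by
  obtain ⟨⟨a1, a2, a3, a4⟩, b1, b2, b3, b4⟩ := H
  obtain ⟨c1, c2, c3, c4⟩ := h
  have m1 : ∀ r ∈ W, r ≠ v → r ∈ insert v' (W.erase v) := fun r hr e =>
    Finset.mem_insert_of_mem (Finset.mem_erase.2 ⟨e, hr⟩)
  rcases Finset.mem_insert.1 c1 with rfl | c1
  · left
    refine ⟨rfl, ?_⟩
    rcases Finset.mem_insert.1 c2 with rfl | c2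
    · exact absurd c3 (lt_irrefl _)
    · have d1 : y' ≤ q' := not_lt.1 fun d => lt_asymm c3 (b4 q' (Finset.mem_erase.1 c2).2 d)
      exact le_antisymm (not_lt.1 fun d => c4 y' (m1 y' b1 (b2.trans b3).ne') ⟨b3, d⟩) d1
  right
  obtain ⟨p1, p2⟩ := Finset.mem_erase.1 c1
  have hq : q' ≠ y' := by
    rintro rfl
    exact c4 v' (Finset.mem_insert_self _ _) ⟨b4 p' p2 c3, b3⟩
  have hle : p' ≤ (if p' = y then v else p') := by
    split_ifs with e
    · rw [e]; exact a3.le
    · exact le_rfl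
  have hle' : q' ≤ (if q' = v' then y' else q') := by
    split_ifs with e
    · rw [e]; exact b3.le
    · exact le_rfl
  have hqW : q' ≠ v' → q' ≠ v ∧ q' ∈ W := fun e =>
    Finset.mem_erase.1 ((Finset.mem_insert.1 c2).resolve_left e)
  refine ⟨if p' = y then v else p', if q' = v' then y' else q', ⟨?_, ?_, ?_, fun r hr h => ?_⟩,
    ?_, ?_, ?_⟩
  · split_ifs
    exacts [a2, p2]
  · split_ifs with e
    exacts [b1, (hqW e).2]
  · by_cases e : p' = y
    · rw [if_pos e]
      split_ifs with e'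
      · exact b2.trans b3
      · exact lt_of_le_of_ne (not_lt.1 fun d => a4 q' (hqW e').2 ⟨e ▸ c3, d⟩) (hqW e').1.symm
    · rw [if_neg e]
      exact c3.trans_le hle'
  · obtain ⟨h1, h2⟩ := h
    have d1 : r < q' := by
      by_cases e : q' = v'
      · rw [if_pos e] at h2
        exact e ▸ b4 r hr h2
      · rwa [if_neg e] at h2
    by_cases e : r = v
    · subst e
      by_cases e' : p' = y
      · rw [if_pos e'] at h1
        exact lt_irrefl _ h1
      · rw [if_neg e'] at h1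
        have d2 : p' < y := lt_of_le_of_ne (not_lt.1 fun d => a4 p' p2 ⟨d, h1⟩) e'
        exact c4 y (m1 y a1 a3.ne) ⟨d2, a3.trans d1⟩
    · exact c4 r (m1 r hr e) ⟨hle.trans_lt h1, d1⟩
  · split_ifs with e
    exacts [a3.ne', e]
  · by_cases e : p' = y
    · rw [if_pos e, if_pos rfl, e]
    · rw [if_neg e, if_neg p1]
  · by_cases e : q' = v'
    · rw [if_pos e, if_pos rfl, e]
    · rw [if_neg e, if_neg hq]

end ord

theorem rotseed_ord (n : ℕ) :
    RotseedOrd (P.W n) (vy (P.lv n)) (P.vl n) (P.vl (n + P.m)) (vy (P.lv n + 1)) := by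
  have := P.m_pos
  refine ⟨⟨P.mem_W.2 (Or.inr ⟨_, (P.lt n).le, rfl⟩),
    P.mem_W.2 (Or.inl ⟨n, le_rfl, by omega, rfl⟩), ?_, fun r hr => ?_⟩,
    P.mem_W.2 (Or.inr ⟨_, P.lt n, rfl⟩), ?_, ?_, fun r hr => ?_⟩
  · simp [vy, vl, Prod.Lex.toLex_lt_toLex]
  · rcases P.mem_W.1 hr with ⟨s, a, b, rfl⟩ | ⟨i, a, rfl⟩ <;>
      simp only [vy, vl, Prod.Lex.toLex_lt_toLex] <;> omega
  · simp only [vl, Prod.Lex.toLex_lt_toLex, P.per, true_and]
    omega
  · simp only [vy, vl, Prod.Lex.toLex_lt_toLex, P.per]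
    omega
  · rcases P.mem_W.1 hr with ⟨s, a, b, rfl⟩ | ⟨i, a, rfl⟩ <;>
      simp only [vy, vl, Prod.Lex.toLex_lt_toLex, P.per] <;> omega

theorem rotseed_U_v (n : ℕ) : P.U (P.vl n) = P.U (vy (P.lv n)) + P.k n := by
  rw [U_vl, U_vy, k]
  abel

theorem rotseed_U_v' (n : ℕ) : P.U (P.vl (n + P.m)) = P.U (vy (P.lv n + 1)) + P.k n := by
  rw [U_vl, U_vy, k, P.uper]
  abel

theorem rotseed_mut {n : ℕ} {p q : ℕ ×ₗ ℕ} (h : Cov (P.W n) p q) (hp : p ≠ vy (P.lv n)) :
    P.U (if q = vy (P.lv n + 1) then P.vl (n + P.m) else q)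
        - P.U (if p = P.vl n then vy (P.lv n) else p)
      = P.U q - P.U p + (ω (P.k n) (P.U q - P.U p)).toNat • P.k n := by
  have H := P.rotseed_ord n
  have hq := H.ne h hp
  have l1 := H.cov.2.2.1
  have l2 := H.h1.trans H.h2
  have l3 := h.2.2.1
  rw [map_sub, P.ω_k h.1, P.ω_k h.2.1]
  by_cases e : q = vy (P.lv n + 1)
  · subst e
    rw [if_pos rfl, if_neg (show ¬ (vy (P.lv n + 1) = P.vl n ∨ vy (P.lv n + 1) = vy (P.lv n)) from
      not_or.2 ⟨hq, (l1.trans l2).ne'⟩), if_pos rfl, rotseed_U_v']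
    by_cases e' : p = P.vl n
    · subst e'
      rw [if_pos rfl, if_pos (Or.inl rfl), rotseed_U_v, show ((1 : ℤ) - -1).toNat = 2 from rfl,
        two_nsmul]
      abel
    · rw [if_neg e', if_neg (not_or.2 ⟨e', hp⟩), if_neg l3.ne,
        show ((1 : ℤ) - 0).toNat = 1 from rfl, one_nsmul]
      abel
  · rw [if_neg e, if_neg e]
    by_cases e' : p = P.vl n
    · subst e'
      rw [if_pos rfl, if_pos (Or.inl rfl), if_neg (not_or.2 ⟨hq, (l1.trans l3).ne'⟩), rotseed_U_v,
        show ((0 : ℤ) - -1).toNat = 1 from rfl, one_nsmul]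
      abel
    · rw [if_neg e', if_neg (not_or.2 ⟨e', hp⟩), Int.toNat_eq_zero.2 (by split_ifs <;> omega),
        zero_nsmul, add_zero]

/-- `mem_mu`, `mem_sd`; seed vectors different from `k n` as pairs are different as vectors because
`P.s n` comes with the injectivity `cov_inj`. -/
theorem s_succ (n : ℕ) (cov_inj : ∀ p q, Cov (P.W n) p q → P.U q - P.U p = P.k n → p = vy (P.lv n)) :
    P.s (n + 1) = mu (P.s n) (P.k n) := by
  have H := P.rotseed_ord n
  ext a
  rw [mem_mu, mem_sd, W_succ]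
  constructor
  · rintro ⟨p', q', h, rfl⟩
    rcases H.covC h with ⟨rfl, rfl⟩ | ⟨p, q, h', hp, rfl, rfl⟩
    · left
      rw [rotseed_U_v']
      abel
    · right
      exact ⟨_, mem_sd.2 ⟨p, q, h', rfl⟩, fun e => hp (cov_inj p q h' e), P.rotseed_mut h' hp⟩
  · rintro (rfl | ⟨e, he, hne, rfl⟩)
    · refine ⟨_, _, H.covA, ?_⟩
      rw [rotseed_U_v']
      abel
    · obtain ⟨p, q, h, rfl⟩ := mem_sd.1 he
      have hp : p ≠ vy (P.lv n) := by
        rintro rfl
        have hq : q = P.vl n := by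
          rcases lt_trichotomy q (P.vl n) with c | c | c
          · exact (H.cov.2.2.2 q h.2.1 ⟨h.2.2.1, c⟩).elim
          · exact c
          · exact (h.2.2.2 _ H.cov.2.1 ⟨H.cov.2.2.1, c⟩).elim
        apply hne
        rw [hq, rotseed_U_v]
        abel
      exact ⟨_, _, H.covB h hp, (P.rotseed_mut h hp).symm⟩

/-- `ω k k = 0` forces `ω k (U p) = ω k (U q)`; test with a functional that is `1` on `u (n % m)`, `0` on
the other letters `u s`, `s < m`, and on all `Y j`. -/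
theorem cov_inj (n : ℕ) (p q : ℕ ×ₗ ℕ) (h : Cov (P.W n) p q) (he : P.U q - P.U p = P.k n) :
    p = vy (P.lv n) := by
  have hm := P.m_pos
  obtain ⟨θ, h1, h2, -, -⟩ := P.extZ 0 (fun s => if s = n % P.m then 1 else 0) 0
  have h3 : ∀ s, θ (P.u s) = if s % P.m = n % P.m then 1 else 0 := by
    intro s
    have e := (P.u_add_mul (s % P.m) (s / P.m)).1
    rw [Nat.mod_add_div'] at e
    rw [e, map_add, map_nsmul, map_sub, h1, h1, h2 _ (Nat.mod_lt _ hm)]
    simp
  have h4 : ∀ r ∈ P.W n, θ (P.U r) = if r = P.vl n then 1 else 0 := by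
    intro r hr
    rcases P.mem_W.1 hr with ⟨s, a, b, rfl⟩ | ⟨i, a, rfl⟩
    · rw [U_vl, h3]
      refine if_congr ?_ rfl rfl
      rw [P.rotseed_vl_inj]
      refine ⟨fun e => ?_, fun e => by rw [e]⟩
      have e1 := (Nat.modEq_iff_dvd' a).1 e.symm
      have e2 := Nat.eq_zero_of_dvd_of_lt e1 (by omega)
      omega
    · rw [U_vy, h1, if_neg (P.rotseed_vl_ne _ _).symm]
      rfl
  have h5 := congrArg θ he
  rw [map_sub, h4 p h.1, h4 q h.2.1, k, map_sub, h3, h1, if_pos rfl] at h5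
  by_contra hp
  rw [if_neg ((P.rotseed_ord n).ne h hp)] at h5
  simp only [Pi.zero_apply] at h5
  split_ifs at h5 <;> omega

instance isSeed (n : ℕ) : IsSeed (P.s n) := by
  induction n with
  | zero =>
    classical
    have := P.isSeed_ext
    exact IsSeed.subset (Finset.subset_insert (P.x + P.U (vy 0)) _)
  | succ n ih =>
    rw [P.s_succ n (P.cov_inj n)]
    exact IsSeed.mu (P.k_mem n)

theorem rotseed_stb_swap {V : Type} [LinearOrder V] {U : V → N} {S : Finset V} (hS : Stb U S)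
    {x x' : V} (h : ∀ p ∈ S, p ≠ x → ω (U x') (U p) = 0) : Stb U (insert x' (S.erase x)) := by
  intro p hp q hq
  rw [Finset.mem_insert, Finset.mem_erase] at hp hq
  rcases hp with e | hp <;> rcases hq with e' | hq
  · rw [e, e', ω_self]
  · rw [e, h q hq.2 hq.1]
  · rw [e', ω_swap, h p hp.2 hp.1, neg_zero]
  · exact hS p hp.2 q hq.2

theorem rotseed_mem_stb {V : Type} [LinearOrder V] {W : Finset V} {U : V → N} {κ : ℕ}
    {S : Finset V} : S ∈ stb W U κ ↔ S ⊆ W ∧ S.card = κ ∧ Stb U S := by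
  classical
  unfold stb
  rw [Finset.mem_filter, Finset.mem_powersetCard, and_assoc]

/-- Adding a vertex `a` that is a twin of `b` apart from `b` and `c`. -/
theorem rotseed_HH_insert {V : Type} [LinearOrder V] {W : Finset V} {U : V → N} {a b c : V} {k : N}
    (ha : a ∉ W) (hb : b ∈ W) (hcb : c ≠ b) (hU : U a = U b + k)
    (h0 : ∀ p ∈ W, p ≠ b → p ≠ c → ω k (U p) = 0) (hab : ω (U a) (U b) ≠ 0)
    (hac : ω (U a) (U c) ≠ 0) (κ : ℕ) :
    HH (insert a W) U κ = ∑ S ∈ stb W U κ,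
      (z ⊥ (∑ p ∈ S, U p) + if b ∈ S ∧ c ∉ S then z ⊥ (∑ p ∈ S, U p + k) else 0) := by
  have hab' : a ≠ b := fun e => ha (e ▸ hb)
  rw [Finset.sum_add_distrib, ← Finset.sum_filter, HH,
    ← Finset.sum_filter_not_add_sum_filter _ (fun S => a ∈ S)]
  congr 1
  · refine Finset.sum_congr ?_ fun _ _ => rfl
    ext S
    rw [Finset.mem_filter, rotseed_mem_stb, rotseed_mem_stb]
    constructor
    · rintro ⟨⟨h1, h2⟩, h3⟩
      exact ⟨(Finset.subset_insert_iff_of_notMem h3).1 h1, h2⟩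
    · rintro ⟨h1, h2⟩
      exact ⟨⟨h1.trans (Finset.subset_insert _ _), h2⟩, fun h => ha (h1 h)⟩
  · have key : ∀ S ∈ (stb (insert a W) U κ).filter (fun S => a ∈ S),
        S ⊆ insert a W ∧ S.card = κ ∧ Stb U S ∧ a ∈ S ∧ b ∉ S ∧ c ∉ S := by
      intro S hS
      obtain ⟨h1, h2⟩ := Finset.mem_filter.1 hS
      obtain ⟨h3, h4, h5⟩ := rotseed_mem_stb.1 h1
      exact ⟨h3, h4, h5, h2, fun h => hab (h5 a h2 b h), fun h => hac (h5 a h2 c h)⟩
    have key' : ∀ S ∈ (stb W U κ).filter (fun S => b ∈ S ∧ c ∉ S),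
        S ⊆ W ∧ S.card = κ ∧ Stb U S ∧ a ∉ S ∧ b ∈ S ∧ c ∉ S := by
      intro S hS
      obtain ⟨h1, h2⟩ := Finset.mem_filter.1 hS
      obtain ⟨h3, h4, h5⟩ := rotseed_mem_stb.1 h1
      exact ⟨h3, h4, h5, fun h => ha (h3 h), h2.1, h2.2⟩
    refine Finset.sum_nbij' (fun S => insert b (S.erase a)) (fun S => insert a (S.erase b))
      ?_ ?_ ?_ ?_ ?_
    · intro S hS
      obtain ⟨h1, h2, h3, h4, h5, h6⟩ := key S hS
      have hW : ∀ p ∈ S, p ≠ a → p ∈ W := fun p hp e => (Finset.mem_insert.1 (h1 hp)).resolve_left e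
      refine Finset.mem_filter.2 ⟨rotseed_mem_stb.2 ⟨?_, ?_, rotseed_stb_swap h3 fun p hp e => ?_⟩,
        Finset.mem_insert_self _ _, fun h => ?_⟩
      · exact Finset.insert_subset hb fun p hp =>
          hW p (Finset.mem_erase.1 hp).2 (Finset.mem_erase.1 hp).1
      · rw [Finset.card_insert_of_notMem (fun h => h5 (Finset.mem_erase.1 h).2),
          Finset.card_erase_add_one h4, h2]
      · have e1 := h3 a h4 p hp
        rwa [hU, map_add, AddMonoidHom.add_apply, h0 p (hW p hp e) (fun e' => h5 (e' ▸ hp))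
          (fun e' => h6 (e' ▸ hp)), add_zero] at e1
      · exact h6 (Finset.mem_erase.1 ((Finset.mem_insert.1 h).resolve_left hcb)).2
    · intro S hS
      obtain ⟨h1, h2, h3, h4, h5, h6⟩ := key' S hS
      refine Finset.mem_filter.2 ⟨rotseed_mem_stb.2 ⟨?_, ?_, rotseed_stb_swap h3 fun p hp e => ?_⟩,
        Finset.mem_insert_self _ _⟩
      · exact Finset.insert_subset_insert _ ((Finset.erase_subset _ _).trans h1)
      · rw [Finset.card_insert_of_notMem (fun h => h4 (Finset.mem_erase.1 h).2),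
          Finset.card_erase_add_one h5, h2]
      · rw [hU, map_add, AddMonoidHom.add_apply, h0 p (h1 hp) e (fun e' => h6 (e' ▸ hp)),
          h3 b h5 p hp, add_zero]
    · intro S hS
      obtain ⟨h1, h2, h3, h4, h5, h6⟩ := key S hS
      rw [Finset.erase_insert (fun h => h5 (Finset.mem_erase.1 h).2), Finset.insert_erase h4]
    · intro S hS
      obtain ⟨h1, h2, h3, h4, h5, h6⟩ := key' S hS
      rw [Finset.erase_insert (fun h => h4 (Finset.mem_erase.1 h).2), Finset.insert_erase h5]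
    · intro S hS
      obtain ⟨h1, h2, h3, h4, h5, h6⟩ := key S hS
      rw [Finset.sum_insert (fun h => h5 (Finset.mem_erase.1 h).2), ← Finset.add_sum_erase S U h4,
        hU, add_right_comm]

/-- Stable sets `S` containing `vy (j+1)` and neither `v` nor `vy j` split (`psi_conj_one`); the sets
containing `vy j` but not `vy (j+1)` pair up with those containing `v` (`psi_conj_neg`); the others are
invariant (`psi_conj_zero`). -/
theorem HH_succ (n κ : ℕ) {M : AddSubmonoid N} [Good M] (hM : P.k n ∈ M) :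
    fin M (HH (P.W n) P.U κ) * (Psi M (P.k n)).1 =
      (Psi M (P.k n)).1 * fin M (HH (P.W (n + 1)) P.U κ) := by
  have H := P.rotseed_ord n
  have h0 : P.k n ≠ 0 := seed_ne_zero (P.k_mem n)
  have l1 := H.cov.2.2.1
  have l2 := H.h1.trans H.h2
  have hy : vy (P.lv n) ∈ (P.W n).erase (P.vl n) := Finset.mem_erase.2 ⟨l1.ne, H.cov.1⟩
  have hy' : vy (P.lv n + 1) ∈ (P.W n).erase (P.vl n) := Finset.mem_erase.2 ⟨l2.ne', H.my'⟩
  have hω : ∀ p ∈ (P.W n).erase (P.vl n), ω (P.k n) (P.U p) =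
      (if p = vy (P.lv n + 1) then 1 else 0) - (if p = vy (P.lv n) then 1 else 0) := by
    intro p hp
    obtain ⟨a, b⟩ := Finset.mem_erase.1 hp
    rw [P.ω_k b]
    by_cases e : p = vy (P.lv n)
    · rw [if_pos (Or.inr e), if_pos e, if_neg (e ▸ (l1.trans l2).ne)]
      rfl
    · rw [if_neg (not_or.2 ⟨a, e⟩), if_neg e, sub_zero]
  have e1 := rotseed_HH_insert (U := P.U) (c := vy (P.lv n + 1))
    (Finset.notMem_erase (P.vl n) (P.W n)) hy (l1.trans l2).ne' (P.rotseed_U_v n)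
    (fun p hp a b => by rw [hω p hp, if_neg a, if_neg b, sub_zero])
    (by rw [U_vl, U_vy, P.ouY]; simp) (by rw [U_vl, U_vy, P.ouY]; simp) κ
  have e2 := rotseed_HH_insert (U := P.U) (c := vy (P.lv n)) (a := P.vl (n + P.m))
    (fun h => lt_irrefl _ (H.h3 _ (Finset.mem_erase.1 h).2 H.h2)) hy' (l1.trans l2).ne
    (P.rotseed_U_v' n)
    (fun p hp a b => by rw [hω p hp, if_neg a, if_neg b, sub_zero])
    (by rw [U_vl, U_vy, P.ouY, P.per]; simp) (by rw [U_vl, U_vy, P.ouY, P.per]; simp) κ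
  rw [Finset.insert_erase H.cov.2.1] at e1
  rw [W_succ, e1, e2, map_sum, map_sum, Finset.sum_mul, Finset.mul_sum]
  refine Finset.sum_congr rfl fun S hS => ?_
  have hS' := (rotseed_mem_stb.1 hS).1
  have hz : ∀ p : N, fin M (z ⊥ p) = z M p := fun p => rfl
  have e3 : ω (P.k n) (∑ p ∈ S, P.U p) =
      (if vy (P.lv n + 1) ∈ S then 1 else 0) - (if vy (P.lv n) ∈ S then 1 else 0) := by
    rw [map_sum, Finset.sum_congr rfl fun p hp => hω p (hS' hp), Finset.sum_sub_distrib,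
      Finset.sum_ite_eq', Finset.sum_ite_eq']
  by_cases a : vy (P.lv n) ∈ S <;> by_cases b : vy (P.lv n + 1) ∈ S
  · rw [if_neg (fun h => h.2 b), if_neg (fun h => h.2 a), add_zero, hz]
    exact psi_conj_zero (by rw [e3, if_pos a, if_pos b, sub_self])
  · rw [if_pos ⟨a, b⟩, if_neg (fun h => h.2 a), add_zero, map_add, hz, hz]
    exact psi_conj_neg hM h0 (by rw [e3, if_pos a, if_neg b, zero_sub])
  · rw [if_neg (fun h => h.2 b), if_pos ⟨b, a⟩, add_zero, map_add, hz, hz]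
    exact psi_conj_one hM h0 (by rw [e3, if_neg a, if_pos b, sub_zero])
  · rw [if_neg (fun h => a h.1), if_neg (fun h => b h.1), add_zero, hz]
    exact psi_conj_zero (by rw [e3, if_neg a, if_neg b, sub_self])

theorem FH_succ (n : ℕ) (α : List ℕ) {M : AddSubmonoid N} [Good M] (hM : P.k n ∈ M) :
    fin M (FH (P.W n) P.U α) * (Psi M (P.k n)).1 =
      (Psi M (P.k n)).1 * fin M (FH (P.W (n + 1)) P.U α) := by
  induction α with
  | nil => rw [FH_nil, FH_nil, map_one, one_mul, mul_one]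
  | cons κ α ih =>
    have e : ∀ W : Finset (ℕ ×ₗ ℕ), FH W P.U (κ :: α) = HH W P.U κ * FH W P.U α := fun W => by
      simp only [FH, List.map_cons, List.prod_cons]
    rw [e, e, map_mul, map_mul, mul_assoc, ih, ← mul_assoc, P.HH_succ n κ hM, mul_assoc]

theorem chart_rot (n : ℕ) {σ : Stab N} (h1 : ∀ j, j < n → σ.s (P.k j) = -1)
    (h2 : ∀ e ∈ P.s n, σ.s e = 1) (α : List ℕ) (r : N) :
    chart (P.s 0) σ (fin _ (FH (P.W 0) P.U α)) r = FH (P.W n) P.U α r := by
  have key : ∀ n, (∀ j, j < n → σ.s (P.k j) = -1) →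
      chart (P.s 0) σ (fin _ (FH (P.W 0) P.U α)) r
        = chart (P.s n) σ (fin _ (FH (P.W n) P.U α)) r := by
    intro n
    induction n with
    | zero => exact fun _ => rfl
    | succ n ih =>
      intro h
      rw [ih fun j hj => h j (by omega)]
      exact mut_chart (P.k_mem n) (P.s_succ n (P.cov_inj n)) (h n (by omega))
        (P.FH_succ n α (mem_cone_of_mem (P.k_mem n))) r
  rw [key n h1, chart_pos h2]
  rfl

end Rot

end

end Crest.Agent.R59
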