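import Crest.Agent.R59.Efun

/-!
# R59/Seed: seeds, cones, mutation of seeds, the canonical group element, charts
-/

set_option autoImplicit false
set_option linter.unusedSectionVars false
set_option linter.unusedVariables false

namespace Crest.Agent.R59

noncomputable section

variable {N : Type} [AddCommGroup N] [Alt N]

/-- A finite set of vectors with dual coordinates. -/
class IsSeed (s : Finset N) : Prop where
  ex : ∃ co : N → N →+ ℤ, (∀ e ∈ s, co e e = 1) ∧ ∀ e ∈ s, ∀ e' ∈ s, e ≠ e' → co e e' = 0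

/-- The coordinates. -/
def co (s : Finset N) [IsSeed s] : N → N →+ ℤ := Classical.choose (IsSeed.ex (s := s))

theorem co_self {s : Finset N} [IsSeed s] {e : N} (he : e ∈ s) : co s e e = 1 :=
  (Classical.choose_spec (IsSeed.ex (s := s))).1 e he

theorem co_ne {s : Finset N} [IsSeed s] {e e' : N} (he : e ∈ s) (he' : e' ∈ s) (h : e ≠ e') :
    co s e e' = 0 :=
  (Classical.choose_spec (IsSeed.ex (s := s))).2 e he e' he' h

/-- The monoid generated by a seed. -/
def cone (s : Finset N) : AddSubmonoid N := AddSubmonoid.closure (s : Set N)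

theorem mem_cone_of_mem {s : Finset N} {e : N} (he : e ∈ s) : e ∈ cone s :=
  AddSubmonoid.subset_closure he

theorem mem_cone {s : Finset N} {γ : N} :
    γ ∈ cone s ↔ ∃ n : N → ℕ, γ = ∑ e ∈ s, n e • e := by
  rw [cone, AddSubmonoid.mem_closure_finset]
  constructor
  · rintro ⟨f, -, rfl⟩
    exact ⟨f, rfl⟩
  · rintro ⟨n, rfl⟩
    rw [← AddSubmonoid.mem_closure_finset]
    exact AddSubmonoid.sum_mem _ fun e he =>
      AddSubmonoid.nsmul_mem _ (AddSubmonoid.subset_closure (Finset.mem_coe.2 he)) _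

theorem seed_co_sum {s : Finset N} [IsSeed s] {e : N} (he : e ∈ s) (n : N → ℤ) :
    co s e (∑ a ∈ s, n a • a) = n e := by
  rw [map_sum, Finset.sum_eq_single e]
  · rw [map_zsmul, co_self he, smul_eq_mul, mul_one]
  · intro a ha hne
    rw [map_zsmul, co_ne he ha hne.symm, smul_zero]
  · intro h; exact absurd he h

theorem seed_co_sum_nat {s : Finset N} [IsSeed s] {e : N} (he : e ∈ s) (n : N → ℕ) :
    co s e (∑ a ∈ s, n a • a) = n e := by
  rw [← seed_co_sum he fun a => (n a : ℤ)]
  simp only [natCast_zsmul]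

theorem co_nonneg {s : Finset N} [IsSeed s] {e γ : N} (he : e ∈ s) (hγ : γ ∈ cone s) :
    0 ≤ co s e γ := by
  obtain ⟨n, rfl⟩ := mem_cone.1 hγ
  rw [seed_co_sum_nat he]
  exact Int.natCast_nonneg _

theorem cone_eq_sum {s : Finset N} [IsSeed s] {γ : N} (hγ : γ ∈ cone s) :
    γ = ∑ e ∈ s, co s e γ • e := by
  obtain ⟨n, hn⟩ := mem_cone.1 hγ
  refine hn.trans (Finset.sum_congr rfl fun e he => ?_)
  rw [hn, seed_co_sum_nat he, natCast_zsmul]

theorem seed_eq_zero {s : Finset N} [IsSeed s] {γ : N} (hγ : γ ∈ cone s)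
    (h : ∀ e ∈ s, co s e γ = 0) : γ = 0 := by
  rw [cone_eq_sum hγ]
  exact Finset.sum_eq_zero fun e he => by rw [h e he, zero_smul]

theorem seed_ne_zero {s : Finset N} [IsSeed s] {e : N} (he : e ∈ s) : e ≠ 0 := by
  intro h
  have := co_self he
  rw [h, map_zero] at this
  exact zero_ne_one this

/-- Degree `∑ e ∈ s, co s e`. -/
instance (s : Finset N) [IsSeed s] : Good (cone s) := by
  refine ⟨⟨∑ e ∈ s, co s e, fun a ha h0 => ?_, fun D => ?_⟩⟩
  · rw [AddMonoidHom.finsetSum_apply]
    refine lt_of_le_of_ne (Finset.sum_nonneg fun e he => co_nonneg he ha) fun h => h0 ?_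
    exact seed_eq_zero ha
      ((Finset.sum_eq_zero_iff_of_nonneg fun e he => co_nonneg he ha).1 h.symm)
  · refine Set.Finite.of_injOn (f := fun a (e : s) => co s e a) ?_ ?_
      (Set.Finite.pi' fun _ : s => Set.finite_Icc (0 : ℤ) D)
    · rintro a ⟨ha, hD⟩ e
      refine ⟨co_nonneg e.2 ha, le_trans ?_ hD⟩
      rw [AddMonoidHom.finsetSum_apply]
      exact Finset.single_le_sum (f := fun e => co s e a) (fun e he => co_nonneg he ha) e.2
    · rintro a ⟨ha, -⟩ b ⟨hb, -⟩ hab
      rw [cone_eq_sum ha, cone_eq_sum hb]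
      refine Finset.sum_congr rfl fun e he => ?_
      rw [show co s e a = co s e b from congrFun hab ⟨e, he⟩]

theorem IsSeed.subset {s t : Finset N} [IsSeed t] (h : s ⊆ t) : IsSeed s := by
  exact ⟨⟨co t, fun e he => co_self (h he), fun e he e' he' hne => co_ne (h he) (h he') hne⟩⟩

/-- Seed vectors are indecomposable. -/
theorem seed_indec {s : Finset N} [IsSeed s] {e a b : N} (he : e ∈ s) (ha : a ∈ cone s)
    (hb : b ∈ cone s) (h : a + b = e) : a = 0 ∨ b = 0 := by
  have h1 : ∀ e' ∈ s, e' ≠ e → co s e' a = 0 ∧ co s e' b = 0 := fun e' he' hne => by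
    have h2 := co_ne he' he hne
    have h3 := co_nonneg he' ha
    have h4 := co_nonneg he' hb
    rw [← h, map_add] at h2
    omega
  have h2 := co_self he
  have h3 := co_nonneg he ha
  have h4 := co_nonneg he hb
  have h5 : co s e a + co s e b = 1 := by rw [← map_add, h, h2]
  by_cases h6 : co s e a = 0
  · refine Or.inl (seed_eq_zero ha fun e' he' => ?_)
    by_cases hne : e' = e
    · rw [hne, h6]
    · exact (h1 e' he' hne).1
  · refine Or.inr (seed_eq_zero hb fun e' he' => ?_)
    by_cases hne : e' = e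
    · rw [hne]; omega
    · exact (h1 e' he' hne).2

/-- An element of the cone that is rationally proportional to a seed vector is a multiple of it. -/
theorem seed_par {s : Finset N} [IsSeed s] {e γ : N} (he : e ∈ s) (hγ : γ ∈ cone s) {a b : ℤ}
    (ha : a ≠ 0) (h : a • γ = b • e) : ∃ n : ℕ, γ = n • e := by
  obtain ⟨n, hn⟩ := Int.eq_ofNat_of_zero_le (co_nonneg he hγ)
  refine ⟨n, ?_⟩
  rw [← natCast_zsmul, ← hn]
  refine (cone_eq_sum hγ).trans (Finset.sum_eq_single e (fun e' he' hne => ?_)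
    fun h' => absurd he h')
  have h1 := congrArg (co s e') h
  rw [map_zsmul, map_zsmul, co_ne he' he hne, smul_zero, smul_eq_mul, mul_eq_zero] at h1
  rw [h1.resolve_left ha, zero_smul]

theorem seed_closure_eq_sum {s : Finset N} [IsSeed s] {γ : N}
    (hγ : γ ∈ AddSubgroup.closure (s : Set N)) : γ = ∑ e ∈ s, co s e γ • e := by
  induction hγ using AddSubgroup.closure_induction with
  | mem x hx => exact cone_eq_sum (mem_cone_of_mem hx)
  | zero => simp
  | add x y _ _ hx hy =>
    simp only [map_add, add_smul, Finset.sum_add_distrib]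
    rw [← hx, ← hy]
  | neg x _ hx =>
    simp only [map_neg, neg_smul, Finset.sum_neg_distrib]
    rw [← hx]

/-- Real functionals detect linear independence on the group generated by the cone. -/
theorem exists_functional {s : Finset N} [IsSeed s] {w ρ : N}
    (hw : w ∈ AddSubgroup.closure (s : Set N)) (hρ : ρ ∈ AddSubgroup.closure (s : Set N))
    (h : ¬∃ a b : ℤ, a ≠ 0 ∧ a • w = b • ρ) : ∃ η : N →+ ℝ, η ρ = 0 ∧ η w ≠ 0 := by
  by_contra hne
  push Not at hne
  apply h
  by_cases h0 : ∀ e ∈ s, co s e ρ = 0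
  · refine ⟨1, 0, one_ne_zero, ?_⟩
    rw [one_smul, zero_smul, seed_closure_eq_sum hw]
    refine Finset.sum_eq_zero fun e he => ?_
    have := hne ((Int.castAddHom ℝ).comp (co s e)) (by simp [h0 e he])
    rw [show co s e w = 0 by simpa using this, zero_smul]
  · push Not at h0
    obtain ⟨e', he', h1⟩ := h0
    refine ⟨co s e' ρ, co s e' w, h1, ?_⟩
    have h2 : ∀ e, co s e' ρ * co s e w = co s e' w * co s e ρ := fun e => by
      have := hne ((Int.castAddHom ℝ).comp (co s e' ρ • co s e - co s e ρ • co s e'))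
        (by simp [mul_comm])
      have h3 : co s e' ρ * co s e w - co s e ρ * co s e' w = 0 := by
        simp only [AddMonoidHom.comp_apply, Int.coe_castAddHom, Int.cast_eq_zero] at this
        simpa using this
      linarith
    calc co s e' ρ • w = co s e' ρ • ∑ e ∈ s, co s e w • e := by rw [← seed_closure_eq_sum hw]
      _ = co s e' w • ∑ e ∈ s, co s e ρ • e := by
        simp only [Finset.smul_sum, smul_smul, h2]
      _ = _ := by rw [← seed_closure_eq_sum hρ]

/-- Mutation of the seed `s` at `k`. -/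
def mu (s : Finset N) (k : N) : Finset N := by
  classical exact insert (-k) ((s.erase k).image fun e => e + (ω k e).toNat • k)

theorem mem_mu {s : Finset N} {k a : N} :
    a ∈ mu s k ↔ a = -k ∨ ∃ e ∈ s, e ≠ k ∧ a = e + (ω k e).toNat • k := by
  unfold mu
  simp only [Finset.mem_insert, Finset.mem_image, Finset.mem_erase]
  refine or_congr Iff.rfl ⟨?_, ?_⟩
  · rintro ⟨e, ⟨h1, h2⟩, rfl⟩
    exact ⟨e, h2, h1, rfl⟩
  · rintro ⟨e, h2, h1, rfl⟩
    exact ⟨e, ⟨h1, h2⟩, rfl⟩

/-- New coordinates: for `e' = e + [ω k e]₊ k` take `co s e`, for `-k` take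
`-co s k + ∑_{e ≠ k} [ω k e]₊ co s e`. -/
theorem IsSeed.mu {s : Finset N} [IsSeed s] {k : N} (hk : k ∈ s) : IsSeed (mu s k) := by
  classical
  have h1 : ∀ e ∈ s, e ≠ k → ∀ n : ℕ, ∀ e' ∈ s, e' ≠ k →
      co s e' (e + n • k) = if e' = e then 1 else 0 := fun e he hek n e' he' hek' => by
    rw [map_add, map_nsmul, co_ne he' hk hek', smul_zero, add_zero]
    split_ifs with h
    · rw [h, co_self he]
    · exact co_ne he' he h
  have h2 : ∀ e ∈ s, e ≠ k → ∀ n : ℕ, e + n • k ≠ -k := fun e he hek n h => by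
    have := h1 e he hek n e he hek
    rw [h, map_neg, co_ne he hk hek, if_pos rfl] at this
    exact zero_ne_one this
  let c : N → N →+ ℤ := fun a => if a = -k then
    -co s k + ∑ e ∈ s.erase k, ((ω k e).toNat : ℤ) • co s e else ∑ e ∈ s.erase k, co s e a • co s e
  have hc1 : c (-k) = -co s k + ∑ e ∈ s.erase k, ((ω k e).toNat : ℤ) • co s e := if_pos rfl
  have hc2 : ∀ e ∈ s, e ≠ k → ∀ n : ℕ, c (e + n • k) = co s e := fun e he hek n => by
    refine (if_neg (h2 e he hek n)).trans ?_
    rw [Finset.sum_eq_single e]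
    · rw [h1 e he hek n e he hek, if_pos rfl, one_smul]
    · intro e' he' hne
      rw [Finset.mem_erase] at he'
      rw [h1 e he hek n e' he'.2 he'.1, if_neg hne, zero_smul]
    · intro h
      exact absurd (Finset.mem_erase.2 ⟨hek, he⟩) h
  refine ⟨⟨c, fun a ha => ?_, fun a ha a' ha' hne => ?_⟩⟩
  · rcases mem_mu.1 ha with rfl | ⟨e, he, hek, rfl⟩
    · rw [hc1, AddMonoidHom.add_apply, AddMonoidHom.neg_apply, map_neg, co_self hk,
        AddMonoidHom.finsetSum_apply, Finset.sum_eq_zero, neg_neg, add_zero]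
      intro e he
      rw [Finset.mem_erase] at he
      rw [AddMonoidHom.zsmul_apply, map_neg, co_ne he.2 hk he.1, neg_zero, smul_zero]
    · rw [hc2 e he hek, h1 e he hek _ e he hek, if_pos rfl]
  · rcases mem_mu.1 ha with rfl | ⟨e, he, hek, rfl⟩
    · rcases mem_mu.1 ha' with rfl | ⟨e', he', hek', rfl⟩
      · exact absurd rfl hne
      · rw [hc1, AddMonoidHom.add_apply, AddMonoidHom.neg_apply, AddMonoidHom.finsetSum_apply,
          Finset.sum_eq_single e']
        · rw [AddMonoidHom.zsmul_apply, h1 e' he' hek' _ e' he' hek', if_pos rfl, map_add, map_nsmul,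
            co_self hk, co_ne hk he' hek'.symm]
          simp
        · intro e he hne'
          rw [Finset.mem_erase] at he
          rw [AddMonoidHom.zsmul_apply, h1 e' he' hek' _ e he.2 he.1, if_neg hne', smul_zero]
        · intro h
          exact absurd (Finset.mem_erase.2 ⟨hek', he'⟩) h
    · rw [hc2 e he hek]
      rcases mem_mu.1 ha' with rfl | ⟨e', he', hek', rfl⟩
      · rw [map_neg, co_ne he hk hek, neg_zero]
      · rw [h1 e' he' hek' _ e he hek, if_neg]
        rintro rfl
        exact hne rfl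

/-- The attractor invariants are those of the quantum dilogarithms of the seed vectors. -/
def IsCanon (s : Finset N) [IsSeed s] (g : Gp (cone s)) : Prop :=
  ∀ γ ∈ cone s, γ ≠ 0 → ∀ ψ : N →+ ℤ,
    J ψ (fW (attr γ) g) γ = ∑ e ∈ s, J ψ (Psi (cone s) e) γ

theorem seed_charZero : CharZero R := algebraRat.charZero R

theorem seed_intCast_ne {d : ℤ} (h : d ≠ 0) : (d : R) ≠ 0 :=
  haveI := seed_charZero
  Int.cast_ne_zero.2 h

/-- The group element with prescribed coefficients. -/
def seed_gext {M : AddSubmonoid N} [Good M] (u : {a : N // a ∈ M ∧ a ≠ 0} → R) : Gp M :=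
  fact_part (Stab.ofZ 0) 0 u

theorem seed_gext_apply {M : AddSubmonoid N} [Good M] (u : {a : N // a ∈ M ∧ a ≠ 0} → R)
    (i : {a : N // a ∈ M ∧ a ≠ 0}) : seed_gext u i.1 = u i := by
  rw [seed_gext, fact_part_apply, Stab.ofZ_s, if_pos]
  simp

theorem seed_gext_self {M : AddSubmonoid N} [Good M] (g : Gp M) :
    seed_gext (fun i : {a : N // a ∈ M ∧ a ≠ 0} => g i.1) = g := by
  refine Gp.ext fun γ => ?_
  by_cases hm : γ ∈ M ∧ γ ≠ 0
  · exact seed_gext_apply _ ⟨γ, hm⟩
  · exact fact_triv _ _ (by tauto)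

theorem seed_attr_ker {γ a : N} : a ∈ (attr γ).ker ↔ ω a γ = 0 := by
  rw [Stab.mem_ker, attr_s, sign_eq_zero_iff]

theorem seed_fW_supp {M : AddSubmonoid N} [Good M] (γ : N) (g : Gp M) :
    SuppIn {a | ω a γ = 0} (fW (attr γ) g) := fun a ha =>
  seed_attr_ker.1 ((isFact (attr γ) g).hW a ha)

theorem seed_J_Psi {M : AddSubmonoid N} [Good M] (ψ : N →+ ℤ) {e γ : N}
    (h : J ψ (Psi M e) γ ≠ 0) : ∃ n : ℕ, n • e = γ :=
  (AddSubmonoid.mem_multiples_iff _ _).1 (J_supp ψ (E_supp true 1 e) γ h)

theorem seed_J_Psi_indep {M : AddSubmonoid N} [Good M] (ψ χ : N →+ ℤ) (e γ : N) :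
    (χ γ : R) * J ψ (Psi M e) γ = (ψ γ : R) * J χ (Psi M e) γ := by
  by_cases h : ω e γ = 0
  · refine J_indep ψ χ fun a ha => ?_
    obtain ⟨n, rfl⟩ := (AddSubmonoid.mem_multiples_iff _ _).1 (E_supp true 1 e a ha)
    change ω (n • e) γ = 0
    rw [map_nsmul, AddMonoidHom.nsmul_apply, h, smul_zero]
  · have key : ∀ φ : N →+ ℤ, J φ (Psi M e) γ = 0 := fun φ => by
      by_contra h0
      obtain ⟨n, rfl⟩ := seed_J_Psi φ h0
      exact h (by rw [map_nsmul, ω_self, smul_zero])
    rw [key, key, mul_zero, mul_zero]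

theorem seed_canon_bij (M : AddSubmonoid N) [Good M] :
    Function.Bijective fun (u : {a : N // a ∈ M ∧ a ≠ 0} → R) (i : {a : N // a ∈ M ∧ a ≠ 0}) =>
      (dg M i.1 : R)⁻¹ * J (dg M) (fW (attr i.1) (seed_gext u)) i.1 := by
  refine tri_bijective (fun i => (dg M i.1).toNat) _ fun u u' i hu => ?_
  have ha : Agree {a | dg M a < dg M i.1} (seed_gext u) (seed_gext u') := by
    intro a ha
    by_cases hm : a ∈ M ∧ a ≠ 0
    · have := dg_nonneg hm.1
      have ha' : dg M a < dg M i.1 := ha
      rw [seed_gext_apply u ⟨a, hm⟩, seed_gext_apply u' ⟨a, hm⟩, hu ⟨a, hm⟩ (by simp only; omega)]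
    · exact fact_triv _ _ (by tauto)
  have h1 := J_top (dg M) (lower_deg_lt _) (top_deg i.1)
    (fact_agree (σ := attr i.1) (σ' := attr i.1) (lower_deg_lt _) (fun _ _ _ => rfl) ha).2.1
  have h2 := fW_top (σ := attr i.1) (lower_deg_lt _) (top_deg i.1)
    (seed_attr_ker.2 (ω_self _)) ha
  rw [seed_gext_apply, seed_gext_apply] at h2
  have h3 : (dg M i.1 : R)⁻¹ * (dg M i.1 : R) = 1 :=
    inv_mul_cancel₀ (seed_intCast_ne (dg_pos i.2.1 i.2.2).ne')
  linear_combination (dg M i.1 : R)⁻¹ * h1 + h2 +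
    (fW (attr i.1) (seed_gext u) i.1 - fW (attr i.1) (seed_gext u') i.1) * h3

/-- `tri_bijective` for `u ↦ (γ ↦ (dg γ)⁻¹ * J dg (fW (attr γ) (1 + u)) γ)` (`fW_top`, `fact_agree`,
`J_top`), then `J_indep` to pass from `ψ = dg` to all `ψ` (note that `J ψ (Psi e) γ = 0` unless `γ` is
a multiple of `e`). -/
theorem exists_unique_canon (s : Finset N) [IsSeed s] : ∃! g : Gp (cone s), IsCanon s g := by
  have hb := seed_canon_bij (cone s)
  obtain ⟨u, hu⟩ := hb.2 fun i => (dg (cone s) i.1 : R)⁻¹ *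
    ∑ e ∈ s, J (dg (cone s)) (Psi (cone s) e) i.1
  refine ⟨seed_gext u, fun γ hγ h0 ψ => ?_, fun g hg => ?_⟩
  · have hd := seed_intCast_ne (dg_pos hγ h0).ne'
    have h1 := mul_left_cancel₀ (inv_ne_zero hd) (congrFun hu ⟨γ, hγ, h0⟩)
    apply mul_left_cancel₀ hd
    rw [J_indep ψ _ (seed_fW_supp γ _), Finset.mul_sum]
    simp only [seed_J_Psi_indep ψ (dg (cone s))]
    rw [← Finset.mul_sum]
    exact congrArg _ h1
  · rw [← seed_gext_self g]
    congr 1
    apply hb.1
    rw [hu]
    funext i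
    simp only [seed_gext_self]
    rw [hg i.1 i.2.1 i.2.2]

/-- The canonical element. -/
def can (s : Finset N) [IsSeed s] : Gp (cone s) := Classical.choose (exists_unique_canon s).exists

theorem isCanon_can (s : Finset N) [IsSeed s] : IsCanon s (can s) :=
  Classical.choose_spec (exists_unique_canon s).exists

theorem seed_co_face {s t : Finset N} [IsSeed t] (h : s ⊆ t) {γ e : N} (hγ : γ ∈ cone s)
    (he : e ∈ t) (hes : e ∉ s) : co t e γ = 0 := by
  obtain ⟨n, rfl⟩ := mem_cone.1 hγ
  rw [map_sum]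
  refine Finset.sum_eq_zero fun a ha => ?_
  rw [map_nsmul, co_ne he (h ha) (fun h' => hes (h' ▸ ha)), smul_zero]

theorem seed_cone_mono {s t : Finset N} (h : s ⊆ t) : cone s ≤ cone t :=
  AddSubmonoid.closure_mono (Finset.coe_subset.2 h)

theorem seed_lower_face {s t : Finset N} [IsSeed t] (h : s ⊆ t) : Lower (cone t) (cone s) := by
  intro a ha b hb hab
  have h1 : ∀ e ∈ t, e ∉ s → co t e a = 0 := fun e he hes => by
    have h2 := seed_co_face h hab he hes
    have h3 := co_nonneg he ha
    have h4 := co_nonneg he hb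
    rw [map_add] at h2
    omega
  change a ∈ cone s
  rw [cone_eq_sum ha, ← Finset.sum_subset h fun e he hes => by rw [h1 e he hes, zero_smul]]
  refine AddSubmonoid.sum_mem _ fun e he => ?_
  obtain ⟨n, hn⟩ := Int.eq_ofNat_of_zero_le (co_nonneg (h he) ha)
  rw [hn, natCast_zsmul]
  exact AddSubmonoid.nsmul_mem _ (mem_cone_of_mem he) n

theorem seed_eq_can {s : Finset N} [IsSeed s] {g : Gp (cone s)} (hg : IsCanon s g) : g = can s :=
  (exists_unique_canon s).unique hg (isCanon_can s)

theorem seed_fW_eq_self {M : AddSubmonoid N} [Good M] {σ : Stab N} {g : Gp M}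
    (h : SuppIn σ.ker g) : fW σ g = g :=
  (IsFact.unique (P := 1) (Q := 1) ⟨by simp, fun a ha => Or.inl (fact_one_supp ha), h,
    fun a ha => Or.inl (fact_one_supp ha)⟩).2.1

/-- Faces: `cone s` is a lower set in `cone t`, so the restriction of `can t` to `cone s` is
canonical (`fact_agree`, `J_agree`, `fact_congr`, `J_congr`). -/
theorem can_face {s t : Finset N} [IsSeed s] [IsSeed t] (h : s ⊆ t) {γ : N} (hγ : γ ∈ cone s) :
    can t γ = can s γ := by
  classical
  let g : Gp (cone s) := Gp.mk' (fun a => if a ∈ cone s then can t a else 0)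
    (by rw [if_pos (AddSubmonoid.zero_mem _), Gp.zero]) fun a ha => by
      by_contra h'
      exact ha (if_neg h')
  have hg : ∀ a ∈ cone s, g a = can t a := fun a ha => if_pos ha
  have hag : Agree (cone s) (Gp.incl (seed_cone_mono h) g) (can t) := hg
  have hc : IsCanon s g := by
    intro a ha h0 ψ
    rw [J_congr ψ (fun b => (fact_congr (attr a) (g := g) (g' := Gp.incl (seed_cone_mono h) g)
      (fun _ => rfl) b).2.1),
      J_agree ψ (seed_lower_face h) (fact_agree (σ := attr a) (σ' := attr a) (seed_lower_face h)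
        (fun _ _ _ => rfl) hag).2.1 a ha,
      isCanon_can t a (seed_cone_mono h ha) h0 ψ, ← Finset.sum_subset h]
    · refine Finset.sum_congr rfl fun e he => J_congr ψ (fun b => ?_) a
      rw [E_apply _ _ (mem_cone_of_mem (h he)) (seed_ne_zero he),
        E_apply _ _ (mem_cone_of_mem he) (seed_ne_zero he)]
    · intro e he hes
      by_contra h1
      obtain ⟨n, rfl⟩ := seed_J_Psi ψ h1
      have h2 := seed_co_face h ha he hes
      rw [map_nsmul, co_self he, nsmul_eq_mul, mul_one, Nat.cast_eq_zero] at h2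
      exact h0 (by rw [h2, zero_nsmul])
  rw [← seed_eq_can hc, hg γ hγ]

theorem can_nsmul {s : Finset N} [IsSeed s] {e : N} (he : e ∈ s) (n : ℕ) :
    can s (n • e) = cE true 1 n := by
  have : IsSeed {e} := IsSeed.subset (Finset.singleton_subset_iff.2 he)
  have hm : e ∈ cone {e} := mem_cone_of_mem (Finset.mem_singleton_self e)
  have hc : IsCanon {e} (Psi (cone {e}) e) := by
    intro a ha h0 ψ
    rw [Finset.sum_singleton, seed_fW_eq_self]
    intro b hb
    obtain ⟨m, rfl⟩ := (AddSubmonoid.mem_multiples_iff _ _).1 (E_supp true 1 e b hb)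
    obtain ⟨k, rfl⟩ := mem_cone.1 ha
    refine seed_attr_ker.2 ?_
    rw [Finset.sum_singleton, map_nsmul, map_nsmul, AddMonoidHom.nsmul_apply, ω_self, smul_zero,
      smul_zero]
  rw [can_face (Finset.singleton_subset_iff.2 he) (AddSubmonoid.nsmul_mem _ hm n),
    ← seed_eq_can hc, E_apply _ _ hm (seed_ne_zero he), Efn_nsmul _ _ (seed_ne_zero he)]

theorem fW_can_seed {s : Finset N} [IsSeed s] {e : N} (he : e ∈ s) {σ : Stab N} (h : σ.s e = 0) :
    fW σ (can s) e = cE true 1 1 := by
  have hL : Lower (cone s) {0} := by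
    intro a ha b hb hab
    have h1 : a ∈ ad (cone s) 0 := mem_ad.2 ⟨ha, by
      rwa [show 0 - a = b by rw [← show a + b = 0 from hab]; abel]⟩
    rw [grp_ad_zero] at h1
    exact Finset.mem_singleton.1 h1
  have hT : Top (cone s) {0} e := fun a ha b hb h0 hab =>
    (seed_indec he ha hb hab).resolve_right h0
  have hA : Agree {0} (can s) (1 : Gp (cone s)) := by
    rintro a rfl
    rw [Gp.zero, Gp.zero]
  have h1 := fW_top hL hT h hA
  rw [seed_fW_eq_self (g := 1) (fun a ha => by rw [fact_one_supp ha]; exact σ.zero), sub_self,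
    sub_eq_zero] at h1
  rw [h1, ← can_nsmul he 1, one_nsmul]

/-- The expansion of `F` in the chamber `σ`. -/
def chart (s : Finset N) [IsSeed s] (σ : Stab N) (F : A (cone s)) : A (cone s) :=
  ((fP σ (can s))⁻¹).1 * F * (fP σ (can s)).1

/-- The attractor coefficient. -/
def ast (s : Finset N) [IsSeed s] (F : A (cone s)) (r : N) : R := chart s (attr r) F r

theorem chart_mul {s : Finset N} [IsSeed s] (σ : Stab N) (F G : A (cone s)) :
    chart s σ (F * G) = chart s σ F * chart s σ G := by
  unfold chart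
  simp only [mul_assoc]
  rw [← mul_assoc (fP σ (can s)).1, Gp.mul_inv_val, one_mul]

theorem chart_one {s : Finset N} [IsSeed s] (σ : Stab N) : chart s σ 1 = 1 := by
  rw [chart, mul_one, Gp.inv_mul_val]

theorem chart_add {s : Finset N} [IsSeed s] (σ : Stab N) (F G : A (cone s)) :
    chart s σ (F + G) = chart s σ F + chart s σ G := by
  simp only [chart, mul_add, add_mul]

theorem chart_smul {s : Finset N} [IsSeed s] (σ : Stab N) (c : R) (F : A (cone s)) :
    chart s σ (c • F) = c • chart s σ F := by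
  simp only [chart, mul_smul_comm, smul_mul_assoc]

theorem chart_sum {s : Finset N} [IsSeed s] (σ : Stab N) {ι : Type} (t : Finset ι)
    (F : ι → A (cone s)) : chart s σ (∑ i ∈ t, F i) = ∑ i ∈ t, chart s σ (F i) := by
  simp only [chart, Finset.mul_sum, Finset.sum_mul]

/-- The positive chamber. -/
theorem chart_pos {s : Finset N} [IsSeed s] {σ : Stab N} (h : ∀ e ∈ s, σ.s e = 1) (F : A (cone s)) :
    chart s σ F = F := by
  have h1 : cone s ≤ σ.ps := AddSubmonoid.closure_le.2 fun e he => Or.inr (h e he)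
  have h2 : fP σ (can s) = 1 :=
    fP_eq_one fun a ha h0 => (h1 ((can s).supp a ha)).resolve_left h0
  rw [chart, h2, inv_one, Gp.val_one, one_mul, mul_one]

theorem chart_supp {s : Finset N} [IsSeed s] (σ : Stab N) {F : A (cone s)} {p : N}
    (hF : SuppIn {r | r - p ∈ cone s} F) : SuppIn {r | r - p ∈ cone s} (chart s σ F) := by
  exact sandwich_suppIn _ _ hF

/-- Locality in the stability. -/
theorem chart_congr {s : Finset N} [IsSeed s] {σ σ' : Stab N} {F : A (cone s)} {p : N}
    (hF : SuppIn {r | r - p ∈ cone s} F) {γ : N}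
    (h : ∀ a ∈ cone s, dg (cone s) a ≤ dg (cone s) γ → σ.s a = σ'.s a) :
    chart s σ F (p + γ) = chart s σ' F (p + γ) := by
  have hA : Agree {a | dg (cone s) a ≤ dg (cone s) γ} (fP σ (can s)) (fP σ' (can s)) :=
    (fact_agree (lower_deg _) (fun a ha hm => h a hm ha) (fun _ _ => rfl)).1
  rw [chart, chart, sandwich_apply _ _ hF, sandwich_apply _ _ hF]
  refine Finset.sum_congr rfl fun a ha => ?_
  congr 1
  rw [mem_ad] at ha
  have ha' : a ∈ {a | dg (cone s) a ≤ dg (cone s) γ} := by
    have := dg_nonneg ha.2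
    rw [map_sub] at this
    change dg (cone s) a ≤ dg (cone s) γ
    omega
  have := LimOn.sandwich (lower_deg _) (x := fun _ => (fP σ (can s))⁻¹) (y := fun _ => fP σ (can s))
    (limOn_const_iff.2 (hA.inv (lower_deg _))) (limOn_const_iff.2 hA) ha' (p + γ - a)
  rw [lim_const_iff, sub_add_cancel] at this
  exact this

/-- Refinements of the attractor stability compute the attractor coefficient
(`fact_lex`, `A.mul_comm_apply`, `chart_congr` with `(attr r).lex σ`). -/
theorem chart_eq_ast {s : Finset N} [IsSeed s] {σ : Stab N} {F : A (cone s)} {p : N}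
    (hF : SuppIn {r | r - p ∈ cone s} F) {γ : N}
    (h : ∀ a ∈ cone s, dg (cone s) a ≤ dg (cone s) γ → ω a (p + γ) ≠ 0 →
      σ.s a = SignType.sign (ω a (p + γ))) :
    chart s σ F (p + γ) = ast s F (p + γ) := by
  rw [chart_congr (σ' := (attr (p + γ)).lex σ) hF (fun a ha hd => ?_)]
  · have hs : SuppIn {a | ω a (p + γ) = 0} (fP σ (fW (attr (p + γ)) (can s))) := fun a ha =>
      seed_attr_ker.1 ((fact_supp σ (isFact (attr (p + γ)) (can s)).hW).1 a ha)
    have e : chart s ((attr (p + γ)).lex σ) F = ((fP σ (fW (attr (p + γ)) (can s)))⁻¹).1 *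
        chart s (attr (p + γ)) F * (fP σ (fW (attr (p + γ)) (can s))).1 := by
      rw [chart, chart, (fact_lex _ _ _).1, mul_inv_rev, Gp.val_mul, Gp.val_mul]
      simp only [mul_assoc]
    rw [e, ← A.mul_comm_apply _ hs, ← mul_assoc, Gp.mul_inv_val, one_mul, ast]
  · rw [Stab.lex_s, attr_s]
    split_ifs with h1
    · rfl
    · exact h a ha hd fun h2 => h1 (sign_eq_zero_iff.2 h2)

open Classical in
/-- Extension by zero of a function on `p + M`. -/
def seed_ext {M : AddSubmonoid N} (p : N) (u : M → R) : A M :=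
  ⟨fun r => if h : r - p ∈ M then u ⟨r - p, h⟩ else 0, Sm.of_suppIn (p := p) fun r hr => by
    by_contra h
    exact hr (dif_neg h)⟩

theorem seed_ext_supp {M : AddSubmonoid N} (p : N) (u : M → R) :
    SuppIn {r | r - p ∈ M} (seed_ext p u) := fun r hr => by
  by_contra h
  exact hr (dif_neg h)

theorem seed_ext_apply {M : AddSubmonoid N} (p : N) (u : M → R) {γ : N} (h : γ ∈ M) :
    seed_ext p u (p + γ) = u ⟨γ, h⟩ := by
  have h1 : p + γ - p ∈ M := by rwa [add_sub_cancel_left]
  refine (dif_pos h1).trans ?_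
  congr 1
  exact Subtype.ext (add_sub_cancel_left p γ)

theorem seed_ext_self {M : AddSubmonoid N} {p : N} {F : A M} (hF : SuppIn {r | r - p ∈ M} F) :
    seed_ext p (fun i : M => F (p + i)) = F := by
  refine A.ext fun r => ?_
  by_cases h : r - p ∈ M
  · have := seed_ext_apply p (fun i : M => F (p + i)) h
    simpa only [add_sub_cancel] using this
  · rw [grp_zero_of_not_mem (seed_ext_supp p _) h, grp_zero_of_not_mem hF h]

theorem seed_ast_bij (s : Finset N) [IsSeed s] (p : N) :
    Function.Bijective fun (u : cone s → R) (i : cone s) => ast s (seed_ext p u) (p + i) := by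
  classical
  refine tri_bijective (fun i => (dg (cone s) i.1).toNat) _ fun u u' i hu => ?_
  have key : ∀ w : cone s → R, ast s (seed_ext p w) (p + i) - w i =
      ∑ a ∈ (ad (cone s) i).erase 0, seed_ext p w (p + i - a) *
        (((fP (attr (p + i)) (can s))⁻¹).1 * z (cone s) (p + i - a) *
          (fP (attr (p + i)) (can s)).1) (p + i) := by
    intro w
    rw [ast, chart, sandwich_apply _ _ (seed_ext_supp p w),
      ← Finset.add_sum_erase _ _ (a := 0) (mem_ad.2 ⟨AddSubmonoid.zero_mem _, by simp⟩),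
      sub_zero, sandwich_self, seed_ext_apply p w i.2, mul_one, add_sub_cancel_left]
  rw [key, key]
  refine Finset.sum_congr rfl fun a ha => ?_
  rw [Finset.mem_erase, mem_ad] at ha
  rw [add_sub_assoc, seed_ext_apply p u ha.2.2, seed_ext_apply p u' ha.2.2, hu]
  have h1 := dg_pos ha.2.1 ha.1
  have h2 := dg_nonneg ha.2.2
  change (dg (cone s) (i - a)).toNat < (dg (cone s) i).toNat
  rw [map_sub] at h2 ⊢
  omega

/-- `F ↦ ast s F` is unitriangular on functions on `p + cone s` (`sandwich_apply`). -/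
theorem exists_ast (s : Finset N) [IsSeed s] (p : N) {a : N → R}
    (ha : SuppIn {r | r - p ∈ cone s} a) :
    ∃ F : A (cone s), SuppIn {r | r - p ∈ cone s} F ∧ ∀ r, ast s F r = a r := by
  obtain ⟨u, hu⟩ := (seed_ast_bij s p).2 fun i => a (p + i)
  refine ⟨seed_ext p u, seed_ext_supp p u, fun r => ?_⟩
  by_cases h : r - p ∈ cone s
  · have := congrFun hu ⟨r - p, h⟩
    simpa only [add_sub_cancel] using this
  · rw [ast, grp_zero_of_not_mem (chart_supp _ (seed_ext_supp p u)) h, grp_zero_of_not_mem ha h]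

theorem ast_inj {s : Finset N} [IsSeed s] {p : N} {F G : A (cone s)}
    (hF : SuppIn {r | r - p ∈ cone s} F) (hG : SuppIn {r | r - p ∈ cone s} G)
    (h : ∀ r, ast s F r = ast s G r) : F = G := by
  rw [← seed_ext_self hF, ← seed_ext_self hG]
  congr 1
  apply (seed_ast_bij s p).1
  funext i
  simp only [seed_ext_self hF, seed_ext_self hG, h]

end

end Crest.Agent.R59
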