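import Mathlib

/-!
# R59/Ser: the coefficient field `R = ℚ((v))`, positivity, coefficientwise limits

Overview of the whole project (S0081): see `R59/Final.lean`.
-/

set_option autoImplicit false
set_option linter.unusedSectionVars false
set_option linter.unusedVariables false

namespace Crest.Agent.R59

noncomputable section

/-- Laurent series in `v`. -/
abbrev R : Type := HahnSeries ℤ ℚ

/-- `v ^ k`. -/
def vp (k : ℤ) : R := HahnSeries.single k 1

/-- All coefficients are natural numbers. -/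
def Pos (a : R) : Prop := ∀ i, ∃ n : ℕ, a.coeff i = n

/-- Equal coefficients below `n`. -/
def Cl (n : ℤ) (a b : R) : Prop := ∀ i, i < n → a.coeff i = b.coeff i

/-- `v`-adic convergence. -/
def Lim (a : ℕ → R) (b : R) : Prop := ∀ n : ℤ, ∃ k0 : ℕ, ∀ k, k0 ≤ k → Cl n (a k) b

/-- `q ↦ v²`. -/
def iq : PowerSeries ℚ →+* R :=
  (HahnSeries.embDomainRingHom (AddMonoidHom.mulLeft (2 : ℤ))
    (fun a b h => by simpa using h) (fun a b => by simp)).comp (HahnSeries.ofPowerSeries ℤ ℚ)

theorem vp_add (a b : ℤ) : vp (a + b) = vp a * vp b := by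
  unfold vp; rw [HahnSeries.single_mul_single, one_mul]

@[simp] theorem vp_zero : vp 0 = 1 := rfl

theorem vp_ne_zero (a : ℤ) : vp a ≠ 0 := HahnSeries.single_ne_zero one_ne_zero

theorem ser_coeff_vp (k i : ℤ) : (vp k).coeff i = if i = k then 1 else 0 := by
  unfold vp; rw [HahnSeries.coeff_single]; congr

theorem vp_injective : Function.Injective vp := by
  intro a b h
  have := congrArg (fun x : R => x.coeff a) h
  simp only [ser_coeff_vp, if_true] at this
  by_contra hne
  rw [if_neg hne] at this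
  exact one_ne_zero this

theorem vp_sum {ι : Type} (s : Finset ι) (f : ι → ℤ) : vp (∑ i ∈ s, f i) = ∏ i ∈ s, vp (f i) := by
  classical
  induction s using Finset.induction_on with
  | empty => simp
  | insert a s ha ih => rw [Finset.sum_insert ha, Finset.prod_insert ha, vp_add, ih]

theorem vp_pow (a : ℤ) (n : ℕ) : vp a ^ n = vp (a * n) := by
  induction n with
  | zero => simp
  | succ n ih => rw [pow_succ, ih, ← vp_add]; congr 1; push_cast; ring

theorem coeff_vp_mul (k : ℤ) (a : R) (i : ℤ) : (vp k * a).coeff i = a.coeff (i - k) := by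
  have := HahnSeries.coeff_single_mul_add (r := (1 : ℚ)) (x := a) (a := i - k) (b := k)
  rw [sub_add_cancel, one_mul] at this
  exact this

theorem ser_iq_apply (f : PowerSeries ℚ) : iq f =
    HahnSeries.embDomain ⟨⟨AddMonoidHom.mulLeft (2 : ℤ), fun a b h => by simpa using h⟩,
      fun {a b} => by simp⟩ (HahnSeries.ofPowerSeries ℤ ℚ f) := rfl

theorem iq_X : iq PowerSeries.X = vp 2 := by
  rw [ser_iq_apply, HahnSeries.ofPowerSeries_X, HahnSeries.embDomain_single]
  rfl

theorem iq_coeff_two_mul (f : PowerSeries ℚ) (k : ℕ) :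
    (iq f).coeff (2 * (k : ℤ)) = PowerSeries.coeff k f := by
  rw [ser_iq_apply, ← HahnSeries.ofPowerSeries_apply_coeff (Γ := ℤ) f k]
  exact HahnSeries.embDomain_coeff (a := (k : ℤ))

theorem iq_coeff_of_ne (f : PowerSeries ℚ) {i : ℤ} (h : ∀ k : ℕ, i ≠ 2 * (k : ℤ)) :
    (iq f).coeff i = 0 := by
  rw [ser_iq_apply]
  refine HahnSeries.embDomain_notin_image_support ?_
  rintro ⟨j, hj, rfl⟩
  rw [HahnSeries.ofPowerSeries_apply] at hj
  obtain ⟨k, -, rfl⟩ := HahnSeries.support_embDomain_subset hj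
  exact h k rfl

theorem iq_injective : Function.Injective iq := by
  intro f g h
  ext k
  rw [← iq_coeff_two_mul, ← iq_coeff_two_mul, h]

theorem pos_zero : Pos 0 := fun _ => ⟨0, by simp⟩

theorem pos_vp (k : ℤ) : Pos (vp k) := fun i => by
  rw [ser_coeff_vp]
  split_ifs
  · exact ⟨1, by simp⟩
  · exact ⟨0, by simp⟩

theorem pos_one : Pos 1 := pos_vp 0

theorem Pos.add {a b : R} (ha : Pos a) (hb : Pos b) : Pos (a + b) := fun i => by
  obtain ⟨m, hm⟩ := ha i
  obtain ⟨n, hn⟩ := hb i
  exact ⟨m + n, by rw [HahnSeries.coeff_add, hm, hn, Nat.cast_add]⟩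

theorem pos_natCast (n : ℕ) : Pos (n : R) := by
  induction n with
  | zero => simpa using pos_zero
  | succ n ih => rw [Nat.cast_succ]; exact ih.add pos_one

theorem Pos.mul {a b : R} (ha : Pos a) (hb : Pos b) : Pos (a * b) := fun i => by
  choose m hm using ha
  choose n hn using hb
  rw [HahnSeries.coeff_mul]
  simp only [hm, hn]
  exact ⟨_, by rw [Nat.cast_sum]; exact Finset.sum_congr rfl fun _ _ => (Nat.cast_mul _ _).symm⟩

theorem Pos.sum {ι : Type} {s : Finset ι} {f : ι → R} (h : ∀ i ∈ s, Pos (f i)) :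
    Pos (∑ i ∈ s, f i) :=
  Finset.sum_induction f Pos (fun _ _ => Pos.add) pos_zero h

theorem Pos.finsum {ι : Type} {f : ι → R} (h : ∀ i, Pos (f i)) : Pos (∑ᶠ i, f i) :=
  finsum_induction Pos pos_zero (fun _ _ => Pos.add) h

theorem Pos.list_sum {l : List R} (h : ∀ a ∈ l, Pos a) : Pos l.sum :=
  List.sum_induction Pos (fun _ _ => Pos.add) pos_zero h

theorem Pos.of_vp_mul {k : ℤ} {a : R} (h : Pos (vp k * a)) : Pos a := fun i => by
  have := h (i + k)
  rwa [coeff_vp_mul, add_sub_cancel_right] at this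

theorem Pos.eq_zero_of_add {a b : R} (ha : Pos a) (hb : Pos b) (h : a + b = 0) : a = 0 := by
  ext i
  obtain ⟨m, hm⟩ := ha i
  obtain ⟨n, hn⟩ := hb i
  have := congrArg (fun x : R => x.coeff i) h
  simp only [HahnSeries.coeff_add, hm, hn, HahnSeries.coeff_zero] at this
  have h1 : m + n = 0 := by exact_mod_cast this
  rw [hm, HahnSeries.coeff_zero]
  exact_mod_cast (by omega : m = 0)

theorem Pos.list_sum_ne_zero {l : List R} (h : ∀ a ∈ l, Pos a) {a : R} (ha : a ∈ l)
    (h0 : a ≠ 0) : l.sum ≠ 0 := by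
  classical
  rw [← List.sum_erase ha]
  exact fun h1 => h0 ((h a ha).eq_zero_of_add
    (Pos.list_sum fun b hb => h b (List.mem_of_mem_erase hb)) h1)

theorem pos_iq {f : PowerSeries ℚ} (h : ∀ k, ∃ n : ℕ, PowerSeries.coeff k f = n) : Pos (iq f) := by
  intro i
  by_cases hi : ∃ k : ℕ, i = 2 * (k : ℤ)
  · obtain ⟨k, rfl⟩ := hi
    rw [iq_coeff_two_mul]; exact h k
  · exact ⟨0, by rw [iq_coeff_of_ne f fun k hk => hi ⟨k, hk⟩, Nat.cast_zero]⟩

theorem lim_const (a : R) : Lim (fun _ => a) a := fun _ => ⟨0, fun _ _ _ _ => rfl⟩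

theorem Lim.unique {a : ℕ → R} {b b' : R} (h : Lim a b) (h' : Lim a b') : b = b' := by
  ext i
  obtain ⟨k, hk⟩ := h (i + 1)
  obtain ⟨k', hk'⟩ := h' (i + 1)
  rw [← hk (max k k') (le_max_left _ _) i (by omega), hk' (max k k') (le_max_right _ _) i (by omega)]

theorem lim_const_iff {a b : R} : Lim (fun _ => a) b ↔ a = b :=
  ⟨fun h => (lim_const a).unique h, fun h => h ▸ lim_const a⟩

theorem Lim.add {a a' : ℕ → R} {b b' : R} (h : Lim a b) (h' : Lim a' b') :
    Lim (fun k => a k + a' k) (b + b') := fun n => by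
  obtain ⟨k, hk⟩ := h n
  obtain ⟨k', hk'⟩ := h' n
  refine ⟨max k k', fun j hj i hi => ?_⟩
  rw [HahnSeries.coeff_add, HahnSeries.coeff_add, hk j (le_of_max_le_left hj) i hi,
    hk' j (le_of_max_le_right hj) i hi]

theorem Lim.neg {a : ℕ → R} {b : R} (h : Lim a b) : Lim (fun k => -a k) (-b) := fun n => by
  obtain ⟨k, hk⟩ := h n
  refine ⟨k, fun j hj i hi => ?_⟩
  rw [HahnSeries.coeff_neg, HahnSeries.coeff_neg, hk j hj i hi]

theorem Lim.sub {a a' : ℕ → R} {b b' : R} (h : Lim a b) (h' : Lim a' b') :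
    Lim (fun k => a k - a' k) (b - b') := by
  simpa only [sub_eq_add_neg] using h.add h'.neg

theorem ser_cl_mul {m n : ℤ} {x y : R} (hx : Cl m x 0) (hy : Cl n y 0) : Cl (m + n) (x * y) 0 := by
  intro i hi
  rw [HahnSeries.coeff_mul, HahnSeries.coeff_zero]
  refine Finset.sum_eq_zero fun p hp => ?_
  have h3 : p.1 + p.2 = i := (Finset.mem_antidiagonal.1 hp).2.2
  by_cases h1 : p.1 < m
  · rw [hx _ h1, HahnSeries.coeff_zero, zero_mul]
  · rw [hy _ (by omega), HahnSeries.coeff_zero, mul_zero]

theorem ser_cl_order (x : R) : Cl x.order x 0 := fun _ hi => HahnSeries.coeff_eq_zero_of_lt_order hi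

theorem ser_cl_sub {n : ℤ} {x y : R} (h : Cl n x y) : Cl n (x - y) 0 := fun i hi => by
  rw [HahnSeries.coeff_sub, h i hi, sub_self, HahnSeries.coeff_zero]

/-- Eventually `a k` agrees with `b` below `0`, so the orders of the `a k` are bounded below;
write `a k * a' k - b * b' = (a k - b) * a' k + b * (a' k - b')`. -/
theorem Lim.mul {a a' : ℕ → R} {b b' : R} (h : Lim a b) (h' : Lim a' b') :
    Lim (fun k => a k * a' k) (b * b') := fun n => by
  obtain ⟨k1, hk1⟩ := h (n - b'.order)
  obtain ⟨k2, hk2⟩ := h' b'.order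
  obtain ⟨k3, hk3⟩ := h' (n - b.order)
  refine ⟨max k1 (max k2 k3), fun j hj i hi => ?_⟩
  have h1 : Cl b'.order (a' j) 0 := fun i hi =>
    (hk2 j (by omega) i hi).trans (ser_cl_order b' i hi)
  have h2 := ser_cl_mul (ser_cl_sub (hk1 j (by omega))) h1 i (by omega)
  have h3 := ser_cl_mul (ser_cl_order b) (ser_cl_sub (hk3 j (by omega))) i (by omega)
  have e : a j * a' j = b * b' + ((a j - b) * a' j + b * (a' j - b')) := by ring
  simp only
  rw [e, HahnSeries.coeff_add, HahnSeries.coeff_add, h2, h3]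
  simp

theorem Lim.sum {ι : Type} {s : Finset ι} {a : ι → ℕ → R} {b : ι → R}
    (h : ∀ i ∈ s, Lim (a i) (b i)) : Lim (fun k => ∑ i ∈ s, a i k) (∑ i ∈ s, b i) := by
  classical
  induction s using Finset.induction_on with
  | empty => simpa using lim_const 0
  | insert x s hx ih =>
    simp only [Finset.sum_insert hx]
    exact (h x (Finset.mem_insert_self x s)).add (ih fun i hi => h i (Finset.mem_insert_of_mem hi))

theorem Lim.pos {a : ℕ → R} {b : R} (h : Lim a b) (hp : ∀ k, Pos (a k)) : Pos b := fun i => by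
  obtain ⟨k, hk⟩ := h (i + 1)
  rw [← hk k le_rfl i (by omega)]
  exact hp k i

theorem lim_of_cl {a : ℕ → R} {b : R} (h : ∀ k : ℕ, Cl k (a k) b) : Lim a b := fun n =>
  ⟨n.toNat, fun k hk i hi => h k i (by omega)⟩

theorem Cl.trans {n : ℤ} {a b c : R} (h : Cl n a b) (h' : Cl n b c) : Cl n a c :=
  fun i hi => (h i hi).trans (h' i hi)

/-- Unitriangular maps are bijective.  Injective: strong induction on the rank.  Surjective:
iterate `u ↦ y + u - Φ u` starting from `0`; the value at `i` is constant after `rk i + 1` steps. -/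
theorem tri_bijective {ι A : Type} [AddCommGroup A] (rk : ι → ℕ) (Φ : (ι → A) → ι → A)
    (h : ∀ u u' i, (∀ j, rk j < rk i → u j = u' j) → Φ u i - u i = Φ u' i - u' i) :
    Function.Bijective Φ := by
  constructor
  · intro u u' huu
    have key : ∀ n i, rk i = n → u i = u' i := by
      intro n
      induction n using Nat.strong_induction_on with
      | _ n ih =>
        intro i hi
        have := h u u' i fun j hj => ih (rk j) (hi ▸ hj) j rfl
        rw [huu] at this
        exact sub_right_injective this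
    exact funext fun i => key _ i rfl
  · intro y
    let T : (ι → A) → ι → A := fun u i => y i - (Φ u i - u i)
    have hT : ∀ u u' i, (∀ j, rk j < rk i → u j = u' j) → T u i = T u' i := fun u u' i hh => by
      simp only [T, h u u' i hh]
    have key : ∀ n m i, rk i < n → n ≤ m → T^[n] 0 i = T^[m] 0 i := by
      intro n
      induction n with
      | zero => intro m i hi; omega
      | succ n ih =>
        intro m i hi hm
        obtain ⟨m, rfl⟩ : ∃ k, m = k + 1 := ⟨m - 1, by omega⟩
        rw [Function.iterate_succ_apply', Function.iterate_succ_apply']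
        exact hT _ _ i fun j hj => ih m j (by omega) (by omega)
    refine ⟨fun i => T^[rk i + 1] 0 i, funext fun i => ?_⟩
    have h1 : T (fun i => T^[rk i + 1] 0 i) i = T^[rk i + 1] 0 i := by
      rw [Function.iterate_succ_apply']
      exact hT _ _ i fun j hj => key _ _ j (by omega) (by omega)
    simp only [T] at h1 ⊢
    rw [sub_sub_eq_add_sub, sub_eq_iff_eq_add, add_comm] at h1
    exact (add_left_cancel h1).symm

end

end Crest.Agent.R59
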