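import Crest.Agent.R59.Ser

/-!
# R59/ShFB: invariants of a filtered representation with a permuted basis of the graded pieces
-/

set_option autoImplicit false
set_option linter.unusedSectionVars false
set_option linter.unusedVariables false

namespace Crest.Agent.R59

noncomputable section

/-- Averaging operator. -/
def avg {G V : Type} [Group G] [Fintype G] [AddCommGroup V] [Module ℚ V]
    (ρ : Representation ℚ G V) : V →ₗ[ℚ] V := (Fintype.card G : ℚ)⁻¹ • ∑ g : G, ρ g

theorem shfb_avg_apply {G V : Type} [Group G] [Fintype G] [AddCommGroup V] [Module ℚ V]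
    (ρ : Representation ℚ G V) (v : V) :
    avg ρ v = (Fintype.card G : ℚ)⁻¹ • ∑ g : G, ρ g v := by
  simp [avg, LinearMap.sum_apply]

theorem avg_rep {G V : Type} [Group G] [Fintype G] [AddCommGroup V] [Module ℚ V]
    (ρ : Representation ℚ G V) (g : G) (v : V) : avg ρ (ρ g v) = avg ρ v ∧ ρ g (avg ρ v) = avg ρ v := by
  constructor
  · rw [shfb_avg_apply, shfb_avg_apply]
    congr 1
    refine Fintype.sum_equiv (Equiv.mulRight g) _ _ fun h => ?_
    simp [map_mul]
  · rw [shfb_avg_apply, map_smul, map_sum]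
    congr 1
    refine Fintype.sum_equiv (Equiv.mulLeft g) _ _ fun h => ?_
    simp [map_mul]

theorem avg_eq {G V : Type} [Group G] [Fintype G] [AddCommGroup V] [Module ℚ V]
    (ρ : Representation ℚ G V) {v : V} (h : ∀ g, ρ g v = v) : avg ρ v = v := by
  rw [shfb_avg_apply]
  simp only [h, Finset.sum_const, Finset.card_univ]
  rw [← Nat.cast_smul_eq_nsmul ℚ, smul_smul, inv_mul_cancel₀ (by simp), one_smul]

theorem shfb_avg_mem {G V : Type} [Group G] [Fintype G] [AddCommGroup V] [Module ℚ V]
    (ρ : Representation ℚ G V) {W : Submodule ℚ V} (hW : ∀ g, ∀ f ∈ W, ρ g f ∈ W) {f : V}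
    (hf : f ∈ W) : avg ρ f ∈ W := by
  rw [shfb_avg_apply]
  exact W.smul_mem _ (W.sum_mem fun g _ => hW g f hf)

/-- A coordinate functional of a linearly independent family. -/
theorem shfb_dual {ι V : Type} [AddCommGroup V] [Module ℚ V] [DecidableEq ι] {v : ι → V}
    (h : LinearIndependent ℚ v) (i0 : ι) :
    ∃ φ : V →ₗ[ℚ] ℚ, ∀ i, φ (v i) = if i = i0 then 1 else 0 := by
  obtain ⟨φ, hφ⟩ := LinearMap.exists_extend ((Finsupp.lapply i0 : (ι →₀ ℚ) →ₗ[ℚ] ℚ) ∘ₗ h.repr)
  refine ⟨φ, fun i => ?_⟩
  have hm : v i ∈ Submodule.span ℚ (Set.range v) := Submodule.subset_span ⟨i, rfl⟩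
  have := LinearMap.congr_fun hφ ⟨v i, hm⟩
  simp only [LinearMap.comp_apply, Submodule.subtype_apply, Finsupp.lapply_apply] at this
  rw [this, h.repr_eq_single i ⟨v i, hm⟩ rfl, Finsupp.single_apply]

/-- `Ω` indexes a family `b`; `ty` has the orbits of `mv` as fibres; on good orbits `b` is permuted
modulo lower terms, on bad orbits some group element acts by `-1` modulo lower terms.

*Span*: by induction on `n`, an invariant `f ∈ W ∩ F n` is in the span plus `F 0`: write
`f = ∑ c x • b x + r`, `r ∈ F n`, apply `avg`; `avg (b x) ≡ avg (b (rep (ty x)))` for good `x`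
(`trans`, `h2`), `avg (b x) ≡ 0` for bad `x`; the difference is again invariant and in `W ∩ F n`.
*Independence*: in a relation take the maximal level `n`; modulo `F n` the relation reads
`∑_o c o |G|⁻¹ ∑_g b (mv g (rep o)) ≡ 0` over the `o` of level `n`; the coefficient of `b (rep o)` is
`c o` times a positive number (`mv 1 x = x`, different `o` have disjoint orbits). -/
theorem fb {G V Ω O : Type} [Group G] [Fintype G] [AddCommGroup V] [Module ℚ V]
    (ρ : Representation ℚ G V) (F : ℕ → Submodule ℚ V) (mono : Monotone F)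
    (stab : ∀ n g, ∀ f ∈ F n, ρ g f ∈ F n) (W : Submodule ℚ V) (Wstab : ∀ g, ∀ f ∈ W, ρ g f ∈ W)
    (mv : G → Ω → Ω) (mv1 : ∀ x, mv 1 x = x) (ty : Ω → O) (lev : Ω → ℕ) (b : Ω → V)
    (good : O → Prop) (hW : ∀ x, b x ∈ W) (hlev : ∀ g x, lev (mv g x) = lev x)
    (hty : ∀ g x, ty (mv g x) = ty x) (trans : ∀ x y, ty x = ty y → ∃ g, mv g x = y)
    (h1 : ∀ x, b x ∈ F (lev x + 1))
    (h2 : ∀ g x, good (ty x) → ρ g (b x) - b (mv g x) ∈ F (lev x))
    (h3 : ∀ x, ¬good (ty x) → ∃ g, ρ g (b x) + b x ∈ F (lev x))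
    (h4 : ∀ n, LinearIndependent ℚ fun x : {x // lev x = n} => (F n).mkQ (b x.1))
    (h5 : ∀ n, ∀ f ∈ W, (∀ g, ρ g f = f) → f ∈ F (n + 1) →
      f ∈ Submodule.span ℚ (b '' {x | lev x = n}) ⊔ F n)
    (h6 : ∀ f ∈ W, ∃ n, f ∈ F n) {ι : Type} (rep : ι → Ω) (hgood : ∀ i, good (ty (rep i)))
    (hinj : Function.Injective fun i => ty (rep i))
    (hsurj : ∀ x, good (ty x) → ∃ i, ty (rep i) = ty x) :
    LinearIndependent ℚ (fun i => (F 0).mkQ (avg ρ (b (rep i)))) ∧
      ∀ f ∈ W, (∀ g, ρ g f = f) →
        f ∈ Submodule.span ℚ (Set.range fun i => avg ρ (b (rep i))) ⊔ F 0 := by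
  classical
  have hcard : (Fintype.card G : ℚ) ≠ 0 := by simp
  constructor
  · rw [linearIndependent_iff']
    intro s c hs
    by_contra hne
    push Not at hne
    obtain ⟨i1, hi1, hc1⟩ := hne
    obtain ⟨i0, hi0, hmax⟩ := (s.filter fun i => c i ≠ 0).exists_max_image
      (fun i => lev (rep i)) ⟨i1, Finset.mem_filter.2 ⟨hi1, hc1⟩⟩
    obtain ⟨hi0s, hc0⟩ := Finset.mem_filter.1 hi0
    set n := lev (rep i0) with hn
    obtain ⟨φ, hφ⟩ := shfb_dual (h4 n) ⟨rep i0, rfl⟩
    have hφ' : ∀ x, lev x = n → φ ((F n).mkQ (b x)) = if x = rep i0 then 1 else 0 := by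
      intro x hx
      have := hφ ⟨x, hx⟩
      simpa [Subtype.ext_iff] using this
    have h0 : ∑ i ∈ s, c i • avg ρ (b (rep i)) ∈ F n := by
      apply mono (Nat.zero_le n)
      rw [← Submodule.Quotient.mk_eq_zero, ← Submodule.mkQ_apply, map_sum]
      simpa only [map_smul] using hs
    have hψ : ∀ f ∈ F n, φ ((F n).mkQ f) = 0 := by
      intro f hf
      rw [Submodule.mkQ_apply, (Submodule.Quotient.mk_eq_zero _).2 hf, map_zero]
    -- value of the functional on the averages
    have hval : ∀ i, lev (rep i) = n → φ ((F n).mkQ (avg ρ (b (rep i)))) =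
        (Fintype.card G : ℚ)⁻¹ * ∑ g : G, if mv g (rep i) = rep i0 then (1 : ℚ) else 0 := by
      intro i hi
      rw [shfb_avg_apply, map_smul, map_smul, map_sum, map_sum, smul_eq_mul]
      congr 1
      refine Finset.sum_congr rfl fun g _ => ?_
      rw [← hφ' _ (by rw [hlev, hi])]
      have := hψ _ (hi ▸ h2 g (rep i) (hgood i))
      rw [map_sub, map_sub, sub_eq_zero] at this
      exact this
    have h1' := hψ _ h0
    rw [map_sum, map_sum, Finset.sum_eq_single i0] at h1'
    · rw [map_smul, map_smul, hval i0 rfl, smul_eq_mul] at h1'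
      have hpos : (0 : ℚ) < ∑ g : G, if mv g (rep i0) = rep i0 then (1 : ℚ) else 0 := by
        refine Finset.sum_pos' (fun g _ => by split_ifs <;> norm_num) ⟨1, Finset.mem_univ _, ?_⟩
        rw [if_pos (mv1 _)]
        norm_num
      exact (mul_ne_zero hc0 (mul_ne_zero (inv_ne_zero hcard) hpos.ne')) h1'
    · intro i hi hii
      by_cases hci : c i = 0
      · simp [hci]
      have hle : lev (rep i) ≤ n := hmax i (Finset.mem_filter.2 ⟨hi, hci⟩)
      rcases hle.lt_or_eq with hlt | heq
      · exact hψ _ ((F n).smul_mem _ (shfb_avg_mem ρ (stab n) (mono hlt (h1 (rep i)))))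
      · rw [map_smul, map_smul, hval i heq, Finset.sum_eq_zero, mul_zero, smul_zero]
        intro g _
        rw [if_neg]
        intro hg
        apply hii
        apply hinj
        simp only
        rw [← hg, hty]
    · intro h
      exact absurd hi0s h
  · set P := Submodule.span ℚ (Set.range fun i => avg ρ (b (rep i))) with hP
    have hPW : ∀ p ∈ P, p ∈ W ∧ ∀ g, ρ g p = p := by
      intro p hp
      induction hp using Submodule.span_induction with
      | mem x hx =>
        obtain ⟨i, rfl⟩ := hx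
        exact ⟨shfb_avg_mem ρ Wstab (hW _), fun g => (avg_rep ρ g _).2⟩
      | zero => exact ⟨W.zero_mem, fun g => map_zero _⟩
      | add x y _ _ hx hy =>
        exact ⟨W.add_mem hx.1 hy.1, fun g => by rw [map_add, hx.2, hy.2]⟩
      | smul a x _ hx => exact ⟨W.smul_mem a hx.1, fun g => by rw [map_smul, hx.2]⟩
    have hb : ∀ x, avg ρ (b x) ∈ P ⊔ F (lev x) := by
      intro x
      by_cases hx : good (ty x)
      · obtain ⟨i, hi⟩ := hsurj x hx
        obtain ⟨g, hg⟩ := trans _ _ hi
        have h := shfb_avg_mem ρ (stab _) (h2 g (rep i) (hgood i))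
        rw [map_sub, (avg_rep ρ g _).1, hg, ← hlev g, hg] at h
        have e : avg ρ (b x) = avg ρ (b (rep i)) - (avg ρ (b (rep i)) - avg ρ (b x)) := by abel
        rw [e]
        exact Submodule.sub_mem _ (Submodule.mem_sup_left (Submodule.subset_span ⟨i, rfl⟩))
          (Submodule.mem_sup_right h)
      · obtain ⟨g, hg⟩ := h3 x hx
        have h := shfb_avg_mem ρ (stab _) hg
        rw [map_add, (avg_rep ρ g _).1, ← two_smul ℚ] at h
        have h' := (F (lev x)).smul_mem (2 : ℚ)⁻¹ h
        rw [smul_smul, inv_mul_cancel₀ (by norm_num), one_smul] at h'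
        exact Submodule.mem_sup_right h'
    have key : ∀ n, ∀ f ∈ W, (∀ g, ρ g f = f) → f ∈ F n → f ∈ P ⊔ F 0 := by
      intro n
      induction n with
      | zero => intro f _ _ hf; exact Submodule.mem_sup_right hf
      | succ n ih =>
        intro f hfW hfi hf
        obtain ⟨s, hs, r, hr, hsr⟩ := Submodule.mem_sup.1 (h5 n f hfW hfi hf)
        have hs' : avg ρ s ∈ P ⊔ F n := by
          clear hsr
          induction hs using Submodule.span_induction with
          | mem x hx =>
            obtain ⟨y, hy, rfl⟩ := hx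
            have := hb y
            rwa [show lev y = n from hy] at this
          | zero => rw [map_zero]; exact Submodule.zero_mem _
          | add x y _ _ hx hy => rw [map_add]; exact Submodule.add_mem _ hx hy
          | smul a x _ hx => rw [map_smul]; exact Submodule.smul_mem _ a hx
        have hf' : f ∈ P ⊔ F n := by
          rw [← avg_eq ρ hfi, ← hsr, map_add]
          exact Submodule.add_mem _ hs' (Submodule.mem_sup_right (shfb_avg_mem ρ (stab n) hr))
        obtain ⟨p, hp, r', hr', hpr⟩ := Submodule.mem_sup.1 hf'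
        have er : r' = f - p := by rw [← hpr]; abel
        have := ih r' (er ▸ W.sub_mem hfW (hPW p hp).1)
          (fun g => by rw [er, map_sub, hfi, (hPW p hp).2]) hr'
        rw [← hpr]
        exact Submodule.add_mem _ (Submodule.mem_sup_left hp) this
    intro f hfW hfi
    obtain ⟨n, hn⟩ := h6 f hfW
    exact key n f hfW hfi hn

end

end Crest.Agent.R59
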