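import Crest.Agent.R59.ShSign
import Crest.Agent.R59.ShFB

/-!
# R59/ShHB: homogeneous bases compute Hilbert series; existence of equivariant bases
-/

set_option autoImplicit false
set_option linter.unusedSectionVars false
set_option linter.unusedVariables false

namespace Crest.Agent.R59

noncomputable section

open MvPolynomial

variable {J : Type} [Fintype J] [DecidableEq J] (D : Dat J)

theorem RS_hom_finite (S : Finset (Pt J)) (n : ℕ) :
    Module.Finite ℚ (RS S ⊓ homogeneousSubmodule (Pt J) ℚ n : Submodule ℚ (PR J)) := by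
  have h1 : (RS S ⊓ homogeneousSubmodule (Pt J) ℚ n : Submodule ℚ (PR J)) ≤
      (homogeneousSubmodule (S : Set (Pt J)) ℚ n).map
        (rename (Subtype.val : ↥(S : Set (Pt J)) → Pt J) : _ →ₐ[ℚ] PR J).toLinearMap := by
    rintro f ⟨hf, hn⟩
    have hf' : f ∈ supported ℚ (S : Set (Pt J)) := hf
    rw [supported_eq_range_rename] at hf'
    obtain ⟨p, rfl⟩ := hf'
    exact ⟨p, (IsHomogeneous.rename_isHomogeneous_iff Subtype.val_injective).1 hn, rfl⟩
  have h2 : Module.Finite ℚ (homogeneousSubmodule (S : Set (Pt J)) ℚ n) :=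
    Module.Finite.iff_fg.2 (homogeneousSubmodule_fg _ _ n)
  exact Submodule.finiteDimensional_of_le h1

/-- The images of the `u i` with `t i = n` form a basis of the degree `n` part (take homogeneous
components of `f = ∑ c i • u i + r`). -/
theorem HB.gf {I : Ideal (PR J)} {V : Submodule ℚ (PR J)} {ι : Type} {u : ι → PR J} {t : ι → ℕ}
    (h : HB I V u t) (hI : Graded (IQ I)) {S : Finset (Pt J)} (hV : V ≤ RS S) :
    FinF t ∧ Hilb I V = GF t := by
  have key : ∀ n, (V ⊓ homogeneousSubmodule (Pt J) ℚ n).map (IQ I).mkQ =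
      Submodule.span ℚ (Set.range fun i : {i // t i = n} => (IQ I).mkQ (u i.1)) := by
    intro n
    apply le_antisymm
    · rintro _ ⟨f, ⟨hf, hn⟩, rfl⟩
      obtain ⟨g, hg, r, hr, e⟩ := Submodule.mem_sup.1 (h.span f hf)
      have h1 : f = homogeneousComponent n g + homogeneousComponent n r := by
        rw [← map_add, e, homogeneousComponent_eq_self hn]
      have h2 : (IQ I).mkQ (homogeneousComponent n r) = 0 :=
        (Submodule.Quotient.mk_eq_zero _).2 (hI r hr n)
      rw [h1, map_add, h2, add_zero]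
      clear e h1
      induction hg using Submodule.span_induction with
      | mem x hx =>
        obtain ⟨i, rfl⟩ := hx
        rw [homogeneousComponent_of_mem (h.hom i)]
        split_ifs with e
        · exact Submodule.subset_span ⟨⟨i, e.symm⟩, rfl⟩
        · rw [map_zero]
          exact Submodule.zero_mem _
      | zero => simp
      | add x y _ _ hx hy =>
        rw [map_add, map_add]
        exact Submodule.add_mem _ hx hy
      | smul c x _ hx =>
        rw [map_smul, map_smul]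
        exact Submodule.smul_mem _ _ hx
    · rw [Submodule.span_le]
      rintro _ ⟨⟨i, rfl⟩, rfl⟩
      exact ⟨u i, ⟨h.mem i, h.hom i⟩, rfl⟩
  have hind : ∀ n, LinearIndependent ℚ fun i : {i // t i = n} => (IQ I).mkQ (u i.1) :=
    fun n => h.ind.comp _ Subtype.val_injective
  have hfin : FinF t := by
    intro n
    have h1 := RS_hom_finite S n
    have h2 : Module.Finite ℚ (V ⊓ homogeneousSubmodule (Pt J) ℚ n : Submodule ℚ (PR J)) :=
      Submodule.finiteDimensional_of_le (inf_le_inf_right _ hV)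
    have h3 : Module.Finite ℚ ((V ⊓ homogeneousSubmodule (Pt J) ℚ n).map (IQ I).mkQ) :=
      inferInstance
    rw [key] at h3
    exact (linearIndependent_span (hind n)).finite
  refine ⟨hfin, ?_⟩
  ext n
  have := hfin n
  have := Fintype.ofFinite {i // t i = n}
  rw [Hilb, GF, PowerSeries.coeff_mk, PowerSeries.coeff_mk, key, finrank_span_eq_card (hind n),
    Nat.card_eq_fintype_card]

/-- Choose a basis of each graded piece of the image and lift it. -/
theorem exists_HB {I : Ideal (PR J)} {V : Submodule ℚ (PR J)} (hI : Graded (IQ I)) (hV : Graded V)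
    {S : Finset (Pt J)} (hS : V ≤ RS S) : ∃ (ι : Type) (u : ι → PR J) (t : ι → ℕ), HB I V u t := by
  obtain ⟨b, hb, hsp, hind⟩ := exists_linearIndependent ℚ
    {x | ∃ f, ∃ n, f ∈ V ∧ f.IsHomogeneous n ∧ (IQ I).mkQ f = x}
  have hch : ∀ x : b, ∃ f, ∃ n, f ∈ V ∧ f.IsHomogeneous n ∧ (IQ I).mkQ f = x.1 := fun x => hb x.2
  choose u t h1 h2 h3 using hch
  refine ⟨b, u, t, h1, h2, by simpa only [h3] using hind, fun f hf => ?_⟩
  have h4 : (IQ I).mkQ f ∈ Submodule.span ℚ b := by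
    rw [hsp, ← sum_homogeneousComponent f, map_sum]
    exact Submodule.sum_mem _ fun n _ => Submodule.subset_span
      ⟨_, n, hV f hf n, homogeneousComponent_isHomogeneous n f, rfl⟩
  have h5 : Submodule.span ℚ b ≤ (Submodule.span ℚ (Set.range u)).map (IQ I).mkQ := by
    rw [Submodule.span_le]
    intro x hx
    exact ⟨u ⟨x, hx⟩, Submodule.subset_span ⟨_, rfl⟩, h3 _⟩
  have h6 : f ∈ ((Submodule.span ℚ (Set.range u)).map (IQ I).mkQ).comap (IQ I).mkQ := h5 h4
  rwa [Submodule.comap_map_mkQ, sup_comm] at h6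

theorem shhb_act_one (S : Finset (Pt J)) (f : PR J) : D.act S 1 f = f := by
  rw [Dat.act_apply, Dat.chi_one, one_smul, Equiv.Perm.coe_one, rename_id_apply]

theorem shhb_act_I (Y : Sys J) {g : Equiv.Perm (Pt J)} (hg : g ∈ CP J) {S : Finset (Pt J)}
    {f : PR J} (hf : f ∈ IQ (Y.I S)) : D.act S g f ∈ IQ (Y.I (mv g S)) :=
  (IQ (Y.I (mv g S))).smul_mem _ (Y.Ie g hg S f hf)

theorem shhb_act_V (Y : Sys J) {g : Equiv.Perm (Pt J)} (hg : g ∈ CP J) {S : Finset (Pt J)}
    {f : PR J} (hf : f ∈ D.Inv S ⊓ Y.L S) : D.act S g f ∈ D.Inv (mv g S) ⊓ Y.L (mv g S) :=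
  ⟨D.act_Inv hg hf.1, (Y.L (mv g S)).smul_mem _ (Y.Le g hg S f hf.2)⟩

theorem shhb_mv_inv (g : Equiv.Perm (Pt J)) (S : Finset (Pt J)) : mv g⁻¹ (mv g S) = S := by
  rw [← mv_mul, inv_mul_cancel, mv_one]

theorem shhb_reindex {I : Ideal (PR J)} {V : Submodule ℚ (PR J)} {ι ι' : Type} {u : ι → PR J}
    {t : ι → ℕ} (h : HB I V u t) (e : ι' ≃ ι) : HB I V (fun i => u (e i)) fun i => t (e i) :=
  ⟨fun i => h.mem _, fun i => h.hom _, h.ind.comp e e.injective, fun f hf => by
    have : Set.range (fun i => u (e i)) = Set.range u := e.surjective.range_comp u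
    rw [this]
    exact h.span f hf⟩

theorem shhb_graded_inf {V W : Submodule ℚ (PR J)} (hV : Graded V) (hW : Graded W) :
    Graded (V ⊓ W) := fun f hf n => ⟨hV f hf.1 n, hW f hf.2 n⟩

theorem HB.transport (Y : Sys J) {g : Equiv.Perm (Pt J)} (hg : g ∈ CP J) {S : Finset (Pt J)}
    {ι : Type} {u : ι → PR J} {t : ι → ℕ} (h : HB (Y.I S) (D.Inv S ⊓ Y.L S) u t) :
    HB (Y.I (mv g S)) (D.Inv (mv g S) ⊓ Y.L (mv g S)) (fun i => D.act S g (u i)) t := by
  have hg' := (CP J).inv_mem hg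
  refine ⟨fun i => shhb_act_V D Y hg (h.mem i), fun i => ?_, ?_, fun f hf => ?_⟩
  · exact (homogeneousSubmodule (Pt J) ℚ (t i)).smul_mem _ (h.hom i).rename_isHomogeneous
  · have hle : IQ (Y.I (mv g S)) ≤ (IQ (Y.I S)).comap (D.act (mv g S) g⁻¹) := by
      intro f hf
      have := shhb_act_I D Y hg' hf
      rwa [shhb_mv_inv] at this
    refine LinearIndependent.of_comp (Submodule.mapQ _ _ _ hle) ?_
    convert h.ind using 1
    funext i
    simp only [Function.comp, Submodule.mkQ_apply, Submodule.mapQ_apply]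
    rw [← D.act_mul hg' hg, inv_mul_cancel, shhb_act_one]
  · have h1 := shhb_act_V D Y hg' hf
    rw [shhb_mv_inv] at h1
    obtain ⟨a, ha, r, hr, e⟩ := Submodule.mem_sup.1 (h.span _ h1)
    have h2 : f = D.act S g a + D.act S g r := by
      have := D.act_mul hg hg' (mv g S) f
      rw [mul_inv_cancel, shhb_act_one, shhb_mv_inv] at this
      rw [← map_add, e, ← this]
    rw [h2]
    refine Submodule.add_mem_sup ?_ (shhb_act_I D Y hg hr)
    have h3 := Submodule.mem_map_of_mem (f := D.act S g) ha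
    rwa [Submodule.map_span, ← Set.range_comp] at h3

/-- `ι = Σ d, ι_d` with bases on `std d`, transported by a chosen `g_S ∈ CP` with
`mv g_S (std (ty S)) = S` (`exists_GS_mv` inside `std d ∪ S`); equivariance by `act_mul` and
`act_of_stab`. -/
theorem exists_TB (Y : Sys J) : Nonempty (TB D Y) := by
  have h1 : ∀ d : J → ℕ, ∃ (ι : Type) (u : ι → PR J) (t : ι → ℕ),
      HB (Y.I (std d)) (D.Inv (std d) ⊓ Y.L (std d)) u t := fun d =>
    exists_HB (Y.Ig _) (shhb_graded_inf (D.Inv_graded _) (Y.Lg _))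
      (inf_le_right.trans (Y.Lle (std d)))
  choose ι u t hb using h1
  have h2 : ∀ S : Finset (Pt J), ∃ g ∈ CP J, mv g (std (ty S)) = S := by
    intro S
    obtain ⟨g, hg, e⟩ := exists_GS_mv (S := std (ty S) ∪ S) Finset.subset_union_left
      Finset.subset_union_right (ty_std _)
    exact ⟨g, hg.1, e⟩
  choose γ hγ hmv using h2
  refine ⟨⟨Σ d, ι d, Sigma.fst, fun c => t c.1 c.2, fun c S => D.act (std c.1) (γ S) (u c.1 c.2),
    fun S => ?_, ?_⟩⟩
  · have h3 := shhb_reindex (HB.transport D Y (hγ S) (hb (ty S))) (Equiv.sigmaSubtype (ty S))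
    rw [hmv] at h3
    convert h3 using 1
    · funext c
      obtain ⟨⟨d, i⟩, hd⟩ := c
      dsimp only at hd
      subst hd
      rfl
    · funext c
      obtain ⟨⟨d, i⟩, hd⟩ := c
      dsimp only at hd
      subst hd
      rfl
  · rintro g hg S ⟨d, i⟩ rfl
    have e1 := hmv S
    have e2 := hmv (mv g S)
    rw [ty_mv hg] at e2
    have hk : (γ (mv g S))⁻¹ * (g * γ S) ∈ CP J :=
      (CP J).mul_mem ((CP J).inv_mem (hγ _)) ((CP J).mul_mem hg (hγ S))
    have e3 : mv ((γ (mv g S))⁻¹ * (g * γ S)) (std (ty S)) = std (ty S) := by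
      rw [mv_mul, mv_mul, e1]
      nth_rw 2 [← e2]
      rw [shhb_mv_inv]
    have e4 := D.act_mul hg (hγ S) (std (ty S)) (u (ty S) i)
    have e5 := D.act_mul (hγ (mv g S)) hk (std (ty S)) (u (ty S) i)
    rw [e1] at e4
    rw [mul_inv_cancel_left, e3, D.act_of_stab hk e3 ((hb _).mem i).1] at e5
    exact e4.symm.trans e5

theorem TB.gf {D : Dat J} {Y : Sys J} (B : TB D Y) (d : J → ℕ) :
    FinF (fun c : {c // B.dim c = d} => B.t c.1) ∧
      Y.H D d = GF fun c : {c // B.dim c = d} => B.t c.1 := by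
  have := (B.hb (std d)).gf (Y.Ig _) (inf_le_right.trans (Y.Lle (std d)))
  rw [ty_std] at this
  exact this

theorem Sys.H_eq (Y : Sys J) (S : Finset (Pt J)) :
    Hilb (Y.I S) (D.Inv S ⊓ Y.L S) = Y.H D (ty S) := by
  obtain ⟨B⟩ := exists_TB D Y
  exact ((B.hb S).gf (Y.Ig _) (inf_le_right.trans (Y.Lle S))).2.trans (B.gf (ty S)).2.symm

theorem graded_span {T : Set (PR J)} (h : ∀ f ∈ T, ∃ n, f.IsHomogeneous n) :
    Graded (IQ (Ideal.span T)) := by
  let _ := MvPolynomial.gradedAlgebra (σ := Pt J) (R := ℚ)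
  intro f hf n
  exact homogeneousComponent_mem_of_mem (Ideal.homogeneous_span _ T h) hf n

/-- The systems of kernel ideals. -/
def sysI {Λ : Type} [AddCommGroup Λ] [LinearOrder Λ] (φ : J → Λ) (p : Λ → Λ → Prop) : Sys J where
  I S := Ib D φ (p (wt φ S)) S
  L := RS
  gen S := by
    refine Ideal.span_mono ?_
    rintro f ⟨U, hU, hp, rfl⟩
    exact ⟨Ideal.subset_span ⟨U, hU, hp, rfl⟩, D.K_mem hU Finset.sdiff_subset⟩
  Ig S := graded_span (by
    rintro f ⟨U, -, -, rfl⟩
    exact ⟨_, D.K_hom _ _⟩)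
  Lg := RS_graded
  Lle _ := le_rfl
  Ie g hg S f hf := by
    have hw : ∀ U, wt φ (mv g U) = wt φ U := fun U => by rw [wt_eq_wd, wt_eq_wd, ty_mv hg]
    have : Ib D φ (p (wt φ S)) S ≤ (Ib D φ (p (wt φ (mv g S))) (mv g S)).comap
        (rename g : PR J →ₐ[ℚ] PR J) := by
      refine Ideal.span_le.2 ?_
      rintro f ⟨U, hU, hp, rfl⟩
      refine Ideal.subset_span ⟨mv g U, Finset.map_subset_map.2 hU, by rwa [hw, hw], ?_⟩
      rw [D.rename_K hg, mv_sdiff]
    exact this hf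
  Le g _ S f hf := RS_rename hf g

theorem Hilb_top (V : Submodule ℚ (PR J)) : Hilb ⊤ V = 0 := by
  ext n
  have : (V ⊓ homogeneousSubmodule (Pt J) ℚ n).map (IQ (⊤ : Ideal (PR J))).mkQ = ⊥ := by
    rw [eq_bot_iff]
    rintro _ ⟨f, -, rfl⟩
    exact (Submodule.Quotient.mk_eq_zero _).2 trivial
  rw [Hilb, PowerSeries.coeff_mk, this, finrank_bot, Nat.cast_zero, map_zero]

theorem sysI_zero {Λ : Type} [AddCommGroup Λ] [LinearOrder Λ] (φ : J → Λ) {p : Λ → Λ → Prop}
    (h : ¬p 0 0) : (sysI D φ p).H D 0 = 1 := by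
  have h0 : std (0 : J → ℕ) = ∅ := ty_eq_zero.1 (ty_std 0)
  have h1 : (sysI D φ p).I ∅ = ⊥ := by
    refine Ideal.span_eq_bot.2 ?_
    rintro f ⟨U, hU, hp, -⟩
    rw [Finset.subset_empty.1 hU] at hp
    exact absurd (by simpa [wt] using hp) h
  have h2 : HB ((sysI D φ p).I ∅) (D.Inv ∅ ⊓ (sysI D φ p).L ∅) (fun _ : Unit => (1 : PR J))
      fun _ => 0 := by
    refine ⟨fun _ => ⟨⟨RS_one _, fun g _ => ?_⟩, RS_one _⟩, fun _ => isHomogeneous_one _ _, ?_,
      fun f hf => ?_⟩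
    · simp [Dat.act_apply, Dat.chi]
    · rw [linearIndependent_unique_iff, h1, Submodule.mkQ_apply, Ne, Submodule.Quotient.mk_eq_zero]
      simp
    · have h3 : f ∈ supported ℚ ((∅ : Finset (Pt J)) : Set (Pt J)) := hf.1.1
      rw [Finset.coe_empty, supported_empty, Algebra.mem_bot] at h3
      obtain ⟨c, rfl⟩ := h3
      rw [Algebra.algebraMap_eq_smul_one]
      exact Submodule.mem_sup_left
        (Submodule.smul_mem _ _ (Submodule.subset_span ⟨(), rfl⟩))
  rw [Sys.H, h0, (h2.gf ((sysI D φ p).Ig _) (inf_le_right.trans ((sysI D φ p).Lle ∅))).2,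
    GF_unique, pow_zero]

/-- The packaging of `fb` for the shuffle model. -/
theorem HB_of_fb (S : Finset (Pt J)) {Ω O : Type} (F : ℕ → Submodule ℚ (PR J)) (mono : Monotone F)
    (stab : ∀ n, ∀ g ∈ GS S, ∀ f ∈ F n, rename g f ∈ F n) {I : Ideal (PR J)} (hF : F 0 = IQ I)
    (m : GS S → Ω → Ω) (m1 : ∀ x, m 1 x = x) (tp : Ω → O) (lev : Ω → ℕ) (b : Ω → PR J)
    (dgr : Ω → ℕ) (good : O → Prop) (hW : ∀ x, b x ∈ RS S) (hb : ∀ x, (b x).IsHomogeneous (dgr x))
    (hlev : ∀ g x, lev (m g x) = lev x) (hty : ∀ g x, tp (m g x) = tp x)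
    (trans : ∀ x y, tp x = tp y → ∃ g, m g x = y) (h1 : ∀ x, b x ∈ F (lev x + 1))
    (h2 : ∀ g x, good (tp x) → D.act S g.1 (b x) - b (m g x) ∈ F (lev x))
    (h3 : ∀ x, ¬good (tp x) → ∃ g : GS S, D.act S g.1 (b x) + b x ∈ F (lev x))
    (h4 : ∀ n, LinearIndependent ℚ fun x : {x // lev x = n} => (F n).mkQ (b x.1))
    (h5 : ∀ n, ∀ f ∈ D.Inv S, f ∈ F (n + 1) → f ∈ Submodule.span ℚ (b '' {x | lev x = n}) ⊔ F n)
    (h6 : ∀ f ∈ RS S, ∃ n, f ∈ F n) {ι : Type} (rep : ι → Ω) (hgood : ∀ i, good (tp (rep i)))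
    (hinj : Function.Injective fun i => tp (rep i))
    (hsurj : ∀ x, good (tp x) → ∃ i, tp (rep i) = tp x) :
    HB I (D.Inv S) (fun i => D.Av S (b (rep i))) fun i => dgr (rep i) := by
  obtain ⟨a1, a2⟩ := fb (D.rep S) F mono
    (fun n g f hf => (F n).smul_mem _ (stab n g.1 g.2 f hf)) (RS S)
    (fun g f hf => (RS S).smul_mem _ (by
      have := RS_rename hf g.1
      rwa [mv_of_GS g.2] at this))
    m m1 tp lev b good hW hlev hty trans h1 h2 h3 h4
    (fun n f hf hg => h5 n f ⟨hf, fun g hg' => hg ⟨g, hg'⟩⟩) h6 rep hgood hinj hsurj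
  rw [hF] at a1 a2
  exact ⟨fun i => D.Av_mem (hW _), fun i => D.Av_hom (hb _), a1,
    fun f hf => a2 f hf.1 fun g => hf.2 g.1 g.2⟩

end

end Crest.Agent.R59
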