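import Crest.Agent.R59.ShDef

/-!
# R59/ShSign: permutations of particles, signs, kernels
-/

set_option autoImplicit false
set_option linter.unusedSectionVars false
set_option linter.unusedVariables false

namespace Crest.Agent.R59

noncomputable section

open MvPolynomial

variable {J : Type} [Fintype J] [DecidableEq J] (D : Dat J)

theorem mem_mv {g : Equiv.Perm (Pt J)} {S : Finset (Pt J)} {s : Pt J} : s ∈ mv g S ↔ g⁻¹ s ∈ S := by
  unfold mv
  rw [Finset.mem_map_equiv]
  rfl

theorem shsign_mem_mv_apply {g : Equiv.Perm (Pt J)} {S : Finset (Pt J)} {s : Pt J} :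
    g s ∈ mv g S ↔ s ∈ S := by
  rw [mem_mv]
  simp

theorem shsign_prod_mv {M : Type} [CommMonoid M] (g : Equiv.Perm (Pt J)) (S : Finset (Pt J))
    (f : Pt J → M) : ∏ s ∈ mv g S, f s = ∏ s ∈ S, f (g s) := by
  unfold mv
  rw [Finset.prod_map]
  rfl

theorem mv_one (S : Finset (Pt J)) : mv 1 S = S := by
  ext s
  simp [mem_mv]

theorem mv_mul (g h : Equiv.Perm (Pt J)) (S : Finset (Pt J)) : mv (g * h) S = mv g (mv h S) := by
  ext s
  simp [mem_mv]

theorem mv_sdiff (g : Equiv.Perm (Pt J)) (S U : Finset (Pt J)) : mv g (S \ U) = mv g S \ mv g U := by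
  ext s
  simp [mem_mv]

theorem shsign_GS_mem {S : Finset (Pt J)} {g : Equiv.Perm (Pt J)} (hg : g ∈ GS S) (s : Pt J) :
    g s ∈ S ↔ s ∈ S := by
  constructor
  · intro h
    by_contra hs
    rw [hg.2 s hs] at h
    exact hs h
  · intro h
    by_contra hs
    have h1 := g.injective (hg.2 _ hs)
    rw [h1] at hs
    exact hs h

theorem mv_of_GS {S : Finset (Pt J)} {g : Equiv.Perm (Pt J)} (hg : g ∈ GS S) : mv g S = S := by
  ext s
  rw [mem_mv]
  exact shsign_GS_mem ((GS S).inv_mem hg) s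

theorem mv_of_disjoint {S U : Finset (Pt J)} {g : Equiv.Perm (Pt J)} (hg : g ∈ GS S)
    (h : Disjoint S U) : mv g U = U := by
  have hi := (GS S).inv_mem hg
  ext s
  rw [mem_mv]
  by_cases hs : s ∈ S
  · have h1 : g⁻¹ s ∈ S := (shsign_GS_mem hi s).2 hs
    exact iff_of_false (Finset.disjoint_left.1 h h1) (Finset.disjoint_left.1 h hs)
  · rw [hi.2 s hs]

theorem GS_mono {S T : Finset (Pt J)} (h : S ⊆ T) : GS S ≤ GS T := by
  intro g hg
  exact ⟨hg.1, fun s hs => hg.2 s fun h' => hs (h h')⟩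

theorem ty_mv {g : Equiv.Perm (Pt J)} (hg : g ∈ CP J) (S : Finset (Pt J)) : ty (mv g S) = ty S := by
  funext j
  unfold ty mv
  rw [Finset.filter_map, Finset.card_map]
  congr 1
  refine Finset.filter_congr fun s _ => ?_
  have := hg s
  simp only [Function.comp_apply, Equiv.coe_toEmbedding]
  rw [this]

theorem ty_std (d : J → ℕ) : ty (std d) = d := by
  funext j
  unfold ty std
  have : (Finset.filter (fun s : Pt J => s.1 = j)
      (Finset.univ.biUnion fun j => (Finset.range (d j)).image fun i => (j, i)))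
      = (Finset.range (d j)).image fun i => (j, i) := by
    ext ⟨a, b⟩
    simp only [Finset.mem_filter, Finset.mem_biUnion, Finset.mem_univ, Finset.mem_image,
      Finset.mem_range, Prod.mk.injEq, true_and]
    constructor
    · rintro ⟨⟨j', i, hi, rfl, rfl⟩, rfl⟩
      exact ⟨i, hi, rfl, rfl⟩
    · rintro ⟨i, hi, rfl, rfl⟩
      exact ⟨⟨j, i, hi, rfl, rfl⟩, rfl⟩
  rw [this, Finset.card_image_of_injective _ (fun a b h => (Prod.mk.inj h).2), Finset.card_range]

theorem ty_empty : ty (∅ : Finset (Pt J)) = 0 := by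
  funext j
  simp [ty]

theorem ty_eq_zero {S : Finset (Pt J)} : ty S = 0 ↔ S = ∅ := by
  refine ⟨fun h => ?_, fun h => h ▸ ty_empty⟩
  rw [Finset.eq_empty_iff_forall_notMem]
  intro s hs
  have h1 := congrFun h s.1
  simp only [ty, Pi.zero_apply, Finset.card_eq_zero, Finset.filter_eq_empty_iff] at h1
  exact h1 hs rfl

theorem ty_union {U W : Finset (Pt J)} (h : Disjoint U W) : ty (U ∪ W) = ty U + ty W := by
  funext j
  simp only [ty, Pi.add_apply]
  rw [Finset.filter_union, Finset.card_union_of_disjoint (Finset.disjoint_filter_filter h)]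

theorem ty_sdiff {S U : Finset (Pt J)} (h : U ⊆ S) : ty (S \ U) = ty S - ty U := by
  have h1 := ty_union (Finset.sdiff_disjoint (s := U) (t := S))
  rw [Finset.sdiff_union_of_subset h] at h1
  funext j
  have h2 := congrFun h1 j
  simp only [Pi.add_apply, Pi.sub_apply] at h2 ⊢
  omega

theorem ty_le {S U : Finset (Pt J)} (h : U ⊆ S) : ty U ≤ ty S := by
  intro j
  exact Finset.card_le_card (Finset.filter_subset_filter _ h)

theorem exists_subset_ty {S : Finset (Pt J)} {d : J → ℕ} (h : d ≤ ty S) : ∃ U, U ⊆ S ∧ ty U = d := by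
  have h1 : ∀ j, ∃ T : Finset (Pt J), T ⊆ S.filter (fun s => s.1 = j) ∧ T.card = d j := fun j =>
    Finset.exists_subset_card_eq (h j)
  choose T hT hc using h1
  refine ⟨Finset.univ.biUnion T, ?_, ?_⟩
  · intro s hs
    obtain ⟨j, -, hj⟩ := Finset.mem_biUnion.1 hs
    exact (Finset.mem_filter.1 (hT j hj)).1
  · funext j
    rw [← hc j]
    unfold ty
    congr 1
    ext s
    simp only [Finset.mem_filter, Finset.mem_biUnion, Finset.mem_univ, true_and]
    constructor
    · rintro ⟨⟨j', hj'⟩, rfl⟩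
      rw [(Finset.mem_filter.1 (hT j' hj')).2]
      exact hj'
    · intro hs
      exact ⟨⟨j, hs⟩, (Finset.mem_filter.1 (hT j hs)).2⟩

theorem shsign_sum_ty {Λ : Type} [AddCommMonoid Λ] (φ : J → Λ) (S : Finset (Pt J)) :
    ∑ s ∈ S, φ s.1 = ∑ j, ty S j • φ j := by
  rw [← Finset.sum_fiberwise (s := S) (g := fun s : Pt J => s.1)]
  refine Finset.sum_congr rfl fun j _ => ?_
  rw [Finset.sum_congr rfl (g := fun _ => φ j) (fun s hs => by rw [(Finset.mem_filter.1 hs).2]),
    Finset.sum_const]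
  rfl

theorem wt_eq_wd {Λ : Type} [AddCommGroup Λ] (φ : J → Λ) (S : Finset (Pt J)) :
    wt φ S = wd φ (ty S) := by
  exact shsign_sum_ty φ S

theorem aa_ty (a : J → J → ℕ) (U W : Finset (Pt J)) :
    aa a (ty U) (ty W) = ∑ s ∈ U, ∑ t ∈ W, a s.1 t.1 := by
  rw [shsign_sum_ty (fun i => ∑ t ∈ W, a i t.1) U]
  unfold aa
  refine Finset.sum_congr rfl fun i _ => ?_
  rw [shsign_sum_ty (fun j => a i j) W, smul_eq_mul, Finset.mul_sum]
  refine Finset.sum_congr rfl fun j _ => ?_
  rw [smul_eq_mul]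
  ring

theorem aa_add_left (a : J → J → ℕ) (d d' e : J → ℕ) : aa a (d + d') e = aa a d e + aa a d' e := by
  simp only [aa, Pi.add_apply, mul_add, add_mul, Finset.sum_add_distrib]

theorem aa_add_right (a : J → J → ℕ) (d e e' : J → ℕ) : aa a d (e + e') = aa a d e + aa a d e' := by
  simp only [aa, Pi.add_apply, mul_add, Finset.sum_add_distrib]

instance (S : Finset (Pt J)) : Finite (GS S) := by
  refine Finite.of_injective
    (fun (g : GS S) (s : S) => (⟨g.1 s.1, (shsign_GS_mem g.2 s.1).2 s.2⟩ : S)) ?_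
  intro g h hgh
  refine Subtype.ext (Equiv.ext fun s => ?_)
  by_cases hs : s ∈ S
  · exact congrArg Subtype.val (congrFun hgh ⟨s, hs⟩)
  · rw [g.2.2 s hs, h.2.2 s hs]

instance (S : Finset (Pt J)) : Fintype (GS S) := Fintype.ofFinite _

/-- Functions on `S` with fibres of equal size differ by a permutation of `S`. -/
theorem exists_perm_of_fibers {α Y : Type} [DecidableEq α] [DecidableEq Y] (S : Finset α)
    (f f' : α → Y)
    (h : ∀ y, (S.filter fun s => f s = y).card = (S.filter fun s => f' s = y).card) :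
    ∃ g : Equiv.Perm α, (∀ s, s ∉ S → g s = s) ∧ ∀ s ∈ S, f' (g s) = f s := by
  have e : ∀ y, {a : {s // s ∈ S} // f a.1 = y} ≃ {a : {s // s ∈ S} // f' a.1 = y} := fun y =>
    Fintype.equivOfCardEq (by
      rw [Fintype.card_subtype, Fintype.card_subtype, Finset.univ_eq_attach,
        Finset.filter_attach (fun s => f s = y), Finset.filter_attach (fun s => f' s = y),
        Finset.card_map, Finset.card_map, Finset.card_attach, Finset.card_attach, h])
  refine ⟨Equiv.Perm.ofSubtype (p := fun s => s ∈ S) (Equiv.ofFiberEquiv e), fun s hs =>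
    Equiv.Perm.ofSubtype_apply_of_not_mem _ hs, fun s hs => ?_⟩
  rw [Equiv.Perm.ofSubtype_apply_of_mem (p := fun s => s ∈ S) _ hs]
  exact Equiv.ofFiberEquiv_map (f := fun a : {s // s ∈ S} => f a.1)
    (g := fun a : {s // s ∈ S} => f' a.1) e ⟨s, hs⟩

theorem exists_GS_mv {S U U' : Finset (Pt J)} (hU : U ⊆ S) (hU' : U' ⊆ S) (h : ty U = ty U') :
    ∃ g ∈ GS S, mv g U = U' := by
  have key : ∀ {V : Finset (Pt J)}, V ⊆ S → ∀ y : J × Bool,
      (S.filter fun s => (s.1, decide (s ∈ V)) = y).card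
        = if y.2 = true then ty V y.1 else ty (S \ V) y.1 := by
    intro V hV ⟨j, b⟩
    cases b
    · simp only [ty, Bool.false_eq_true, if_false]
      congr 1
      ext s
      simp only [Finset.mem_filter, Prod.mk.injEq, decide_eq_false_iff_not, Finset.mem_sdiff]
      tauto
    · simp only [ty, if_true]
      congr 1
      ext s
      simp only [Finset.mem_filter, Prod.mk.injEq, decide_eq_true_eq]
      have := @hV s
      tauto
  obtain ⟨g, hg1, hg2⟩ := exists_perm_of_fibers S (fun s => (s.1, decide (s ∈ U)))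
    (fun s => (s.1, decide (s ∈ U'))) (fun y => by
      rw [key hU, key hU', ty_sdiff hU, ty_sdiff hU', h])
  have hg : g ∈ GS S := ⟨fun s => by
    by_cases hs : s ∈ S
    · exact (Prod.mk.inj (hg2 s hs)).1
    · rw [hg1 s hs], hg1⟩
  refine ⟨g, hg, ?_⟩
  ext s
  obtain ⟨t, rfl⟩ := g.surjective s
  rw [shsign_mem_mv_apply]
  by_cases ht : t ∈ S
  · exact (decide_eq_decide.1 (Prod.mk.inj (hg2 t ht)).2).symm
  · rw [hg1 t ht]
    exact iff_of_false (fun h' => ht (hU h')) (fun h' => ht (hU' h'))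

/-- A colour-preserving permutation stabilising `S` agrees on `S` with an element of `GS S`. -/
theorem exists_GS_eq {S : Finset (Pt J)} {g : Equiv.Perm (Pt J)} (hg : g ∈ CP J) (h : mv g S = S) :
    ∃ g' ∈ GS S, ∀ s ∈ S, g' s = g s := by
  have h1 : ∀ s, g s ∈ S ↔ s ∈ S := fun s => by
    conv_lhs => rw [← h]
    exact shsign_mem_mv_apply
  have h2 : ∀ s ∈ S, Equiv.Perm.ofSubtype (g.subtypePerm (p := fun s => s ∈ S) h1) s = g s :=
    fun s hs => by
      rw [Equiv.Perm.ofSubtype_apply_of_mem (p := fun s => s ∈ S) _ hs]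
      rfl
  have h3 : ∀ s, s ∉ S → Equiv.Perm.ofSubtype (g.subtypePerm (p := fun s => s ∈ S) h1) s = s :=
    fun s hs => Equiv.Perm.ofSubtype_apply_of_not_mem _ hs
  refine ⟨_, ⟨fun s => ?_, h3⟩, h2⟩
  by_cases hs : s ∈ S
  · rw [h2 s hs]
    exact hg s
  · rw [h3 s hs]

theorem shsign_mem_RS {S : Finset (Pt J)} {f : PR J} : f ∈ RS S ↔ f.vars ⊆ S := by
  unfold RS
  rw [Subalgebra.mem_toSubmodule, mem_supported, Finset.coe_subset]

theorem RS_mono {S T : Finset (Pt J)} (h : S ⊆ T) : RS S ≤ RS T := by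
  intro f hf
  exact shsign_mem_RS.2 ((shsign_mem_RS.1 hf).trans h)

theorem RS_mul {S : Finset (Pt J)} {f h : PR J} (hf : f ∈ RS S) (hh : h ∈ RS S) : f * h ∈ RS S := by
  exact Subalgebra.mul_mem (supported ℚ (S : Set (Pt J))) hf hh

theorem RS_one (S : Finset (Pt J)) : (1 : PR J) ∈ RS S := by
  exact Subalgebra.one_mem (supported ℚ (S : Set (Pt J)))

theorem RS_X {S : Finset (Pt J)} {s : Pt J} (hs : s ∈ S) : (X s : PR J) ∈ RS S := by
  exact (X_mem_supported (R := ℚ) (s := (S : Set (Pt J)))).2 hs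

theorem RS_prod {S : Finset (Pt J)} {ι : Type} {t : Finset ι} {f : ι → PR J}
    (h : ∀ i ∈ t, f i ∈ RS S) : ∏ i ∈ t, f i ∈ RS S := by
  exact Subalgebra.prod_mem (supported ℚ (S : Set (Pt J))) h

theorem RS_graded (S : Finset (Pt J)) : Graded (RS S) := by
  intro f hf n
  rw [shsign_mem_RS] at hf ⊢
  intro i hi
  obtain ⟨d, hd, hi⟩ := (mem_vars_iff_mem_support i).1 hi
  rw [support_homogeneousComponent] at hd
  exact hf ((mem_vars_iff_mem_support i).2 ⟨d, (Finset.mem_filter.1 hd).1, hi⟩)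

theorem RS_rename {S : Finset (Pt J)} {f : PR J} (hf : f ∈ RS S) (g : Equiv.Perm (Pt J)) :
    rename g f ∈ RS (mv g S) := by
  rw [shsign_mem_RS] at hf ⊢
  intro j hj
  obtain ⟨i, hi, rfl⟩ := mem_vars_rename _ _ hj
  exact shsign_mem_mv_apply.2 (hf hi)

theorem rename_congr_RS {S : Finset (Pt J)} {f : PR J} (hf : f ∈ RS S) {g g' : Pt J → Pt J}
    (h : ∀ s ∈ S, g s = g' s) : rename g f = rename g' f := by
  have h1 : Set.EqOn (rename g : PR J →ₐ[ℚ] PR J) (rename g' : PR J →ₐ[ℚ] PR J)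
      (Algebra.adjoin ℚ (X '' (S : Set (Pt J)) : Set (PR J))) := by
    rw [AlgHom.eqOn_adjoin_iff]
    rintro _ ⟨s, hs, rfl⟩
    rw [rename_X, rename_X, h s hs]
  exact h1 hf

/-- Every element of `RS (U ∪ W)` is a sum of products. -/
theorem RS_union_induction {U W : Finset (Pt J)} {P : PR J → Prop} (h0 : P 0)
    (hadd : ∀ f g, P f → P g → P (f + g)) (hmul : ∀ f ∈ RS U, ∀ g ∈ RS W, P (f * g)) :
    ∀ f ∈ RS (U ∪ W), P f := by
  intro f hf
  have h1 : RS (U ∪ W) = RS U * RS W := by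
    unfold RS supported
    rw [Finset.coe_union, Set.image_union, Algebra.adjoin_union_coe_submodule]
  rw [h1] at hf
  exact Submodule.mul_induction_on hf hmul hadd

theorem shsign_sg_sq (s t : Pt J) : D.sg s t * D.sg s t = 1 := by
  unfold Dat.sg
  split_ifs <;> norm_num

theorem shsign_sg_swap {s t : Pt J} (h : s ≠ t) :
    D.sg s t * D.sg t s = if s.1 = t.1 ∧ D.b s.1 = true then -1 else 1 := by
  obtain ⟨i, m⟩ := s
  obtain ⟨j, n⟩ := t
  unfold Dat.sg
  by_cases hij : i = j
  · subst hij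
    have hmn : m ≠ n := fun h' => h (by rw [h'])
    by_cases hb : D.b i = true
    · rcases lt_or_gt_of_ne hmn with h1 | h1
      · simp [hb, h1, h1.le]
      · simp [hb, h1, h1.le]
    · simp [hb]
  · simp [hij, Ne.symm hij]

theorem shsign_sg_of_lt {s t : Pt J} (h : s.2 < t.2) : D.sg s t = 1 := by
  unfold Dat.sg
  rw [if_neg]
  rintro ⟨-, -, h'⟩
  omega

theorem shsign_sg_of_ne {s t : Pt J} (h : s.1 ≠ t.1) : D.sg s t = 1 := by
  unfold Dat.sg
  rw [if_neg]
  exact fun h' => h h'.1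

theorem shsign_sg_symm {g : Equiv.Perm (Pt J)} (hg : g ∈ CP J) {s t : Pt J} (h : s ≠ t) :
    D.sg s t * D.sg (g s) (g t) = D.sg t s * D.sg (g t) (g s) := by
  have h1 := shsign_sg_swap D h
  have h2 := shsign_sg_swap D (g.injective.ne h)
  rw [hg s, hg t, ← h1] at h2
  have h3 := shsign_sg_sq D t s
  have h4 := shsign_sg_sq D (g t) (g s)
  have h5 := shsign_sg_sq D s t
  calc D.sg s t * D.sg (g s) (g t)
      = D.sg s t * (D.sg (g s) (g t) * D.sg (g t) (g s)) * D.sg (g t) (g s) := by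
        linear_combination (-(D.sg s t * D.sg (g s) (g t))) * h4
    _ = D.sg t s * D.sg (g t) (g s) := by
        rw [h2]
        linear_combination (D.sg t s * D.sg (g t) (g s)) * h5

theorem shsign_orient {α : Type} (S : Finset α) (r r' : α → α → Prop) [DecidableRel r]
    [DecidableRel r'] (e : α → α → ℚ)
    (h1 : ∀ s t, (r s t ∧ ¬ r' s t) ↔ (r' t s ∧ ¬ r t s)) (he : ∀ s t, r s t → e s t = e t s) :
    ∏ s ∈ S, ∏ t ∈ S, (if r s t then e s t else 1)
      = ∏ s ∈ S, ∏ t ∈ S, (if r' s t then e s t else 1) := by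
  have a1 : ∏ s ∈ S, ∏ t ∈ S, (if r s t then e s t else 1)
      = (∏ s ∈ S, ∏ t ∈ S, (if r s t ∧ r' s t then e s t else 1))
        * ∏ s ∈ S, ∏ t ∈ S, (if r s t ∧ ¬ r' s t then e s t else 1) := by
    rw [← Finset.prod_mul_distrib]
    refine Finset.prod_congr rfl fun s _ => ?_
    rw [← Finset.prod_mul_distrib]
    refine Finset.prod_congr rfl fun t _ => ?_
    by_cases h : r s t <;> by_cases h' : r' s t <;> simp [h, h']
  have a2 : ∏ s ∈ S, ∏ t ∈ S, (if r' s t then e s t else 1)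
      = (∏ s ∈ S, ∏ t ∈ S, (if r s t ∧ r' s t then e s t else 1))
        * ∏ s ∈ S, ∏ t ∈ S, (if r' s t ∧ ¬ r s t then e s t else 1) := by
    rw [← Finset.prod_mul_distrib]
    refine Finset.prod_congr rfl fun s _ => ?_
    rw [← Finset.prod_mul_distrib]
    refine Finset.prod_congr rfl fun t _ => ?_
    by_cases h : r s t <;> by_cases h' : r' s t <;> simp [h, h']
  rw [a1, a2]
  congr 1
  rw [Finset.prod_comm]
  refine Finset.prod_congr rfl fun t _ => Finset.prod_congr rfl fun s _ => ?_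
  by_cases h : r s t ∧ ¬ r' s t
  · rw [if_pos h, if_pos ((h1 s t).1 h), he s t h.1]
  · rw [if_neg h, if_neg (fun h' => h ((h1 s t).2 h'))]

theorem Dat.sgn_mul_self (U W : Finset (Pt J)) : D.sgn U W * D.sgn U W = 1 := by
  unfold Dat.sgn
  rw [← Finset.prod_mul_distrib]
  refine Finset.prod_eq_one fun s _ => ?_
  rw [← Finset.prod_mul_distrib]
  exact Finset.prod_eq_one fun t _ => shsign_sg_sq D s t

theorem Dat.chi_mul_self (S : Finset (Pt J)) (g : Equiv.Perm (Pt J)) : D.chi S g * D.chi S g = 1 := by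
  unfold Dat.chi
  rw [← Finset.prod_mul_distrib]
  refine Finset.prod_eq_one fun s _ => ?_
  rw [← Finset.prod_mul_distrib]
  refine Finset.prod_eq_one fun t _ => ?_
  split_ifs
  · exact shsign_sg_sq D _ _
  · exact one_mul _

theorem Dat.chi_one (S : Finset (Pt J)) : D.chi S 1 = 1 := by
  unfold Dat.chi
  refine Finset.prod_eq_one fun s _ => Finset.prod_eq_one fun t _ => ?_
  split_ifs with h
  · exact shsign_sg_of_lt D h.2
  · rfl

theorem Dat.chi_congr {S : Finset (Pt J)} {g g' : Equiv.Perm (Pt J)} (h : ∀ s ∈ S, g s = g' s) :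
    D.chi S g = D.chi S g' := by
  unfold Dat.chi
  refine Finset.prod_congr rfl fun s hs => Finset.prod_congr rfl fun t ht => ?_
  rw [h s hs, h t ht]

/-- For distinct particles of the same colour, `sg s t * sg (g s) (g t)` is symmetric in `s, t`;
`chi S g` is its product over unordered pairs. -/
theorem Dat.chi_mul {g h : Equiv.Perm (Pt J)} (hg : g ∈ CP J) (hh : h ∈ CP J) (S : Finset (Pt J)) :
    D.chi S (g * h) = D.chi (mv h S) g * D.chi S h := by
  have a1 := shsign_orient S (fun s t => s.1 = t.1 ∧ s.2 < t.2)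
    (fun s t => (h s).1 = (h t).1 ∧ (h s).2 < (h t).2)
    (fun s t => D.sg (h s) (h t) * D.sg (g (h s)) (g (h t)))
    (fun s t => by
      rw [hh s, hh t]
      by_cases hst : s = t
      · subst hst
        simp
      · by_cases h1 : s.1 = t.1
        · have h2 : s.2 ≠ t.2 := fun h' => hst (Prod.ext h1 h')
          have h3 : (h s).2 ≠ (h t).2 := fun h' =>
            hst (h.injective (Prod.ext (by rw [hh s, hh t, h1]) h'))
          simp only [h1, true_and]
          omega
        · simp [h1, Ne.symm h1])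
    (fun s t hst => shsign_sg_symm D hg (h.injective.ne (by
      rintro rfl
      exact lt_irrefl _ hst.2)))
  have a2 : D.chi (mv h S) g = ∏ s ∈ S, ∏ t ∈ S,
      (if (h s).1 = (h t).1 ∧ (h s).2 < (h t).2 then
        D.sg (h s) (h t) * D.sg (g (h s)) (g (h t)) else 1) := by
    unfold Dat.chi
    rw [shsign_prod_mv]
    refine Finset.prod_congr rfl fun s _ => ?_
    rw [shsign_prod_mv]
    refine Finset.prod_congr rfl fun t _ => ?_
    split_ifs with h1
    · rw [shsign_sg_of_lt D h1.2, one_mul]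
    · rfl
  rw [a2, ← a1]
  unfold Dat.chi
  rw [← Finset.prod_mul_distrib]
  refine Finset.prod_congr rfl fun s _ => ?_
  rw [← Finset.prod_mul_distrib]
  refine Finset.prod_congr rfl fun t _ => ?_
  split_ifs with h1
  · simp only [Equiv.Perm.mul_apply]
    linear_combination (-(D.sg (g (h s)) (g (h t)))) * shsign_sg_sq D (h s) (h t)
  · exact (one_mul _).symm

theorem Dat.chi_union {g : Equiv.Perm (Pt J)} (hg : g ∈ CP J) {U W : Finset (Pt J)}
    (h : Disjoint U W) :
    D.chi (U ∪ W) g = D.chi U g * D.chi W g * (D.sgn U W * D.sgn (mv g U) (mv g W)) := by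
  have a1 : D.sgn U W * D.sgn (mv g U) (mv g W)
      = (∏ s ∈ U, ∏ t ∈ W, if s.1 = t.1 ∧ s.2 < t.2 then D.sg (g s) (g t) else 1)
        * ∏ t ∈ W, ∏ s ∈ U, if t.1 = s.1 ∧ t.2 < s.2 then D.sg (g t) (g s) else 1 := by
    unfold Dat.sgn
    rw [Finset.prod_comm (s := W), shsign_prod_mv, ← Finset.prod_mul_distrib,
      ← Finset.prod_mul_distrib]
    refine Finset.prod_congr rfl fun s hs => ?_
    rw [shsign_prod_mv, ← Finset.prod_mul_distrib, ← Finset.prod_mul_distrib]
    refine Finset.prod_congr rfl fun t ht => ?_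
    have hst : s ≠ t := by
      rintro rfl
      exact Finset.disjoint_left.1 h hs ht
    by_cases h1 : s.1 = t.1
    · have h2 : s.2 ≠ t.2 := fun h' => hst (Prod.ext h1 h')
      rcases lt_or_gt_of_ne h2 with h3 | h3
      · rw [if_pos ⟨h1, h3⟩, if_neg (fun h' => by omega), shsign_sg_of_lt D h3, one_mul, mul_one]
      · rw [if_neg (fun h' => by omega), if_pos ⟨h1.symm, h3⟩, shsign_sg_symm D hg hst,
          shsign_sg_of_lt D h3]
    · rw [if_neg (fun h' => h1 h'.1), if_neg (fun h' => h1 h'.1.symm), shsign_sg_of_ne D h1,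
        shsign_sg_of_ne D (by rw [hg s, hg t]; exact h1)]
  rw [a1]
  unfold Dat.chi
  rw [Finset.prod_union h]
  simp only [Finset.prod_union h, Finset.prod_mul_distrib]
  ring

theorem Dat.sgn_union_left {U U' : Finset (Pt J)} (h : Disjoint U U') (W : Finset (Pt J)) :
    D.sgn (U ∪ U') W = D.sgn U W * D.sgn U' W := by
  unfold Dat.sgn
  rw [Finset.prod_union h]

theorem Dat.sgn_union_right (U : Finset (Pt J)) {W W' : Finset (Pt J)} (h : Disjoint W W') :
    D.sgn U (W ∪ W') = D.sgn U W * D.sgn U W' := by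
  unfold Dat.sgn
  simp only [Finset.prod_union h, Finset.prod_mul_distrib]

theorem Dat.sgn_swap {U W : Finset (Pt J)} (h : Disjoint U W) :
    D.sgn U W * D.sgn W U = (-1) ^ ff D.b (ty U) (ty W) := by
  have a1 : ff D.b (ty U) (ty W)
      = aa (fun i j => if i = j ∧ D.b i = true then 1 else 0) (ty U) (ty W) := by
    unfold ff aa
    refine Finset.sum_congr rfl fun i _ => ?_
    rw [Finset.sum_eq_single i]
    · by_cases hb : D.b i = true <;> simp [hb]
    · intro j _ hj
      simp [Ne.symm hj]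
    · simp
  rw [a1, aa_ty, ← Finset.prod_pow_eq_pow_sum]
  unfold Dat.sgn
  rw [Finset.prod_comm (s := W), ← Finset.prod_mul_distrib]
  refine Finset.prod_congr rfl fun s hs => ?_
  rw [← Finset.prod_pow_eq_pow_sum, ← Finset.prod_mul_distrib]
  refine Finset.prod_congr rfl fun t ht => ?_
  have hst : s ≠ t := by
    rintro rfl
    exact Finset.disjoint_left.1 h hs ht
  rw [shsign_sg_swap D hst]
  split_ifs <;> simp

theorem Dat.act_apply (S : Finset (Pt J)) (g : Equiv.Perm (Pt J)) (f : PR J) :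
    D.act S g f = D.chi S g • rename g f := rfl

theorem Dat.act_mul {g h : Equiv.Perm (Pt J)} (hg : g ∈ CP J) (hh : h ∈ CP J) (S : Finset (Pt J))
    (f : PR J) : D.act S (g * h) f = D.act (mv h S) g (D.act S h f) := by
  rw [D.act_apply, D.act_apply, D.act_apply, map_smul, smul_smul, D.chi_mul hg hh, rename_rename]
  rfl

theorem Dat.act_Inv {g : Equiv.Perm (Pt J)} (hg : g ∈ CP J) {S : Finset (Pt J)} {f : PR J}
    (hf : f ∈ D.Inv S) : D.act S g f ∈ D.Inv (mv g S) := by
  refine ⟨?_, fun k hk => ?_⟩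
  · rw [D.act_apply]
    exact (RS _).smul_mem _ (RS_rename hf.1 g)
  · have h1 : g⁻¹ * k * g ∈ GS S :=
      ⟨(CP J).mul_mem ((CP J).mul_mem ((CP J).inv_mem hg) hk.1) hg, fun s hs => by
        rw [Equiv.Perm.mul_apply, Equiv.Perm.mul_apply,
          hk.2 _ (fun h' => hs (shsign_mem_mv_apply.1 h'))]
        simp⟩
    rw [← D.act_mul hk.1 hg, show k * g = g * (g⁻¹ * k * g) by group, D.act_mul hg h1.1,
      hf.2 _ h1, mv_of_GS h1]

theorem Dat.act_of_stab {g : Equiv.Perm (Pt J)} (hg : g ∈ CP J) {S : Finset (Pt J)}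
    (h : mv g S = S) {f : PR J} (hf : f ∈ D.Inv S) : D.act S g f = f := by
  obtain ⟨g', hg', he⟩ := exists_GS_eq hg h
  have h1 := hf.2 g' hg'
  rw [D.act_apply] at h1 ⊢
  rw [← D.chi_congr he, ← rename_congr_RS hf.1 he, h1]

theorem Dat.Inv_graded (S : Finset (Pt J)) : Graded (D.Inv S) := by
  intro f hf n
  refine ⟨RS_graded S f hf.1 n, fun g hg => ?_⟩
  have h1 := hf.2 g hg
  rw [D.act_apply] at h1 ⊢
  rw [rename_homogeneousComponent, ← map_smul, h1]

theorem Dat.rename_K {g : Equiv.Perm (Pt J)} (hg : g ∈ CP J) (U W : Finset (Pt J)) :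
    rename g (D.K U W) = D.K (mv g U) (mv g W) := by
  unfold Dat.K
  rw [shsign_prod_mv, map_prod]
  refine Finset.prod_congr rfl fun s _ => ?_
  rw [shsign_prod_mv, map_prod]
  refine Finset.prod_congr rfl fun t _ => ?_
  rw [map_pow, map_sub, rename_X, rename_X, hg s, hg t]

theorem Dat.act_Kt {g : Equiv.Perm (Pt J)} (hg : g ∈ CP J) {U W : Finset (Pt J)} (h : Disjoint U W)
    (f f' : PR J) :
    D.act (U ∪ W) g (D.Kt U W * f * f') = D.Kt (mv g U) (mv g W) * D.act U g f * D.act W g f' := by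
  rw [D.act_apply, D.act_apply, D.act_apply, D.chi_union hg h]
  unfold Dat.Kt
  rw [map_mul, map_mul, map_smul, D.rename_K hg]
  simp only [smul_mul_assoc, mul_smul_comm, smul_smul]
  congr 1
  linear_combination (D.chi U g * D.chi W g * D.sgn (mv g U) (mv g W)) * D.sgn_mul_self U W

theorem Dat.K_hom (U W : Finset (Pt J)) : (D.K U W).IsHomogeneous (aa D.a (ty U) (ty W)) := by
  rw [aa_ty]
  unfold Dat.K
  refine IsHomogeneous.prod _ _ _ fun s _ => IsHomogeneous.prod _ _ _ fun t _ => ?_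
  simpa using ((isHomogeneous_X ℚ t).sub (isHomogeneous_X ℚ s)).pow (D.a s.1 t.1)

theorem Dat.K_mem {S U W : Finset (Pt J)} (hU : U ⊆ S) (hW : W ⊆ S) : D.K U W ∈ RS S := by
  unfold Dat.K
  refine RS_prod fun s hs => RS_prod fun t ht => ?_
  exact Subalgebra.pow_mem (supported ℚ (S : Set (Pt J)))
    ((RS S).sub_mem (RS_X (hW ht)) (RS_X (hU hs))) _

theorem Dat.K_dvd {U U' W W' : Finset (Pt J)} (hU : U ⊆ U') (hW : W ⊆ W') : D.K U W ∣ D.K U' W' := by
  unfold Dat.K
  refine (Finset.prod_dvd_prod_of_dvd _ _ fun s _ => ?_).trans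
    (Finset.prod_dvd_prod_of_subset _ _ _ hU)
  exact Finset.prod_dvd_prod_of_subset _ _ _ hW

theorem Dat.K_union_left {U U' : Finset (Pt J)} (h : Disjoint U U') (W : Finset (Pt J)) :
    D.K (U ∪ U') W = D.K U W * D.K U' W := by
  unfold Dat.K
  rw [Finset.prod_union h]

theorem Dat.K_union_right (U : Finset (Pt J)) {W W' : Finset (Pt J)} (h : Disjoint W W') :
    D.K U (W ∪ W') = D.K U W * D.K U W' := by
  unfold Dat.K
  simp only [Finset.prod_union h, Finset.prod_mul_distrib]

theorem Dat.K_empty_left (W : Finset (Pt J)) : D.K ∅ W = 1 := by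
  simp [Dat.K]

theorem Dat.K_empty_right (U : Finset (Pt J)) : D.K U ∅ = 1 := by
  simp [Dat.K]

/-- The representation of `GS S`. -/
def Dat.rep (S : Finset (Pt J)) : Representation ℚ (GS S) (PR J) where
  toFun g := D.act S g.1
  map_one' := by
    refine LinearMap.ext fun f => ?_
    change D.act S 1 f = f
    rw [D.act_apply, D.chi_one, one_smul]
    exact rename_id_apply f
  map_mul' := by
    intro g h
    refine LinearMap.ext fun f => ?_
    have := D.act_mul g.2.1 h.2.1 S f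
    rw [mv_of_GS h.2] at this
    exact this

theorem Dat.rep_apply (S : Finset (Pt J)) (g : GS S) (f : PR J) : D.rep S g f = D.act S g.1 f := rfl

/-- Averaging over `GS S`. -/
def Dat.Av (S : Finset (Pt J)) : PR J →ₗ[ℚ] PR J :=
  (Fintype.card (GS S) : ℚ)⁻¹ • ∑ g : GS S, D.rep S g

theorem shsign_Av_apply (S : Finset (Pt J)) (f : PR J) :
    D.Av S f = (Fintype.card (GS S) : ℚ)⁻¹ • ∑ g : GS S, D.act S g.1 f := by
  unfold Dat.Av
  rw [LinearMap.smul_apply, LinearMap.sum_apply]
  rfl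

theorem Dat.Av_mem {S : Finset (Pt J)} {f : PR J} (hf : f ∈ RS S) : D.Av S f ∈ D.Inv S := by
  refine ⟨?_, fun k hk => ?_⟩
  · rw [shsign_Av_apply]
    refine (RS S).smul_mem _ (Submodule.sum_mem _ fun g _ => ?_)
    rw [D.act_apply]
    refine (RS S).smul_mem _ ?_
    have := RS_rename hf g.1
    rwa [mv_of_GS g.2] at this
  · rw [shsign_Av_apply, map_smul, map_sum]
    congr 1
    rw [← Equiv.sum_comp (Equiv.mulLeft (⟨k, hk⟩ : GS S)) (fun g : GS S => D.act S g.1 f)]
    refine Finset.sum_congr rfl fun g _ => ?_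
    have := D.act_mul hk.1 g.2.1 S f
    rw [mv_of_GS g.2] at this
    exact this.symm

theorem Dat.Av_eq {S : Finset (Pt J)} {f : PR J} (hf : ∀ g ∈ GS S, D.act S g f = f) :
    D.Av S f = f := by
  rw [shsign_Av_apply, Finset.sum_congr rfl (g := fun _ => f) (fun g _ => hf g.1 g.2),
    Finset.sum_const, Finset.card_univ, ← Nat.cast_smul_eq_nsmul ℚ, smul_smul,
    inv_mul_cancel₀ (Nat.cast_ne_zero.2 Fintype.card_ne_zero), one_smul]

theorem shsign_Av_stable {S : Finset (Pt J)} {V : Submodule ℚ (PR J)}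
    (hV : ∀ g ∈ GS S, ∀ f ∈ V, rename g f ∈ V) {f : PR J} (hf : f ∈ V) : D.Av S f ∈ V := by
  rw [shsign_Av_apply]
  refine V.smul_mem _ (Submodule.sum_mem _ fun g _ => ?_)
  rw [D.act_apply]
  exact V.smul_mem _ (hV g.1 g.2 f hf)

theorem Dat.Av_hom {S : Finset (Pt J)} {f : PR J} {n : ℕ} (hf : f.IsHomogeneous n) :
    (D.Av S f).IsHomogeneous n := by
  refine (mem_homogeneousSubmodule n _).1 (shsign_Av_stable D (fun g _ f hf => ?_) hf)
  exact IsHomogeneous.rename_isHomogeneous hf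

theorem Dat.Av_mem_of_stable {S : Finset (Pt J)} {V : Submodule ℚ (PR J)}
    (hV : ∀ g ∈ GS S, ∀ f ∈ V, rename g f ∈ V) {f : PR J} (hf : f ∈ V) : D.Av S f ∈ V := by
  exact shsign_Av_stable D hV hf

theorem Dat.Av_mul_right {U W : Finset (Pt J)} (h : Disjoint U W) (f : PR J) {f' : PR J}
    (hf' : f' ∈ RS W) : D.Av U (f * f') = D.Av U f * f' := by
  rw [shsign_Av_apply, shsign_Av_apply, smul_mul_assoc, Finset.sum_mul]
  congr 1
  refine Finset.sum_congr rfl fun g _ => ?_
  rw [D.act_apply, D.act_apply, map_mul, smul_mul_assoc,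
    rename_congr_RS hf' (g' := id) (fun s hs => g.2.2 s (Finset.disjoint_right.1 h hs)),
    rename_id_apply]

end

end Crest.Agent.R59
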