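import Crest.Agent.R59.Theta
import Crest.Agent.R59.Mut

/-!
# R59/St: unit interval configurations in the quantum torus; the Baxter sweep

`W` is a finite set of vertices in a linear order, `U p ∈ N` the exponent of the vertex `p`; `p < q` are
adjacent iff `ω (U p) (U q) = 1`.  The seed consists of the differences of consecutive vertices and
`HH W U k` is the sum of the monomials of the stable `k`-sets.
-/

set_option autoImplicit false
set_option linter.unusedSectionVars false
set_option linter.unusedVariables false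

namespace Crest.Agent.R59

noncomputable section

variable {N : Type} [AddCommGroup N] [Alt N] {V : Type} [LinearOrder V]

/-- `q` is the successor of `p` in `W`. -/
def Cov (W : Finset V) (p q : V) : Prop := p ∈ W ∧ q ∈ W ∧ p < q ∧ ∀ r ∈ W, ¬(p < r ∧ r < q)

open Classical in
/-- The seed of a configuration. -/
def sd (W : Finset V) (U : V → N) : Finset N :=
  ((W ×ˢ W).filter fun x => Cov W x.1 x.2).image fun x => U x.2 - U x.1

theorem mem_sd {W : Finset V} {U : V → N} {e : N} :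
    e ∈ sd W U ↔ ∃ p q, Cov W p q ∧ e = U q - U p := by
  simp only [sd, Finset.mem_image, Finset.mem_filter, Finset.mem_product, Prod.exists]
  exact ⟨fun ⟨p, q, h, e⟩ => ⟨p, q, h.2, e.symm⟩,
    fun ⟨p, q, h, e⟩ => ⟨p, q, ⟨⟨h.1, h.2.1⟩, h⟩, e.symm⟩⟩

/-- Stable sets. -/
def Stb (U : V → N) (S : Finset V) : Prop := ∀ p ∈ S, ∀ q ∈ S, ω (U p) (U q) = 0

open Classical in
/-- The stable `k`-subsets. -/
def stb (W : Finset V) (U : V → N) (k : ℕ) : Finset (Finset V) := (W.powersetCard k).filter (Stb U)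

/-- The Hamiltonians. -/
def HH (W : Finset V) (U : V → N) (k : ℕ) : A (⊥ : AddSubmonoid N) :=
  ∑ S ∈ stb W U k, z ⊥ (∑ p ∈ S, U p)

/-- Products of Hamiltonians. -/
def FH (W : Finset V) (U : V → N) (α : List ℕ) : A (⊥ : AddSubmonoid N) := (α.map (HH W U)).prod

/-- Connected unit interval configurations. -/
structure Chain (W : Finset V) (U : V → N) : Prop where
  om : ∀ p ∈ W, ∀ q ∈ W, p < q → ω (U p) (U q) = 0 ∨ ω (U p) (U q) = 1
  int : ∀ p ∈ W, ∀ q ∈ W, ∀ r ∈ W, p < q → q < r → ω (U p) (U r) = 1 →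
    ω (U p) (U q) = 1 ∧ ω (U q) (U r) = 1
  cov : ∀ p q, Cov W p q → ω (U p) (U q) = 1

theorem sub_mem_cone {W : Finset V} (U : V → N) {p q : V} (hp : p ∈ W) (hq : q ∈ W) (h : p ≤ q) :
    U q - U p ∈ cone (sd W U) := by
  have key : ∀ n : ℕ, ∀ p ∈ W, ∀ q ∈ W, p < q → (W.filter fun r => p < r ∧ r < q).card < n →
      U q - U p ∈ cone (sd W U) := by
    intro n
    induction n with
    | zero => intro _ _ _ _ _ h; omega
    | succ n ih =>
      intro p hp q hq h hn
      by_cases hc : ∃ r ∈ W, p < r ∧ r < q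
      · obtain ⟨r, hr, h1, h2⟩ := hc
        have a : ∀ t : Finset V, t ⊆ W.filter (fun r => p < r ∧ r < q) → r ∉ t → t.card < n :=
          fun t ht hr' => lt_of_lt_of_le (Finset.card_lt_card ((Finset.ssubset_iff_of_subset ht).2
            ⟨r, Finset.mem_filter.2 ⟨hr, h1, h2⟩, hr'⟩)) (Nat.lt_succ_iff.1 hn)
        have a1 := ih p hp r hr h1 (a _ (Finset.monotone_filter_right W fun _ _ h =>
          ⟨h.1, h.2.trans h2⟩) (by simp))
        have a2 := ih r hr q hq h2 (a _ (Finset.monotone_filter_right W fun _ _ h =>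
          ⟨h1.trans h.1, h.2⟩) (by simp))
        simpa using add_mem a2 a1
      · exact mem_cone_of_mem (mem_sd.2 ⟨p, q, ⟨hp, hq, h, fun r hr h' => hc ⟨r, hr, h'⟩⟩, rfl⟩)
  rcases h.eq_or_lt with rfl | h
  · rw [sub_self]
    exact zero_mem _
  · exact key _ p hp q hq h (Nat.lt_succ_self _)

theorem st_mem_stb {W S : Finset V} {U : V → N} {k : ℕ} :
    S ∈ stb W U k ↔ (S ⊆ W ∧ S.card = k) ∧ Stb U S := by
  simp only [stb, Finset.mem_filter, Finset.mem_powersetCard]

theorem st_zf_ne {p r : N} (h : zf p r ≠ 0) : r = p := by_contra fun h' => h (zf_of_ne h')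

theorem st_cons (W : Finset V) (U : V → N) (k : ℕ) (α : List ℕ) :
    FH W U (k :: α) = HH W U k * FH W U α := by
  rw [FH, List.map_cons, List.prod_cons, FH]

theorem FH_supp {W : Finset V} (U : V → N) {p0 : V} (hp : p0 ∈ W) (hmin : ∀ p ∈ W, p0 ≤ p)
    (α : List ℕ) : SuppIn {r | r - α.sum • U p0 ∈ cone (sd W U)} (FH W U α) := by
  induction α with
  | nil =>
    intro r hr
    simp [st_zf_ne hr]
  | cons k α ih =>
    rw [st_cons]
    refine SuppIn.mul (S := {r | r - k • U p0 ∈ cone (sd W U)}) (fun r hr => ?_) ih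
      fun a ha b hb => ?_
    · rw [HH, A.sum_apply] at hr
      obtain ⟨S, hS, h⟩ := Finset.exists_ne_zero_of_sum_ne_zero hr
      obtain ⟨⟨h1, rfl⟩, -⟩ := st_mem_stb.1 hS
      rw [Set.mem_ofPred_eq, st_zf_ne h, ← Finset.sum_const, ← Finset.sum_sub_distrib]
      exact sum_mem fun p hp' => sub_mem_cone U hp (h1 hp') (hmin p (h1 hp'))
    · have := (cone (sd W U)).add_mem ha hb
      rw [Set.mem_ofPred_eq, List.sum_cons, add_nsmul]
      rwa [← add_sub_add_comm] at this

theorem FH_nil (W : Finset V) (U : V → N) : FH W U [] = 1 := rfl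

theorem FH_cons_apply (W : Finset V) (U : V → N) (k : ℕ) (α : List ℕ) (r : N) :
    FH W U (k :: α) r =
      ∑ S ∈ stb W U k, vp (ω (∑ p ∈ S, U p) r) * FH W U α (r - ∑ p ∈ S, U p) := by
  rw [st_cons, HH, Finset.sum_mul, A.sum_apply]
  exact Finset.sum_congr rfl fun S _ => zf_tmul _ _ _

/-- The support consists of sums of `α.sum` vertex exponents. -/
theorem FH_ne_zero {W : Finset V} {U : V → N} {α : List ℕ} {r : N} (h : FH W U α r ≠ 0) :
    ∃ c : V → ℕ, ∑ p ∈ W, c p = α.sum ∧ r = ∑ p ∈ W, c p • U p := by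
  induction α generalizing r with
  | nil => exact ⟨0, by simp, by simp [st_zf_ne h]⟩
  | cons k α ih =>
    rw [FH_cons_apply] at h
    obtain ⟨S, hS, h1⟩ := Finset.exists_ne_zero_of_sum_ne_zero h
    obtain ⟨c, h2, h3⟩ := ih (right_ne_zero_of_mul h1)
    obtain ⟨⟨h4, rfl⟩, -⟩ := st_mem_stb.1 hS
    refine ⟨fun p => c p + if p ∈ S then 1 else 0, ?_, ?_⟩
    · rw [Finset.sum_add_distrib, h2, Finset.sum_ite_mem, Finset.inter_eq_right.2 h4,
        List.sum_cons, add_comm, Finset.card_eq_sum_ones]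
    · simp only [add_nsmul, ite_smul, one_nsmul, zero_nsmul, Finset.sum_add_distrib, ← h3]
      rw [Finset.sum_ite_mem, Finset.inter_eq_right.2 h4, sub_add_cancel]

/-- Data of the framing: a central direction `x` and a framing vector `f`. -/
structure Fram (W : Finset V) (U : V → N) (x f : N) (dx : N →+ ℤ) : Prop where
  cen : ∀ a, ω x a = 0
  fr : ∀ p ∈ W, ω (U p) f = 1
  dx1 : dx x = 1
  dxU : ∀ p ∈ W, dx (U p) = 0
  dxf : dx f = 0

open Classical in
/-- The framed generating function over the stable subsets of `{p ≤ a}`. -/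
def FS (W : Finset V) (U : V → N) (x f : N) (T : Finset V) : A (⊥ : AddSubmonoid N) :=
  ∑ S ∈ T.powerset.filter (Stb U), z ⊥ (f + ∑ p ∈ S, (x + U p))

theorem Fram.st_cen {W : Finset V} {U : V → N} {x f : N} {dx : N →+ ℤ} (hf : Fram W U x f dx)
    (a : N) : ω a x = 0 := by
  rw [ω_swap, hf.cen, neg_zero]

theorem Fram.st_dx {W : Finset V} {U : V → N} {x f : N} {dx : N →+ ℤ} (hf : Fram W U x f dx)
    {a : V} (ha : a ∈ W) : dx (x + U a) = 1 := by
  rw [map_add, hf.dx1, hf.dxU a ha, add_zero]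

theorem st_fin_z (M : AddSubmonoid N) [Good M] (p : N) : fin M (z ⊥ p) = z M p := rfl

/-- One step: a stable subset of `T` contains at most one neighbour of `a`
(`psi_conj_one`, `psi_conj_zero`). -/
theorem FS_step {W : Finset V} {U : V → N} (hc : Chain W U) {x f : N} {dx : N →+ ℤ}
    (hf : Fram W U x f dx) {T : Finset V} (hT : T ⊆ W) {a : V} (ha : a ∈ W) (hlt : ∀ p ∈ T, p < a)
    {M : AddSubmonoid N} [Good M] (hM : x + U a ∈ M) :
    fin M (FS W U x f T) * (Psi M (x + U a)).1 =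
      (Psi M (x + U a)).1 * fin M (FS W U x f (insert a T)) := by
  classical
  have haT : a ∉ T := fun h => lt_irrefl _ (hlt a h)
  have h0 : x + U a ≠ 0 := fun h => by
    have := hf.st_dx ha
    rw [h, map_zero] at this
    exact zero_ne_one this
  rw [FS, FS, Finset.sum_filter, Finset.sum_filter, Finset.sum_powerset_insert haT,
    ← Finset.sum_add_distrib, map_sum, map_sum, Finset.sum_mul, Finset.mul_sum]
  refine Finset.sum_congr rfl fun S hS => ?_
  have hST := Finset.mem_powerset.1 hS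
  have hω : ω (x + U a) (f + ∑ p ∈ S, (x + U p)) = 1 - ∑ p ∈ S, ω (U p) (U a) := by
    simp only [map_add, AddMonoidHom.add_apply, hf.cen, zero_add, map_sum, hf.fr a ha, hf.st_cen,
      ω_swap (U a) (U _), Finset.sum_neg_distrib, sub_eq_add_neg]
  by_cases h1 : Stb U S
  · by_cases h2 : ∀ p ∈ S, ω (U p) (U a) = 0
    · have h3 : Stb U (insert a S) := by
        intro p hp q hq
        rcases Finset.mem_insert.1 hp with rfl | hp' <;> rcases Finset.mem_insert.1 hq with rfl | hq'
        · exact ω_self _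
        · rw [ω_swap, h2 q hq', neg_zero]
        · exact h2 p hp'
        · exact h1 p hp' q hq'
      rw [Finset.sum_eq_zero h2, sub_zero] at hω
      rw [if_pos h1, if_pos h3, map_add, st_fin_z, st_fin_z, psi_conj_one hM h0 hω,
        Finset.sum_insert fun h => haT (hST h), add_comm (x + U a), add_assoc]
    · have h3 : ¬Stb U (insert a S) := fun h => h2 fun p hp =>
        h p (Finset.mem_insert_of_mem hp) a (Finset.mem_insert_self _ _)
      push Not at h2
      obtain ⟨p, hp, h2⟩ := h2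
      have h4 : ∀ q ∈ S, ω (U q) (U a) ≠ 0 → ω (U q) (U a) = 1 := fun q hq =>
        (hc.om q (hT (hST hq)) a ha (hlt q (hST hq))).resolve_left
      have h5 : ∀ p ∈ S, ∀ q ∈ S, p < q → ω (U p) (U a) ≠ 0 → False := fun p hp q hq hpq h => by
        have := (hc.int p (hT (hST hp)) q (hT (hST hq)) a ha hpq (hlt q (hST hq)) (h4 p hp h)).1
        rw [h1 p hp q hq] at this
        exact zero_ne_one this
      rw [Finset.sum_eq_single_of_mem p hp fun q hq hne => by_contra fun h =>
        hne.lt_or_gt.elim (fun h' => h5 q hq p hp h' h) fun h' => h5 p hp q hq h' h2,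
        h4 p hp h2, sub_self] at hω
      rw [if_pos h1, if_neg h3, add_zero, st_fin_z, psi_conj_zero hω]
  · have h3 : ¬Stb U (insert a S) := fun h => h1 fun p hp q hq =>
      h p (Finset.mem_insert_of_mem hp) q (Finset.mem_insert_of_mem hq)
    rw [if_neg h1, if_neg h3, add_zero, map_zero, zero_mul, mul_zero]

/-- The seed after sweeping the initial segment `T`. -/
def StSd (W : Finset V) (U : V → N) (x : N) (T : Finset V) (e : N) : Prop :=
  (∃ p q, Cov W p q ∧ ¬(p ∈ T ∧ q ∉ T) ∧ e = U q - U p) ∨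
    (∃ a ∈ T, (∀ p ∈ T, p ≤ a) ∧ e = -(x + U a)) ∨
    ∃ b ∈ W, b ∉ T ∧ (∀ p ∈ W, p ∉ T → b ≤ p) ∧ e = x + U b

section mu
variable {W : Finset V} {U : V → N} {x f : N} {dx : N →+ ℤ}

theorem st_om1 (hc : Chain W U) (hf : Fram W U x f dx) {a q : V} (h : Cov W a q) :
    U q - U a + (ω (x + U a) (U q - U a)).toNat • (x + U a) = x + U q := by
  have : ω (x + U a) (U q - U a) = 1 := by
    simp only [map_add, map_sub, AddMonoidHom.add_apply, hf.cen, zero_add, ω_self, sub_zero,
      hc.cov a q h]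
  rw [this, Int.toNat_one, one_nsmul]
  abel

theorem st_om2 (hc : Chain W U) (hf : Fram W U x f dx) {a p q : V} (ha : a ∈ W) (h : Cov W p q)
    (h1 : p ≠ a) (h2 : q ≠ a) :
    U q - U p + (ω (x + U a) (U q - U p)).toNat • (x + U a) = U q - U p := by
  have : ω (x + U a) (U q - U p) ≤ 0 := by
    simp only [map_add, map_sub, AddMonoidHom.add_apply, hf.cen, zero_add]
    rcases h1.lt_or_gt with h3 | h3
    · have h4 : q < a := lt_of_le_of_ne (not_lt.1 fun h' => h.2.2.2 a ha ⟨h3, h'⟩) h2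
      have a1 := hc.om p h.1 a ha h3
      have a2 := hc.om q h.2.1 a ha h4
      have a3 := fun h' => (hc.int p h.1 q h.2.1 a ha h.2.2.1 h4 h').2
      rw [ω_swap (U a), ω_swap (U a)]
      omega
    · have a1 := hc.om a ha p h.1 h3
      have a2 := hc.om a ha q h.2.1 (h3.trans h.2.2.1)
      have a3 := fun h' => (hc.int a ha p h.1 q h.2.1 h3 h.2.2.1 h').1
      omega
  rw [Int.toNat_of_nonpos this, zero_nsmul, add_zero]

theorem st_om3 (hc : Chain W U) (hf : Fram W U x f dx) {a p : V} (h : Cov W p a) :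
    -(x + U p) + (ω (x + U a) (-(x + U p))).toNat • (x + U a) = U a - U p := by
  have : ω (x + U a) (-(x + U p)) = 1 := by
    simp only [map_add, map_neg, AddMonoidHom.add_apply, hf.cen, hf.st_cen, zero_add,
      ω_swap (U a) (U p), neg_neg, hc.cov p a h]
  rw [this, Int.toNat_one, one_nsmul]
  abel

theorem st_mu (hc : Chain W U) (hf : Fram W U x f dx) {T : Finset V} {a : V} (ha : a ∈ W)
    (hT : T ⊆ W) (hlt : ∀ p ∈ T, p < a) (hin : ∀ p ∈ W, p < a → p ∈ T) {s : Finset N}
    (hs : ∀ e, e ∈ s ↔ StSd W U x T e) (e : N) :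
    e ∈ mu s (x + U a) ↔ StSd W U x (insert a T) e := by
  have haT : a ∉ T := fun h => lt_irrefl _ (hlt a h)
  have hm : ∀ p ∈ W, p ∈ insert a T ↔ p ≤ a := fun p hp => by
    rw [Finset.mem_insert, le_iff_eq_or_lt]
    exact or_congr_right ⟨hlt p, hin p hp⟩
  have hne : ∀ p q, Cov W p q → U q - U p ≠ x + U a := fun p q h h' => by
    have := congrArg dx h'
    rw [hf.st_dx ha, map_sub, hf.dxU p h.1, hf.dxU q h.2.1] at this
    omega
  rw [mem_mu]
  constructor
  · rintro (rfl | ⟨e', he', hk, rfl⟩)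
    · exact Or.inr (Or.inl ⟨a, Finset.mem_insert_self _ _,
        fun p hp => (hm p (Finset.insert_subset ha hT hp)).1 hp, rfl⟩)
    rcases (hs e').1 he' with ⟨p, q, h, h1, rfl⟩ | ⟨p, hp, h1, rfl⟩ | ⟨b, hb, h1, h2, rfl⟩
    · by_cases hpa : p = a
      · subst hpa
        refine Or.inr (Or.inr ⟨q, h.2.1, fun h' => ((hm q h.2.1).1 h').not_gt h.2.2.1,
          fun r hr hr' => not_lt.1 fun h' => h.2.2.2 r hr ⟨?_, h'⟩, st_om1 hc hf h⟩)
        exact not_le.1 fun h'' => hr' ((hm r hr).2 h'')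
      · refine Or.inl ⟨p, q, h, fun h' => h1 ⟨(Finset.mem_insert.1 h'.1).resolve_left hpa,
          fun h'' => h'.2 (Finset.mem_insert_of_mem h'')⟩, st_om2 hc hf ha h hpa ?_⟩
        rintro rfl
        exact h1 ⟨hin p h.1 h.2.2.1, haT⟩
    · have h : Cov W p a := ⟨hT hp, ha, hlt p hp,
        fun r hr h' => (h1 r (hin r hr h'.2)).not_gt h'.1⟩
      exact Or.inl ⟨p, a, h, fun h' => h'.2 (Finset.mem_insert_self _ _), st_om3 hc hf h⟩
    · exact absurd (by rw [le_antisymm (h2 a ha haT) (not_lt.1 fun h => h1 (hin b hb h))]) hk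
  · rintro (⟨p, q, h, h1, rfl⟩ | ⟨p, hp, h1, rfl⟩ | ⟨b, hb, h1, h2, rfl⟩)
    · have hpa : p ≠ a := by
        rintro rfl
        exact h1 ⟨Finset.mem_insert_self _ _, fun h' => ((hm q h.2.1).1 h').not_gt h.2.2.1⟩
      by_cases hqa : q = a
      · subst hqa
        refine Or.inr ⟨-(x + U p), (hs _).2 (Or.inr (Or.inl ⟨p, hin p h.1 h.2.2.1, fun r hr =>
          not_lt.1 fun h' => h.2.2.2 r (hT hr) ⟨h', hlt r hr⟩, rfl⟩)), fun h' => ?_,
          (st_om3 hc hf h).symm⟩
        have := congrArg dx h'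
        rw [map_neg, hf.st_dx ha, hf.st_dx h.1] at this
        omega
      · exact Or.inr ⟨_, (hs _).2 (Or.inl ⟨p, q, h, fun h' => h1 ⟨Finset.mem_insert_of_mem h'.1,
          fun h'' => (Finset.mem_insert.1 h'').elim hqa h'.2⟩, rfl⟩), hne p q h,
          (st_om2 hc hf ha h hpa hqa).symm⟩
    · exact Or.inl (by rw [le_antisymm ((hm p (Finset.insert_subset ha hT hp)).1 hp)
        (h1 a (Finset.mem_insert_self _ _))])
    · have h : Cov W a b := ⟨ha, hb, not_le.1 fun h' => h1 ((hm b hb).2 h'),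
        fun r hr h' => (h2 r hr fun h'' => ((hm r hr).1 h'').not_gt h'.1).not_gt h'.2⟩
      exact Or.inr ⟨_, (hs _).2 (Or.inl ⟨a, b, h, fun h' => haT h'.1, rfl⟩), hne a b h,
        (st_om1 hc hf h).symm⟩

end mu

open Classical in
/-- The sweep.  Put `w a = x + U a`.  After mutating at `w p` for all `p ≤ a` the seed is
`{U q - U p | Cov p q, p ≠ a} ∪ {-w a} ∪ {w q | Cov a q}`.  Induct along `W` with `mut_chart`,
`IsSeed.mu`, `FS_step`; at the end `σ` is positive on the seed (`chart_pos`). -/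
theorem sweep {W : Finset V} {U : V → N} (hc : Chain W U) {x f : N} {dx : N →+ ℤ}
    (hf : Fram W U x f dx) {p0 : V} (hp : p0 ∈ W) (hmin : ∀ p ∈ W, p0 ≤ p)
    [IsSeed (insert (x + U p0) (sd W U))] {σ : Stab N} (h1 : ∀ p ∈ W, σ.s (x + U p) = -1)
    (h2 : ∀ e ∈ sd W U, σ.s e = 1) (r : N) :
    chart (insert (x + U p0) (sd W U)) σ (z _ f) r = FS W U x f W r := by
  have key : ∀ T : Finset V, T ⊆ W → (∀ p ∈ T, ∀ q ∈ W, q < p → q ∈ T) →
      ∃ (s : Finset N) (_ : IsSeed s), (∀ e, e ∈ s ↔ StSd W U x T e) ∧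
        chart (insert (x + U p0) (sd W U)) σ (z _ f) r = chart s σ (fin _ (FS W U x f T)) r := by
    intro T
    induction T using Finset.induction_on_max with
    | empty =>
      refine fun _ _ => ⟨insert (x + U p0) (sd W U), inferInstance, fun e => ?_, ?_⟩
      · rw [Finset.mem_insert, mem_sd, or_comm, StSd]
        refine or_congr (by simp) ⟨fun h => Or.inr ⟨p0, hp, by simp, fun p hp _ => hmin p hp, h⟩, ?_⟩
        rintro (⟨a, ha, -⟩ | ⟨b, hb, -, h, rfl⟩)
        · simp at ha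
        · rw [le_antisymm (h p0 hp (by simp)) (hmin b hb)]
      · have : FS W U x f ∅ = z ⊥ f := by
          rw [FS, Finset.powerset_empty, Finset.filter_singleton, if_pos (by simp [Stb])]
          simp
        rw [this, st_fin_z]
    | insert a T hlt ih =>
      intro hT hin
      have ha : a ∈ W := hT (Finset.mem_insert_self _ _)
      have hT' : T ⊆ W := (Finset.subset_insert _ _).trans hT
      have hin' : ∀ p ∈ W, p < a → p ∈ T := fun p hp h =>
        (Finset.mem_insert.1 (hin a (Finset.mem_insert_self _ _) p hp h)).resolve_left h.ne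
      obtain ⟨s, _, hs, e⟩ := ih hT' fun p hp q hq h => hin' q hq (h.trans (hlt p hp))
      have hk : x + U a ∈ s := (hs _).2 (Or.inr (Or.inr ⟨a, ha, fun h => lt_irrefl _ (hlt a h),
        fun p hp h => not_lt.1 fun h' => h (hin' p hp h'), rfl⟩))
      have := IsSeed.mu hk
      exact ⟨mu s (x + U a), this, st_mu hc hf ha hT' hlt hin' hs, e.trans
        (mut_chart hk rfl (h1 a ha) (FS_step hc hf hT' ha hlt (mem_cone_of_mem hk)) r)⟩
  obtain ⟨s, _, hs, e⟩ := key W le_rfl fun _ _ q hq _ => hq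
  rw [e, chart_pos fun e he => ?_]
  · rfl
  rcases (hs e).1 he with ⟨p, q, h, -, rfl⟩ | ⟨a, ha, -, rfl⟩ | ⟨b, hb, h, -⟩
  · exact h2 _ (mem_sd.2 ⟨p, q, h, rfl⟩)
  · rw [σ.neg, h1 a ha, neg_neg]
  · exact absurd hb h

section pos
variable {W : Finset V} {U : V → N} {x f : N} {dx : N →+ ℤ}

theorem st_cone_zero {ψ : N →+ ℤ} (h : ∀ p ∈ W, ∀ q ∈ W, ψ (U p) = ψ (U q)) {a : N}
    (ha : a ∈ cone (sd W U)) : ψ a = 0 := by
  refine AddSubmonoid.closure_le.2 (fun e he => ?_ : _ ⊆ (AddMonoidHom.mker ψ : Set N)) ha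
  obtain ⟨p, q, h1, rfl⟩ := mem_sd.1 he
  exact (map_sub ψ _ _).trans (sub_eq_zero.2 (h q h1.2.1 p h1.1))

theorem Fram.st_dx0 (hf : Fram W U x f dx) {a : N} (ha : a ∈ cone (sd W U)) : dx a = 0 :=
  st_cone_zero (fun p hp q hq => by rw [hf.dxU p hp, hf.dxU q hq]) ha

open Classical in
theorem Fram.st_face (hf : Fram W U x f dx) {p0 : V} (hp : p0 ∈ W) {a : N}
    (ha : a ∈ cone (insert (x + U p0) (sd W U))) :
    0 ≤ dx a ∧ (dx a = 0 → a ∈ cone (sd W U)) := by
  induction ha using AddSubmonoid.closure_induction with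
  | mem e he =>
    rcases Finset.mem_insert.1 he with rfl | he
    · rw [hf.st_dx hp]
      exact ⟨zero_le_one, fun h => absurd h one_ne_zero⟩
    · exact ⟨(hf.st_dx0 (mem_cone_of_mem he)).ge, fun _ => mem_cone_of_mem he⟩
  | zero => exact ⟨(map_zero dx).ge, fun _ => zero_mem _⟩
  | add a b _ _ ha hb =>
    rw [map_add]
    exact ⟨add_nonneg ha.1 hb.1, fun h => add_mem (ha.2 (by omega)) (hb.2 (by omega))⟩

theorem st_conj {M M' : AddSubmonoid N} [Good M] [Good M'] (h : M ≤ M') (P : Gp M') (Q : Gp M)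
    (F : A M') (G : A (⊥ : AddSubmonoid N)) (e : (P⁻¹).1 * F * P.1 = fin M' G) (r : N) :
    (((P * Gp.incl h Q)⁻¹).1 * F * (P * Gp.incl h Q).1) r = ((Q⁻¹).1 * fin M G * Q.1) r := by
  have : ((P * Gp.incl h Q)⁻¹).1 * F * (P * Gp.incl h Q).1 =
      (Gp.incl h Q⁻¹).1 * fin M' G * (Gp.incl h Q).1 := by
    rw [← e, mul_inv_rev, ← map_inv, Gp.val_mul, Gp.val_mul]
    simp only [mul_assoc]
  rw [this]
  rfl

open Classical in
theorem st_FS_pos (hc : Chain W U) (hf : Fram W U x f dx) {p0 : V} (hp : p0 ∈ W)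
    (hmin : ∀ p ∈ W, p0 ≤ p) [IsSeed (sd W U)] [IsSeed (insert (x + U p0) (sd W U))] {σ : Stab N}
    (hσ : σ.Real) (r : N) : Pos (chart (sd W U) σ (fin _ (FS W U x f W)) r) := by
  have hsub : sd W U ⊆ insert (x + U p0) (sd W U) := Finset.subset_insert _ _
  have hle : cone (sd W U) ≤ cone (insert (x + U p0) (sd W U)) :=
    AddSubmonoid.closure_mono (Finset.coe_subset.2 hsub)
  have hτ : ∀ a, (Stab.ofZ (-dx)).s a = 0 ↔ dx a = 0 := fun a => by
    rw [Stab.ofZ_s, sign_eq_zero_iff, AddMonoidHom.neg_apply, neg_eq_zero]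
  have hW : ∀ γ, fW (Stab.ofZ (-dx)) (can (insert (x + U p0) (sd W U))) γ = can (sd W U) γ := by
    intro γ
    by_cases hγ : γ ∈ cone (sd W U)
    · have a1 := (fact_agree (σ := Stab.ofZ (-dx)) (σ' := Stab.ofZ (-dx)) (S := cone (sd W U))
        (fun a ha b hb h => (hf.st_face hp ha).2 (by
          have a1 := (hf.st_face hp ha).1
          have a2 := (hf.st_face hp hb).1
          have a3 := hf.st_dx0 h
          rw [map_add] at a3
          omega)) (fun _ _ _ => rfl) (y := Gp.incl hle (can (sd W U)))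
        fun a ha => can_face hsub ha).2.1 γ hγ
      rw [a1, (IsFact.unique (P := 1) (W := Gp.incl hle (can (sd W U))) (Q := 1) ⟨by simp,
        fun a ha => Or.inl (fact_one_supp ha),
        fun a ha => (hτ a).2 (hf.st_dx0 ((can (sd W U)).supp a ha)),
        fun a ha => Or.inl (fact_one_supp ha)⟩).2.1, Gp.incl_apply]
    · rw [not_not.1 fun h => hγ ((can (sd W U)).supp γ h)]
      exact not_not.1 fun h => hγ ((hf.st_face hp (Gp.supp _ γ h)).2
        ((hτ γ).1 ((isFact _ _).hW γ h)))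
  have hP : ∀ σ : Stab N, fP ((Stab.ofZ (-dx)).lex σ) (can (insert (x + U p0) (sd W U))) =
      fP (Stab.ofZ (-dx)) (can (insert (x + U p0) (sd W U))) *
        Gp.incl hle (fP σ (can (sd W U))) := fun σ => by
    rw [(fact_lex _ _ _).1]
    exact congrArg _ (Gp.ext fun γ => (fact_incl hle σ hW γ).1)
  have h0 : chart (insert (x + U p0) (sd W U)) ((Stab.ofZ (-dx)).lex
      (Stab.ofZ (dg (cone (sd W U))))) (z _ f) = fin _ (FS W U x f W) :=
    A.ext fun r => sweep hc hf hp hmin (fun p hp => by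
      rw [Stab.lex_s, if_neg (by rw [hτ, hf.st_dx hp]; exact one_ne_zero), Stab.ofZ_s,
        AddMonoidHom.neg_apply, hf.st_dx hp]
      exact sign_neg (by norm_num)) (fun e he => by
      rw [Stab.lex_s, if_pos ((hτ e).2 (hf.st_dx0 (mem_cone_of_mem he))), Stab.ofZ_s]
      exact sign_pos (dg_pos (mem_cone_of_mem he) (seed_ne_zero he))) r
  rw [chart, hP, fP_eq_one (g := can (sd W U)) fun a ha h0 => by
    rw [Stab.ofZ_s]
    exact sign_pos (dg_pos ((can (sd W U)).supp a ha) h0), map_one, mul_one] at h0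
  have h1 := chart_z_pos (s := insert (x + U p0) (sd W U)) (f := f) (fun e he => by
    rcases Finset.mem_insert.1 he with rfl | he
    · rw [map_add, AddMonoidHom.add_apply, hf.cen, hf.fr p0 hp]
      norm_num
    · exact (st_cone_zero (ψ := (ω : N →+ N →+ ℤ).flip f)
        (fun p hp q hq => (hf.fr p hp).trans (hf.fr q hq).symm) (mem_cone_of_mem he)).ge)
    ((Stab.real_ofZ (-dx)).lex hσ) r
  rwa [chart, hP, st_conj hle _ _ _ _ h0] at h1

theorem st_chart_z (hf : Fram W U x f dx) [IsSeed (sd W U)] (σ : Stab N) {S : Finset V}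
    (hS : S ⊆ W) (r : N) : chart (sd W U) σ (z _ (f + ∑ p ∈ S, (x + U p))) r =
      vp (S.card + ω (f + S.card • x) r) *
        chart (sd W U) σ (z _ (∑ p ∈ S, U p)) (r - (f + S.card • x)) := by
  have h1 : ω (f + S.card • x) (∑ p ∈ S, U p) = -S.card := by
    rw [ω_swap, map_add, map_nsmul, hf.st_cen, smul_zero, add_zero, map_sum,
      AddMonoidHom.finsetSum_apply, Finset.sum_congr rfl fun p hp => hf.fr p (hS hp)]
    simp
  have h2 : z (cone (sd W U)) (f + ∑ p ∈ S, (x + U p)) =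
      vp S.card • (z _ (f + S.card • x) * z _ (∑ p ∈ S, U p)) := by
    rw [z_mul_z, h1, smul_smul, ← vp_add, add_neg_cancel, vp_zero, one_smul,
      Finset.sum_add_distrib, Finset.sum_const, add_assoc]
  have h3 : chart (sd W U) σ (z _ (f + S.card • x)) = z _ (f + S.card • x) := by
    rw [chart, mul_assoc, z_comm fun a ha => st_cone_zero
      (ψ := (ω : N →+ N →+ ℤ).flip (f + S.card • x)) (fun p hp q hq => ?_) (Gp.supp _ a ha),
      ← mul_assoc, Gp.inv_mul_val, one_mul]
    change ω (U p) (f + S.card • x) = ω (U q) (f + S.card • x)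
    simp only [map_add, map_nsmul, hf.st_cen, hf.fr p hp, hf.fr q hq]
  rw [h2, chart_smul, chart_mul, h3, A.smul_apply, vp_add, mul_assoc]
  exact congrArg _ (zf_tmul _ _ _)

theorem st_chart_dx (hf : Fram W U x f dx) [IsSeed (sd W U)] (σ : Stab N) {S : Finset V}
    (hS : S ⊆ W) {r : N} (hr : dx r ≠ 0) : chart (sd W U) σ (z _ (∑ p ∈ S, U p)) r = 0 := by
  by_contra h
  have := hf.st_dx0 (chart_supp σ (p := ∑ p ∈ S, U p) (fun a ha => by
    rw [Set.mem_ofPred_eq, st_zf_ne ha, sub_self]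
    exact zero_mem _) r h)
  rw [map_sub, map_sum, Finset.sum_eq_zero fun p hp => hf.dxU p (hS hp), sub_zero] at this
  exact hr this

end pos

open Classical in
/-- Let `s̃ = insert (x + U p0) s`, `τ = ofZ (-dx)`.  Then `fQ τ (can s̃) = 1` and `fW τ (can s̃) = can s` as functions
(`can_face`, `fact_agree` on the face).  With `σ₀ = ofZ (dg (cone s))`, `sweep` for `τ.lex σ₀` computes
`(fP τ)⁻¹ z f (fP τ) = FS = ∑_k vp k • z (f + k x) * HH k`.  Elements supported in `cone s` commute with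
`z (f + k x)`, so `chart s̃ (τ.lex σ) (z f) (f + k x + r) = vp _ * chart s σ (HH k) r`
(only one `k` contributes, by `dx`); use `chart_z_pos`. -/
theorem HH_pos {W : Finset V} {U : V → N} (hc : Chain W U) {x f : N} {dx : N →+ ℤ}
    (hf : Fram W U x f dx) {p0 : V} (hp : p0 ∈ W) (hmin : ∀ p ∈ W, p0 ≤ p) [IsSeed (sd W U)]
    [IsSeed (insert (x + U p0) (sd W U))] {σ : Stab N} (hσ : σ.Real) (k : ℕ) (r : N) :
    Pos (chart (sd W U) σ (fin _ (HH W U k)) r) := by
  have e : chart (sd W U) σ (fin _ (HH W U k)) r =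
      ∑ S ∈ stb W U k, chart (sd W U) σ (z _ (∑ p ∈ S, U p)) r := by
    rw [HH, map_sum, chart_sum, A.sum_apply]
    rfl
  rw [e]
  by_cases hr : dx r = 0
  · have h1 := st_FS_pos hc hf hp hmin hσ (r + (f + k • x))
    rw [FS, map_sum, chart_sum, A.sum_apply,
      ← Finset.sum_filter_of_ne (p := fun S : Finset V => S.card = k) fun S hS h => ?_,
      Finset.filter_comm, ← Finset.powersetCard_eq_filter] at h1
    · refine Pos.of_vp_mul (k := k + ω (f + k • x) (r + (f + k • x))) ?_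
      rw [Finset.mul_sum]
      convert h1 using 1
      refine Finset.sum_congr rfl fun S hS => ?_
      obtain ⟨⟨h2, rfl⟩, -⟩ := st_mem_stb.1 hS
      rw [st_fin_z, st_chart_z hf σ h2, add_sub_cancel_right]
    · have h2 := Finset.mem_powerset.1 (Finset.mem_filter.1 hS).1
      rw [st_fin_z, st_chart_z hf σ h2] at h
      by_contra h3
      refine right_ne_zero_of_mul h (st_chart_dx hf σ h2 ?_)
      simp only [map_sub, map_add, map_nsmul, hr, hf.dxf, hf.dx1, nsmul_eq_mul]
      omega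
  · rw [Finset.sum_eq_zero fun S hS => st_chart_dx hf σ (st_mem_stb.1 hS).1.1 hr]
    exact pos_zero

open Classical in
theorem FH_pos {W : Finset V} {U : V → N} (hc : Chain W U) {x f : N} {dx : N →+ ℤ}
    (hf : Fram W U x f dx) {p0 : V} (hp : p0 ∈ W) (hmin : ∀ p ∈ W, p0 ≤ p) [IsSeed (sd W U)]
    [IsSeed (insert (x + U p0) (sd W U))] {σ : Stab N} (hσ : σ.Real) (α : List ℕ) (r : N) :
    Pos (chart (sd W U) σ (fin _ (FH W U α)) r) := by
  induction α generalizing r with
  | nil =>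
    rw [FH_nil, map_one, chart_one]
    by_cases h : r = 0
    · rw [h, show (1 : A (cone (sd W U))) 0 = 1 from zf_self 0]
      exact pos_one
    · rw [show (1 : A (cone (sd W U))) r = 0 from zf_of_ne h]
      exact pos_zero
  | cons k α ih =>
    rw [st_cons, map_mul]
    exact chart_mul_pos (HH_pos hc hf hp hmin hσ k) ih r

end

end Crest.Agent.R59
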