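import Crest.Agent.R59.Flow

/-!
# R59/Theta: positivity of theta functions
-/

set_option autoImplicit false
set_option linter.unusedSectionVars false
set_option linter.unusedVariables false

namespace Crest.Agent.R59

noncomputable section

variable {N : Type} [AddCommGroup N] [Alt N] {s : Finset N} [IsSeed s]

omit [Alt N] in
theorem theta_ind {M : AddSubmonoid N} [Good M] (P : N → Prop)
    (h : ∀ γ ∈ M, (∀ a ∈ M, dg M a < dg M γ → P a) → P γ) : ∀ γ ∈ M, P γ := by
  have key : ∀ n : ℕ, ∀ γ ∈ M, dg M γ < n → P γ := by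
    intro n
    induction n with
    | zero => intro γ hγ h1; have := dg_nonneg hγ; omega
    | succ n ih => intro γ hγ h1; exact h γ hγ fun a ha h2 => ih a ha (by omega)
  intro γ hγ
  exact key ((dg M γ).toNat + 1) γ hγ (by omega)

theorem theta_dg_pos {e : N} (he : e ∈ s) : (Stab.ofZ (dg (cone s))).s e = 1 := by
  rw [Stab.ofZ_s]
  exact sign_pos (dg_pos (mem_cone_of_mem he) (seed_ne_zero he))

theorem theta_chart_lex (σ : Stab N) (F : A (cone s)) :
    chart s (σ.lex (Stab.ofZ (dg (cone s)))) F = chart s σ F := by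
  have h1 : fP (Stab.ofZ (dg (cone s))) (fW σ (can s)) = 1 := fP_eq_one fun a ha h0 => by
    rw [Stab.ofZ_s]
    exact sign_pos (dg_pos ((fW σ (can s)).supp a ha) h0)
  unfold chart
  rw [(fact_lex σ _ (can s)).1, h1, mul_one]

theorem theta_chart_zero {p : N} {F : A (cone s)} (hF : SuppIn {r | r - p ∈ cone s} F) (σ : Stab N)
    {r : N} (hr : r - p ∉ cone s) : chart s σ F r = 0 := by
  by_contra h
  exact hr (chart_supp σ hF r h)

theorem theta_z_supp (f : N) : SuppIn {r | r - f ∈ cone s} (z (cone s) f) := by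
  intro r hr
  have : r = f := by_contra fun h => hr (zf_of_ne h)
  subst this
  simp only [Set.mem_ofPred_eq, sub_self]
  exact zero_mem _

omit [Alt N] in
theorem theta_zf_pos (q r : N) : Pos (zf q r) := by
  by_cases h : r = q
  · subst h; rw [zf_self]; exact pos_one
  · rw [zf_of_ne h]; exact pos_zero

theorem theta_ω_nonneg {f : N} (hf : ∀ e ∈ s, 0 ≤ ω e f) {γ : N} (hγ : γ ∈ cone s) : 0 ≤ ω γ f := by
  induction hγ using AddSubmonoid.closure_induction with
  | mem x hx => exact hf x hx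
  | zero => simp
  | add x y _ _ hx hy => rw [map_add, AddMonoidHom.add_apply]; omega

/-- Every realisable stability can be replaced by a real chamber refining it: use
`σ.lex (ofZ dg)`, which has the same `fP` (`fact_lex`, `fP_eq_one`), and `chart_congr`. -/
theorem exists_chamber {σ : Stab N} (hσ : σ.Real) (p γ₀ : N) :
    ∃ θ : N →+ ℝ, (∀ a ∈ Gam (cone s) (dg (cone s) γ₀), θ a ≠ 0 ∧
      (σ.s a ≠ 0 → SignType.sign (θ a) = σ.s a)) ∧
      ∀ F : A (cone s), SuppIn {r | r - p ∈ cone s} F →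
        chart s σ F (p + γ₀) = chart s (Stab.ofR θ) F (p + γ₀) := by
  obtain ⟨θ, hθ⟩ := (hσ.lex (Stab.real_ofZ (dg (cone s)))) (Gam (cone s) (dg (cone s) γ₀))
  refine ⟨θ, fun a ha => ?_, fun F hF => ?_⟩
  · have h1 := hθ a ha
    obtain ⟨h2, h3, -⟩ := mem_Gam.1 ha
    rw [Stab.lex_s] at h1
    refine ⟨fun h0 => ?_, fun h0 => by rw [if_neg h0] at h1; exact h1.symm⟩
    rw [h0, sign_zero] at h1
    split_ifs at h1 with h4
    · rw [Stab.ofZ_s, sign_pos (dg_pos h2 h3)] at h1
      exact absurd h1 (by decide)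
    · exact h4 h1
  · rw [← theta_chart_lex σ F]
    refine chart_congr hF fun a ha hd => ?_
    by_cases h0 : a = 0
    · rw [h0, Stab.zero, Stab.zero]
    · exact hθ a (mem_Gam.2 ⟨ha, h0, hd⟩)

/-- Induction on the degree of `r - p` with `chart_expand`. -/
theorem chart_sub_ast_pos {p : N} {F : A (cone s)} (hF : SuppIn {r | r - p ∈ cone s} F)
    (h : ∀ r, Pos (ast s F r)) {σ : Stab N} (hσ : σ.Real) (r : N) :
    Pos (chart s σ F r - ast s F r) := by
  by_cases hr : r - p ∈ cone s
  · have key := theta_ind (M := cone s)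
      (fun γ => ∀ σ : Stab N, σ.Real → Pos (chart s σ F (p + γ) - ast s F (p + γ))) ?_ _ hr σ hσ
    · rwa [add_sub_cancel] at key
    intro γ hγ ih σ hσ
    obtain ⟨θ, h1, h2⟩ := exists_chamber (s := s) hσ p γ
    obtain ⟨l, h3, -, -, h4⟩ := chart_expand (s := s) p γ θ fun a ha => (h1 a ha).1
    rw [h2 F hF, h4 F hF, add_sub_cancel_left]
    refine Pos.list_sum fun a ha => ?_
    obtain ⟨t, ht, rfl⟩ := List.mem_map.1 ha
    obtain ⟨k1, k2, k3, k4, -⟩ := h3 t ht
    refine k1.mul ?_
    have k5 := ih _ k4 (by have := dg_pos k2 k3; rw [map_sub]; omega) _ (Stab.real_ofR t.2.1)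
    have k6 := k5.add (h (p + (γ - t.2.2)))
    rwa [sub_add_cancel, ← add_sub_assoc] at k6
  · rw [ast, theta_chart_zero hF _ hr, theta_chart_zero hF _ hr, sub_self]
    exact pos_zero

theorem chart_pos_of_ast {p : N} {F : A (cone s)} (hF : SuppIn {r | r - p ∈ cone s} F)
    (h : ∀ r, Pos (ast s F r)) {σ : Stab N} (hσ : σ.Real) (r : N) : Pos (chart s σ F r) := by
  have := (chart_sub_ast_pos hF h hσ r).add (h r)
  rwa [sub_add_cancel] at this

theorem chart_ne_zero {p : N} {F : A (cone s)} (hF : SuppIn {r | r - p ∈ cone s} F)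
    (h : ∀ r, Pos (ast s F r)) {σ : Stab N} (hσ : σ.Real) {r : N} (hr : ast s F r ≠ 0) :
    chart s σ F r ≠ 0 := by
  intro h0
  refine hr ((h r).eq_zero_of_add (chart_sub_ast_pos hF h hσ r) ?_)
  rw [h0]; ring

/-- Bending at a wall of the seed. -/
theorem chart_bend {p : N} {F : A (cone s)} (hF : SuppIn {r | r - p ∈ cone s} F)
    (h : ∀ r, Pos (ast s F r)) {σ : Stab N} (hσ : σ.Real) {r e : N} (hr : ast s F r ≠ 0) (he : e ∈ s)
    (hs : σ.s e = -1) (hω : 0 < ω e r) : chart s σ F (r + e) ≠ 0 := by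
  have hrp : r - p ∈ cone s := chart_supp _ hF r hr
  have he' := mem_cone_of_mem he
  have e1 : r - p + e - e = r - p := add_sub_cancel_right _ _
  have e2 : p + (r - p + e) = r + e := by abel
  obtain ⟨θ, h1, h2⟩ := exists_chamber (s := s) hσ p (r - p + e)
  obtain ⟨l, h3, -, h5, h4⟩ := chart_expand (s := s) p (r - p + e) θ fun a ha => (h1 a ha).1
  have hG : e ∈ Gam (cone s) (dg (cone s) (r - p + e)) := mem_Gam.2 ⟨he', seed_ne_zero he, by
    have := dg_nonneg hrp
    rw [map_add]; omega⟩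
  have hθ : θ e < 0 := by
    have := (h1 e hG).2 (by rw [hs]; decide)
    rw [hs] at this
    exact sign_eq_neg_one_iff.1 this
  obtain ⟨t, ht, k1, k2⟩ := h5 e he (by rwa [e1]) (by
    rw [e2, map_add, ω_self, add_zero]
    exact mul_neg_of_neg_of_pos hθ (by exact_mod_cast hω))
  have hp : ∀ a ∈ l.map (fun t => t.1 * chart s (Stab.ofR t.2.1) F (p + (r - p + e) - t.2.2)),
      Pos a := fun a ha => by
    obtain ⟨t, ht, rfl⟩ := List.mem_map.1 ha
    exact (h3 t ht).1.mul (chart_pos_of_ast hF h (Stab.real_ofR _) _)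
  have hne := Pos.list_sum_ne_zero hp (List.mem_map.2 ⟨t, ht, rfl⟩) (mul_ne_zero k2 (by
    rw [k1, e2, add_sub_cancel_right]
    exact chart_ne_zero hF h (Stab.real_ofR _) hr))
  rw [← e2, h2 F hF, h4 F hF, add_comm]
  exact fun h0 => hne ((Pos.list_sum hp).eq_zero_of_add (h _) h0)

/-- A monomial in the closed positive chamber is a theta function.  Strong induction on `γ ≠ 0`:
if `ast (f + γ') = 0` for the proper non-zero summands `γ'` of `γ`, then for every non-zero summand `γ'` of `γ`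
and every chamber `θ` with `θ γ' > 0` one has `chart θ (f + γ') = ast (f + γ')` (inner induction with
`chart_expand`); take `θ = dg` and `chart_pos`. -/
theorem ast_z {f : N} (hf : ∀ e ∈ s, 0 ≤ ω e f) (r : N) : ast s (z (cone s) f) r = zf f r := by
  have hF := theta_z_supp (s := s) f
  by_cases h0 : r = f
  · subst h0
    rw [zf_self]
    exact sandwich_self _ _ _
  rw [zf_of_ne h0]
  by_cases hr : r - f ∈ cone s
  · have key := theta_ind (M := cone s)
      (fun γ => γ ≠ 0 → ast s (z (cone s) f) (f + γ) = 0 ∧ ∀ θ : N →+ ℝ,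
        (∀ a ∈ Gam (cone s) (dg (cone s) γ), θ a ≠ 0) → 0 < θ γ →
          chart s (Stab.ofR θ) (z (cone s) f) (f + γ) = 0) ?_ _ hr (sub_ne_zero.2 h0)
    · have := key.1
      rwa [add_sub_cancel] at this
    intro γ hγ ih hγ0
    have step : ∀ θ : N →+ ℝ, (∀ a ∈ Gam (cone s) (dg (cone s) γ), θ a ≠ 0) → 0 < θ γ →
        chart s (Stab.ofR θ) (z (cone s) f) (f + γ) = ast s (z (cone s) f) (f + γ) := by
      intro θ h1 h2
      obtain ⟨l, h3, h4, -, h5⟩ := chart_expand (s := s) f γ θ h1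
      rw [h5 _ hF, add_eq_left]
      refine List.sum_eq_zero fun a ha => ?_
      obtain ⟨t, ht, rfl⟩ := List.mem_map.1 ha
      obtain ⟨-, k2, k3, k4, k5⟩ := h3 t ht
      have k6 := h4 h2 (theta_ω_nonneg hf hγ) t ht
      have k7 : dg (cone s) (γ - t.2.2) < dg (cone s) γ := by
        have := dg_pos k2 k3; rw [map_sub]; omega
      have k8 := (ih _ k4 k7 (fun h => by rw [h, map_zero] at k6; exact lt_irrefl _ k6)).2 t.2.1
        (fun a ha => k5 a (by
          obtain ⟨a1, a2, a3⟩ := mem_Gam.1 ha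
          exact mem_Gam.2 ⟨a1, a2, by omega⟩)) k6
      rw [add_sub_assoc, k8, mul_zero]
    have h1 : ast s (z (cone s) f) (f + γ) = 0 := by
      rw [← step ((Int.castAddHom ℝ).comp (dg (cone s))) (fun a ha => by
        obtain ⟨a1, a2, -⟩ := mem_Gam.1 ha
        have := dg_pos a1 a2
        change ((dg (cone s) a : ℤ) : ℝ) ≠ 0
        exact_mod_cast this.ne') (by
        have := dg_pos hγ hγ0
        change (0 : ℝ) < ((dg (cone s) γ : ℤ) : ℝ)
        exact_mod_cast this)]
      change chart s (Stab.ofZ (dg (cone s))) (z (cone s) f) (f + γ) = 0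
      rw [chart_pos fun e he => theta_dg_pos he]
      exact zf_of_ne (by simpa using hγ0)
    exact ⟨h1, fun θ k1 k2 => (step θ k1 k2).trans h1⟩
  · exact theta_chart_zero hF _ hr

theorem chart_z_pos {f : N} (hf : ∀ e ∈ s, 0 ≤ ω e f) {σ : Stab N} (hσ : σ.Real) (r : N) :
    Pos (chart s σ (z (cone s) f) r) := by
  exact chart_pos_of_ast (theta_z_supp f) (fun r => by rw [ast_z hf]; exact theta_zf_pos _ _) hσ r

theorem chart_mul_pos {σ : Stab N} {F G : A (cone s)} (hF : ∀ r, Pos (chart s σ F r))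
    (hG : ∀ r, Pos (chart s σ G r)) (r : N) : Pos (chart s σ (F * G) r) := by
  rw [chart_mul]
  change Pos (tmul _ _ r)
  exact Pos.finsum fun a => (pos_vp _).mul ((hF a).mul (hG _))

/-- Theta functions. -/
theorem exists_theta (p q : N) (hq : q - p ∈ cone s) :
    ∃ F : A (cone s), SuppIn {r | r - p ∈ cone s} F ∧ (∀ r, ast s F r = zf q r) ∧ ∀ r, Pos (F r) := by
  obtain ⟨F, h1, h2⟩ := exists_ast s p (a := zf q) fun r hr => by
    have : r = q := by_contra fun h => hr (zf_of_ne h)
    rw [this]; exact hq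
  refine ⟨F, h1, h2, fun r => ?_⟩
  have := chart_pos_of_ast h1 (fun r => by rw [h2]; exact theta_zf_pos _ _)
    (Stab.real_ofZ (dg (cone s))) r
  rwa [chart_pos fun e he => theta_dg_pos he] at this

theorem ast_sum {ι : Type} (t : Finset ι) (c : ι → R) (F : ι → A (cone s)) (r : N) :
    ast s (∑ i ∈ t, c i • F i) r = ∑ i ∈ t, c i * ast s (F i) r := by
  unfold ast
  rw [chart_sum, A.sum_apply]
  exact Finset.sum_congr rfl fun i _ => by rw [chart_smul, A.smul_apply]

end

end Crest.Agent.R59
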