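import Crest.Agent.R59.TwoD
import Crest.Agent.R59.Gen

/-!
# R59/ThmP: all walls of the canonical element are positive
-/

set_option autoImplicit false
set_option linter.unusedSectionVars false
set_option linter.unusedVariables false

namespace Crest.Agent.R59

noncomputable section

variable {N : Type} [AddCommGroup N] [Alt N] {s : Finset N} [IsSeed s]

theorem thmp_agree {M : AddSubmonoid N} [Good M] {D : ℤ} {σ σ' : Stab N}
    (h : ∀ a ∈ Gam M D, σ.s a = σ'.s a) (g : Gp M) :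
    Agree {a | dg M a ≤ D} (fW σ g) (fW σ' g) := by
  refine (fact_agree (lower_deg D) (fun a ha hm => ?_) fun _ _ => rfl).2.1
  by_cases h0 : a = 0
  · rw [h0, σ.zero, σ'.zero]
  · exact h a (mem_Gam.2 ⟨hm, h0, ha⟩)

theorem thmp_pp {M : AddSubmonoid N} [Good M] {D : ℤ} {ρ : N} {σ σ' : Stab N}
    (h : ∀ a ∈ Gam M D, σ.s a = σ'.s a) {g : Gp M} (hp : PP M D ρ (fW σ g)) : PP M D ρ (fW σ' g) :=
  hp.congr fun γ _ _ hγ _ => thmp_agree h g γ hγ

theorem thmp_fW_congr {M : AddSubmonoid N} [Good M] {σ σ' : Stab N} (h : ∀ a, σ.s a = σ'.s a)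
    (g : Gp M) : fW σ g = fW σ' g :=
  Gp.ext fun γ => (fact_agree (S := Set.univ) (fun _ _ _ _ _ => Set.mem_univ _) (fun a _ _ => h a)
    fun _ _ => rfl).2.1 γ (Set.mem_univ _)

theorem thmp_sign {M : AddSubmonoid N} [Good M] {γ ρ : N} (h : Par M γ ρ) (hγ : 0 < dg M γ)
    (hρ : 0 < dg M ρ) (a : N) : SignType.sign (ω a γ) = SignType.sign (ω a ρ) := by
  have h1 := h.ω a
  rw [ω_swap γ a, ω_swap ρ a, mul_neg, mul_neg, neg_inj] at h1
  have h2 := congrArg SignType.sign h1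
  rwa [sign_mul, sign_mul, sign_pos hγ, sign_pos hρ, one_mul, one_mul] at h2

theorem thmp_par_nsmul {M : AddSubmonoid N} [Good M] (n : ℕ) (e : N) : Par M (n • e) e := by
  unfold Par
  rw [map_nsmul, smul_comm, nsmul_eq_mul, mul_smul, natCast_zsmul]

theorem thmp_seed_par {e e' : N} (he : e ∈ s) (he' : e' ∈ s) (h : Par (cone s) e e') : e = e' := by
  by_contra hne
  have h1 := congrArg (co s e) h
  rw [map_zsmul, map_zsmul, co_self he, co_ne he he' hne, smul_eq_mul, smul_eq_mul, mul_one,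
    mul_zero] at h1
  exact (dg_pos (mem_cone_of_mem he') (seed_ne_zero he')).ne' h1

theorem thmp_J_par {ρ γ e : N} (ψ : N →+ ℤ) (hm : γ ∈ cone s) (h0 : γ ≠ 0) (hγ : Par (cone s) γ ρ)
    (h : J ψ (Psi (cone s) e) γ ≠ 0) : Par (cone s) e ρ := by
  obtain ⟨n, rfl⟩ := (AddSubmonoid.mem_multiples_iff _ _).1 (J_supp ψ (E_supp true 1 e) γ h)
  exact (thmp_par_nsmul n e).symm.trans hγ (dg_pos hm h0)

theorem thmp_exists_V (D : ℤ) {ρ : N} (hρ : 0 < dg (cone s) ρ) :
    ∃ V : Gp (cone s), PP (cone s) D ρ V ∧ (∀ γ, V γ ≠ 0 → Par (cone s) γ ρ) ∧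
      ∀ γ ∈ cone s, γ ≠ 0 → Par (cone s) γ ρ → ∀ ψ : N →+ ℤ,
        ∑ e ∈ s, J ψ (Psi (cone s) e) γ = J ψ V γ := by
  by_cases hex : ∃ e ∈ s, Par (cone s) e ρ
  · obtain ⟨e, he, hp⟩ := hex
    have hm := mem_cone_of_mem he
    refine ⟨Psi (cone s) e, pp_E D true 1 hm (seed_ne_zero he) hp, fun γ hγ => ?_,
      fun γ hγ h0 hpar ψ => ?_⟩
    · obtain ⟨n, rfl⟩ := (AddSubmonoid.mem_multiples_iff _ _).1 (E_supp true 1 e γ hγ)
      exact (thmp_par_nsmul n e).trans hp (dg_pos hm (seed_ne_zero he))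
    · refine Finset.sum_eq_single_of_mem e he fun e' he' hne => ?_
      by_contra h
      exact hne (thmp_seed_par he' he ((thmp_J_par ψ hγ h0 hpar h).trans hp.symm hρ))
  · refine ⟨1, pp_one D ρ, fun γ hγ => ?_, fun γ hγ h0 hpar ψ => ?_⟩
    · rw [fact_one_supp hγ]
      exact (ray (cone s) ρ).zero_mem.2
    · rw [J_one]
      refine Finset.sum_eq_zero fun e he => ?_
      by_contra h
      exact hex ⟨e, he, thmp_J_par ψ hγ h0 hpar h⟩

/-- Near the attractor point the wall is `Psi e` or `1`: put `W' = fW θ (fW (attr ρ) g)`; by `J_fW` and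
`isCanon_can`, `J W' γ = ∑ J (Psi e) γ` for `γ` parallel to `ρ`; induct on the degree with `J_top`
(`seed_par` decides whether the ray contains a seed vector). -/
theorem pp_base {D : ℤ} {ρ : N} (hρ : ρ ∈ Gam (cone s) D) {θ : N →+ ℝ}
    (hf : Fine (Gam (cone s) D) ρ θ)
    (h : ∀ a ∈ Gam (cone s) D, ω a ρ ≠ 0 → SignType.sign (θ a) = SignType.sign (ω a ρ)) :
    PP (cone s) D ρ (fW (Stab.ofR θ) (can s)) := by
  obtain ⟨hρm, hρ0, hρD⟩ := mem_Gam.1 hρ
  have hρp := dg_pos hρm hρ0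
  obtain ⟨V, hV, hVs, hVJ⟩ := thmp_exists_V (s := s) D hρp
  refine thmp_pp (σ := (attr ρ).lex (Stab.ofR θ)) (fun a ha => ?_) ?_
  · rw [Stab.lex_s, attr_s, Stab.ofR_s]
    split_ifs with h0
    · rfl
    · exact (h a ha fun h1 => h0 (by rw [h1, sign_zero])).symm
  rw [(fact_lex _ _ _).2.1]
  have key : ∀ γ, dg (cone s) γ ≤ D → V γ = fW (Stab.ofR θ) (fW (attr ρ) (can s)) γ := by
    refine fact_ind (M := cone s) _ (fun γ hγ _ => fact_triv _ _ hγ) fun γ hm h0 ih hD => ?_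
    have hγp := dg_pos hm h0
    by_cases hp : Par (cone s) γ ρ
    · have hθ : (Stab.ofR θ).s γ = 0 := by
        have h1 := congrArg θ hp
        rw [map_zsmul, map_zsmul, hf.1, smul_zero, zsmul_eq_mul, mul_eq_zero] at h1
        rw [Stab.ofR_s, h1.resolve_left (by exact_mod_cast hρp.ne'), sign_zero]
      have e1 : fW (attr ρ) (can s) = fW (attr γ) (can s) :=
        thmp_fW_congr (fun a => by rw [attr_s, attr_s, thmp_sign hp hγp hρp]) _
      have hs : SuppIn {a | ω a γ = 0} (fW (attr ρ) (can s)) := by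
        rw [e1]
        intro a ha
        have := (isFact (attr γ) (can s)).hW a ha
        rw [SetLike.mem_coe, Stab.mem_ker, attr_s, sign_eq_zero_iff] at this
        exact this
      have e2 : J (dg (cone s)) (fW (Stab.ofR θ) (fW (attr ρ) (can s))) γ = J (dg (cone s)) V γ := by
        rw [J_fW _ hs h0 hθ, e1, isCanon_can s γ hm h0, hVJ γ hm h0 hp]
      have e3 := J_top (dg (cone s)) (lower_deg_lt (dg (cone s) γ)) (top_deg γ) (x := V)
        (y := fW (Stab.ofR θ) (fW (attr ρ) (can s))) fun a ha => ih a ha (le_trans (le_of_lt ha) hD)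
      rw [e2, sub_right_inj] at e3
      have : CharZero R := algebraRat.charZero R
      exact mul_left_cancel₀ (Int.cast_ne_zero.2 hγp.ne') e3
    · have h1 : V γ = 0 := by by_contra h'; exact hp (hVs γ h')
      rw [h1]
      by_contra h'
      have h2 := (isFact (Stab.ofR θ) (fW (attr ρ) (can s))).hW γ (Ne.symm h')
      rw [SetLike.mem_coe, Stab.mem_ker, Stab.ofR_s, sign_eq_zero_iff] at h2
      exact hp ((par_iff hρp).2 (hf.2 γ (mem_Gam.2 ⟨hm, h0, hD⟩) h2))
  exact hV.congr fun γ _ _ hD _ => key γ hD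

/-- Induction on `D`, then `flow_ind` with `ζ = ω · ρ`; the step is `two_d` for `x = fW θc (can s)`
(`fact_lex`, `fact_agree`; the incoming walls on other rays `ρ'` are `fW (θc + ε ω · ρ')` by
`exists_eps`, which is fine at `ρ'` by `InPl.par`). -/
theorem thmP (D : ℤ) {ρ : N} (hρ : ρ ∈ Gam (cone s) D) {θ : N →+ ℝ}
    (hf : Fine (Gam (cone s) D) ρ θ) : PP (cone s) D ρ (fW (Stab.ofR θ) (can s)) := by
  have key : ∀ n : ℕ, ∀ D : ℤ, D ≤ n → ∀ ρ ∈ Gam (cone s) D, ∀ θ : N →+ ℝ,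
      Fine (Gam (cone s) D) ρ θ → PP (cone s) D ρ (fW (Stab.ofR θ) (can s)) := by
    intro n
    induction n with
    | zero =>
      intro D hD ρ hρ
      obtain ⟨hρm, hρ0, hρD⟩ := mem_Gam.1 hρ
      have := dg_pos hρm hρ0
      omega
    | succ n ih =>
      intro D hD ρ hρ
      obtain ⟨hρm, hρ0, hρD⟩ := mem_Gam.1 hρ
      refine flow_ind (s := s) (Gam (cone s) D) (fun a ha => (mem_Gam.1 ha).1) hρm
        ((ω : N →+ N →+ ℤ).flip ρ) (ω_self ρ)
        (fun θ => PP (cone s) D ρ (fW (Stab.ofR θ) (can s)))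
        (fun θ θ' h _ _ hp => thmp_pp (fun a ha => (h a ha).symm) hp)
        (fun θ hf h => pp_base hρ hf h) fun θ θc θ' γ₁ hc hp => ?_
      have h2 : PP (cone s) D ρ (fW (attr ρ) (fW (Stab.ofR θc) (can s))) := by
        rw [← (fact_lex _ _ _).2.1]
        exact thmp_pp (fun a ha => hc.after a ha) hp
      have hpl : ∀ a ∈ Gam (cone s) D, (Stab.ofR θc).s a = 0 → InPl γ₁ ρ a := fun a ha h0 =>
        hc.pl a ha (sign_eq_zero_iff.1 h0)
      have h3 := two_d (fW (Stab.ofR θc) (can s)) (Stab.ofR θc) (isFact _ _).hW hρ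
        (by rw [Stab.ofR_s, hc.cρ, sign_zero]) hc.ne hpl (fun ρ' hρ' h0 _ => ?_) h2
      · rw [← (fact_lex _ _ _).2.1] at h3
        refine thmp_pp (fun a ha => ?_) h3
        rw [Stab.ofR_s, hc.before a ha, Stab.lex_s, Stab.lex_s, rattr_s, Stab.ofZ_s, ω_swap ρ a]
        rfl
      · obtain ⟨hm', hz', hD'⟩ := mem_Gam.1 hρ'
        have hsub : ∀ a ∈ Gam (cone s) (D - 1), a ∈ Gam (cone s) D := fun a ha =>
          mem_Gam.2 ⟨(mem_Gam.1 ha).1, (mem_Gam.1 ha).2.1, by have := (mem_Gam.1 ha).2.2; omega⟩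
        obtain ⟨ε, hε, he⟩ := exists_eps (Gam (cone s) (D - 1)) θc
          ((Int.castAddHom ℝ).comp ((ω : N →+ N →+ ℤ).flip ρ'))
        have hs : ∀ a ∈ Gam (cone s) (D - 1), (Stab.ofR (θc + (AddMonoidHom.mulLeft ε).comp
            ((Int.castAddHom ℝ).comp ((ω : N →+ N →+ ℤ).flip ρ')))).s a =
            ((Stab.ofR θc).lex (attr ρ')).s a := fun a ha => he ε hε le_rfl a ha
        rw [← (fact_lex _ _ _).2.1]
        refine thmp_pp hs (ih (D - 1) (by omega) ρ' hρ' _ ⟨?_, fun a ha ha0 => ?_⟩)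
        · change θc ρ' + ε * ((ω ρ' ρ' : ℤ) : ℝ) = 0
          rw [sign_eq_zero_iff.1 h0, ω_self]; simp
        · have h4 := hs a ha
          rw [Stab.ofR_s, ha0, sign_zero, Stab.lex_s] at h4
          have h5 : (Stab.ofR θc).s a = 0 := by
            by_contra h'; rw [if_neg h'] at h4; exact h' h4.symm
          rw [if_pos h5, attr_s, eq_comm, sign_eq_zero_iff] at h4
          exact (par_iff (dg_pos hm' hz')).1 (InPl.par hc.ne (hpl a (hsub a ha) h5)
            (hpl ρ' (hsub ρ' hρ') h0) (dg_pos hm' hz') h4)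
  exact key D.toNat D (Int.self_le_toNat D) ρ hρ θ hf

end

end Crest.Agent.R59
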