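import Crest.Agent.R59.RotLim

/-!
# R59/Toda: monomial symmetric functions of the Hamiltonians are theta functions
-/

set_option autoImplicit false
set_option linter.unusedSectionVars false
set_option linter.unusedVariables false

namespace Crest.Agent.R59

noncomputable section

variable {N : Type} [AddCommGroup N] [Alt N]

theorem toda_aeval (p : Polynomial ℤ) : Polynomial.aeval (vp 2) p =
    iq ((p.map (Int.castRingHom ℚ) : Polynomial ℚ) : PowerSeries ℚ) := by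
  have h : (Polynomial.aeval (vp 2) : Polynomial ℤ →ₐ[ℤ] R).toRingHom =
      iq.comp ((Polynomial.coeToPowerSeries.ringHom).comp
        (Polynomial.mapRingHom (Int.castRingHom ℚ))) := by
    refine Polynomial.ringHom_ext' (RingHom.ext_int _ _) ?_
    simp [iq_X]
  exact DFunLike.congr_fun h p

theorem toda_coeff_two_mul (p : Polynomial ℤ) (k : ℕ) :
    (Polynomial.aeval (vp 2) p : R).coeff (2 * (k : ℤ)) = (p.coeff k : ℚ) := by
  rw [toda_aeval, iq_coeff_two_mul, Polynomial.coeff_coe, Polynomial.coeff_map]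
  rfl

theorem toda_coeff_of_ne (p : Polynomial ℤ) {i : ℤ} (h : ∀ k : ℕ, i ≠ 2 * (k : ℤ)) :
    (Polynomial.aeval (vp 2) p : R).coeff i = 0 := by
  rw [toda_aeval, iq_coeff_of_ne _ h]

theorem toda_aeval_inj {p q : Polynomial ℤ}
    (h : (Polynomial.aeval (vp 2) p : R) = Polynomial.aeval (vp 2) q) : p = q := by
  ext k
  have := toda_coeff_two_mul p k
  rw [h, toda_coeff_two_mul] at this
  exact_mod_cast this.symm

/-- A positive series whose coefficients vanish where those of a polynomial in `v²` vanish is a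
polynomial in `v²` with non-negative coefficients. -/
theorem toda_poly {a : R} (ha : Pos a) {p : Polynomial ℤ}
    (h : ∀ i, (Polynomial.aeval (vp 2) p : R).coeff i = 0 → a.coeff i = 0) :
    ∃ c : Polynomial ℤ, (∀ k, 0 ≤ c.coeff k) ∧ Polynomial.aeval (vp 2) c = a := by
  choose n hn using ha
  have hc : ∀ k, (∑ j ∈ p.support, Polynomial.monomial j (n (2 * (j : ℤ)) : ℤ)).coeff k =
      n (2 * (k : ℤ)) := by
    intro k
    rw [Polynomial.finsetSum_coeff]
    simp only [Polynomial.coeff_monomial]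
    rw [Finset.sum_ite_eq']
    split_ifs with hk
    · rfl
    · have h1 := h (2 * (k : ℤ)) (by
        rw [toda_coeff_two_mul, Polynomial.notMem_support_iff.1 hk, Int.cast_zero])
      rw [hn] at h1
      exact_mod_cast h1.symm
  refine ⟨∑ j ∈ p.support, Polynomial.monomial j (n (2 * (j : ℤ)) : ℤ), fun k => ?_, ?_⟩
  · rw [hc]; positivity
  · ext i
    by_cases hi : ∃ k : ℕ, i = 2 * (k : ℤ)
    · obtain ⟨k, rfl⟩ := hi
      rw [toda_coeff_two_mul, hc, hn, Int.cast_natCast]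
    · push Not at hi
      rw [toda_coeff_of_ne _ hi, h i (toda_coeff_of_ne _ hi)]

namespace Rot

variable (P : Rot N)

/-- The antitone exponent vectors of total degree `n`. -/
def An (n : ℕ) : Finset (Fin (P.L + 1) → ℕ) := by
  classical exact (Finset.piAntidiag Finset.univ n).filter Antitone

theorem mem_An {n : ℕ} {ν : Fin (P.L + 1) → ℕ} : ν ∈ P.An n ↔ ∑ j, ν j = n ∧ Antitone ν := by
  unfold An
  simp [Finset.mem_piAntidiag]

theorem toda_supp (α : List ℕ) : SuppIn {r | r - α.sum • P.U (vy 0) ∈ cone (P.s 0)}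
    (fin (cone (P.s 0)) (FH (P.W 0) P.U α)) :=
  FH_supp P.U (P.vy_zero_mem 0) (fun p _ => vy_zero_le p) α

open Classical in
theorem toda_pos (α : List ℕ) (r : N) : Pos (ast (P.s 0) (fin _ (FH (P.W 0) P.U α)) r) := by
  obtain ⟨dx, hd⟩ := P.exists_fram
  have := P.isSeed_ext
  exact FH_pos (P.chain 0) hd (P.vy_zero_mem 0) (fun p _ => vy_zero_le p) (Stab.real_ofZ _) α r

theorem toda_chart {n : ℕ} {θ : N →+ ℝ} (h1 : ∀ j, j < n → θ (P.k j) < 0)
    (h2 : ∀ e ∈ P.s n, 0 < θ e) (α : List ℕ) (r : N) :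
    chart (P.s 0) (Stab.ofR θ) (fin _ (FH (P.W 0) P.U α)) r = FH (P.W n) P.U α r :=
  P.chart_rot n (fun j hj => sign_neg (h1 j hj)) (fun e he => sign_pos (h2 e he)) α r

/-- `ast ≥ 0` by `FH_pos`.  If `ast r ≠ 0` then `r` is in the support of all limit charts
(`chart_ne_zero`, `chart_rot`, `exists_theta_chart` with `ν = 0`), so `r = pv ν`; if `ν j < ν (j+1)` then
`chart_bend` at the first letter of level `j` contradicts `pv_add_letter_ne`. -/
theorem ast_FH_ne_zero (α : List ℕ) {r : N} (h : ast (P.s 0) (fin _ (FH (P.W 0) P.U α)) r ≠ 0) :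
    ∃ ν ∈ P.An α.sum, r = P.pv ν := by
  have hch : ∀ T0, ∃ T, T0 ≤ T ∧ ∃ θ : N →+ ℝ, (∀ j, j < T * P.m → θ (P.k j) < 0) ∧
      (∀ e ∈ P.s (T * P.m), 0 < θ e) := fun T0 => by
    obtain ⟨T, hT, θ, h1, h2, -⟩ := P.exists_theta_chart 0 antitone_const ∅
      (fun a ha => absurd ha (Finset.notMem_empty a)) T0
    exact ⟨T, hT, θ, h1, h2⟩
  obtain ⟨ν, hs, rfl⟩ := P.frame_of_support α r fun T0 => by
    obtain ⟨T, hT, θ, h1, h2⟩ := hch T0
    refine ⟨T, hT, ?_⟩
    rw [← P.toda_chart h1 h2]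
    exact chart_ne_zero (P.toda_supp α) (P.toda_pos α) (Stab.real_ofR θ) h
  refine ⟨ν, P.mem_An.2 ⟨hs, Fin.antitone_iff_succ_le.2 fun j => ?_⟩, rfl⟩
  by_contra hlt
  rw [not_le] at hlt
  obtain ⟨s, hsm, hl, he⟩ := P.exists_first j.2
  have hω : 0 < ω (P.u s - P.Y j) (P.pv ν) := by
    rw [map_sub, AddMonoidHom.sub_apply, P.ω_u_pv, P.ω_Y_pv, sub_zero]
    have e1 : (⟨P.lv s + 1, Nat.succ_lt_succ (P.lt s)⟩ : Fin (P.L + 1)) = j.succ :=
      Fin.ext (by simp [hl])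
    have e2 : (⟨P.lv s, (P.lt s).trans (Nat.lt_succ_self _)⟩ : Fin (P.L + 1)) = j.castSucc :=
      Fin.ext (by simp [hl])
    rw [e1, e2]
    omega
  obtain ⟨ν', -, h'⟩ := P.frame_of_support α (P.pv ν + (P.u s - P.Y j)) fun T0 => by
    obtain ⟨T, hT, θ, h1, h2⟩ := hch (T0 + 1)
    refine ⟨T, by omega, ?_⟩
    rw [← P.toda_chart h1 h2]
    refine chart_bend (P.toda_supp α) (P.toda_pos α) (Stab.real_ofR θ) h he ?_ hω
    have h3 := h1 s (lt_of_lt_of_le hsm (Nat.le_mul_of_pos_left _ (by omega)))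
    rw [k, hl] at h3
    exact sign_neg h3
  exact P.pv_add_letter_ne ν ν' hsm j h'

/-- `chart_eq_ast`, `exists_theta_chart`, `chart_rot`, `FH_pv`. -/
theorem ast_FH_pv (α : List ℕ) {ν : Fin (P.L + 1) → ℕ} (hν : ν ∈ P.An α.sum) :
    ast (P.s 0) (fin _ (FH (P.W 0) P.U α)) (P.pv ν) = MM α ν := by
  obtain ⟨hs, ha⟩ := P.mem_An.1 hν
  have e : α.sum • P.U (vy 0) + (P.pv ν - α.sum • P.U (vy 0)) = P.pv ν := add_sub_cancel _ _
  obtain ⟨T, -, θ, h1, h2, h3⟩ := P.exists_theta_chart ν ha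
    (Gam (cone (P.s 0)) (dg (cone (P.s 0)) (P.pv ν - α.sum • P.U (vy 0))))
    (fun a ha => (mem_Gam.1 ha).1) 0
  have h4 := chart_eq_ast (σ := Stab.ofR θ) (P.toda_supp α) (γ := P.pv ν - α.sum • P.U (vy 0))
    (fun a ha hd hω => by
      rw [e] at hω ⊢
      exact h3 a (mem_Gam.2 ⟨ha, fun h0 => hω (by rw [h0]; simp), hd⟩) hω)
  rw [e] at h4
  rw [← h4, P.toda_chart h1 h2, P.FH_pv]

/-- `exists_theta`, `ast_sum`, `ast_inj`. -/
theorem toda (n : ℕ) (r : N) : ∃ B : (Fin (P.L + 1) → ℕ) → R, (∀ ν, Pos (B ν)) ∧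
    ∀ α : List ℕ, α.sum = n → FH (P.W 0) P.U α r = ∑ ν ∈ P.An n, (MM α ν : R) * B ν := by
  have hF : ∀ ν : Fin (P.L + 1) → ℕ, ∃ F : A (cone (P.s 0)), (∀ r, Pos (F r)) ∧ (ν ∈ P.An n →
      SuppIn {r | r - n • P.U (vy 0) ∈ cone (P.s 0)} F ∧ ∀ r, ast (P.s 0) F r = zf (P.pv ν) r) := by
    intro ν
    by_cases hν : ν ∈ P.An n
    · have h1 := P.pv_sub_mem ν
      rw [(P.mem_An.1 hν).1] at h1
      obtain ⟨F, a, b, c⟩ := exists_theta (s := P.s 0) _ _ h1
      exact ⟨F, c, fun _ => ⟨a, b⟩⟩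
    · exact ⟨0, fun _ => pos_zero, fun h => absurd h hν⟩
  choose F h1 h2 using hF
  refine ⟨fun ν => F ν r, fun ν => h1 ν r, fun α hα => ?_⟩
  subst hα
  have key : fin (cone (P.s 0)) (FH (P.W 0) P.U α) = ∑ ν ∈ P.An α.sum, (MM α ν : R) • F ν := by
    refine ast_inj (P.toda_supp α) (fun γ hγ => ?_) fun γ => ?_
    · have hγ' : ∑ ν ∈ P.An α.sum, ((MM α ν : R) • F ν) γ ≠ 0 := by rwa [← A.sum_apply]
      obtain ⟨ν, hν, h3⟩ := Finset.exists_ne_zero_of_sum_ne_zero hγ'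
      rw [A.smul_apply] at h3
      exact (h2 ν hν).1 γ (right_ne_zero_of_mul h3)
    · rw [ast_sum, Finset.sum_congr rfl fun ν hν => by rw [(h2 ν hν).2]]
      by_cases hγ : ∃ ν ∈ P.An α.sum, γ = P.pv ν
      · obtain ⟨ν, hν, rfl⟩ := hγ
        rw [P.ast_FH_pv α hν, Finset.sum_eq_single_of_mem ν hν fun ν' _ hne => by
          rw [zf_of_ne fun h => hne (P.pv_injective h).symm, mul_zero], zf_self, mul_one]
      · rw [Finset.sum_eq_zero fun ν hν => by rw [zf_of_ne fun h => hγ ⟨ν, hν, h⟩, mul_zero]]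
        by_contra h0
        exact hγ (P.ast_FH_ne_zero α h0)
  have h3 : fin (cone (P.s 0)) (FH (P.W 0) P.U α) r = FH (P.W 0) P.U α r := rfl
  rw [← h3, key, A.sum_apply]
  exact Finset.sum_congr rfl fun ν _ => A.smul_apply _ _ _

/-- A positive series bounded coefficientwise by `aeval (vp 2)` of a polynomial is such a polynomial
(use `α = replicate m 1`, `MM_replicate_pos`); `aeval (vp 2)` is injective. -/
theorem col_expand : ∃ c : (Fin (P.L + 1) → ℕ) → Polynomial ℤ, (∀ ν k, 0 ≤ (c ν).coeff k) ∧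
    ∀ α : List ℕ, α.sum = P.m →
      Col P.E α Finset.univ = ∑ ν ∈ P.An P.m, c ν * (MM α ν : Polynomial ℤ) := by
  obtain ⟨B, hB, h⟩ := P.toda P.m (∑ s : Fin P.m, P.u s)
  obtain ⟨e, he⟩ : ∃ e : ℤ, e = ((upE P.E Finset.univ Finset.univ : ℕ) : ℤ) := ⟨_, rfl⟩
  have h1 : ∀ α : List ℕ, α.sum = P.m → (Polynomial.aeval (vp 2) (Col P.E α Finset.univ) : R) =
      ∑ ν ∈ P.An P.m, (MM α ν : R) * (vp e * B ν) := by
    intro α hα
    rw [← P.FH_letters, h α hα, Finset.mul_sum, ← he]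
    exact Finset.sum_congr rfl fun ν _ => by ring
  have hB' : ∀ ν, Pos (vp e * B ν) := fun ν => (pos_vp e).mul (hB ν)
  have h2 : ∀ ν, ∃ c : Polynomial ℤ, (∀ k, 0 ≤ c.coeff k) ∧
      (ν ∈ P.An P.m → Polynomial.aeval (vp 2) c = vp e * B ν) := by
    intro ν
    by_cases hν : ν ∈ P.An P.m
    · obtain ⟨c, a, b⟩ := toda_poly (hB' ν) (p := Col P.E (List.replicate P.m 1) Finset.univ)
        fun i hi => by
          rw [h1 _ (by simp), HahnSeries.coeff_sum, Finset.sum_eq_zero_iff_of_nonneg fun ν _ => by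
            obtain ⟨n, hn⟩ := ((pos_natCast (MM (List.replicate P.m 1) ν)).mul (hB' ν)) i
            rw [hn]; positivity] at hi
          have h3 := hi ν hν
          rw [← nsmul_eq_mul, HahnSeries.coeff_nsmul, Pi.smul_apply, smul_eq_zero] at h3
          exact h3.resolve_left (MM_replicate_pos (P.mem_An.1 hν).1).ne'
      exact ⟨c, a, fun _ => b⟩
    · exact ⟨0, fun k => by simp, fun h => absurd h hν⟩
  choose c h3 h4 using h2
  refine ⟨c, h3, fun α hα => toda_aeval_inj ?_⟩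
  rw [h1 α hα, map_sum]
  exact Finset.sum_congr rfl fun ν hν => by rw [map_mul, h4 ν hν, map_natCast, mul_comm]

end Rot

end

end Crest.Agent.R59
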