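import Crest.Agent.R59.Ser

/-!
# R59/Tor: the completed quantum torus

`N` is a torsion-free abelian group with an alternating form `ω`; `z^a z^b = v^{ω a b} z^{a+b}`.
For a *good* submonoid `M` (graded by a positive degree with finite pieces), `A M` is the ring of
functions `N → R` supported in finitely many translates of `M`.  The product `tmul` does not depend
on `M`.  `A ⊥` is the ring of finitely supported functions.
-/

set_option autoImplicit false
set_option linter.unusedSectionVars false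
set_option linter.unusedVariables false

namespace Crest.Agent.R59

noncomputable section

/-- Alternating form on a torsion-free group. -/
class Alt (N : Type) [AddCommGroup N] where
  ω : N →+ N →+ ℤ
  alt : ∀ a, ω a a = 0
  tf : ∀ (n : ℤ) (a : N), n • a = 0 → n = 0 ∨ a = 0

export Alt (ω)

variable {N : Type} [AddCommGroup N] [Alt N]

theorem ω_self (a : N) : ω a a = 0 := Alt.alt a

theorem ω_swap (a b : N) : ω a b = -ω b a := by
  have h := Alt.alt (a + b)
  simp only [map_add, AddMonoidHom.add_apply, Alt.alt] at h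
  omega

/-- Good monoids. -/
class Good (M : AddSubmonoid N) : Prop where
  ex : ∃ d : N →+ ℤ, (∀ a ∈ M, a ≠ 0 → 0 < d a) ∧ ∀ D : ℤ, {a | a ∈ M ∧ d a ≤ D}.Finite

/-- A degree function for `M`. -/
def dg (M : AddSubmonoid N) [Good M] : N →+ ℤ := Classical.choose (Good.ex (M := M))

omit [Alt N] in
theorem dg_pos {M : AddSubmonoid N} [Good M] {a : N} (ha : a ∈ M) (h0 : a ≠ 0) : 0 < dg M a :=
  (Classical.choose_spec (Good.ex (M := M))).1 a ha h0

omit [Alt N] in
theorem dg_fin (M : AddSubmonoid N) [Good M] (D : ℤ) : {a | a ∈ M ∧ dg M a ≤ D}.Finite :=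
  (Classical.choose_spec (Good.ex (M := M))).2 D

omit [Alt N] in
theorem dg_nonneg {M : AddSubmonoid N} [Good M] {a : N} (ha : a ∈ M) : 0 ≤ dg M a := by
  by_cases h : a = 0
  · simp [h]
  · exact (dg_pos ha h).le

omit [Alt N] in
theorem Good.mono {M M' : AddSubmonoid N} [Good M'] (h : M ≤ M') : Good M :=
  ⟨⟨dg M', fun _ ha h0 => dg_pos (h ha) h0,
    fun D => (dg_fin M' D).subset fun _ ha => ⟨h ha.1, ha.2⟩⟩⟩

instance : Good (⊥ : AddSubmonoid N) :=
  ⟨⟨0, fun _ ha h0 => (h0 (AddSubmonoid.mem_bot.1 ha)).elim,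
    fun _ => (Set.finite_singleton 0).subset fun _ ha => AddSubmonoid.mem_bot.1 ha.1⟩⟩

instance (M M' : AddSubmonoid N) [Good M] : Good (M ⊓ M') := Good.mono inf_le_left

/-- The non-zero elements of degree at most `D`. -/
def Gam (M : AddSubmonoid N) [Good M] (D : ℤ) : Finset N := by
  classical exact (dg_fin M D).toFinset.erase 0

omit [Alt N] in
theorem mem_Gam {M : AddSubmonoid N} [Good M] {D : ℤ} {a : N} :
    a ∈ Gam M D ↔ a ∈ M ∧ a ≠ 0 ∧ dg M a ≤ D := by
  simp only [Gam, Finset.mem_erase, Set.Finite.mem_toFinset, Set.mem_ofPred_eq]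
  tauto

/-- The summands of `γ` in `M`. -/
def ad (M : AddSubmonoid N) [Good M] (γ : N) : Finset N := by
  classical exact (dg_fin M (dg M γ)).toFinset.filter fun a => γ - a ∈ M

omit [Alt N] in
theorem mem_ad {M : AddSubmonoid N} [Good M] {γ a : N} : a ∈ ad M γ ↔ a ∈ M ∧ γ - a ∈ M := by
  simp only [ad, Finset.mem_filter, Set.Finite.mem_toFinset, Set.mem_ofPred_eq]
  refine ⟨fun h => ⟨h.1.1, h.2⟩, fun h => ⟨⟨h.1, ?_⟩, h.2⟩⟩
  have := dg_nonneg h.2
  rw [map_sub] at this
  omega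

/-- The support of `f` lies in `S`. -/
def SuppIn (S : Set N) (f : N → R) : Prop := ∀ γ, f γ ≠ 0 → γ ∈ S

/-- Supported in finitely many translates of `M`. -/
def Sm (M : AddSubmonoid N) (f : N → R) : Prop :=
  ∃ B : Finset N, ∀ γ, f γ ≠ 0 → ∃ a ∈ B, γ - a ∈ M

/-- The twisted convolution (note `ω a (γ - a) = ω a γ`). -/
def tmul (f g : N → R) : N → R := fun γ => ∑ᶠ a, vp (ω a γ) * (f a * g (γ - a))

variable {M : AddSubmonoid N}

omit [Alt N] in
theorem Sm.zero : Sm M (0 : N → R) := by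
  exact ⟨∅, fun _ h => (h rfl).elim⟩

omit [Alt N] in
theorem Sm.add {f g : N → R} (hf : Sm M f) (hg : Sm M g) : Sm M (f + g) := by
  classical
  obtain ⟨B, hB⟩ := hf
  obtain ⟨C, hC⟩ := hg
  refine ⟨B ∪ C, fun γ h => ?_⟩
  by_cases h1 : f γ = 0
  · obtain ⟨a, ha, h2⟩ := hC γ fun h2 => h (by simp [h1, h2])
    exact ⟨a, Finset.mem_union_right _ ha, h2⟩
  · obtain ⟨a, ha, h2⟩ := hB γ h1
    exact ⟨a, Finset.mem_union_left _ ha, h2⟩

omit [Alt N] in
theorem Sm.of_le {f g : N → R} (hf : Sm M f) (h : ∀ γ, g γ ≠ 0 → f γ ≠ 0) : Sm M g := by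
  obtain ⟨B, hB⟩ := hf
  exact ⟨B, fun γ hγ => hB γ (h γ hγ)⟩

omit [Alt N] in
theorem Sm.mono {M' : AddSubmonoid N} (h : M ≤ M') {f : N → R} (hf : Sm M f) : Sm M' f := by
  obtain ⟨B, hB⟩ := hf
  exact ⟨B, fun γ hγ => (hB γ hγ).imp fun _ ha => ⟨ha.1, h ha.2⟩⟩

omit [Alt N] in
theorem Sm.of_suppIn {p : N} {f : N → R} (hf : SuppIn {γ | γ - p ∈ M} f) : Sm M f := by
  exact ⟨{p}, fun γ hγ => ⟨p, Finset.mem_singleton_self p, hf γ hγ⟩⟩

omit [Alt N] in
theorem Sm.of_finite {f : N → R} (hf : (Function.support f).Finite) : Sm M f := by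
  exact ⟨hf.toFinset, fun γ hγ => ⟨γ, hf.mem_toFinset.2 hγ, by rw [sub_self]; exact M.zero_mem⟩⟩

omit [Alt N] in
theorem Sm.finite_bot {f : N → R} (hf : Sm ⊥ f) : (Function.support f).Finite := by
  obtain ⟨B, hB⟩ := hf
  refine B.finite_toSet.subset fun γ hγ => ?_
  obtain ⟨a, ha, h⟩ := hB γ hγ
  rw [sub_eq_zero.1 (AddSubmonoid.mem_bot.1 h)]
  exact ha

omit [Alt N] in
theorem Sm.finite_conv [Good M] {f g : N → R} (hf : Sm M f) (hg : Sm M g) (γ : N) :
    {a | f a ≠ 0 ∧ g (γ - a) ≠ 0}.Finite := by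
  obtain ⟨B, hB⟩ := hf
  obtain ⟨C, hC⟩ := hg
  refine (B.finite_toSet.biUnion fun b _ => C.finite_toSet.biUnion fun c _ =>
    (ad M (γ - b - c)).finite_toSet.image (b + ·)).subset fun a ha => ?_
  obtain ⟨b, hb, h1⟩ := hB a ha.1
  obtain ⟨c, hc, h2⟩ := hC _ ha.2
  simp only [Set.mem_iUnion]
  refine ⟨b, hb, c, hc, a - b, mem_ad.2 ⟨h1, ?_⟩, by simp⟩
  convert h2 using 1
  abel

theorem tmul_ne_zero {f g : N → R} {γ : N} (h : tmul f g γ ≠ 0) :
    ∃ a, f a ≠ 0 ∧ g (γ - a) ≠ 0 := by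
  by_contra hc
  refine h (finsum_eq_zero_of_forall_eq_zero fun a => ?_)
  by_cases h1 : f a = 0
  · simp [h1]
  · have h2 : g (γ - a) = 0 := by_contra fun h2 => hc ⟨a, h1, h2⟩
    simp [h2]

theorem tmul_eq_sum {f g : N → R} {γ : N} {B : Finset N}
    (h : ∀ a, f a ≠ 0 → g (γ - a) ≠ 0 → a ∈ B) :
    tmul f g γ = ∑ a ∈ B, vp (ω a γ) * (f a * g (γ - a)) := by
  refine finsum_eq_sum_of_support_subset _ fun a ha => ?_
  exact h a (fun h1 => ha (by simp [h1])) fun h1 => ha (by simp [h1])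

omit [Alt N] in
theorem tor_sm_conv {f g : N → R} (hf : Sm M f) (hg : Sm M g) :
    ∃ B : Finset N, ∀ γ, (∃ a, f a ≠ 0 ∧ g (γ - a) ≠ 0) → ∃ a ∈ B, γ - a ∈ M := by
  classical
  obtain ⟨B, hB⟩ := hf
  obtain ⟨C, hC⟩ := hg
  refine ⟨Finset.image₂ (· + ·) B C, fun γ ⟨a, h1, h2⟩ => ?_⟩
  obtain ⟨b, hb, h3⟩ := hB a h1
  obtain ⟨c, hc, h4⟩ := hC _ h2
  refine ⟨b + c, Finset.mem_image₂_of_mem hb hc, ?_⟩
  convert M.add_mem h3 h4 using 1
  abel

theorem Sm.tmul {f g : N → R} (hf : Sm M f) (hg : Sm M g) : Sm M (tmul f g) := by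
  exact (tor_sm_conv hf hg).imp fun B hB γ hγ => hB γ (tmul_ne_zero hγ)

omit [Alt N] in
theorem tor_finite3 [Good M] {f g h : N → R} (hf : Sm M f) (hg : Sm M g) (hh : Sm M h) (γ : N) :
    {p : N × N | f p.1 ≠ 0 ∧ g p.2 ≠ 0 ∧ h (γ - p.1 - p.2) ≠ 0}.Finite := by
  classical
  have hk : Sm M fun x => if ∃ c, g c ≠ 0 ∧ h (x - c) ≠ 0 then 1 else 0 :=
    (tor_sm_conv hg hh).imp fun B hB x hx => hB x (by_contra fun hc => hx (if_neg hc))
  refine ((hf.finite_conv hk γ).biUnion fun a _ =>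
    (hg.finite_conv hh (γ - a)).image fun c => (a, c)).subset fun p hp => ?_
  simp only [Set.mem_iUnion]
  refine ⟨p.1, ⟨hp.1, ?_⟩, p.2, hp.2, rfl⟩
  rw [if_pos ⟨p.2, hp.2⟩]
  exact one_ne_zero

/-- the general term of a triple product -/
def torT (f g h : N → R) (γ : N) (p : N × N) : R :=
  vp (ω p.1 γ + ω p.2 γ + ω p.1 p.2) * (f p.1 * (g p.2 * h (γ - p.1 - p.2)))

theorem tor_finT [Good M] {f g h : N → R} (hf : Sm M f) (hg : Sm M g) (hh : Sm M h) (γ : N) :
    (Function.support (torT f g h γ)).Finite :=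
  (tor_finite3 hf hg hh γ).subset fun p hp =>
    ⟨fun h1 => hp (by simp [torT, h1]), fun h1 => hp (by simp [torT, h1]),
      fun h1 => hp (by simp [torT, h1])⟩

theorem tor_right [Good M] {f g h : N → R} (hf : Sm M f) (hg : Sm M g) (hh : Sm M h) (γ : N) :
    tmul f (tmul g h) γ = ∑ᶠ p, torT f g h γ p := by
  rw [finsum_curry _ (tor_finT hf hg hh γ)]
  unfold tmul
  refine finsum_congr fun a => ?_
  rw [mul_finsum, mul_finsum]
  refine finsum_congr fun c => ?_
  simp only [torT, map_sub, vp_add, sub_eq_add_neg (ω c γ), ← ω_swap]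
  ring

theorem tor_left [Good M] {f g h : N → R} (hf : Sm M f) (hg : Sm M g) (hh : Sm M h) (γ : N) :
    tmul (tmul f g) h γ = ∑ᶠ p, torT f g h γ p := by
  let e : N × N ≃ N × N :=
    ⟨fun p => (p.2, p.1 - p.2), fun p => (p.1 + p.2, p.1), fun p => by simp, fun p => by simp⟩
  have hfin : (Function.support fun p => torT f g h γ (e p)).Finite :=
    (tor_finT hf hg hh γ).preimage e.injective.injOn
  rw [← finsum_comp_equiv e, finsum_curry _ hfin]
  unfold tmul
  refine finsum_congr fun b => ?_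
  rw [finsum_mul, mul_finsum]
  refine finsum_congr fun a => ?_
  have e1 : γ - a - (b - a) = γ - b := by abel
  have e2 : ω a γ + ω (b - a) γ + ω a (b - a) = ω b γ + ω a b := by
    simp only [map_sub, AddMonoidHom.sub_apply, ω_self]; ring
  change _ = vp (ω a γ + ω (b - a) γ + ω a (b - a)) * (f a * (g (b - a) * h (γ - a - (b - a))))
  rw [e1, e2, vp_add]
  ring

theorem tor_fin2 [Good M] {f g : N → R} (hf : Sm M f) (hg : Sm M g) (γ : N) :
    (Function.support fun a => vp (ω a γ) * (f a * g (γ - a))).Finite :=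
  (hf.finite_conv hg γ).subset fun a ha =>
    ⟨fun h1 => ha (by simp [h1]), fun h1 => ha (by simp [h1])⟩

theorem tmul_assoc [Good M] {f g h : N → R} (hf : Sm M f) (hg : Sm M g) (hh : Sm M h) :
    tmul (tmul f g) h = tmul f (tmul g h) := by
  funext γ
  rw [tor_left hf hg hh, tor_right hf hg hh]

theorem tmul_add [Good M] {f g h : N → R} (hf : Sm M f) (hg : Sm M g) (hh : Sm M h) :
    tmul f (g + h) = tmul f g + tmul f h := by
  funext γ
  simp only [tmul, Pi.add_apply, mul_add]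
  exact finsum_add_distrib (tor_fin2 hf hg γ) (tor_fin2 hf hh γ)

theorem add_tmul [Good M] {f g h : N → R} (hf : Sm M f) (hg : Sm M g) (hh : Sm M h) :
    tmul (f + g) h = tmul f h + tmul g h := by
  funext γ
  simp only [tmul, Pi.add_apply, mul_add, add_mul]
  exact finsum_add_distrib (tor_fin2 hf hh γ) (tor_fin2 hg hh γ)

theorem smul_tmul (c : R) (f g : N → R) : tmul (c • f) g = c • tmul f g := by
  funext γ
  simp only [tmul, Pi.smul_apply, smul_eq_mul]
  rw [mul_finsum]
  exact finsum_congr fun a => by ring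

theorem tmul_smul (c : R) (f g : N → R) : tmul f (c • g) = c • tmul f g := by
  funext γ
  simp only [tmul, Pi.smul_apply, smul_eq_mul]
  rw [mul_finsum]
  exact finsum_congr fun a => by ring

/-- The monomial `z^p` as a function. -/
def zf (p : N) : N → R := by
  classical exact Pi.single p 1

omit [AddCommGroup N] [Alt N] in
theorem zf_self (p : N) : zf p p = 1 := by simp [zf]

omit [AddCommGroup N] [Alt N] in
theorem zf_of_ne {p γ : N} (h : γ ≠ p) : zf p γ = 0 := by simp [zf, h]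

theorem zf_tmul (p : N) (f : N → R) (γ : N) : tmul (zf p) f γ = vp (ω p γ) * f (γ - p) := by
  unfold tmul
  rw [finsum_eq_single _ p fun a ha => by simp [zf_of_ne ha], zf_self, one_mul]

theorem tmul_zf (p : N) (f : N → R) (γ : N) : tmul f (zf p) γ = vp (ω γ p) * f (γ - p) := by
  unfold tmul
  rw [finsum_eq_single _ (γ - p) fun a ha => by
    rw [zf_of_ne fun h => ha (by rw [← h]; abel)]; simp]
  have e : ω (γ - p) γ = ω γ p := by
    simp only [map_sub, AddMonoidHom.sub_apply, ω_self, ω_swap p γ]; ring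
  rw [sub_sub_cancel, zf_self, mul_one, e]

omit [Alt N] in
theorem sm_zf (p : N) : Sm M (zf p) := by
  exact Sm.of_finite ((Set.finite_singleton p).subset fun γ hγ => by_contra fun h => hγ (zf_of_ne h))

/-- The completed quantum torus. -/
def A (M : AddSubmonoid N) : Type := {f : N → R // Sm M f}

instance : CoeFun (A M) fun _ => N → R := ⟨fun x => x.1⟩

omit [Alt N] in
@[ext] theorem A.ext {x y : A M} (h : ∀ γ, x γ = y γ) : x = y := Subtype.ext (funext h)

/-- `A M` as an `R`-submodule of the functions. -/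
def Asub (M : AddSubmonoid N) : Submodule R (N → R) where
  carrier := {f | Sm M f}
  add_mem' := Sm.add
  zero_mem' := Sm.zero
  smul_mem' := fun c _ hf => Sm.of_le hf fun γ h h0 => h (by simp [h0])

instance : AddCommGroup (A M) := inferInstanceAs (AddCommGroup (Asub M))
instance : Module R (A M) := inferInstanceAs (Module R (Asub M))

instance [Good M] : Ring (A M) :=
  { (inferInstance : AddCommGroup (A M)) with
    mul := fun x y => ⟨tmul x.1 y.1, x.2.tmul y.2⟩
    one := ⟨zf 0, sm_zf 0⟩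
    mul_assoc := fun x y w => Subtype.ext (tmul_assoc x.2 y.2 w.2)
    one_mul := fun x => Subtype.ext (funext fun γ => by
      change tmul (zf 0) x.1 γ = _
      simp [zf_tmul])
    mul_one := fun x => Subtype.ext (funext fun γ => by
      change tmul x.1 (zf 0) γ = _
      simp [tmul_zf])
    zero_mul := fun x => Subtype.ext (funext fun γ => by
      change tmul 0 x.1 γ = 0
      simp [tmul])
    mul_zero := fun x => Subtype.ext (funext fun γ => by
      change tmul x.1 0 γ = 0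
      simp [tmul])
    left_distrib := fun x y w => Subtype.ext (tmul_add x.2 y.2 w.2)
    right_distrib := fun x y w => Subtype.ext (add_tmul x.2 y.2 w.2) }

instance [Good M] : Algebra R (A M) :=
  Algebra.ofModule (fun c x y => Subtype.ext (smul_tmul c x.1 y.1))
    (fun c x y => Subtype.ext (tmul_smul c x.1 y.1))

omit [Alt N] in
@[simp] theorem A.add_apply (x y : A M) (γ : N) : (x + y) γ = x γ + y γ := rfl
omit [Alt N] in
@[simp] theorem A.sub_apply (x y : A M) (γ : N) : (x - y) γ = x γ - y γ := rfl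
omit [Alt N] in
@[simp] theorem A.neg_apply (x : A M) (γ : N) : (-x) γ = -x γ := rfl
omit [Alt N] in
@[simp] theorem A.zero_apply (γ : N) : (0 : A M) γ = 0 := rfl
omit [Alt N] in
@[simp] theorem A.smul_apply (c : R) (x : A M) (γ : N) : (c • x) γ = c * x γ := rfl
theorem A.coe_mul [Good M] (x y : A M) : (x * y).1 = tmul x.1 y.1 := rfl
theorem A.coe_one [Good M] : (1 : A M).1 = zf 0 := rfl

omit [Alt N] in
theorem A.sum_apply {ι : Type} (s : Finset ι) (x : ι → A M) (γ : N) :
    (∑ i ∈ s, x i) γ = ∑ i ∈ s, x i γ := by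
  classical
  induction s using Finset.induction_on with
  | empty => simp
  | insert a s ha ih => rw [Finset.sum_insert ha, Finset.sum_insert ha, A.add_apply, ih]

/-- The monomial `z^p`. -/
def z (M : AddSubmonoid N) (p : N) : A M := ⟨zf p, sm_zf p⟩

theorem z_zero [Good M] : z M 0 = 1 := rfl

theorem z_mul_z [Good M] (a b : N) : z M a * z M b = vp (ω a b) • z M (a + b) := by
  ext1 γ
  change tmul (zf a) (zf b) γ = vp (ω a b) * zf (a + b) γ
  rw [zf_tmul]
  by_cases h : γ = a + b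
  · subst h
    rw [add_sub_cancel_left, zf_self, zf_self, map_add, ω_self, zero_add]
  · rw [zf_of_ne h, zf_of_ne fun h1 => h (by rw [← h1]; abel), mul_zero, mul_zero]

theorem A.mul_apply_ad [Good M] {x y : A M} (hx : SuppIn M x) (hy : SuppIn M y) (γ : N) :
    (x * y) γ = ∑ a ∈ ad M γ, vp (ω a γ) * (x a * y (γ - a)) := by
  exact tmul_eq_sum fun a h1 h2 => mem_ad.2 ⟨hx a h1, hy _ h2⟩

theorem SuppIn.mul [Good M] {S T U : Set N} {x y : A M} (hx : SuppIn S x) (hy : SuppIn T y)
    (h : ∀ a ∈ S, ∀ b ∈ T, a + b ∈ U) : SuppIn U (x * y : A M) := by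
  intro γ hγ
  obtain ⟨a, h1, h2⟩ := tmul_ne_zero hγ
  simpa using h a (hx a h1) _ (hy _ h2)

/-- Trace property. -/
theorem A.mul_comm_apply [Good M] {x : A M} (y : A M) {γ : N} (hx : SuppIn {a | ω a γ = 0} x) :
    (x * y) γ = (y * x) γ := by
  change tmul x.1 y.1 γ = tmul y.1 x.1 γ
  unfold tmul
  refine finsum_eq_of_bijective (Equiv.subLeft γ) (Equiv.subLeft γ).bijective fun a => ?_
  simp only [Equiv.subLeft_apply, sub_sub_cancel]
  by_cases h : x.1 a = 0
  · simp [h]
  · have h1 : ω a γ = 0 := hx a h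
    simp only [map_sub, AddMonoidHom.sub_apply, ω_self, h1, sub_zero, mul_comm]

/-- An element supported on the `ω`-orthogonal of `p` commutes with `z^p`. -/
theorem z_comm [Good M] {x : A M} {p : N} (hx : SuppIn {a | ω a p = 0} x) :
    z M p * x = x * z M p := by
  ext1 γ
  change tmul (zf p) x.1 γ = tmul x.1 (zf p) γ
  rw [zf_tmul, tmul_zf]
  by_cases h : x.1 (γ - p) = 0
  · simp [h]
  · have h1 : ω (γ - p) p = 0 := hx _ h
    simp only [map_sub, AddMonoidHom.sub_apply, ω_self, sub_zero] at h1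
    rw [ω_swap p γ, h1, neg_zero]

/-- Expansion of the middle factor in monomials. -/
theorem A.mul_mul_apply [Good M] (x F y : A M) (r : N) :
    {r' | F r' ≠ 0 ∧ (x * z M r' * y) r ≠ 0}.Finite ∧
      (x * F * y) r = ∑ᶠ r', F r' * (x * z M r' * y) r := by
  have key : ∀ c, F c * (x * z M c * y) r = ∑ᶠ a, torT x.1 F.1 y.1 r (a, c) := by
    intro c
    rw [mul_assoc]
    change F c * tmul x.1 (tmul (zf c) y.1) r = _
    rw [tmul, mul_finsum]
    refine finsum_congr fun a => ?_
    rw [zf_tmul]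
    simp only [torT, map_sub, vp_add, sub_eq_add_neg (ω c r), ← ω_swap]
    ring
  constructor
  · refine ((tor_finT x.2 F.2 y.2 r).image Prod.snd).subset fun c hc => ?_
    have h1 := mul_ne_zero hc.1 hc.2
    rw [key] at h1
    by_contra h2
    exact h1 (finsum_eq_zero_of_forall_eq_zero fun a => by_contra fun h3 => h2 ⟨(a, c), h3, rfl⟩)
  · have hfin : (Function.support fun p => torT x.1 F.1 y.1 r (Equiv.prodComm N N p)).Finite :=
      (tor_finT x.2 F.2 y.2 r).preimage (Equiv.prodComm N N).injective.injOn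
    simp only [key]
    change tmul (tmul x.1 F.1) y.1 r = _
    rw [tor_left x.2 F.2 y.2, ← finsum_comp_equiv (Equiv.prodComm N N), finsum_curry _ hfin]
    rfl

/-- Inclusion of rings. -/
def A.incl {M M' : AddSubmonoid N} [Good M] [Good M'] (h : M ≤ M') : A M →+* A M' where
  toFun x := ⟨x.1, x.2.mono h⟩
  map_one' := rfl
  map_mul' _ _ := rfl
  map_zero' := rfl
  map_add' _ _ := rfl

@[simp] theorem A.incl_coe {M M' : AddSubmonoid N} [Good M] [Good M'] (h : M ≤ M') (x : A M) :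
    (A.incl h x).1 = x.1 := rfl

/-- Finitely supported elements, seen in `A M`. -/
abbrev fin (M : AddSubmonoid N) [Good M] : A (⊥ : AddSubmonoid N) →+* A M := A.incl bot_le

end

end Crest.Agent.R59
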