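import Crest.Agent.R59.QuivB

/-!
# R59/TwoD: rank two wall-crossing preserves positivity

Let `S = {dg < D} ∪ {dg ≤ D, Par · ρ}` (a lower set) and let `T` be a finite set of representatives of
the parallel classes of `K = {a ∈ S ∩ M \ 0 | x may be non-zero at a}`.  For each `k` choose quivers
`Q τ k` on the rays `τ ∈ T` approximating the incoming walls modulo `v^k` and put
`Q k = sigma (Q · k)`.  By `fW_attr_x` and `x_congr` the incoming wall of `(Q k).x` at `γ ∈ K` is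
`(Q τ(γ) k).x`; at `γ ∈ S \ K` both walls vanish.  So `(Q k).x → x` on `S` (`lim_of_data` with `σ = attr`),
hence `fW (rattr ρ) (Q k).x → fW (rattr ρ) x` on `S` (`fact_lim`); conclude with `fW_x_approx`.
-/

set_option autoImplicit false
set_option linter.unusedSectionVars false
set_option linter.unusedVariables false

namespace Crest.Agent.R59

noncomputable section

variable {N : Type} [AddCommGroup N] [Alt N] {M : AddSubmonoid N} [Good M]

/-- The rational span of two vectors. -/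
def InPl (γ₁ ρ a : N) : Prop := ∃ m k l : ℤ, m ≠ 0 ∧ m • a = k • γ₁ + l • ρ

theorem InPl.add {γ₁ ρ a b : N} (ha : InPl γ₁ ρ a) (hb : InPl γ₁ ρ b) : InPl γ₁ ρ (a + b) := by
  obtain ⟨m, k, l, hm, h⟩ := ha
  obtain ⟨m', k', l', hm', h'⟩ := hb
  refine ⟨m * m', m' * k + m * k', m' * l + m * l', mul_ne_zero hm hm', ?_⟩
  linear_combination (norm := module) m' • h + m • h' 

theorem twod_dg {γ₁ ρ a : N} {m k l : ℤ} (h : m • a = k • γ₁ + l • ρ) :
    m * dg M a = k * dg M γ₁ + l * dg M ρ := by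
  simpa using congrArg (dg M) h

theorem twod_ω {γ₁ ρ a b : N} {m k l m' k' l' : ℤ} (h : m • a = k • γ₁ + l • ρ)
    (h' : m' • b = k' • γ₁ + l' • ρ) : m * m' * ω a b = (k * l' - l * k') * ω γ₁ ρ := by
  have h1 : ω (m • a) (m' • b) = ω (k • γ₁ + l • ρ) (k' • γ₁ + l' • ρ) := by rw [h, h']
  simp only [map_add, map_zsmul, AddMonoidHom.add_apply, AddMonoidHom.smul_apply, smul_eq_mul,
    ω_self, ω_swap ρ γ₁] at h1
  linear_combination h1

theorem InPl.pl {γ₁ ρ a b c : N} (ha : InPl γ₁ ρ a) (hb : InPl γ₁ ρ b) (hc : InPl γ₁ ρ c) :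
    Pl M a b c := by
  obtain ⟨m₁, k₁, l₁, hm₁, h₁⟩ := ha
  obtain ⟨m₂, k₂, l₂, hm₂, h₂⟩ := hb
  obtain ⟨m₃, k₃, l₃, hm₃, h₃⟩ := hc
  have d₁ := twod_dg (M := M) h₁
  have d₂ := twod_dg (M := M) h₂
  have d₃ := twod_dg (M := M) h₃
  have w₁ := twod_ω h₂ h₃
  have w₂ := twod_ω h₃ h₁
  have w₃ := twod_ω h₁ h₂
  refine mul_left_cancel₀ (mul_ne_zero (mul_ne_zero hm₁ hm₂) hm₃) ?_
  calc m₁ * m₂ * m₃ * (dg M a * ω b c + dg M b * ω c a + dg M c * ω a b)
      = (m₁ * dg M a) * (m₂ * m₃ * ω b c) + (m₂ * dg M b) * (m₃ * m₁ * ω c a)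
        + (m₃ * dg M c) * (m₁ * m₂ * ω a b) := by ring
    _ = _ := by rw [d₁, d₂, d₃, w₁, w₂, w₃]; ring

theorem InPl.of_par {γ₁ ρ a b : N} (hb : InPl γ₁ ρ b) (h : Par M a b) (h0 : 0 < dg M b) :
    InPl γ₁ ρ a := by
  obtain ⟨m, k, l, hm, h'⟩ := hb
  refine ⟨m * dg M b, dg M a * k, dg M a * l, mul_ne_zero hm h0.ne', ?_⟩
  have h1 : dg M b • a = dg M a • b := h
  linear_combination (norm := module) m • h1 + dg M a • h' 

theorem InPl.par {γ₁ ρ a b : N} (hω : ω γ₁ ρ ≠ 0) (ha : InPl γ₁ ρ a) (hb : InPl γ₁ ρ b)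
    (h0 : 0 < dg M b) (h : ω a b = 0) : Par M a b := by
  obtain ⟨m, k, l, hm, h₁⟩ := ha
  obtain ⟨m', k', l', hm', h₂⟩ := hb
  have w := twod_ω h₁ h₂
  rw [h, mul_zero] at w
  have w' : k * l' = l * k' := sub_eq_zero.1 ((mul_eq_zero.1 w.symm).resolve_right hω)
  have d₁ := twod_dg (M := M) h₁
  have d₂ := twod_dg (M := M) h₂
  have h3 : (m * m') • (dg M b • a - dg M a • b) = 0 := by
    calc (m * m') • (dg M b • a - dg M a • b)
        = (m' * dg M b) • (m • a) - (m * dg M a) • (m' • b) := by module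
      _ = (dg M ρ * (k * l' - l * k')) • γ₁ - (dg M γ₁ * (k * l' - l * k')) • ρ := by
          rw [h₁, h₂, d₁, d₂]; module
      _ = 0 := by rw [w']; simp
  exact sub_eq_zero.1 ((Alt.tf _ _ h3).resolve_left (mul_ne_zero hm hm'))

theorem twod_cl {γ₁ ρ : N} (Q : Quiv M) (h : ∀ j, InPl γ₁ ρ (Q.γ j)) (d : Q.J → ℕ) :
    InPl γ₁ ρ (Q.cl d) := by
  have h0 : InPl γ₁ ρ 0 := ⟨1, 0, 0, one_ne_zero, by simp⟩
  refine Finset.sum_induction _ (InPl γ₁ ρ) (fun _ _ => InPl.add) h0 fun j _ => ?_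
  induction d j with
  | zero => simpa using h0
  | succ n ih => rw [succ_nsmul]; exact ih.add (h j)

omit [Alt N] in
theorem twod_s_smul (σ : Stab N) {m : ℤ} (hm : 0 < m) (a : N) : σ.s (m • a) = σ.s a := by
  obtain ⟨n, rfl⟩ : ∃ n : ℕ, m = (n + 1 : ℕ) := ⟨(m - 1).toNat, by omega⟩
  rw [natCast_zsmul]
  clear hm
  induction n with
  | zero => simp
  | succ n ih =>
    rw [succ_nsmul]
    rcases h : σ.s a with _ | _ | _
    · exact σ.add_zero _ _ (ih.trans h) h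
    · exact σ.add_neg _ _ (ih.trans h) (by rw [h]; decide)
    · exact σ.add_pos (ih.trans h) (by rw [h]; decide)

theorem twod_par_s (σ : Stab N) {a b : N} (h : Par M a b) (ha : 0 < dg M a) (hb : 0 < dg M b) :
    σ.s a = σ.s b := by
  rw [← twod_s_smul σ hb a, ← twod_s_smul σ ha b]
  exact congrArg σ.s h

theorem twod_attr {a b : N} (h : Par M a b) (ha : 0 < dg M a) (hb : 0 < dg M b) (x : Gp M) :
    fW (attr a) x = fW (attr b) x := by
  have h1 : ∀ c, (attr a).s c = (attr b).s c := by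
    intro c
    have h2 := congrArg SignType.sign (h.ω c)
    rw [sign_mul, sign_mul, sign_pos ha, sign_pos hb, one_mul, one_mul] at h2
    rw [attr_s, attr_s, ω_swap c a, ω_swap c b, Left.sign_neg, Left.sign_neg, h2]
  have h3 := (fact_agree (S := Set.univ) (x := x) (y := x) (fun _ _ _ _ _ => Set.mem_univ _)
    (fun c _ _ => h1 c) fun _ _ => rfl).2.1
  exact Gp.ext fun γ => h3 γ (Set.mem_univ _)

theorem twod_sub_sigma {τ : Type} [Fintype τ] [DecidableEq τ] (Q : τ → Quiv M) (t : τ)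
    (p : (Quiv.sigma Q).J → Prop) [DecidablePred p] (hp : ∀ j, p j ↔ j.1 = t) :
    ((Quiv.sigma Q).sub p).x = (Q t).x := by
  have hb : Function.Bijective fun j : (Q t).J =>
      (⟨⟨t, j⟩, (hp _).2 rfl⟩ : ((Quiv.sigma Q).sub p).J) := by
    constructor
    · intro j j' h
      exact eq_of_heq (Sigma.mk.inj (congrArg Subtype.val h)).2
    · rintro ⟨⟨s, j⟩, h⟩
      obtain rfl : s = t := (hp _).1 h
      exact ⟨j, rfl⟩
  exact (Quiv.x_congr (Q := Q t) (Q' := (Quiv.sigma Q).sub p) (Equiv.ofBijective _ hb)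
    (fun _ => rfl) (fun _ => rfl) fun _ => rfl).symm

theorem two_d (x : Gp M) (σ : Stab N) (hx : SuppIn σ.ker x) {D : ℤ} {ρ γ₁ : N} (hρ : ρ ∈ Gam M D)
    (hρ0 : σ.s ρ = 0) (hω : ω γ₁ ρ ≠ 0) (hpl : ∀ a ∈ Gam M D, σ.s a = 0 → InPl γ₁ ρ a)
    (h1 : ∀ ρ' ∈ Gam M (D - 1), σ.s ρ' = 0 → ¬Par M ρ' ρ → PP M (D - 1) ρ' (fW (attr ρ') x))
    (h2 : PP M D ρ (fW (attr ρ) x)) : PP M D ρ (fW (rattr ρ) x) := by
  classical
  obtain ⟨hρM, hρne, hρD⟩ := mem_Gam.1 hρ
  have hρp : 0 < dg M ρ := dg_pos hρM hρne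
  have hρpl : InPl γ₁ ρ ρ := hpl ρ hρ hρ0
  set S : Set N := {a | dg M a < D ∨ (dg M a ≤ D ∧ Par M a ρ)} with hS
  have hSl : Lower M S := by
    intro a ha b hb hab
    by_cases hb0 : b = 0
    · rwa [hb0, add_zero] at hab
    · have h3 := dg_pos hb hb0
      have h4 : dg M (a + b) ≤ D := hab.elim le_of_lt And.left
      rw [map_add] at h4
      exact Or.inl (by omega)
  set K : Finset N := (Gam M D).filter fun a => a ∈ S ∧ σ.s a = 0 with hK
  have hKp : ∀ a : K, 0 < dg M a.1 := fun a => by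
    obtain ⟨h3, h4, -⟩ := mem_Gam.1 (Finset.mem_filter.1 a.2).1
    exact dg_pos h3 h4
  let st : Setoid K := ⟨fun a b => Par M a.1 b.1, fun a => Par.refl _, Par.symm,
    fun {a b c} h h' => h.trans h' (hKp b)⟩
  let T := Quotient st
  let rep : T → K := Quotient.out
  have hrep : ∀ a : K, Par M (rep (Quotient.mk st a)).1 a.1 := fun a => Quotient.mk_out (s := st) a
  have hrep' : ∀ (t : T) (a : K), Par M (rep t).1 a.1 → t = Quotient.mk st a := fun t a h => by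
    rw [← Quotient.out_eq t]
    exact Quotient.sound h
  have hPP : ∀ a : K, PP M (if Par M a.1 ρ then D else D - 1) a.1 (fW (attr a.1) x) := by
    intro a
    obtain ⟨h3, h4, h5⟩ := Finset.mem_filter.1 a.2
    obtain ⟨h6, h7, h8⟩ := mem_Gam.1 h3
    split_ifs with hp
    · rw [twod_attr hp (hKp a) hρp]
      exact h2.par hρp (hKp a) hp.symm
    · refine h1 _ (mem_Gam.2 ⟨h6, h7, ?_⟩) h5 hp
      have : dg M a.1 < D := h4.resolve_right fun h => hp h.2
      omega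
  choose Q hQ1 hQ2 using fun (k : ℕ) (t : T) => hPP (rep t) k
  let QQ : ℕ → Quiv M := fun k => Quiv.sigma (Q k)
  have hvp : ∀ k (j : (QQ k).J), 0 < dg M ((QQ k).γ j) := fun k j =>
    dg_pos ((QQ k).mem j) ((QQ k).ne j)
  have hKpl : ∀ a : K, InPl γ₁ ρ a.1 := fun a =>
    hpl _ (Finset.mem_filter.1 a.2).1 (Finset.mem_filter.1 a.2).2.2
  have hvpl : ∀ k (j : (QQ k).J), InPl γ₁ ρ ((QQ k).γ j) := fun k j =>
    (hKpl (rep j.1)).of_par (hQ1 k j.1 j.2) (hKp _)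
  have hvker : ∀ k (j : (QQ k).J), (QQ k).γ j ∈ σ.ker := fun k j =>
    (twod_par_s σ (hQ1 k j.1 j.2) (hvp k j) (hKp _)).trans (Finset.mem_filter.1 (rep j.1).2).2.2
  have hwall : ∀ k (a : K), fW (attr a.1) (QQ k).x = (Q k (Quotient.mk st a)).x := by
    intro k a
    rw [fW_attr_x (QQ k) (hKp a) fun i j => (hvpl k i).pl (hKpl a) (hvpl k j)]
    refine twod_sub_sigma (Q k) _ _ fun j => ⟨fun h => hrep' _ _ ?_, fun h => ?_⟩
    · exact (hQ1 k j.1 j.2).symm.trans ((hvpl k j).par hω (hKpl a) (hKp a) h) (hvp k j)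
    · have h3 : Par M ((QQ k).γ j) a.1 := by
        refine (hQ1 k j.1 j.2).trans ?_ (hKp _)
        rw [h]
        exact hrep a
      have h4 := h3.ω a.1
      rw [ω_self, mul_zero] at h4
      exact (mul_eq_zero.1 h4).resolve_left (hKp a).ne'
  have hlim : LimOn S (fun k => (QQ k).x) x := by
    refine lim_of_data (σ := attr) (fun γ => by rw [attr_s, ω_self, sign_zero]) hSl
      fun γ hγS hγM hγ0 => ?_
    have hγD : dg M γ ≤ D := hγS.elim le_of_lt And.left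
    by_cases hs : σ.s γ = 0
    · let a : K := ⟨γ, Finset.mem_filter.2 ⟨mem_Gam.2 ⟨hγM, hγ0, hγD⟩, hγS, hs⟩⟩
      intro n
      refine ⟨n.toNat, fun k hk i hi => ?_⟩
      have h3 := hwall k a
      change (fW (attr a.1) (QQ k).x γ).coeff i = (fW (attr a.1) x γ).coeff i
      rw [h3, ← twod_attr (hrep a) (hKp _) (hKp a)]
      refine hQ2 k _ γ hγM hγ0 ?_ (hrep a).symm i (by omega)
      split_ifs with hp
      · exact hγD
      · have : dg M γ < D := hγS.resolve_right fun h => hp ((hrep a).trans h.2 (hKp a))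
        omega
    · have h3 : ∀ y : Gp M, SuppIn σ.ker y → fW (attr γ) y γ = 0 := fun y hy =>
        by_contra fun h => hs ((fact_supp (attr γ) hy).2.1 γ h)
      intro n
      refine ⟨0, fun k _ i _ => ?_⟩
      change (fW (attr γ) (QQ k).x γ).coeff i = _
      rw [h3 x hx, h3 _ ((QQ k).x_supp (hvker k))]
  have hlim2 := (fact_lim (σ := rattr ρ) (σ' := rattr ρ) hSl (fun _ _ _ => rfl) hlim).2.1
  intro n
  choose! k0 hk0 using fun γ (hγ : γ ∈ S) => hlim2 γ hγ n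
  let k := (Gam M D).sup k0
  have hcl : ∀ d, ω ρ ((QQ k).cl d) = 0 → Par M ((QQ k).cl d) ρ := fun d hd =>
    (twod_cl (QQ k) (hvpl k) d).par hω hρpl hρp (by rw [ω_swap, hd, neg_zero])
  obtain ⟨Q', hQ'1, hQ'2⟩ := fW_x_approx (QQ k) (ω ρ) (fun d d' hd hd' => by
    have h3 := (hcl d hd).ω ((QQ k).cl d')
    rw [hd', mul_zero] at h3
    exact (mul_eq_zero.1 h3).resolve_left hρp.ne') D n
  refine ⟨Q', fun c => ?_, fun γ hγM hγ0 hγD hγp i hi => ?_⟩
  · obtain ⟨d, hd1, hd2⟩ := hQ'1 c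
    rw [hd1]
    exact hcl d hd2
  · rw [hQ'2 γ hγD i hi]
    exact hk0 γ (Or.inr ⟨hγD, hγp⟩) k (Finset.le_sup (mem_Gam.2 ⟨hγM, hγ0, hγD⟩)) i hi

end

end Crest.Agent.R59
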